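import Vale.Agent.P365.W1

namespace Vale.Agent.P365

open MeasureTheory ProbabilityTheory Complex Filter
open scoped ComplexConjugate ENNReal

variable {ι : Type} [Fintype ι] [DecidableEq ι]

variable {U : Finset ι} {S : Mx ι}

theorem AT_params {θ : ℝ} (hθ : 0 < θ) :
    ∃ θ0 C1 N1 Λ η1 η2 η3 η5 : ℝ, 0 < θ0 ∧ θ0 ≤ 1 ∧ 10 * θ0 ≤ θ ∧ 1024 ≤ C1 ∧ 608 / C1 ≤ θ0 ∧
      8 ≤ Λ ∧ 1 / θ ≤ Λ ∧ 1 ≤ N1 ∧ 0 < η1 ∧ 3 * η1 ≤ 1 ∧ 0 ≤ η2 ∧ 192 * Λ * η2 ≤ 1 ∧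
      3 * η2 ≤ η5 * Λ ∧ 11 * η1 ≤ 2 * η3 * N1 ∧
      352 * η1 * (N1 * (N1 ^ 2 + 4 * N1)) ≤ η2 * θ0 ^ 2 ∧ 0 ≤ η3 ∧ 0 ≤ η5 ∧
      η3 * (C1 ^ 2 + 9 * C1) ≤ θ0 * η1 ∧ η5 * C1 ≤ θ0 * η1 := by
  obtain ⟨θ0, h0, h0a, h0b⟩ : ∃ θ0 : ℝ, 0 < θ0 ∧ θ0 ≤ 1 / 10 ∧ 10 * θ0 ≤ θ := by
    refine ⟨min θ 1 / 10, by positivity, ?_, ?_⟩
    · have := min_le_right θ 1
      linarith
    · have := min_le_left θ 1
      linarith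
  obtain ⟨C1, hC, hC'⟩ : ∃ C1 : ℝ, 1024 ≤ C1 ∧ 608 / C1 ≤ θ0 := by
    refine ⟨max 1024 (608 / θ0), le_max_left _ _, ?_⟩
    have h1 : (0 : ℝ) < max 1024 (608 / θ0) := lt_of_lt_of_le (by norm_num) (le_max_left _ _)
    rw [div_le_iff₀ h1]
    have h2 : 608 / θ0 ≤ max 1024 (608 / θ0) := le_max_right _ _
    rw [div_le_iff₀ h0] at h2
    linarith
  have hCp : 0 < C1 := by linarith
  obtain ⟨E, hE⟩ : ∃ E : ℝ, E = C1 ^ 2 + 9 * C1 := ⟨_, rfl⟩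
  have hE1 : 1 ≤ E := by rw [hE]; nlinarith
  obtain ⟨N1, hN⟩ : ∃ N1 : ℝ, N1 = 11 * E / (2 * θ0) := ⟨_, rfl⟩
  have hN1 : 1 ≤ N1 := by
    rw [hN, le_div_iff₀ (by positivity)]
    linarith
  have hNp : 0 < N1 := by linarith
  obtain ⟨D, hD⟩ : ∃ D : ℝ, D = 352 * (N1 * (N1 ^ 2 + 4 * N1)) := ⟨_, rfl⟩
  have hD1 : 1 ≤ D := by
    rw [hD]
    have h1 : 1 ≤ N1 ^ 2 + 4 * N1 := by nlinarith
    nlinarith
  have hDp : 0 < D := by linarith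
  obtain ⟨Λ, hL1, hL2, hL3⟩ : ∃ Λ : ℝ, 8 ≤ Λ ∧ 1 / θ ≤ Λ ∧ 4 * C1 * D / θ0 ^ 3 ≤ Λ :=
    ⟨max (max 8 (1 / θ)) (4 * C1 * D / θ0 ^ 3), le_trans (le_max_left _ _) (le_max_left _ _),
      le_trans (le_max_right _ _) (le_max_left _ _), le_max_right _ _⟩
  have hLp : 0 < Λ := by linarith
  obtain ⟨η2, h2⟩ : ∃ η2 : ℝ, η2 = 1 / (192 * Λ) := ⟨_, rfl⟩
  have h2p : 0 < η2 := by rw [h2]; positivity
  have h2e : 192 * Λ * η2 = 1 := by rw [h2]; field_simp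
  have h2s : η2 ≤ 1 / 10 := by nlinarith
  obtain ⟨η1, h1⟩ : ∃ η1 : ℝ, η1 = η2 * θ0 ^ 2 / D := ⟨_, rfl⟩
  have h1p : 0 < η1 := by rw [h1]; positivity
  have h1e : η1 * D = η2 * θ0 ^ 2 := by rw [h1]; field_simp
  have h1s : 3 * η1 ≤ 1 := by
    have a1 : θ0 ^ 2 ≤ 1 := by nlinarith
    have a2 : η2 * θ0 ^ 2 ≤ 1 / 10 := by nlinarith
    nlinarith
  refine ⟨θ0, C1, N1, Λ, η1, η2, 11 * η1 / (2 * N1), 4 * η2 / Λ, h0, by linarith, h0b, hC, hC',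
    hL1, hL2, hN1, h1p, h1s, h2p.le, h2e.le, ?_, ?_, ?_, by positivity, by positivity, ?_, ?_⟩
  · have : 4 * η2 / Λ * Λ = 4 * η2 := by field_simp
    linarith
  · have : 2 * (11 * η1 / (2 * N1)) * N1 = 11 * η1 := by field_simp
    linarith
  · rw [← h1e, hD]
    exact le_of_eq (by ring)
  · rw [← hE, hN]
    have hEp : E ≠ 0 := by linarith
    exact le_of_eq (by field_simp)
  · rw [div_le_iff₀ (by positivity)] at hL3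
    rw [div_mul_eq_mul_div, div_le_iff₀ hLp]
    have a1 : θ0 * η1 * Λ * D = η2 * (Λ * θ0 ^ 3) := by
      calc θ0 * η1 * Λ * D = θ0 * Λ * (η1 * D) := by ring
        _ = η2 * (Λ * θ0 ^ 3) := by rw [h1e]; ring
    have a2 : 4 * η2 * C1 * D ≤ θ0 * η1 * Λ * D := by
      rw [a1]
      calc 4 * η2 * C1 * D = η2 * (4 * C1 * D) := by ring
        _ ≤ η2 * (Λ * θ0 ^ 3) := mul_le_mul_of_nonneg_left hL3 h2p.le
    exact le_of_mul_le_mul_right a2 hDp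

omit [Fintype ι] [DecidableEq ι] in
theorem AT_wN {A N : ℝ} (hA : 0 < A) (hN : 0 ≤ N) : 0 ≤ wN A N ∧ wN A N ≤ 1 := by
  unfold wN
  refine ⟨by positivity, ?_⟩
  rw [div_le_one (by positivity)]
  linarith

theorem AT_W2_le {Γ : Finset ι} {ψ : ι → ℝ} {Λ d θ0 η1 η2 η3 η5 C1 : ℝ} (S : Mx ι)
    (h0 : 0 < θ0) (hC : 0 < C1) (h1 : 0 ≤ η1) (h2 : 0 ≤ η2) (h3 : 0 ≤ η3) (h5 : 0 ≤ η5)
    (h3' : η3 * (C1 ^ 2 + 9 * C1) ≤ θ0 * η1) (h5' : η5 * C1 ≤ θ0 * η1) (hN : NN S Γ ≤ C1) :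
    W2 Λ d θ0 η1 η2 η3 η5 Γ ψ S ≤ W1 Λ d θ0 η1 C1 Γ ψ S := by
  unfold W1 W2
  have hN0 := NN_nonneg S Γ
  have hF := FF_nonneg S ψ
  have hq := qq_nonneg S Γ ψ
  have hw := (AT_wN hC hN0).1
  have a1 : η1 * (al S Γ ψ - θ0) ≤ η1 * max (al S Γ ψ - θ0) 0 :=
    mul_le_mul_of_nonneg_left (le_max_left _ _) h1
  have a2 : 0 ≤ η2 * qq S Γ ψ := mul_nonneg h2 hq
  have a3 : η3 * (NN S Γ ^ 2 + 9 * NN S Γ) ≤ θ0 * η1 := by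
    refine le_trans (mul_le_mul_of_nonneg_left ?_ h3) h3'
    nlinarith
  have a4 : η5 * NN S Γ ≤ θ0 * η1 := le_trans (mul_le_mul_of_nonneg_left hN h5) h5'
  have a5 : η5 * NN S Γ * (FF S ψ + 8) ≤ θ0 * η1 * (FF S ψ + 8) :=
    mul_le_mul_of_nonneg_right a4 (by linarith)
  have a6 : 0 ≤ η1 * (608 / C1 * ((FF S ψ + FF S (ind Γ)) ^ 2 * wN C1 (NN S Γ))) := by
    positivity
  nlinarith

/-- Put `θ0 = min θ 1 / 10`, `C1 = max 1024 (608/θ0)`, `N1 = 11 (C1² + 9 C1)/(2 θ0) ≥ 1`,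
`D = 352 N1 (N1² + 4 N1)`, `Λ = max (max 8 (1/θ)) (4 C1 D/θ0³)`, `η2 = 1/(192 Λ)`,
`η1 = η2 θ0²/D`, `η3 = 11 η1/(2 N1)`, `η5 = 4 η2/Λ`, `lam = η1`. `lyap` for `Φ = min W1 W2`
(parameter `θ0`): if `W2 ≤ W1` use `step_W2`; otherwise `N ≥ C1` (for `N ≤ C1` one has `W2 ≤ W1`
because `η3 (N² + 9N) ≤ θ0 η1`, `η5 N ≤ θ0 η1`, `max (al - θ0) 0 ≥ al - θ0`) and use `step_W1`.
In the final state (`US (U \ Γ)`) `N = al = q = 0`, so `gt ≤ Φ`. Initially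
`Φ ≤ W1 ≤ gt - η1 (al - θ0 (10 + Y + Y²))` and `θ0 (10 + Y + Y²) ≤ θ (1 + Y)²`. -/
theorem AT {θ : ℝ} (hθ : 0 < θ) :
    ∃ lam Λ : ℝ, 0 < lam ∧ lam ≤ 1 ∧ 8 ≤ Λ ∧ 1 / θ ≤ Λ ∧ ATP θ lam Λ := by
  obtain ⟨θ0, C1, N1, Λ, η1, η2, η3, η5, h0, h0a, h0b, hC, hC', hL, hL', hN1, h1, h1', h2, h2',
    h5, h3, h4, h3p, h5p, h3', h5'⟩ := AT_params hθ
  have hCp : 0 < C1 := by linarith
  have hLp : 0 < Λ := by linarith
  refine ⟨η1, Λ, h1, by linarith, hL, hL', ?_⟩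
  intro ι _ _ H hH U c hg Γ hΓ ψ hψ d hd
  have n1 : Nice (W1 Λ d θ0 η1 C1 Γ ψ) := nice_W1 hLp hCp d θ0 η1 Γ ψ
  have n2 : Nice (W2 Λ d θ0 η1 η2 η3 η5 Γ ψ) := nice_W2 hLp d θ0 η1 η2 η3 η5 Γ hψ.osc
  have n3 := Nice.min n1 n2
  have n0 : Nice (fun S : Mx ι => gt Λ d (FF S ψ)) := Nice.of_continuous (continuous_gt hLp d ψ)
  have hly := lyap (c := c) hH Γ n3 (fun U' S hS hne => by
    by_cases hle : W2 Λ d θ0 η1 η2 η3 η5 Γ ψ S ≤ W1 Λ d θ0 η1 C1 Γ ψ S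
    · obtain ⟨v, hv, hst⟩ := step_W2 hS hne hψ hL hd h0 h0a hN1 h1.le h2 h2' h5 h3 h4
      refine ⟨v, hv, ?_⟩
      rw [min_eq_right hle]
      exact le_trans (Av_mono hS (Finset.mem_inter.1 hv).1 n3 n2 (fun t => min_le_right _ _)) hst
    · have hN : C1 ≤ NN S Γ := by
        by_contra hlt
        exact hle (AT_W2_le S h0 hCp h1.le h2 h3p h5p h3' h5' (le_of_lt (not_le.1 hlt)))
      obtain ⟨v, hv, hst⟩ := step_W1 hS hne hψ hL hd h0.le h1.le h1' hC hN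
      refine ⟨v, hv, ?_⟩
      rw [min_eq_left (le_of_lt (not_le.1 hle))]
      exact le_trans (Av_mono hS (Finset.mem_inter.1 hv).1 n3 n1 (fun t => min_le_left _ _)) hst)
    hg hΓ
  have hfin : ES H U c Γ (fun S => gt Λ d (FF S ψ)) ≤
      ES H U c Γ (fun S => min (W1 Λ d θ0 η1 C1 Γ ψ S) (W2 Λ d θ0 η1 η2 η3 η5 Γ ψ S)) := by
    refine ES_mono hH hg hΓ n0 n3 (fun c' _ => ?_)
    have hS := Smat_US hH (U \ Γ) c'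
    generalize Smat H (U \ Γ) c' = S at hS
    have hN : NN S Γ = 0 := NN_zero hS Finset.sdiff_disjoint
    have ha : al S Γ ψ = 0 :=
      le_antisymm (hN ▸ al_le_NN hS Γ hψ.osc) (al_nonneg S Γ ψ)
    have hq : qq S Γ ψ = 0 :=
      le_antisymm (hN ▸ qq_le_NN hS Γ hψ.osc) (qq_nonneg S Γ ψ)
    have hF := FF_nonneg S ψ
    refine le_min ?_ ?_
    · unfold W1 wN
      rw [hN, ha]
      have a1 : 0 ≤ η1 * (2 * θ0 + θ0 * (FF S ψ + 8)) := by positivity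
      simp only [zero_div, mul_zero]
      linarith
    · unfold W2
      rw [hN, ha, hq, max_eq_right (by linarith)]
      simp
  refine le_trans hfin (le_trans hly (le_trans (min_le_left _ _) ?_))
  generalize Smat H U c = S
  unfold W1
  have hF := FF_nonneg S ψ
  have hG := FF_nonneg S (ind Γ)
  obtain ⟨hw0, hw1⟩ := AT_wN hCp (NN_nonneg S Γ)
  generalize wN C1 (NN S Γ) = w at hw0 hw1
  generalize FF S (ind Γ) = G at hG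
  generalize FF S ψ = F at hF
  have a1 : (F + G) ^ 2 * w ≤ (F + G) ^ 2 := by nlinarith [sq_nonneg (F + G)]
  have a2 : 608 / C1 * ((F + G) ^ 2 * w) ≤ θ0 * (F + G) ^ 2 :=
    mul_le_mul hC' a1 (by positivity) h0.le
  have a3 : 10 + F + (F + G) ^ 2 ≤ 10 * (1 + F + G) ^ 2 := by nlinarith [sq_nonneg (F + G)]
  have a4 : θ0 * (10 + F + (F + G) ^ 2) ≤ θ0 * (10 * (1 + F + G) ^ 2) :=
    mul_le_mul_of_nonneg_left a3 h0.le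
  have a5 : 10 * θ0 * (1 + F + G) ^ 2 ≤ θ * (1 + F + G) ^ 2 :=
    mul_le_mul_of_nonneg_right h0b (by positivity)
  have a6 : 2 * θ0 + θ0 * (F + 8) + 608 / C1 * ((F + G) ^ 2 * w) ≤ θ * (1 + F + G) ^ 2 := by
    linarith
  have a7 := mul_le_mul_of_nonneg_left a6 h1.le
  linarith

end Vale.Agent.P365
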