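import Vale.Agent.P365.Step1

namespace Vale.Agent.P365

open MeasureTheory ProbabilityTheory Complex Filter
open scoped ComplexConjugate ENNReal

variable {ι : Type} [Fintype ι] [DecidableEq ι]

variable {U : Finset ι} {S : Mx ι} {v : ι}

/-- `Th_row`, `Th_herm`, `sum_ee_compl`. -/
theorem al_eq (hS : US U S) (Γ : Finset ι) (ψ : ι → ℝ) :
    al S Γ ψ = 2 * FF S ψ - 2 * ∑ x ∈ Γᶜ, ee S ψ x + al S Γᶜ ψ := by
  have h1 : ∑ w ∈ Γ, ee S ψ w = al S Γ ψ + ∑ w ∈ Γ, ∑ x ∈ Γᶜ, ‖Th S ψ w x‖ ^ 2 := by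
    rw [al, ← Finset.sum_add_distrib]
    exact Finset.sum_congr rfl fun w _ => by rw [← Th_row hS, Finset.sum_add_sum_compl]
  have h2 : ∑ w ∈ Γᶜ, ee S ψ w = ∑ w ∈ Γᶜ, ∑ x ∈ Γ, ‖Th S ψ w x‖ ^ 2 + al S Γᶜ ψ := by
    rw [al, ← Finset.sum_add_distrib]
    exact Finset.sum_congr rfl fun w _ => by rw [← Th_row hS, Finset.sum_add_sum_compl]
  have h3 : ∑ w ∈ Γᶜ, ∑ x ∈ Γ, ‖Th S ψ w x‖ ^ 2 = ∑ w ∈ Γ, ∑ x ∈ Γᶜ, ‖Th S ψ w x‖ ^ 2 := by
    rw [Finset.sum_comm]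
    refine Finset.sum_congr rfl fun w _ => Finset.sum_congr rfl fun x _ => ?_
    rw [Th_herm hS ψ x w, Complex.norm_conj]
  have h4 := sum_ee_compl S ψ Γ
  linarith

theorem alpha_sq (p q : ℂ) : 2 * (conj p * q).re - ‖p‖ ^ 2 ≤ ‖q‖ ^ 2 := by
  rw [Complex.sq_norm, Complex.sq_norm, Complex.normSq_apply, Complex.normSq_apply]
  simp only [Complex.mul_re, Complex.conj_re, Complex.conj_im]
  nlinarith [sq_nonneg (p.re - q.re), sq_nonneg (p.im - q.im)]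

theorem alpha_term (hS : US U S) (hv : v ∈ U) (ψ : ι → ℝ) {w x : ι} (hw : w ≠ v) (hx : x ≠ v) :
    ‖Th S ψ w x‖ ^ 2 + 2 * (jj S ψ v / sv S v) * (conj (S w v) * Th S ψ w x * S x v).re ≤
      Av S v (fun S' => ‖Th S' ψ w x‖ ^ 2) := by
  obtain ⟨a, b, hab⟩ := Th_cls hS hv ψ hw hx
  have hn : Nice fun S' : Mx ι => ‖Th S' ψ w x‖ ^ 2 := Nice.of_continuous (by fun_prop)
  have hi : Integrable (fun t => 2 * (xi S v t * (conj (Th S ψ w x) * a +
      Th S ψ w x * conj b)).re) cau :=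
    xi_integrable hS v (fun z => 2 * (z * (conj (Th S ψ w x) * a + Th S ψ w x * conj b)).re)
      (by fun_prop)
  have h0 := xi_re hS v (conj (Th S ψ w x) * a + Th S ψ w x * conj b)
  have h1 := integral_mono ((integrable_const (‖Th S ψ w x‖ ^ 2 + 2 * (jj S ψ v / sv S v) *
    (conj (S w v) * Th S ψ w x * S x v).re)).add hi) (hn.integrable_cls hS hv) fun t => by
      refine le_trans (le_of_eq ?_) (alpha_sq (Th S ψ w x) _)
      simp only [Pi.add_apply]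
      rw [hab t, Complex.sq_norm, Complex.normSq_apply]
      simp only [Complex.mul_re, Complex.mul_im, Complex.add_re, Complex.add_im, Complex.conj_re,
        Complex.conj_im, Complex.ofReal_re, Complex.ofReal_im]
      ring
  simp only [Pi.add_apply] at h1
  rw [integral_add (integrable_const _) hi, h0, integral_const, probReal_univ, one_smul,
    add_zero] at h1
  exact h1

theorem alpha_O (hS : US U S) (hv : v ∈ U) {O : Finset ι} (hO : v ∉ O) {ψ : ι → ℝ}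
    (hψ : Half ψ) : al S O ψ - 2 * (|jj S ψ v| / sv S v) * pset S v O ≤
      Av S v (fun S' => al S' O ψ) := by
  have hne : ∀ w ∈ O, w ≠ v := fun w hw e => hO (e ▸ hw)
  have e1 : Av S v (fun S' => al S' O ψ) =
      ∑ w ∈ O, ∑ x ∈ O, Av S v (fun S' => ‖Th S' ψ w x‖ ^ 2) := by
    unfold al
    rw [Av_sum hS hv O fun w _ => Nice.of_continuous (by fun_prop)]
    exact Finset.sum_congr rfl fun w _ =>
      Av_sum hS hv O fun x _ => Nice.of_continuous (by fun_prop)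
  have e2 := Finset.sum_le_sum fun w hw => Finset.sum_le_sum fun x hx =>
    alpha_term hS hv ψ (hne w hw) (hne x hx)
  simp only [Finset.sum_add_distrib, ← Finset.mul_sum] at e2
  have e3 := Th_form hS hψ fun w => if w ∈ O then S w v else 0
  have e4 : ∑ w, ‖if w ∈ O then S w v else 0‖ ^ 2 = pset S v O := by
    rw [pset, ← Finset.sum_ite_mem_eq O]
    refine Finset.sum_congr rfl fun w _ => ?_
    split_ifs
    · rw [pp, hS.symm]
    · simp
  have e5 : ∑ w, ∑ x, conj (if w ∈ O then S w v else 0) * Th S ψ w x *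
      (if x ∈ O then S x v else 0) = ∑ w ∈ O, ∑ x ∈ O, conj (S w v) * Th S ψ w x * S x v := by
    rw [← Finset.sum_ite_mem_eq O]
    refine Finset.sum_congr rfl fun w _ => ?_
    split_ifs
    · rw [← Finset.sum_ite_mem_eq O]
      refine Finset.sum_congr rfl fun x _ => ?_
      split_ifs
      · rfl
      · rw [mul_zero]
    · simp
  rw [e4, e5] at e3
  have e6 := (Complex.abs_re_le_norm _).trans e3
  simp only [Complex.re_sum] at e6
  have e7 : |jj S ψ v / sv S v * ∑ w ∈ O, ∑ x ∈ O, (conj (S w v) * Th S ψ w x * S x v).re| ≤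
      |jj S ψ v| / sv S v * pset S v O := by
    rw [abs_mul, abs_div, abs_of_nonneg (sv_nonneg S v)]
    exact mul_le_mul_of_nonneg_left e6 (div_nonneg (abs_nonneg _) (sv_nonneg S v))
  have e8 := neg_le_of_abs_le e7
  rw [e1, al]
  linarith

theorem alpha_E (hS : US U S) (hv : v ∈ U) {O : Finset ι} (hO : v ∉ O) {ψ : ι → ℝ}
    (hψ : Half ψ) : Av S v (fun S' => ∑ x ∈ O, ee S' ψ x) ≤ ∑ x ∈ O, ee S ψ x +
      pset S v O / sv S v * (ee S ψ v + 2 * |jj S ψ v|) := by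
  rw [Av_sum hS hv O fun w _ => Nice.of_continuous (by fun_prop), pset, Finset.sum_div,
    Finset.sum_mul, ← Finset.sum_add_distrib]
  refine Finset.sum_le_sum fun x hx => ?_
  rw [ee_cls_Av hS hv ψ (fun e : x = v => hO (e ▸ hx)), pp_symm hS x v]
  have h1 : (ψ v - ψ x) * jj S ψ v ≤ |jj S ψ v| := by
    refine (le_abs_self _).trans ?_
    rw [abs_mul]
    exact mul_le_of_le_one_left (abs_nonneg _) (hψ.osc x v)
  have h2 := div_nonneg (pp_nonneg S v x) (sv_nonneg S v)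
  have h3 := mul_le_mul_of_nonneg_left h1 h2
  linarith

/-- With `O = Γᶜ`, `p s = pset S v O`, `u w = S w v` on `O` and `0` elsewhere:
`E F' = F - j²/s`; `E Σ_O e' ≤ Σ_O e + p e + 2 p |j|` (`ee_cls_Av`);
`E al' O ≥ al O - 2 p |j|` because `‖Θ'‖² ≥ 2 re (conj Θ Θ') - ‖Θ‖²`, `Th_cls`, and `Th_form`
applied to `u` (the cross term is `2 (j/s) re (conj (Σ conj (u w) Θ w x u x))`).
Finally `6 p |j| ≤ j²/s + 9 p² s`. -/
theorem step_al (hS : US U S) (hv : v ∈ U) {Γ : Finset ι} (hΓ : v ∈ Γ) {ψ : ι → ℝ}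
    (hψ : Half ψ) :
    al S Γ ψ - 3 * (jj S ψ v ^ 2 / sv S v) - 2 * pset S v Γᶜ * ee S ψ v / sv S v
      - 9 * pset S v Γᶜ ^ 2 / sv S v ≤ Av S v (fun S' => al S' Γ ψ) := by
  have hO : v ∉ Γᶜ := fun h => Finset.mem_compl.1 h hΓ
  have e0 : Av S v (fun S' => al S' Γ ψ) = Av S v (fun S' =>
      2 * FF S' ψ - 2 * ∑ x ∈ Γᶜ, ee S' ψ x + al S' Γᶜ ψ) :=
    integral_congr_ae (Eventually.of_forall fun t => al_eq (cls_US hS hv t) Γ ψ)
  rw [e0, Av_add hS hv (Nice.of_continuous (by fun_prop)) (Nice.of_continuous (by fun_prop)),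
    Av_sub hS hv (Nice.of_continuous (by fun_prop)) (Nice.of_continuous (by fun_prop)),
    Av_const_mul, Av_const_mul, FF_cls_Av hS hv, al_eq hS Γ ψ]
  have h1 := alpha_O hS hv hO hψ
  have h2 := alpha_E hS hv hO hψ
  have h3 : 6 * pset S v Γᶜ * |jj S ψ v| ≤ jj S ψ v ^ 2 + 9 * pset S v Γᶜ ^ 2 := by
    rw [← sq_abs (jj S ψ v)]
    nlinarith [sq_nonneg (|jj S ψ v| - 3 * pset S v Γᶜ)]
  have h4 := mul_le_mul_of_nonneg_right h3 (inv_nonneg.2 (sv_nonneg S v))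
  simp only [div_eq_mul_inv] at h1 h2 ⊢
  linarith

theorem step_al11 (hS : US U S) (hv : v ∈ U) {Γ : Finset ι} (hΓ : v ∈ Γ) {ψ : ι → ℝ}
    (hψ : Half ψ) :
    al S Γ ψ - 3 * (jj S ψ v ^ 2 / sv S v) - 11 * sv S v ≤ Av S v (fun S' => al S' Γ ψ) := by
  have h := step_al hS hv hΓ hψ
  have h1 : pset S v Γᶜ ≤ sv S v := pset_le_sv S fun h => Finset.mem_compl.1 h hΓ
  have h2 := ee_le_sv S hψ.osc v
  have h3 := pset_nonneg S v Γᶜ
  have h4 := ee_nonneg S ψ v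
  have h5 := sv_nonneg S v
  have h6 : 2 * pset S v Γᶜ * ee S ψ v / sv S v ≤ 2 * sv S v :=
    div_le_of_le_mul₀ h5 (by positivity) (by nlinarith [mul_le_mul h1 h2 h4 h5])
  have h7 : 9 * pset S v Γᶜ ^ 2 / sv S v ≤ 9 * sv S v :=
    div_le_of_le_mul₀ h5 (by positivity) (by nlinarith [mul_le_mul h1 h1 h3 h5])
  linarith

/-- `pset S v Γᶜ = ee S (ind Γ) v`; with `a + b ≤ K`: `2 a b ≤ K²/2`, `9 a² ≤ 9 K²`. -/
theorem step_al38 (hS : US U S) (hv : v ∈ U) {Γ : Finset ι} (hΓ : v ∈ Γ) {ψ : ι → ℝ}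
    (hψ : Half ψ) {Y : ℝ} (hY : ee S ψ v + ee S (ind Γ) v ≤ 2 * Y * sv S v / NN S Γ) :
    al S Γ ψ - 3 * (jj S ψ v ^ 2 / sv S v) - 38 * Y ^ 2 * sv S v / NN S Γ ^ 2 ≤
      Av S v (fun S' => al S' Γ ψ) := by
  have h := step_al hS hv hΓ hψ
  rw [ee_ind_mem S hΓ] at hY
  have h3 := pset_nonneg S v Γᶜ
  have h4 := ee_nonneg S ψ v
  have h5 := sv_nonneg S v
  have h6 : (ee S ψ v + pset S v Γᶜ) ^ 2 ≤ (2 * Y * sv S v / NN S Γ) ^ 2 :=
    pow_le_pow_left₀ (by positivity) hY 2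
  have h7 : (2 * pset S v Γᶜ * ee S ψ v + 9 * pset S v Γᶜ ^ 2) / sv S v ≤
      38 * Y ^ 2 * sv S v / NN S Γ ^ 2 := by
    refine div_le_of_le_mul₀ h5 (by positivity) ?_
    have e : 38 * Y ^ 2 * sv S v / NN S Γ ^ 2 * sv S v =
        19 / 2 * (2 * Y * sv S v / NN S Γ) ^ 2 := by ring
    rw [e]
    nlinarith [mul_nonneg h3 h4, sq_nonneg (ee S ψ v), sq_nonneg (pset S v Γᶜ)]
  rw [add_div] at h7
  linarith

end Vale.Agent.P365
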