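import Vale.Agent.P365.Rows

namespace Vale.Agent.P365

open MeasureTheory ProbabilityTheory Complex Filter
open scoped ComplexConjugate ENNReal

variable {ι : Type} [Fintype ι] [DecidableEq ι]

variable {μ : ℝ} {H : Matrix ι ι ℝ} {pos : ι → ℤ × ℤ} {U : Finset ι} {c : ι → ℝ}

theorem ann_fin (hs : Sys μ H pos) (o : ℤ × ℤ) {R a w : ℤ} (hw : 0 < w) (ha : 2 * R ≤ a)
    (hb : a + w ≤ 5 * R) (V : Finset ι) (c' : ι → ℝ)
    (hV : ∀ x ∈ V, x ∉ rng pos o (2 * R) (5 * R - 1)) :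
    ∑ x ∈ bal pos o (2 * R), pset (Smat H V c') x (bal pos o (5 * R - 1))ᶜ ≤
      FF (Smat H V c') fun x => tent o a w (pos x) := by
  have hS := Smat_US hs.symm V c'
  have e : FF (Smat H V c') (ind (bal pos o (2 * R))) =
      FF (Smat H V c') fun x => tent o a w (pos x) := by
    refine FF_congr hS fun x hx => ?_
    have h2 := mt mem_rng.2 (hV x hx)
    by_cases h3 : rr o (pos x) ≤ 2 * R
    · rw [tent_one hw (h3.trans ha), ind, if_pos (mem_bal.2 h3)]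
    · rw [tent_zero hw (by omega), ind, if_neg (mt mem_bal.1 h3)]
  rw [← e, FF_ind hS]
  refine Finset.sum_le_sum fun x hx => ?_
  have h0 := mem_bal.1 hx
  have h1 := rr_nonneg o (pos x)
  refine Finset.sum_le_sum_of_subset_of_nonneg (fun y hy => ?_) fun y _ _ => pp_nonneg _ _ _
  have h2 := mt mem_bal.2 (Finset.mem_compl.1 hy)
  exact Finset.mem_compl.2 fun h3 => by
    have := mem_bal.1 h3
    omega

theorem ann_num {ε E n l w R k : ℝ} (hε : 0 ≤ ε) (hE : 0 ≤ E) (hn : 0 ≤ n) (hl : 0 ≤ l)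
    (hw : 0 < w) (h1 : n * l ≤ w) (h2 : n * l ≤ R) (hk : k ≤ 100 * n ^ 2) :
    k * ((ε * (1 / w) ^ 2 + 16 * 1 ^ 2 * E) * l ^ 2) ≤ 100 * ε + 1600 * R ^ 2 * E := by
  have h0 : 0 ≤ n * l := mul_nonneg hn hl
  have h3 : (n * l) ^ 2 ≤ R ^ 2 := pow_le_pow_left₀ h0 h2 2
  have h4 : (n * l * (1 / w)) ^ 2 ≤ 1 := by
    refine pow_le_one₀ (by positivity) ?_
    rw [mul_one_div, div_le_one hw]
    exact h1
  calc k * ((ε * (1 / w) ^ 2 + 16 * 1 ^ 2 * E) * l ^ 2)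
      ≤ 100 * n ^ 2 * ((ε * (1 / w) ^ 2 + 16 * 1 ^ 2 * E) * l ^ 2) :=
        mul_le_mul_of_nonneg_right hk (by positivity)
    _ = 100 * (ε * (n * l * (1 / w)) ^ 2) + 1600 * ((n * l) ^ 2 * E) := by ring
    _ ≤ 100 * (ε * 1) + 1600 * (R ^ 2 * E) := by gcongr
    _ = _ := by ring

/-- `l = 2ρ+1`, `n = R / l ≥ 2`, `n1 = 2n+3`, `n2 = 5n-1`,
`A = (box n2).filter (n1 ≤ rr 0 a)` (`card ≤ 100 n²`), `w = (n2 - n1) l ≥ n l`,
`φ = tent o (n1 l) w ∘ pos`, `L = 1/w`, `Φ = w tent` (`lip_tent`), `m = 1`. The balls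
`bal (ctr a) (ρ+h)`, `a ∈ A`, lie in the gap `G = rng (2R) (5R-1)` (`rr_ctr_le`, `ρ + h < l`).
In the final state the functional is at most `F (ind (bal 2R)) = F φ` (`FF_ind`, `FF_congr`).
`G = R1 ∪ (G \ R1)`, `R1 = innr A`; `ES_tower` with `superF`; `energy1` with
`C = rng (n1 l - ρ - 1) (n2 l + ρ)`, `In = bal (n1 l - ρ - 1)`, `Out = (bal (n2 l + ρ))ᶜ`;
`sum_le_cells`, `tile`, `cells`; `leak_out` through the band `[n1 l - ρ - 1, n1 l - ρ - 1 + h]`
which meets no `I_a`. -/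
theorem annulus0 (hs : Sys μ H pos) {ρ h R : ℤ} {ε : ℝ} (hε : 0 ≤ ε) (hP : Pcell H pos ρ h ε)
    (h1 : 1 ≤ h) (h4 : 4 * h ≤ 2 * ρ + 1) (hR : 2 * (2 * ρ + 1) ≤ R) (hg : Good H U c)
    (o : ℤ × ℤ) (hU : rng pos o (2 * R) (5 * R - 1) ⊆ U) :
    ES H U c (rng pos o (2 * R) (5 * R - 1))
      (fun S => ∑ x ∈ bal pos o (2 * R), pset S x (bal pos o (5 * R - 1))ᶜ) ≤
      100 * ε + 4000 * (R : ℝ) ^ 2 * Real.exp (-(2 * μ * h)) := by
  have hρ : 0 ≤ ρ := by omega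
  obtain ⟨n, hn1, hn2⟩ : ∃ n : ℤ, (2 * ρ + 1) * n ≤ R ∧ R < (2 * ρ + 1) * n + (2 * ρ + 1) :=
    ⟨R / (2 * ρ + 1), Int.mul_ediv_self_le (by omega),
      Int.lt_mul_ediv_self_add (by omega)⟩
  have hn : 2 ≤ n := by
    by_contra hc
    have := mul_le_mul_of_nonneg_left (show n ≤ 1 by omega) (show 0 ≤ 2 * ρ + 1 by omega)
    omega
  have hN := mul_le_mul_of_nonneg_left hn (show 0 ≤ 2 * ρ + 1 by omega)
  set N := (2 * ρ + 1) * n with hNd
  set A : Finset (ℤ × ℤ) := (box (5 * n - 1).toNat).filter fun a => 2 * n + 3 ≤ rr 0 a with hAd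
  have mA : ∀ a, a ∈ A ↔ 2 * n + 3 ≤ rr 0 a ∧ rr 0 a ≤ 5 * n - 1 := fun a => by
    rw [hAd, Finset.mem_filter, mem_box, Int.toNat_of_nonneg (by omega), and_comm]
  have bA : ∀ a ∈ A, 2 * N + 3 * (2 * ρ + 1) ≤ (2 * ρ + 1) * rr 0 a ∧
      (2 * ρ + 1) * rr 0 a ≤ 5 * N - (2 * ρ + 1) := fun a ha => by
    obtain ⟨h2, h3⟩ := (mA a).1 ha
    have h5 := mul_le_mul_of_nonneg_left h2 (show 0 ≤ 2 * ρ + 1 by omega)
    have h6 := mul_le_mul_of_nonneg_left h3 (show 0 ≤ 2 * ρ + 1 by omega)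
    constructor <;> linarith
  have cA : (A.card : ℝ) ≤ 100 * (n : ℝ) ^ 2 := by
    have h2 : (A.card : ℝ) ≤ (box (5 * n - 1).toNat).card :=
      Nat.cast_le.2 (Finset.card_filter_le _ _)
    have h3 : (((5 * n - 1).toNat : ℕ) : ℝ) = 5 * (n : ℝ) - 1 := by
      have := Int.toNat_of_nonneg (show 0 ≤ 5 * n - 1 by omega)
      exact_mod_cast congrArg (fun z : ℤ => (z : ℝ)) this
    have h5 : (2 : ℝ) ≤ n := by exact_mod_cast hn
    rw [card_box, h3] at h2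
    nlinarith
  set w : ℤ := 3 * N - 4 * (2 * ρ + 1) with hwd
  have hw : 0 < w := by omega
  have hw' : (0 : ℝ) < w := by exact_mod_cast hw
  set φ : ι → ℝ := fun x => tent o (2 * N + 3 * (2 * ρ + 1)) w (pos x) with hφ
  set G := rng pos o (2 * R) (5 * R - 1) with hG
  have hB : ∀ a ∈ A, bal pos (ctr o ρ a) (ρ + h) ⊆ G := fun a ha x hx => by
    have h2 := bA a ha
    have h3 := rr_ctr_le o hρ a (pos x)
    have h5 := mem_bal.1 hx
    exact mem_rng.2 ⟨by omega, by omega⟩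
  have hI : innr pos o ρ h A ⊆ G := fun x hx => by
    obtain ⟨a, ha, hx⟩ := mem_innr.1 hx
    exact hB a ha (mem_bal.2 (by omega))
  set E := Real.exp (-(2 * μ * h)) with hE
  have E0 : 0 < E := Real.exp_pos _
  have nF : Nice fun S : Mx ι => FF S φ := Nice.of_continuous (continuous_FF φ)
  have s1 : ES H U c G (fun S => ∑ x ∈ bal pos o (2 * R), pset S x (bal pos o (5 * R - 1))ᶜ) ≤
      ES H U c G fun S => FF S φ :=
    ES_mono hs.symm hg hU (Nice.of_continuous (by fun_prop)) nF fun c' _ =>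
      ann_fin hs o hw (by omega) (by omega) _ c' fun x hx => (Finset.mem_sdiff.1 hx).2
  have s2 : ES H U c G (fun S => FF S φ) ≤ ES H U c (innr pos o ρ h A) fun S => FF S φ := by
    have h2 := ES_tower hs.symm hg (hI.trans hU) (G \ innr pos o ρ h A) nF nF fun c' hg' =>
      superF hs.symm hg' (Finset.sdiff_subset_sdiff hU (Finset.Subset.refl _)) φ
    rwa [Finset.union_sdiff_of_subset hI] at h2
  have nC : ∀ a ∈ A, Nice fun S : Mx ι => ∑ x ∈ bal pos (ctr o ρ a) ρ, ee S φ x := fun a _ =>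
    Nice.of_continuous (by fun_prop)
  have s3 : ES H U c (innr pos o ρ h A) (fun S => FF S φ) ≤ ES H U c (innr pos o ρ h A)
      fun S => ∑ a ∈ A, ∑ x ∈ bal pos (ctr o ρ a) ρ, ee S φ x + 2400 * (R : ℝ) ^ 2 * E := by
    refine ES_mono hs.symm hg (hI.trans hU) nF ((Nice.sum A nC).add (Nice.const _))
      fun c' hg' => ?_
    set m : ℤ := 2 * N + 3 * (2 * ρ + 1) - ρ - 1 with hm
    refine (energy1 (Smat_US hs.symm _ c') (rng pos o m (5 * N - (2 * ρ + 1) + ρ)) (bal pos o m)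
      (bal pos o (5 * N - (2 * ρ + 1) + ρ))ᶜ fun x hx => ?_).trans (add_le_add ?_ ?_)
    · have h2 := mt mem_rng.2 hx
      by_cases h3 : rr o (pos x) ≤ m
      · exact Or.inl ⟨mem_bal.2 h3, tent_one hw (by omega)⟩
      · refine Or.inr ⟨Finset.mem_compl.2 fun h5 => ?_, tent_zero hw (by omega)⟩
        have := mem_bal.1 h5
        omega
    · refine sum_le_cells pos o ρ A _ (fun x hx => ?_) _ (ee_nonneg _ φ)
      obtain ⟨a, ha⟩ := tile o hρ (pos x)
      obtain ⟨h2, h3⟩ := mem_rng.1 hx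
      obtain ⟨h5, h6⟩ := rr_ctr_le o hρ a (pos x)
      refine ⟨a, (mA a).2 ⟨?_, ?_⟩, mem_bal.2 ha⟩
      · by_contra hc
        have := mul_le_mul_of_nonneg_left (show rr 0 a ≤ 2 * n + 2 by omega)
          (show 0 ≤ 2 * ρ + 1 by omega)
        linarith
      · by_contra hc
        have := mul_le_mul_of_nonneg_left (show 5 * n ≤ rr 0 a by omega)
          (show 0 ≤ 2 * ρ + 1 by omega)
        linarith
    · have h2 : ∑ x ∈ bal pos o m, pset (Smat H (U \ innr pos o ρ h A) c') x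
          (bal pos o (5 * N - (2 * ρ + 1) + ρ))ᶜ ≤ (bal pos o m).card * (16 * E) := by
        rw [← nsmul_eq_mul]
        refine Finset.sum_le_card_nsmul _ _ _ fun x hx => ?_
        have h3 := leak_out hs hg' o (m := m) (k := m) (n := m + h) le_rfl (by omega)
          (fun z z1 z2 => Finset.mem_sdiff.2 ⟨hU (mem_rng.2 ⟨by omega, by omega⟩), fun z3 => by
            obtain ⟨a, ha, z3⟩ := mem_innr.1 z3
            have h5 := bA a ha
            have h6 := rr_ctr_le o hρ a (pos z)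
            omega⟩) (mem_bal.1 hx) (bal pos o (5 * N - (2 * ρ + 1) + ρ))ᶜ fun y hy _ => by
            have := mt mem_bal.2 (Finset.mem_compl.1 hy)
            omega
        rwa [add_sub_cancel_left] at h3
      have h3 := card_bal hs.inj o (n := m) (by omega)
      have h5 : (0 : ℝ) ≤ 2 * (m : ℝ) + 1 := by exact_mod_cast (show 0 ≤ 2 * m + 1 by omega)
      have h6 : 2 * (m : ℝ) + 1 ≤ 7 * R := by exact_mod_cast (show 2 * m + 1 ≤ 7 * R by omega)
      have h7 := mul_le_mul_of_nonneg_right (h3.trans (pow_le_pow_left₀ h5 h6 2))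
        (show 0 ≤ 16 * E by positivity)
      have h8 : 0 ≤ (R : ℝ) ^ 2 * E := by positivity
      linarith
  rw [ES_add hs.symm _ _ _ (Nice.sum A nC) (Nice.const _), ES_const, ES_sum hs.symm _ _ _ A nC]
    at s3
  have s4 : ∑ a ∈ A, ES H U c (innr pos o ρ h A)
      (fun S => ∑ x ∈ bal pos (ctr o ρ a) ρ, ee S φ x) ≤
      A.card * ((ε * (1 / (w : ℝ)) ^ 2 + 16 * 1 ^ 2 * E) * (2 * (ρ : ℝ) + 1) ^ 2) := by
    rw [← nsmul_eq_mul]
    refine Finset.sum_le_card_nsmul _ _ _ fun a ha => ?_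
    refine cells hs hP h1 h4 hg o A (fun b hb => (hB b hb).trans hU) ha
      (lip_tent o (2 * N + 3 * (2 * ρ + 1)) hw) (fun x _ y _ => ?_) fun x y => ?_
    · simp only [hφ]
      field_simp
    · have h2 := tent_nonneg o (2 * N + 3 * (2 * ρ + 1)) w
      have h3 := tent_le_one o (2 * N + 3 * (2 * ρ + 1)) w
      exact abs_le.2 ⟨by linarith [h2 (pos y), h3 (pos x)], by linarith [h3 (pos y), h2 (pos x)]⟩
  have s5 := ann_num (R := R) (n := n) (l := 2 * (ρ : ℝ) + 1) hε E0.le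
    (by exact_mod_cast (show 0 ≤ n by omega)) (by exact_mod_cast (show 0 ≤ 2 * ρ + 1 by omega))
    hw' (by exact_mod_cast (show n * (2 * ρ + 1) ≤ w by linarith))
    (by exact_mod_cast (show n * (2 * ρ + 1) ≤ R by linarith)) cA
  linarith

end Vale.Agent.P365
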