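import Vale.Agent.P365.RG
import Vale.Agent.P365.AT

namespace Vale.Agent.P365

open MeasureTheory ProbabilityTheory Complex Filter
open scoped ComplexConjugate ENNReal

variable {ι : Type} [Fintype ι] [DecidableEq ι]

theorem iter_CY_pos (μ : ℝ) : 0 < CY μ := by
  unfold CY; positivity

theorem iter_small {μ : ℝ} (hμ : 0 < μ) (A : ℝ) {δ : ℝ} (hδ : 0 < δ) :
    ∃ h0 : ℤ, 1 ≤ h0 ∧ ∀ h : ℤ, h0 ≤ h → (A * h) ^ 2 * Real.exp (-(μ * h)) ≤ δ := by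
  refine ⟨max 1 ⌈6 * A ^ 2 / (μ ^ 3 * δ)⌉, le_max_left _ _, fun h hh => ?_⟩
  have h1 : (1 : ℝ) ≤ h := by exact_mod_cast le_trans (le_max_left _ _) hh
  have h2 : 6 * A ^ 2 / (μ ^ 3 * δ) ≤ h :=
    le_trans (Int.le_ceil _) (by exact_mod_cast le_trans (le_max_right _ _) hh)
  have h3 : (μ * h) ^ 3 / (Nat.factorial 3 : ℝ) ≤ Real.exp (μ * h) :=
    Real.pow_div_factorial_le_exp _ (by positivity) 3
  have h4 : ((Nat.factorial 3 : ℕ) : ℝ) = 6 := by norm_num [Nat.factorial]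
  rw [h4] at h3
  rw [div_le_iff₀ (by positivity)] at h2
  rw [Real.exp_neg, ← div_eq_mul_inv, div_le_iff₀ (Real.exp_pos _)]
  have h5 : (A * h) ^ 2 ≤ δ * ((μ * h) ^ 3 / 6) := by
    have h6 : (0 : ℝ) ≤ (h : ℝ) ^ 2 := by positivity
    have h7 := mul_le_mul_of_nonneg_right h2 h6
    nlinarith
  exact h5.trans (mul_le_mul_of_nonneg_left h3 hδ.le)

/-- The radii of the renormalisation scales. -/
def iterR (h : ℤ) : ℕ → ℤ
  | 0 => 2 * h
  | k + 1 => 5 * iterR h k + 2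

theorem iterR_eq (h : ℤ) (k : ℕ) : 2 * iterR h k + 1 = 5 ^ k * (4 * h + 1) := by
  induction k with
  | zero => simp only [iterR]; ring
  | succ k ih =>
    simp only [iterR]
    rw [pow_succ]
    linear_combination 5 * ih

theorem iterR_bounds {h : ℤ} (h1 : 1 ≤ h) {k K : ℕ} (hk : k ≤ K) :
    4 * h ≤ 2 * iterR h k + 1 ∧ 2 * iterR h k + 1 ≤ 5 ^ (K + 1) * h := by
  rw [iterR_eq]
  have a1 : (1 : ℤ) ≤ 5 ^ k := one_le_pow₀ (by norm_num)
  have a2 : (5 : ℤ) ^ k ≤ 5 ^ K := pow_le_pow_right₀ (by norm_num) hk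
  constructor
  · nlinarith
  · rw [pow_succ]
    nlinarith

/-- `θ = ε/(200 CY μ)`, `lam, Λ` from `AT`, `K` with `(1 - lam/25)^K (16/μ² + 1) ≤ ε/4`,
`ρ 0 = 2h`, `ρ (k+1) = 5 ρ k + 2`, so `2 ρ k + 1 = 5^k (4h+1) ≤ 5^(K+1) h`, `A = 5^(K+1)`.
Take `h0` with `(A h)² e^(-μ h) ≤ δ = min (1/256) (ε/(40000 (K+1)))` for `h ≥ h0`.
Induction: `ε_k = (1 - lam/25)^k (16/μ² + 1) + 50 θ CY + 10000 k δ`. -/
theorem rg_all {μ : ℝ} (hμ : 0 < μ) {ε : ℝ} (hε : 0 < ε) :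
    ∃ A h0 : ℤ, 1 ≤ A ∧ 1 ≤ h0 ∧ ∀ h : ℤ, h0 ≤ h → ∃ ρ : ℤ, 4 * h ≤ 2 * ρ + 1 ∧ 2 * ρ + 1 ≤ A * h ∧
      ∀ (ι : Type) [Fintype ι] [DecidableEq ι] (H : Matrix ι ι ℝ) (pos : ι → ℤ × ℤ),
        Sys μ H pos → Pcell H pos ρ h ε := by
  have hC := iter_CY_pos μ
  set θ := ε / (200 * CY μ) with hθdef
  have hθ : 0 < θ := by positivity
  have hθC : 50 * θ * CY μ = ε / 4 := by
    rw [hθdef]; field_simp; ring
  obtain ⟨lam, Λ, hlam, hlam1, -, hΛ, hAT⟩ := AT hθ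
  set B : ℝ := 16 / μ ^ 2 + 1 with hB
  have hBpos : 0 < B := by positivity
  have hq0 : 0 ≤ 1 - lam / 25 := by linarith
  have hq1 : 1 - lam / 25 < 1 := by linarith
  obtain ⟨K, hK⟩ := exists_pow_lt_of_lt_one (x := ε / 4 / B) (by positivity) hq1
  have hK' : (1 - lam / 25) ^ K * B ≤ ε / 4 := by
    rw [lt_div_iff₀ hBpos] at hK
    exact hK.le
  set δ : ℝ := min (1 / 256) (ε / (40000 * ((K : ℝ) + 1))) with hδdef
  have hδ : 0 < δ := lt_min (by norm_num) (by positivity)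
  have hδ1 : δ ≤ 1 / 256 := min_le_left _ _
  have hδ2 : δ * (40000 * ((K : ℝ) + 1)) ≤ ε := by
    rw [← le_div_iff₀ (by positivity)]
    exact min_le_right _ _
  obtain ⟨h0, hh0, hsm⟩ := iter_small hμ ((5 : ℝ) ^ (K + 1)) hδ
  refine ⟨5 ^ (K + 1), h0, one_le_pow₀ (by norm_num), hh0, fun h hh => ?_⟩
  have h1 : 1 ≤ h := le_trans hh0 hh
  have hsmall : ∀ k ≤ K, (2 * ((iterR h k : ℤ) : ℝ) + 1) ^ 2 * Real.exp (-(μ * h)) ≤ δ := by
    intro k hk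
    obtain ⟨b1, b2⟩ := iterR_bounds h1 hk
    refine le_trans (mul_le_mul_of_nonneg_right ?_ (Real.exp_pos _).le) (hsm h hh)
    have c1 : (0 : ℝ) ≤ 2 * ((iterR h k : ℤ) : ℝ) + 1 := by
      have : (0 : ℤ) ≤ 2 * iterR h k + 1 := by omega
      exact_mod_cast this
    have c2 : 2 * ((iterR h k : ℤ) : ℝ) + 1 ≤ (5 : ℝ) ^ (K + 1) * h := by exact_mod_cast b2
    exact pow_le_pow_left₀ c1 c2 2
  refine ⟨iterR h K, (iterR_bounds h1 le_rfl).1, (iterR_bounds h1 le_rfl).2, ?_⟩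
  intro ι _ _ H pos hs
  have key : ∀ k ≤ K, Pcell H pos (iterR h k) h
      ((1 - lam / 25) ^ k * B + 50 * θ * CY μ + 10000 * k * δ) := by
    intro k
    induction k with
    | zero =>
      intro hk
      refine (base hs h1 (iterR_bounds h1 hk).1).mono ?_
      have := hsmall 0 hk
      rw [hθC]
      simp only [pow_zero, Nat.cast_zero, hB]
      nlinarith
    | succ k ih =>
      intro hk
      have hk' : k ≤ K := by omega
      have hs1 := hsmall k hk'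
      refine (rg_step hAT hθ hlam.le hlam1 hΛ hs h1 (iterR_bounds h1 hk').1
        (by linarith) (ih hk')).mono ?_
      have e1 : 0 ≤ lam * (10000 * (k : ℝ) * δ) := by positivity
      push_cast
      rw [pow_succ (1 - lam / 25) k]
      nlinarith
  refine (key K le_rfl).mono ?_
  rw [hθC]
  nlinarith

end Vale.Agent.P365
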