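import Vale.Agent.P365.Rec1
import Vale.Agent.P365.Iter

namespace Vale.Agent.P365

open MeasureTheory ProbabilityTheory Complex Filter
open scoped ComplexConjugate ENNReal

variable {ι : Type} [Fintype ι] [DecidableEq ι]

/-- `rg_all` with `ε = θ0/200`, `h = R / (2A)` (integer division), `annulus0`;
`R ≤ 2A(h+1)`, so `4000 R² e^(-2μh) → 0`. -/
theorem annulus {μ : ℝ} (hμ : 0 < μ) {θ0 : ℝ} (hθ : 0 < θ0) :
    ∃ R0 : ℤ, 1 ≤ R0 ∧ ∀ R : ℤ, R0 ≤ R →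
      ∀ (ι : Type) [Fintype ι] [DecidableEq ι] (H : Matrix ι ι ℝ) (pos : ι → ℤ × ℤ),
        Sys μ H pos → ∀ (o : ℤ × ℤ) (U : Finset ι) (c : ι → ℝ), Good H U c →
        rng pos o (2 * R) (5 * R - 1) ⊆ U →
        ES H U c (rng pos o (2 * R) (5 * R - 1))
          (fun S => ∑ x ∈ bal pos o (2 * R), pset S x (bal pos o (5 * R - 1))ᶜ) ≤ θ0 := by
  obtain ⟨A, h0, hA, hh0, H0⟩ := rg_all hμ (ε := θ0 / 200) (by positivity)
  obtain ⟨n, hn⟩ := exists_nat_ge (96000 * (A : ℝ) ^ 2 / (μ ^ 3 * θ0))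
  have hA2 : 0 < 2 * A := by omega
  refine ⟨2 * A * (h0 + n), by nlinarith [Int.natCast_nonneg n], fun R hR ι _ _ H pos hs o U c hg hU => ?_⟩
  have h1 : h0 + n ≤ R / (2 * A) := Int.le_ediv_of_mul_le hA2 (by linarith)
  have h2 : R / (2 * A) * (2 * A) ≤ R := Int.ediv_mul_le R hA2.ne'
  have h3 : R < (R / (2 * A) + 1) * (2 * A) := Int.lt_ediv_add_one_mul_self R hA2
  generalize R / (2 * A) = h at h1 h2 h3
  have hn0 := Int.natCast_nonneg n
  obtain ⟨ρ, a1, a2, a3⟩ := H0 h (by omega)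
  refine (annulus0 hs (by positivity) (a3 ι H pos hs) (by omega) a1 (by linarith) hg o hU).trans ?_
  have hh : (1 : ℝ) ≤ h := by exact_mod_cast (by omega : 1 ≤ h)
  have hAr : (1 : ℝ) ≤ A := by exact_mod_cast hA
  have hnh : (n : ℝ) ≤ h := by exact_mod_cast (by omega : (n : ℤ) ≤ h)
  have hR0 : (0 : ℝ) ≤ R := by exact_mod_cast (by nlinarith : 0 ≤ R)
  have hR1 : (R : ℝ) ≤ 4 * A * h := by
    have : (R : ℝ) < (h + 1) * (2 * A) := by exact_mod_cast h3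
    nlinarith
  have hx : 0 < 2 * μ * h := by positivity
  have b1 := Real.pow_div_factorial_le_exp (2 * μ * h) hx.le 3
  have b2 : Real.exp (-(2 * μ * h)) ≤ 6 / (2 * μ * h) ^ 3 := by
    rw [Real.exp_neg, ← inv_div]
    exact inv_anti₀ (by positivity) (by simpa [Nat.factorial] using b1)
  have b3 : 96000 * (A : ℝ) ^ 2 ≤ h * (μ ^ 3 * θ0) := by
    rw [div_le_iff₀ (by positivity)] at hn
    exact hn.trans (by gcongr)
  have b4 : 4000 * (R : ℝ) ^ 2 * Real.exp (-(2 * μ * h)) ≤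
      4000 * (4 * A * h) ^ 2 * (6 / (2 * μ * h) ^ 3) := by gcongr
  have b5 : 4000 * (4 * (A : ℝ) * h) ^ 2 * (6 / (2 * μ * h) ^ 3) = 48000 * A ^ 2 / (μ ^ 3 * h) := by
    field_simp
    ring
  have b6 : 48000 * (A : ℝ) ^ 2 / (μ ^ 3 * h) ≤ θ0 / 2 := by
    rw [div_le_iff₀ (by positivity)]
    linarith
  linarith

end Vale.Agent.P365
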