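import Vale.Agent.P365.Em

namespace Vale.Agent.P365

open MeasureTheory ProbabilityTheory Complex Filter
open scoped ComplexConjugate ENNReal

variable {ι : Type} [Fintype ι] [DecidableEq ι]

variable {H : Matrix ι ι ℝ}

theorem avg_im (hH : H.IsSymm) (d : ι → ℂ) (hd : ∀ z, (d z).im < 0) (v : ι) :
    ((Kgen H d)⁻¹ v v).im = ∑ z, -(d z).im * ‖(Kgen H d)⁻¹ v z‖ ^ 2 := by
  have h := congrArg Complex.im (ward hH d (Kgen_det_ne hH d hd) v v)
  rw [sub_im, conj_im, im_sum] at h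
  rw [← mul_right_inj' (two_ne_zero' ℝ), Finset.mul_sum, two_mul, ← sub_neg_eq_add, h]
  refine Finset.sum_congr rfl fun z _ => ?_
  rw [mul_right_comm, mul_conj, normSq_eq_norm_sq]
  simp [← ofReal_pow]
  ring

theorem avg_nn {d : ι → ℂ} (hd : ∀ z, (d z).im < 0) (a : ι → ℂ) (z : ι) :
    0 ≤ -(d z).im * ‖a z‖ ^ 2 := mul_nonneg (neg_nonneg.2 (hd z).le) (sq_nonneg _)

/-- `ward` at `(v, v)`: `im G v v = Σ_z (-im (d z)) ‖G v z‖²`. With `im (d v) < -1` and all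
`im (d z) < 0`: `im g > ‖g‖²` (`g ≠ 0` since the row of `G` is not zero), so `‖1 + 2 i g‖ < 1`. -/
theorem probe_diag (hH : H.IsSymm) (d : ι → ℂ) (hd : ∀ z, (d z).im < 0) {v : ι}
    (hv : (d v).im < -1) :
    ‖1 + 2 * I * (Kgen H d)⁻¹ v v‖ < 1 ∧ 0 < ((Kgen H d)⁻¹ v v).im ∧
      ‖(Kgen H d)⁻¹ v v‖ ≤ 1 ∧ ∀ y, (d y).im < -1 → ‖(Kgen H d)⁻¹ v y‖ ≤ 1 := by
  have h0 := avg_im hH d hd v
  have h1 : ∀ y, -(d y).im * ‖(Kgen H d)⁻¹ v y‖ ^ 2 ≤ ((Kgen H d)⁻¹ v v).im := fun y =>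
    h0 ▸ Finset.single_le_sum (fun z _ => avg_nn hd _ z) (Finset.mem_univ y)
  have h2 : 0 < ((Kgen H d)⁻¹ v v).im := by
    refine ((avg_nn hd _ v).trans (h1 v)).lt_of_ne fun h => ?_
    have h3 : ∀ y, (Kgen H d)⁻¹ v y = 0 := fun y => by
      have h4 := mul_eq_zero.1 (le_antisymm ((h1 y).trans_eq h.symm) (avg_nn hd _ y))
      simpa [(hd y).ne] using h4
    have h5 := congrFun (congrFun (Matrix.nonsing_inv_mul _ (Kgen_det_ne hH d hd).isUnit) v) v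
    simp [Matrix.mul_apply, h3] at h5
  generalize (Kgen H d)⁻¹ v = G at h1 h2 ⊢
  have h3 : 0 < ‖G v‖ := norm_pos_iff.2 fun h => by simp [h] at h2
  have h4 : ‖G v‖ ^ 2 < (G v).im := by nlinarith [h1 v, pow_pos h3 2]
  have h5 : (G v).im ≤ ‖G v‖ := im_le_norm _
  have h6 : ‖G v‖ ≤ 1 := by nlinarith
  refine ⟨?_, h2, h6, fun y hy => ?_⟩
  · refine (sq_lt_one_iff₀ (norm_nonneg _)).1 ?_
    rw [Complex.sq_norm, normSq_apply] at h4 ⊢
    simp
    linarith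
  · refine (sq_le_one_iff₀ (norm_nonneg _)).1 ?_
    nlinarith [h1 y, sq_nonneg ‖G y‖]

theorem avg_upd (hH : H.IsSymm) {d : ι → ℂ} (hd : ∀ z, (d z).im < 0) {v : ι} (hv : (d v).im < -1)
    (t : ℝ) (y : ι) : (Kgen H (Function.update d v (d v + (t + I))))⁻¹ y v =
      (Kgen H d)⁻¹ y v * (1 + (t + I) * (Kgen H d)⁻¹ v v)⁻¹ := by
  have h := (inv_one_add (probe_diag hH d hd hv).1 t).1
  rw [inv_update d (Kgen_det_ne hH d hd) v _ h]
  field_simp
  ring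

theorem avg_dd {z : ℂ} (hz : 0 < z.im) (U : Finset ι) (ω : ι → ℝ) :
    (∀ u, (dd U ω u - z).im < 0) ∧ ∀ u ∈ U, (dd U ω u - z).im < -1 := by
  refine ⟨fun u => ?_, fun u hu => ?_⟩
  · unfold dd
    split_ifs <;> simp <;> linarith
  · simp [dd, hu, hz]

theorem avg_eq {U U' : Finset ι} {v : ι} (h : v ∉ U) (h' : ∀ u, u ∈ U' ↔ u = v ∨ u ∈ U) (z : ℂ)
    (ω : ι → ℝ) (t : ℝ) : (fun u => dd U (Function.update ω v t) u - z) =
      Function.update (fun u => dd U' ω u - z) v (dd U' ω v - z + (t + I)) := by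
  funext u
  by_cases e : u = v
  · subst e
    simp [dd, h, h']
    ring
  · simp [dd, h', e]

theorem avg_meas (H : Matrix ι ι ℝ) (U : Finset ι) (z : ℂ) (x y : ι) :
    Measurable fun ω : ι → ℝ => (Kgen H fun u => dd U ω u - z)⁻¹ x y := by
  refine (measurable_Kgen_inv H x y).comp (measurable_pi_lambda _ fun u => ?_)
  unfold dd
  split_ifs <;> fun_prop

theorem avg_Gz (ω : ι → ℝ) (z : ℂ) : Gz H ω z = (Kgen H fun u => dd ∅ ω u - z)⁻¹ := by
  simp [Gz, dd]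

/-- Average over the value at `x`. With `d = dd {x} ω - z`, `G^p = (Kgen H d)⁻¹`, `g = G^p x x`:
`Gz (update ω x t) y x = G^p y x / (1 + (t+i) g)` for every `y` (`inv_update`), the ratio is
`G^p y x / g`, the mean of `im (g/(1+(t+i)g))` is `im g` (`inv_one_add`, `mom_pow`), the integrand
is nonnegative, and `‖G^p y x / g‖^(1/2) im g ≤ ‖G^p y x‖^(1/2)`. `lintegral_update`. -/
theorem avg_x (hH : H.IsSymm) {z : ℂ} (hz : 0 < z.im) (x y : ι) :
    ∫⁻ ω, ENNReal.ofReal (‖Gz H ω z y x / Gz H ω z x x‖ ^ (1 / 2 : ℝ) * (Gz H ω z x x).im)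
      ∂(piC ι) ≤
      ∫⁻ ω, ENNReal.ofReal (‖(Kgen H fun u => dd {x} ω u - z)⁻¹ y x‖ ^ (1 / 2 : ℝ)) ∂(piC ι) := by
  simp only [avg_Gz]
  refine (lintegral_update x ((((avg_meas H ∅ z y x).fun_div
    (avg_meas H ∅ z x x)).norm.pow_const _).fun_mul
      (measurable_im.fun_comp (avg_meas H ∅ z x x))).ennreal_ofReal).trans_le
    (lintegral_mono fun ω => ?_)
  obtain ⟨h1, h2⟩ := avg_dd hz {x} ω
  have h3 := h2 x (Finset.mem_singleton_self x)
  obtain ⟨h4, h5, h6, -⟩ := probe_diag hH _ h1 h3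
  have h7 := fun t y => avg_upd hH h1 h3 t y
  have h8 : ∀ t : ℝ, 0 ≤ ((Kgen H fun u => dd ∅ (Function.update ω x t) u - z)⁻¹ x x).im :=
    fun t => (avg_im hH _ (avg_dd hz ∅ _).1 x).symm ▸
      Finset.sum_nonneg fun u _ => avg_nn (avg_dd hz ∅ _).1 _ u
  simp only [avg_eq (U' := {x}) (Finset.notMem_empty x) (by simp), h7] at h8 ⊢
  generalize (Kgen H fun u => dd {x} ω u - z)⁻¹ x x = g at h4 h5 h6 h8 ⊢
  generalize (Kgen H fun u => dd {x} ω u - z)⁻¹ y x = b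
  have e : ∀ t : ℝ, (g * (1 + (t + I) * g)⁻¹).im =
      g.im + 2 * (xi0 (1 + 2 * I * g) (zeta t) * g ^ 2).re := fun t => by
    rw [(inv_one_add h4 t).2.1]
    simp [sq]
    ring
  have hi : Integrable (fun t => 2 * (xi0 (1 + 2 * I * g) (zeta t) * g ^ 2).re) cau :=
    integrable_xi0 h4.le (fun w => 2 * (w * g ^ 2).re) (by fun_prop)
  have g0 : 0 < ‖g‖ := h5.trans_le (im_le_norm g)
  simp only [mul_div_mul_right _ _ (inv_ne_zero (inv_one_add h4 _).1), e] at h8 ⊢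
  rw [← ofReal_integral_eq_lintegral_ofReal (((integrable_const _).fun_add hi).const_mul _)
    (Eventually.of_forall fun t => mul_nonneg (by positivity) (h8 t)), integral_const_mul,
    integral_add (integrable_const _) hi, mom_re h4.le, add_zero, integral_const, probReal_univ,
    one_smul]
  refine ENNReal.ofReal_le_ofReal ((mul_le_mul_of_nonneg_left ((im_le_norm g).trans
    (Real.self_le_rpow_of_le_one g0.le h6 (by norm_num : (1 / 2 : ℝ) ≤ 1)))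
      (by positivity)).trans_eq ?_)
  rw [← Real.mul_rpow (norm_nonneg _) g0.le, norm_div, div_mul_cancel₀ _ g0.ne']

/-- Average over the value at `y`: `G^p y x = G^{xy} y x / (1 + (t+i) g')`, `inv_one_add`,
`xi0_half`, `√2 · 2 ≤ 4`. -/
theorem avg_y (hH : H.IsSymm) {z : ℂ} (hz : 0 < z.im) {x y : ι} (hxy : x ≠ y) :
    ∫⁻ ω, ENNReal.ofReal (‖(Kgen H fun u => dd {x} ω u - z)⁻¹ y x‖ ^ (1 / 2 : ℝ)) ∂(piC ι) ≤
      4 * ∫⁻ ω, ENNReal.ofReal (‖(Kgen H fun u => dd {x, y} ω u - z)⁻¹ x y‖ ^ (1 / 2 : ℝ))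
        ∂(piC ι) := by
  rw [lintegral_update y ((avg_meas H {x} z y x).norm.pow_const _).ennreal_ofReal,
    ← lintegral_const_mul _ ((avg_meas H {x, y} z x y).norm.pow_const _).ennreal_ofReal]
  refine lintegral_mono fun ω => ?_
  obtain ⟨h1, h2⟩ := avg_dd hz {x, y} ω
  have h3 := h2 y (by simp)
  obtain ⟨h4, -⟩ := probe_diag hH _ h1 h3
  have h7 := fun t => avg_upd hH h1 h3 t x
  simp only [Kgen_inv_symm hH _ y x, avg_eq (U := {x}) (U' := {x, y})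
    (Finset.notMem_singleton.2 hxy.symm) (by simp [or_comm]), h7]
  generalize (Kgen H fun u => dd {x, y} ω u - z)⁻¹ y y = g at h4 ⊢
  generalize (Kgen H fun u => dd {x, y} ω u - z)⁻¹ x y = b
  have hi : Integrable (fun t => ‖xi0 (1 + 2 * I * g) (zeta t)‖ ^ (1 / 2 : ℝ)) cau :=
    integrable_xi0 h4.le (fun w => ‖w‖ ^ (1 / 2 : ℝ))
      (continuous_norm.rpow_const fun _ => Or.inr (by norm_num))
  have h5 : (2 : ℝ) ^ (1 / 2 : ℝ) ≤ 2 :=
    Real.rpow_le_self_of_one_le one_le_two (by norm_num)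
  refine (lintegral_mono fun t => ENNReal.ofReal_le_ofReal (show _ ≤ 2 * ‖b‖ ^ (1 / 2 : ℝ) *
    ‖xi0 (1 + 2 * I * g) (zeta t)‖ ^ (1 / 2 : ℝ) from ?_)).trans ?_
  · rw [norm_mul, Real.mul_rpow (norm_nonneg _) (norm_nonneg _), mul_comm 2, mul_assoc]
    refine mul_le_mul_of_nonneg_left ((Real.rpow_le_rpow (norm_nonneg _)
      (inv_one_add h4 t).2.2.1 (by norm_num)).trans ?_) (by positivity)
    rw [Real.mul_rpow zero_le_two (norm_nonneg _)]
    exact mul_le_mul_of_nonneg_right h5 (by positivity)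
  · rw [← ofReal_integral_eq_lintegral_ofReal (hi.const_mul _)
      (Eventually.of_forall fun t => by positivity), integral_const_mul, ← ENNReal.ofReal_ofNat,
      ← ENNReal.ofReal_mul (by norm_num)]
    refine ENNReal.ofReal_le_ofReal ((mul_le_mul_of_nonneg_left (xi0_half h4.le)
      (by positivity)).trans_eq ?_)
    ring

end Vale.Agent.P365
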