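import Vale.Agent.P365.CT0

namespace Vale.Agent.P365

open MeasureTheory ProbabilityTheory Complex Filter
open scoped ComplexConjugate ENNReal

variable {ι : Type} [Fintype ι] [DecidableEq ι]

variable {μ : ℝ} {H : Matrix ι ι ℝ} {pos : ι → ℤ × ℤ} {U : Finset ι} {c : ι → ℝ}

theorem leak (hs : Sys μ H pos) (hg : Good H U c) {f : ι → ℝ} (hf : Adm H U f) (x : ι)
    (A : Finset ι) {h : ℝ} (h0 : 0 < h) (hA : ∀ y ∈ A, y ∈ U → f x + h ≤ f y) :
    pset (Smat H U c) x A ≤ 16 * Real.exp (-(2 * μ * h)) := by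
  have hS := Smat_US hs.symm U c
  have hμ := hs.mu_pos
  have e : pset (Smat H U c) x A = ∑ y ∈ A.filter (· ∈ U), pp (Smat H U c) x y :=
    (Finset.sum_filter_of_ne fun y _ hy => by_contra fun h => hy (pp_zero_right hS x h)).symm
  rw [e]
  refine le_trans ?_ (mul_le_mul_of_nonneg_right (ct_row hs hg hf x) (Real.exp_pos _).le)
  rw [Finset.sum_mul]
  refine le_trans (Finset.sum_le_sum fun y hy => ?_) (Finset.sum_le_sum_of_subset_of_nonneg
    (s := A.filter (· ∈ U)) (fun y hy => ?_) fun y _ _ =>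
      mul_nonneg (mul_nonneg (pp_nonneg _ _ _) (Real.exp_pos _).le) (Real.exp_pos _).le)
  · have a1 := hA y (Finset.mem_filter.1 hy).1 (Finset.mem_filter.1 hy).2
    rw [mul_assoc, ← Real.exp_add]
    exact le_mul_of_one_le_right (pp_nonneg _ _ _) (Real.one_le_exp (by nlinarith))
  · have a1 := hA y (Finset.mem_filter.1 hy).1 (Finset.mem_filter.1 hy).2
    refine Finset.mem_erase.2 ⟨fun h => ?_, Finset.mem_univ _⟩
    rw [h] at a1
    linarith

/-- `conj (Θ x y) = Σ_z S y z conj (u z)` with `u z = S x z (ψ z - ψ x)`; `ct_op` and `ct_row`. -/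
theorem leak_Th (hs : Sys μ H pos) (hg : Good H U c) {f : ι → ℝ} (hf : Adm H U f) {ψ : ι → ℝ}
    (hψ : Osc ψ) (x : ι) (A : Finset ι) {h : ℝ} (hA : ∀ y ∈ A, y ∈ U → f x + h ≤ f y) :
    ∑ y ∈ A, ‖Th (Smat H U c) ψ x y‖ ^ 2 ≤ 400 * Real.exp (-(2 * μ * h)) := by
  have hS := Smat_US hs.symm U c
  have hμ := hs.mu_pos
  have a1 := ct_op hs hg hf fun z => conj (Smat H U c x z) * ((ψ z - ψ x : ℝ) : ℂ)
  have e1 : ∀ y, ‖∑ z, Smat H U c y z * (conj (Smat H U c x z) * ((ψ z - ψ x : ℝ) : ℂ))‖ =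
      ‖Th (Smat H U c) ψ x y‖ := fun y => by
    rw [← Complex.norm_conj, Th, map_sum]
    refine congrArg norm (Finset.sum_congr rfl fun z _ => ?_)
    simp only [map_mul, Complex.conj_conj, Complex.conj_ofReal]
    ring
  have a2 : ∑ z, Real.exp (2 * μ * f z) * ‖conj (Smat H U c x z) * ((ψ z - ψ x : ℝ) : ℂ)‖ ^ 2 ≤
      16 * Real.exp (2 * μ * f x) := by
    refine le_trans ?_ (mul_le_mul_of_nonneg_right (ct_row hs hg hf x) (Real.exp_pos _).le)
    rw [← Finset.sum_erase (a := x) _ (by simp), Finset.sum_mul]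
    refine Finset.sum_le_sum fun z _ => ?_
    have b1 := pow_le_one₀ (abs_nonneg _) (hψ x z) (n := 2)
    rw [mul_assoc (pp _ _ _), ← Real.exp_add, show 2 * μ * (f z - f x) + 2 * μ * f x = 2 * μ * f z
      by ring, mul_comm (pp _ _ _), norm_mul, mul_pow, Complex.norm_conj, Complex.norm_real,
      Real.norm_eq_abs]
    exact mul_le_mul_of_nonneg_left (mul_le_of_le_one_right (sq_nonneg _) b1) (Real.exp_pos _).le
  simp only [e1] at a1
  have a3 := mul_le_mul_of_nonneg_right (a1.trans (mul_le_mul_of_nonneg_left a2 (by norm_num)))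
    (Real.exp_pos (-(2 * μ * f x) + -(2 * μ * h))).le
  have e2 : 25 * (16 * Real.exp (2 * μ * f x)) * Real.exp (-(2 * μ * f x) + -(2 * μ * h)) =
      400 * Real.exp (-(2 * μ * h)) := by
    rw [mul_assoc, mul_assoc, ← Real.exp_add, add_neg_cancel_left]
    ring
  rw [e2, Finset.sum_mul] at a3
  refine le_trans (Finset.sum_le_sum fun y hy => ?_) ((Finset.sum_le_sum_of_subset_of_nonneg
    (Finset.subset_univ A) fun y _ _ => by positivity).trans a3)
  by_cases hy' : y ∈ U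
  · have b1 := hA y hy hy'
    rw [mul_right_comm, ← Real.exp_add]
    exact le_mul_of_one_le_left (sq_nonneg _) (Real.one_le_exp (by nlinarith))
  · rw [Th_zero_right hS ψ x hy']
    simp

theorem adm_band (hs : Sys μ H pos) (o : ℤ × ℤ) {m n : ℤ} (hmn : m ≤ n)
    (hU : ∀ z, m ≤ rr o (pos z) → rr o (pos z) ≤ n → z ∈ U) :
    Adm H U fun x => ((max m (min (rr o (pos x)) n) : ℤ) : ℝ) := by
  intro x y _ hxy
  have a1 := hs.range x y hxy
  have a2 := rr_triangle o (pos x) (pos y)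
  have a3 := rr_triangle o (pos y) (pos x)
  rw [rr_symm (pos y)] at a3
  refine ⟨?_, fun h => congrArg Int.cast ?_⟩
  · rw [← Int.cast_sub, ← Int.cast_abs, ← Int.cast_one, Int.cast_le, abs_le]
    omega
  · rcases h with h | h
    · have := mt (fun h : _ ∧ _ => hU x h.1 h.2) h
      omega
    · have := mt (fun h : _ ∧ _ => hU y h.1 h.2) h
      omega

theorem Adm.neg {f : ι → ℝ} (hf : Adm H U f) : Adm H U fun x => -f x := by
  intro x y h1 h2
  refine ⟨?_, fun h => congrArg Neg.neg ((hf x y h1 h2).2 h)⟩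
  rw [neg_sub_neg, abs_sub_comm]
  exact (hf x y h1 h2).1

theorem leak_out (hs : Sys μ H pos) (hg : Good H U c) (o : ℤ × ℤ) {m k n : ℤ} (hmk : m ≤ k)
    (hkn : k < n) (hU : ∀ z, m ≤ rr o (pos z) → rr o (pos z) ≤ n → z ∈ U) {x : ι}
    (hx : rr o (pos x) ≤ k) (A : Finset ι) (hA : ∀ y ∈ A, y ∈ U → n ≤ rr o (pos y)) :
    pset (Smat H U c) x A ≤ 16 * Real.exp (-(2 * μ * ((n - k : ℤ) : ℝ))) := by
  refine leak hs hg (adm_band hs o (by omega) hU) x A (Int.cast_pos.2 (by omega)) fun y h1 h2 => ?_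
  have := hA y h1 h2
  rw [← Int.cast_add, Int.cast_le]
  omega

theorem leak_in (hs : Sys μ H pos) (hg : Good H U c) (o : ℤ × ℤ) {m k n : ℤ} (hmk : m < k)
    (hkn : k ≤ n) (hU : ∀ z, m ≤ rr o (pos z) → rr o (pos z) ≤ n → z ∈ U) {x : ι}
    (hx : k ≤ rr o (pos x)) (A : Finset ι) (hA : ∀ y ∈ A, y ∈ U → rr o (pos y) ≤ m) :
    pset (Smat H U c) x A ≤ 16 * Real.exp (-(2 * μ * ((k - m : ℤ) : ℝ))) := by
  refine leak hs hg (adm_band hs o (by omega) hU).neg x A (Int.cast_pos.2 (by omega))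
    fun y h1 h2 => ?_
  have := hA y h1 h2
  rw [← Int.cast_neg, ← Int.cast_neg, ← Int.cast_add, Int.cast_le]
  omega

theorem leak_Th_out (hs : Sys μ H pos) (hg : Good H U c) (o : ℤ × ℤ) {m k n : ℤ} (hmk : m ≤ k)
    (hkn : k < n) (hU : ∀ z, m ≤ rr o (pos z) → rr o (pos z) ≤ n → z ∈ U) {ψ : ι → ℝ}
    (hψ : Osc ψ) {x : ι} (hx : rr o (pos x) ≤ k) (A : Finset ι)
    (hA : ∀ y ∈ A, y ∈ U → n ≤ rr o (pos y)) :
    ∑ y ∈ A, ‖Th (Smat H U c) ψ x y‖ ^ 2 ≤ 400 * Real.exp (-(2 * μ * ((n - k : ℤ) : ℝ))) := by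
  refine leak_Th hs hg (adm_band hs o (by omega) hU) hψ x A fun y h1 h2 => ?_
  have := hA y h1 h2
  rw [← Int.cast_add, Int.cast_le]
  omega

/-- `f y = min (rr x y) n` (`adm_band` with `m = 0`), `t² ≤ e^(2 μ t)/μ²`, so
`(φ y - φ x)² ≤ e^(2 μ f y) (L²/μ² + m² e^(-2 μ n))`; `ct_row`. -/
theorem ee_moment (hs : Sys μ H pos) (hg : Good H U c) (x : ι) {n : ℤ} (hn : 0 ≤ n)
    (hU : bal pos (pos x) n ⊆ U) {φ : ι → ℝ} {L m : ℝ}
    (hφ : ∀ y, rr (pos x) (pos y) ≤ n → |φ y - φ x| ≤ L * (rr (pos x) (pos y) : ℝ))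
    (hm : ∀ y, |φ y - φ x| ≤ m) :
    ee (Smat H U c) φ x ≤ 16 * L ^ 2 / μ ^ 2 + 16 * m ^ 2 * Real.exp (-(2 * μ * (n : ℝ))) := by
  have hμ := hs.mu_pos
  have a1 := mul_le_mul_of_nonneg_right (ct_row hs hg (adm_band hs (pos x) hn
    fun z _ h => hU (mem_bal.2 h)) x)
    (show 0 ≤ L ^ 2 / μ ^ 2 + m ^ 2 * Real.exp (-(2 * μ * (n : ℝ))) by positivity)
  refine le_trans ?_ (a1.trans (le_of_eq (by ring)))
  rw [ee, ← Finset.sum_erase (a := x) _ (by simp), Finset.sum_mul]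
  refine Finset.sum_le_sum fun y _ => ?_
  rw [mul_assoc]
  refine mul_le_mul_of_nonneg_left ?_ (pp_nonneg _ _ _)
  have a2 := rr_nonneg (pos x) (pos y)
  rw [rr_self, min_eq_left hn, max_self, Int.cast_zero, sub_zero, mul_add, ← sq_abs]
  rcases le_total (rr (pos x) (pos y)) n with h | h
  · rw [min_eq_left h, max_eq_right a2]
    refine (pow_le_pow_left₀ (abs_nonneg _) (hφ y h) 2).trans
      (le_add_of_le_of_nonneg ?_ (by positivity))
    have a3 : (0 : ℝ) ≤ rr (pos x) (pos y) := Int.cast_nonneg a2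
    generalize (rr (pos x) (pos y) : ℝ) = t at a3
    have a4 : μ * t ≤ Real.exp (μ * t) := by linarith [Real.add_one_le_exp (μ * t)]
    have a5 := pow_le_pow_left₀ (by positivity) a4 2
    rw [← Real.exp_nat_mul, Nat.cast_ofNat, ← mul_assoc] at a5
    rw [← mul_div_assoc, le_div_iff₀ (by positivity)]
    nlinarith [mul_le_mul_of_nonneg_right a5 (sq_nonneg L)]
  · rw [min_eq_right h, max_eq_right hn]
    refine (pow_le_pow_left₀ (abs_nonneg _) (hm y) 2).trans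
      (le_add_of_nonneg_of_le (by positivity) (le_of_eq ?_))
    rw [mul_left_comm, ← Real.exp_add, add_neg_cancel, Real.exp_zero, mul_one]

end Vale.Agent.P365
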