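import Vale.Agent.P365.Cls

namespace Vale.Agent.P365

open MeasureTheory ProbabilityTheory Complex Filter
open scoped ComplexConjugate ENNReal

variable {ι : Type} [Fintype ι] [DecidableEq ι]

variable {U : Finset ι} {S : Mx ι}

/-- Cauchy-Schwarz and the contraction property, `‖r‖² = ee`. -/
theorem norm_MM_le (hS : US U S) (ψ : ι → ℝ) (w : ι) : ‖MM S ψ w‖ ≤ ee S ψ w := by
  have e : ∀ x, ‖S x w * ((ψ w - ψ x : ℝ) : ℂ)‖ ^ 2 = pp S w x * (ψ x - ψ w) ^ 2 := fun x => by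
    rw [norm_mul, mul_pow, norm_real, Real.norm_eq_abs, sq_abs, pp, hS.symm w x]
    ring
  have h1 := sum_mul_normSq_le hS fun y => conj (S y w * ((ψ w - ψ y : ℝ) : ℂ))
  simp only [norm_conj, e] at h1
  have h2 : MM S ψ w = -∑ x, (S x w * ((ψ w - ψ x : ℝ) : ℂ)) *
      conj (∑ y, S x y * conj (S y w * ((ψ w - ψ y : ℝ) : ℂ))) := by
    simp only [MM, map_sum, Finset.mul_sum, map_mul (starRingEnd ℂ) (S _ _) (conj _), conj_conj,
      mul_assoc]
  rw [h2, norm_neg]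
  refine (norm_sum_le _ _).trans (le_of_sq_le_sq ?_ (ee_nonneg _ _ _))
  simp only [norm_mul (S _ w * _), norm_conj]
  refine (Finset.sum_mul_sq_le_sq_mul_sq _ _ _).trans ?_
  simp only [e]
  rw [sq (ee S ψ w)]
  exact mul_le_mul_of_nonneg_left h1 (ee_nonneg S ψ w)
theorem Th_herm (hS : US U S) (ψ : ι → ℝ) (x y : ι) : Th S ψ x y = conj (Th S ψ y x) := by
  have h := hS.unit x y
  have h2 : ((ψ y - ψ x : ℝ) : ℂ) * ∑ z, S x z * conj (S y z) = 0 := by
    rw [h]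
    split_ifs with h'
    · simp [h'.1]
    · simp
  rw [← sub_eq_zero, ← h2]
  simp only [Th, map_sum, map_mul, conj_conj, conj_ofReal, Finset.mul_sum, ← Finset.sum_sub_distrib]
  refine Finset.sum_congr rfl fun z _ => ?_
  push_cast
  ring
theorem Th_row (hS : US U S) (ψ : ι → ℝ) (x : ι) : ∑ y, ‖Th S ψ x y‖ ^ 2 = ee S ψ x := by
  have h := sum_mul_normSq hS fun z => conj (S x z * ((ψ z - ψ x : ℝ) : ℂ))
  have e : ∀ y, ∑ z, S y z * conj (S x z * ((ψ z - ψ x : ℝ) : ℂ)) = conj (Th S ψ x y) := fun y => by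
    simp only [Th, map_sum, map_mul, conj_conj]
    exact Finset.sum_congr rfl fun z _ => by ring
  simp only [e, norm_conj] at h
  rw [h, ee, ← Finset.sum_subset (Finset.subset_univ U) fun z _ hz => by
    rw [pp_zero_right hS x hz, zero_mul]]
  exact Finset.sum_congr rfl fun z _ => by
    rw [norm_mul, mul_pow, norm_real, Real.norm_eq_abs, sq_abs, pp]
theorem Th_diag (S : Mx ι) (ψ : ι → ℝ) (v : ι) : Th S ψ v v = (jj S ψ v : ℂ) := by
  simp only [Th, jj, pp, mul_conj']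
  push_cast
  rfl
theorem Th_zero_right (hS : US U S) (ψ : ι → ℝ) (x : ι) {y : ι} (hy : y ∉ U) :
    Th S ψ x y = 0 := by
  simp [Th, hS.zero y _ hy]

/-- `Th = S diag(ψ) S* - diag(ψ) 1_U`; each part contributes at most `‖u‖²/2`. -/
theorem Th_form (hS : US U S) {ψ : ι → ℝ} (hψ : Half ψ) (u : ι → ℂ) :
    ‖∑ w, ∑ x, conj (u w) * Th S ψ w x * u x‖ ≤ ∑ w, ‖u w‖ ^ 2 := by
  have h1 := sum_mul_normSq_le hS fun w => conj (u w)
  simp only [norm_conj] at h1
  have e : ∑ w, ∑ x, conj (u w) * Th S ψ w x * u x =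
      ∑ z, (ψ z : ℂ) * ((∑ w, S z w * conj (u w)) * conj (∑ w, S z w * conj (u w))) -
        ∑ w, ∑ x, (ψ w : ℂ) * conj (u w) * u x * ∑ z, S w z * conj (S x z) := by
    simp only [map_sum, map_mul, conj_conj, Finset.sum_mul_sum]
    simp only [Finset.mul_sum]
    rw [Finset.sum_comm (γ := ι) (f := fun z w => ∑ x, (ψ z : ℂ) * _), ← Finset.sum_sub_distrib]
    refine Finset.sum_congr rfl fun w _ => ?_
    rw [Finset.sum_comm (γ := ι) (f := fun z x => (ψ z : ℂ) * _), ← Finset.sum_sub_distrib]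
    refine Finset.sum_congr rfl fun x _ => ?_
    rw [Th, Finset.mul_sum, Finset.sum_mul, ← Finset.sum_sub_distrib]
    refine Finset.sum_congr rfl fun z _ => ?_
    rw [hS.symm z w, hS.symm z x]
    push_cast
    ring
  simp only [hS.unit, ite_and, mul_ite, mul_one, mul_zero, Finset.sum_ite_eq, Finset.mem_univ,
    if_true, mul_conj'] at e
  rw [e]
  have h2 := Finset.sum_le_sum (s := Finset.univ) fun z _ => show
      ‖(ψ z : ℂ) * ((‖∑ w, S z w * conj (u w)‖ : ℝ) : ℂ) ^ 2‖ ≤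
        1 / 2 * ‖∑ w, S z w * conj (u w)‖ ^ 2 by
    rw [norm_mul, norm_pow, norm_real, norm_real, norm_norm]
    exact mul_le_mul_of_nonneg_right (hψ z) (sq_nonneg _)
  have h3 := Finset.sum_le_sum (s := Finset.univ) fun w _ => show
      ‖if w ∈ U then (ψ w : ℂ) * conj (u w) * u w else 0‖ ≤ 1 / 2 * ‖u w‖ ^ 2 by
    split_ifs
    · rw [norm_mul, norm_mul, norm_real, norm_conj, mul_assoc, ← sq]
      exact mul_le_mul_of_nonneg_right (hψ w) (sq_nonneg _)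
    · rw [norm_zero]
      positivity
  rw [← Finset.mul_sum] at h2 h3
  refine (norm_sub_le _ _).trans ((add_le_add (norm_sum_le _ _) (norm_sum_le _ _)).trans ?_)
  linarith

theorem ee_congr (hS : US U S) {φ ψ : ι → ℝ} (h : ∀ x ∈ U, φ x = ψ x) (x : ι) :
    ee S φ x = ee S ψ x :=
  Finset.sum_congr rfl fun y _ => by
    by_cases hx : x ∈ U
    · by_cases hy : y ∈ U
      · rw [h x hx, h y hy]
      · simp [pp_zero_right hS x hy]
    · simp [pp_zero_left hS hx]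
theorem FF_congr (hS : US U S) {φ ψ : ι → ℝ} (h : ∀ x ∈ U, φ x = ψ x) : FF S φ = FF S ψ := by
  simp only [FF, ee_congr hS h]
theorem ee_smul (S : Mx ι) (a : ℝ) (ψ : ι → ℝ) (x : ι) :
    ee S (fun y => a * ψ y) x = a ^ 2 * ee S ψ x := by
  rw [ee, ee, Finset.mul_sum]
  exact Finset.sum_congr rfl fun y _ => by ring
theorem FF_smul (S : Mx ι) (a : ℝ) (ψ : ι → ℝ) : FF S (fun y => a * ψ y) = a ^ 2 * FF S ψ := by
  simp only [FF, ee_smul, ← Finset.mul_sum, mul_div_assoc]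
theorem FF_add_smul (S : Mx ι) (φ ψ : ι → ℝ) (a : ℝ) :
    FF S (fun y => φ y + a * ψ y) = FF S φ + 2 * a * BB S φ ψ + a ^ 2 * FF S ψ := by
  simp only [FF, BB, ee, Finset.sum_div, Finset.mul_sum, ← Finset.sum_add_distrib]
  exact Finset.sum_congr rfl fun x _ => Finset.sum_congr rfl fun y _ => by ring
theorem FF_zero (S : Mx ι) : FF S (fun _ => 0) = 0 := by simp [FF, ee]

/-- If `η x * ψ x = 0` on `U` the Dirichlet form is minus the cross term. -/
theorem BB_disj (hS : US U S) {η ψ : ι → ℝ} (h : ∀ x ∈ U, η x * ψ x = 0) :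
    BB S η ψ = -∑ z, ∑ x, pp S z x * (η z * ψ x) := by
  have e : ∀ x y, pp S x y * ((η y - η x) * (ψ y - ψ x)) =
      -(pp S x y * (η x * ψ y)) + -(pp S y x * (η y * ψ x)) := fun x y => by
    rw [pp_symm hS y x]
    by_cases hx : x ∈ U
    · by_cases hy : y ∈ U
      · linear_combination pp S x y * h x hx + pp S x y * h y hy
      · simp [pp_zero_right hS x hy]
    · simp [pp_zero_left hS hx]
  simp only [BB, e, Finset.sum_add_distrib, Finset.sum_neg_distrib]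
  rw [Finset.sum_comm (f := fun x y => pp S y x * (η y * ψ x))]
  ring
theorem ee_ind_mem (S : Mx ι) {A : Finset ι} {x : ι} (hx : x ∈ A) :
    ee S (ind A) x = pset S x Aᶜ := by
  rw [ee, pset, ← Finset.sum_add_sum_compl A, Finset.sum_eq_zero fun y hy => by simp [ind, hx, hy],
    zero_add]
  exact Finset.sum_congr rfl fun y hy => by simp [ind, hx, Finset.mem_compl.1 hy]
theorem FF_ind (hS : US U S) (A : Finset ι) : FF S (ind A) = ∑ x ∈ A, pset S x Aᶜ := by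
  have e : ∀ x ∈ Aᶜ, ee S (ind A) x = ∑ y ∈ A, pp S y x := fun x hx => by
    have hx' := Finset.mem_compl.1 hx
    rw [ee, ← Finset.sum_add_sum_compl A, Finset.sum_eq_zero (s := Aᶜ) fun y hy => by
      simp [ind, hx', Finset.mem_compl.1 hy], add_zero]
    exact Finset.sum_congr rfl fun y hy => by simp [ind, hx', hy, pp_symm hS x y]
  rw [FF, ← Finset.sum_add_sum_compl A, Finset.sum_congr rfl e, Finset.sum_comm,
    Finset.sum_congr rfl fun x hx => ee_ind_mem S hx]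
  simp only [pset]
  ring
theorem FF_ind_single (hS : US U S) (x : ι) : FF S (ind {x}) = sv S x := by
  rw [FF_ind hS, Finset.sum_singleton, pset, sv, Finset.compl_singleton]

theorem energy_aux (hS : US U S) (C : Finset ι) (ψ : ι → ℝ) : 2 * FF S ψ ≤
    2 * ∑ x ∈ C, ee S ψ x + ∑ x ∈ Cᶜ, ∑ y ∈ Cᶜ, pp S x y * (ψ y - ψ x) ^ 2 := by
  have h1 := sum_ee_compl S ψ C
  have h2 : ∑ x ∈ Cᶜ, ee S ψ x = ∑ x ∈ Cᶜ, ∑ y ∈ C, pp S x y * (ψ y - ψ x) ^ 2 +
      ∑ x ∈ Cᶜ, ∑ y ∈ Cᶜ, pp S x y * (ψ y - ψ x) ^ 2 := by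
    simp only [← Finset.sum_add_distrib, Finset.sum_add_sum_compl, ee]
  have h3 : ∑ x ∈ Cᶜ, ∑ y ∈ C, pp S x y * (ψ y - ψ x) ^ 2 ≤ ∑ y ∈ C, ee S ψ y := by
    rw [Finset.sum_comm]
    refine Finset.sum_le_sum fun y _ => (Finset.sum_le_sum fun x _ => le_of_eq ?_).trans
      (Finset.sum_le_sum_of_subset_of_nonneg (Finset.subset_univ _)
        fun x _ _ => mul_nonneg (pp_nonneg S y x) (sq_nonneg _))
    rw [pp_symm hS]
    ring
  linarith

/-- `2F = Σ_C ee + Σ_{x∉C} Σ_{y∈C} P ψ_y² ≤ 2 Σ_C ee`. -/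
theorem energy0 (hS : US U S) (C : Finset ι) {ψ : ι → ℝ} (hψ : ∀ x ∈ U, x ∉ C → ψ x = 0) :
    FF S ψ ≤ ∑ x ∈ C, ee S ψ x := by
  have := energy_aux hS C ψ
  rw [Finset.sum_eq_zero (s := Cᶜ) fun x hx => Finset.sum_eq_zero fun y hy => ?_] at this
  · linarith
  by_cases hx' : x ∈ U
  · by_cases hy' : y ∈ U
    · simp [hψ x hx' (Finset.mem_compl.1 hx), hψ y hy' (Finset.mem_compl.1 hy)]
    · simp [pp_zero_right hS x hy']
  · simp [pp_zero_left hS hx']

/-- Pairs with an end in `C` cost at most `2 Σ_C ee`; the others join `A` to `B`. -/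
theorem energy1 (hS : US U S) (C A B : Finset ι) {ψ : ι → ℝ}
    (hψ : ∀ x, x ∉ C → (x ∈ A ∧ ψ x = 1) ∨ (x ∈ B ∧ ψ x = 0)) :
    FF S ψ ≤ ∑ x ∈ C, ee S ψ x + ∑ x ∈ A, pset S x B := by
  have h1 := energy_aux hS C ψ
  have n : ∀ x y, 0 ≤ pp S x y * (ind A x * ind B y) := fun x y => by
    have := pp_nonneg S x y
    unfold ind
    positivity
  have h2 : ∑ x ∈ Cᶜ, ∑ y ∈ Cᶜ, pp S x y * (ψ y - ψ x) ^ 2 ≤ ∑ x, ∑ y,
      (pp S x y * (ind A x * ind B y) + pp S y x * (ind A y * ind B x)) := by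
    refine (Finset.sum_le_sum fun x hx => (Finset.sum_le_sum fun y hy => ?_).trans
      (Finset.sum_le_sum_of_subset_of_nonneg (Finset.subset_univ _)
        fun y _ _ => add_nonneg (n x y) (n y x))).trans (Finset.sum_le_sum_of_subset_of_nonneg
          (Finset.subset_univ _) fun x _ _ => Finset.sum_nonneg fun y _ => add_nonneg (n x y) (n y x))
    have a := n x y
    have b := n y x
    rw [pp_symm hS y x] at b ⊢
    rcases hψ x (Finset.mem_compl.1 hx) with ⟨a1, a2⟩ | ⟨a1, a2⟩ <;>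
      rcases hψ y (Finset.mem_compl.1 hy) with ⟨b1, b2⟩ | ⟨b1, b2⟩ <;>
      rw [a2, b2] <;> simp only [ind, a1, b1, if_true] at a b ⊢ <;> linarith
  have h3 : ∑ x, ∑ y, pp S x y * (ind A x * ind B y) = ∑ x ∈ A, pset S x B := by
    simp [ind, pset, Finset.sum_ite_mem]
  simp only [Finset.sum_add_distrib] at h2
  rw [Finset.sum_comm (f := fun x y => pp S y x * (ind A y * ind B x)), h3] at h2
  linarith

/-- If `N = 0` every `sv` on `Γ` vanishes and any point works; otherwise sum the negation over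
`U ∩ Γ` (`sv = 0` off `U`). -/
theorem greedy (hS : US U S) {Γ : Finset ι} (hne : (U ∩ Γ).Nonempty) (e : ι → ℝ)
    (he0 : ∀ x, 0 ≤ e x) (hes : ∀ x, sv S x = 0 → e x = 0) {Y : ℝ} (hY : ∑ x ∈ Γ, e x ≤ 2 * Y) :
    ∃ v ∈ U ∩ Γ, e v ≤ 2 * Y * sv S v / NN S Γ := by
  have z : ∀ {f : ι → ℝ}, (∀ x, sv S x = 0 → f x = 0) → ∑ x ∈ U ∩ Γ, f x = ∑ x ∈ Γ, f x :=
    fun hf => Finset.sum_subset Finset.inter_subset_right fun x hx hx' =>
      hf x (sv_zero hS fun h => hx' (Finset.mem_inter.2 ⟨h, hx⟩))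
  rcases (NN_nonneg S Γ).eq_or_lt with h | h
  · obtain ⟨v, hv⟩ := hne
    have := (Finset.sum_eq_zero_iff_of_nonneg fun w _ => sv_nonneg S w).1 h.symm v
      (Finset.mem_inter.1 hv).2
    exact ⟨v, hv, by simp [hes v this, this]⟩
  · refine Finset.exists_le_of_sum_le hne ?_
    rw [z hes, z fun x hx => by simp [hx], ← Finset.sum_div, ← Finset.mul_sum, ← NN,
      mul_div_cancel_right₀ _ h.ne']
    exact hY

theorem al_nonneg (S : Mx ι) (Γ : Finset ι) (ψ : ι → ℝ) : 0 ≤ al S Γ ψ :=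
  Finset.sum_nonneg fun _ _ => Finset.sum_nonneg fun _ _ => sq_nonneg _
theorem al_le_sum (hS : US U S) (Γ : Finset ι) (ψ : ι → ℝ) :
    al S Γ ψ ≤ ∑ x ∈ Γ, ee S ψ x :=
  Finset.sum_le_sum fun w _ => (Finset.sum_le_sum_of_subset_of_nonneg (Finset.subset_univ Γ)
    fun _ _ _ => sq_nonneg _).trans_eq (Th_row hS ψ w)
theorem al_le_FF (hS : US U S) (Γ : Finset ι) (ψ : ι → ℝ) : al S Γ ψ ≤ 2 * FF S ψ :=
  (al_le_sum hS Γ ψ).trans (sum_ee_le S ψ Γ)
theorem al_le_NN (hS : US U S) (Γ : Finset ι) {ψ : ι → ℝ} (hψ : Osc ψ) :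
    al S Γ ψ ≤ NN S Γ :=
  (al_le_sum hS Γ ψ).trans (Finset.sum_le_sum fun x _ => ee_le_sv S hψ x)
theorem qq_nonneg (S : Mx ι) (Γ : Finset ι) (ψ : ι → ℝ) : 0 ≤ qq S Γ ψ :=
  Finset.sum_nonneg fun w _ => div_nonneg (sq_nonneg _) (sv_nonneg S w)
theorem qq_le_NN (hS : US U S) (Γ : Finset ι) {ψ : ι → ℝ} (hψ : Osc ψ) :
    qq S Γ ψ ≤ NN S Γ :=
  Finset.sum_le_sum fun w _ => div_le_of_le_mul₀ (sv_nonneg S w) (sv_nonneg S w) (by
    rw [← sq]
    exact pow_le_pow_left₀ (norm_nonneg _) ((norm_MM_le hS ψ w).trans (ee_le_sv S hψ w)) 2)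
theorem NN_zero (hS : US U S) {Γ : Finset ι} (h : Disjoint U Γ) : NN S Γ = 0 :=
  Finset.sum_eq_zero fun _ hw => sv_zero hS (Finset.disjoint_right.1 h hw)

end Vale.Agent.P365
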