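import Vale.Agent.P365.Defs

namespace Vale.Agent.P365

open MeasureTheory ProbabilityTheory Complex Filter
open scoped ComplexConjugate ENNReal

variable {ι : Type} [Fintype ι] [DecidableEq ι]

theorem rr_nonneg (o p : ℤ × ℤ) : 0 ≤ rr o p := le_max_of_le_left (abs_nonneg _)
theorem rr_symm (o p : ℤ × ℤ) : rr o p = rr p o := by
  rw [rr, rr, abs_sub_comm p.1, abs_sub_comm p.2]
theorem rr_self (o : ℤ × ℤ) : rr o o = 0 := by simp [rr]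
theorem geo_le {o p : ℤ × ℤ} {n : ℤ} :
    rr o p ≤ n ↔ (-n ≤ p.1 - o.1 ∧ p.1 - o.1 ≤ n) ∧ -n ≤ p.2 - o.2 ∧ p.2 - o.2 ≤ n := by
  rw [rr, max_le_iff, abs_le, abs_le]
theorem rr_triangle (o p q : ℤ × ℤ) : rr o q ≤ rr o p + rr p q := by
  have h1 := geo_le.1 (le_refl (rr o p))
  have h2 := geo_le.1 (le_refl (rr p q))
  rw [geo_le]
  omega
theorem rr_pos {o p : ℤ × ℤ} (h : o ≠ p) : 1 ≤ rr o p := by
  by_contra hc
  have h1 := (geo_le (o := o) (p := p) (n := 0)).1 (by omega)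
  exact h (Prod.ext (by omega) (by omega))
theorem mem_bal {pos : ι → ℤ × ℤ} {o : ℤ × ℤ} {n : ℤ} {x : ι} :
    x ∈ bal pos o n ↔ rr o (pos x) ≤ n := by simp [bal]
theorem mem_rng {pos : ι → ℤ × ℤ} {o : ℤ × ℤ} {m n : ℤ} {x : ι} :
    x ∈ rng pos o m n ↔ m < rr o (pos x) ∧ rr o (pos x) ≤ n := by simp [rng]
theorem card_bal {pos : ι → ℤ × ℤ} (hpos : Function.Injective pos) (o : ℤ × ℤ) {n : ℤ}
    (hn : 0 ≤ n) : ((bal pos o n).card : ℝ) ≤ (2 * (n : ℝ) + 1) ^ 2 := by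
  have h1 : (bal pos o n).card ≤
      (Finset.Icc (o.1 - n) (o.1 + n) ×ˢ Finset.Icc (o.2 - n) (o.2 + n)).card :=
    Finset.card_le_card_of_injOn pos (fun x hx => by
      have := geo_le.1 (mem_bal.1 (Finset.mem_coe.1 hx))
      simp only [Finset.coe_product, Finset.coe_Icc, Set.mem_prod, Set.mem_Icc]
      omega) hpos.injOn
  rw [Finset.card_product, Int.card_Icc, Int.card_Icc] at h1
  have h2 : ((2 * n + 1).toNat : ℤ) = 2 * n + 1 := Int.toNat_of_nonneg (by omega)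
  rw [show o.1 + n + 1 - (o.1 - n) = 2 * n + 1 by ring,
    show o.2 + n + 1 - (o.2 - n) = 2 * n + 1 by ring] at h1
  have h3 : ((bal pos o n).card : ℤ) ≤ (2 * n + 1) ^ 2 := by
    rw [← h2, sq]
    exact_mod_cast h1
  exact_mod_cast h3

theorem tent_nonneg (o : ℤ × ℤ) (a w : ℤ) (p : ℤ × ℤ) : 0 ≤ tent o a w p := le_max_left _ _
theorem tent_le_one (o : ℤ × ℤ) (a w : ℤ) (p : ℤ × ℤ) : tent o a w p ≤ 1 :=
  max_le zero_le_one (min_le_left _ _)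
theorem tent_one {o : ℤ × ℤ} {a w : ℤ} (hw : 0 < w) {p : ℤ × ℤ} (h : rr o p ≤ a) :
    tent o a w p = 1 := by
  have h1 : (0 : ℝ) < w := by exact_mod_cast hw
  have h2 : (w : ℝ) ≤ ((a + w - rr o p : ℤ) : ℝ) := by exact_mod_cast (by omega)
  rw [tent, min_eq_left ((one_le_div h1).2 h2), max_eq_right zero_le_one]
theorem tent_zero {o : ℤ × ℤ} {a w : ℤ} (hw : 0 < w) {p : ℤ × ℤ} (h : a + w ≤ rr o p) :
    tent o a w p = 0 := by
  have h1 : (0 : ℝ) < w := by exact_mod_cast hw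
  have h2 : ((a + w - rr o p : ℤ) : ℝ) ≤ 0 := by exact_mod_cast (by omega)
  exact max_eq_left (min_le_of_right_le (div_nonpos_of_nonpos_of_nonneg h2 h1.le))
theorem tent_lip (o : ℤ × ℤ) (a : ℤ) {w : ℤ} (hw : 0 < w) (p q : ℤ × ℤ) :
    |tent o a w q - tent o a w p| ≤ (rr p q : ℝ) / w := by
  have h1 : (0 : ℝ) < w := by exact_mod_cast hw
  have h2 : |((a + w - rr o q : ℤ) : ℝ) - ((a + w - rr o p : ℤ) : ℝ)| ≤ (rr p q : ℝ) := by
    have h3 := rr_triangle o p q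
    have h4 := rr_triangle o q p
    rw [rr_symm q p] at h4
    exact_mod_cast abs_le.2 ⟨by omega, by omega⟩
  rw [tent, tent, max_comm 0, max_comm 0]
  refine (abs_max_sub_max_le_abs _ _ _).trans ((abs_min_sub_min_le_max _ _ _ _).trans ?_)
  rw [sub_self, abs_zero, max_eq_right (abs_nonneg _), ← sub_div, abs_div, abs_of_pos h1]
  exact div_le_div_of_nonneg_right h2 h1.le
theorem lip_tent (o : ℤ × ℤ) (a : ℤ) {w : ℤ} (hw : 0 < w) :
    Lip fun p => (w : ℝ) * tent o a w p := fun p q => by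
  have h1 : (0 : ℝ) < w := by exact_mod_cast hw
  rw [← mul_sub, abs_mul, abs_of_pos h1, mul_comm]
  exact (le_div_iff₀ h1).1 (tent_lip o a hw p q)

theorem cutf_abs_le (pos : ι → ℤ × ℤ) {Φ : ℤ × ℤ → ℝ} (hΦ : Lip Φ) (o : ℤ × ℤ) {n : ℤ}
    (hn : 0 ≤ n) (x : ι) : |cutf pos Φ o n x| ≤ n := by
  unfold cutf
  split_ifs with h
  · exact (hΦ _ _).trans (by exact_mod_cast h)
  · rw [abs_zero]
    exact_mod_cast hn
theorem cutf_zero (pos : ι → ℤ × ℤ) (Φ : ℤ × ℤ → ℝ) (o : ℤ × ℤ) {n : ℤ} {x : ι}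
    (hx : x ∉ bal pos o n) : cutf pos Φ o n x = 0 := if_neg (mt mem_bal.2 hx)
theorem cutf_sub (pos : ι → ℤ × ℤ) (Φ : ℤ × ℤ → ℝ) (o : ℤ × ℤ) {n : ℤ} {x y : ι}
    (hx : x ∈ bal pos o n) (hy : y ∈ bal pos o n) :
    cutf pos Φ o n y - cutf pos Φ o n x = Φ (pos y) - Φ (pos x) := by
  rw [cutf, cutf, if_pos (mem_bal.1 hx), if_pos (mem_bal.1 hy)]
  ring

theorem rr_ctr (o : ℤ × ℤ) {ρ : ℤ} (hρ : 0 ≤ ρ) (a b : ℤ × ℤ) :
    rr (ctr o ρ a) (ctr o ρ b) = (2 * ρ + 1) * rr a b := by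
  have h1 : 0 ≤ 2 * ρ + 1 := by omega
  simp only [rr, ctr, add_sub_add_left_eq_sub, ← mul_sub, abs_mul, abs_of_nonneg h1]
  exact (mul_max_of_nonneg _ _ h1).symm
theorem ctr_zero (o : ℤ × ℤ) (ρ : ℤ) : ctr o ρ 0 = o := by simp [ctr]
/-- Take `a = (p - o + ρ) / (2ρ+1)` coordinatewise. -/
theorem tile (o : ℤ × ℤ) {ρ : ℤ} (hρ : 0 ≤ ρ) (p : ℤ × ℤ) : ∃ a, rr (ctr o ρ a) p ≤ ρ := by
  have h1 : 0 < 2 * ρ + 1 := by omega
  have h2 : ∀ x : ℤ, -ρ ≤ x - (2 * ρ + 1) * ((x + ρ) / (2 * ρ + 1)) ∧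
      x - (2 * ρ + 1) * ((x + ρ) / (2 * ρ + 1)) ≤ ρ := fun x => by
    have h3 := Int.emod_add_mul_ediv (x + ρ) (2 * ρ + 1)
    have h4 := Int.emod_nonneg (x + ρ) h1.ne'
    have h5 := Int.emod_lt_of_pos (x + ρ) h1
    constructor <;> linarith
  refine ⟨((p.1 - o.1 + ρ) / (2 * ρ + 1), (p.2 - o.2 + ρ) / (2 * ρ + 1)), geo_le.2 ?_⟩
  simp only [ctr, ← sub_sub]
  exact ⟨h2 _, h2 _⟩
theorem rr_ctr_le (o : ℤ × ℤ) {ρ : ℤ} (hρ : 0 ≤ ρ) (a p : ℤ × ℤ) :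
    (2 * ρ + 1) * rr 0 a - rr (ctr o ρ a) p ≤ rr o p ∧
      rr o p ≤ (2 * ρ + 1) * rr 0 a + rr (ctr o ρ a) p := by
  have h1 := rr_ctr o hρ 0 a
  rw [ctr_zero] at h1
  have h2 := rr_triangle o p (ctr o ρ a)
  have h3 := rr_triangle o (ctr o ρ a) p
  rw [rr_symm p] at h2
  constructor <;> linarith
theorem mem_box {n : ℕ} {p : ℤ × ℤ} : p ∈ box n ↔ rr 0 p ≤ n := by
  simp [box, geo_le, Finset.mem_product]
theorem card_box (n : ℕ) : ((box n).card : ℝ) = (2 * (n : ℝ) + 1) ^ 2 := by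
  rw [box, Finset.card_product, Int.card_Icc, show ((n : ℤ) + 1 - -(n : ℤ)).toNat = 2 * n + 1 by omega]
  push_cast
  ring
theorem mem_innr {pos : ι → ℤ × ℤ} {o : ℤ × ℤ} {ρ h : ℤ} {A : Finset (ℤ × ℤ)} {x : ι} :
    x ∈ innr pos o ρ h A ↔ ∃ a ∈ A, rr (ctr o ρ a) (pos x) ≤ ρ - h := by
  simp [innr, mem_bal]
theorem sum_le_cells (pos : ι → ℤ × ℤ) (o : ℤ × ℤ) (ρ : ℤ) (A : Finset (ℤ × ℤ)) (C : Finset ι)
    (hC : ∀ x ∈ C, ∃ a ∈ A, x ∈ bal pos (ctr o ρ a) ρ) (f : ι → ℝ) (hf : ∀ x, 0 ≤ f x) :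
    ∑ x ∈ C, f x ≤ ∑ a ∈ A, ∑ x ∈ bal pos (ctr o ρ a) ρ, f x := by
  have h1 : ∀ a, ∑ x ∈ bal pos (ctr o ρ a) ρ, f x =
      ∑ x, if x ∈ bal pos (ctr o ρ a) ρ then f x else 0 := fun a => by
    rw [Finset.sum_ite_mem, Finset.univ_inter]
  have h2 : ∀ a x, 0 ≤ if x ∈ bal pos (ctr o ρ a) ρ then f x else 0 := fun a x => by
    split_ifs
    exacts [hf x, le_rfl]
  simp only [h1]
  rw [Finset.sum_comm]
  refine le_trans (Finset.sum_le_sum fun x hx => ?_) (Finset.sum_le_sum_of_subset_of_nonneg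
    (Finset.subset_univ C) fun x _ _ => Finset.sum_nonneg fun a _ => h2 a x)
  obtain ⟨a, ha, h3⟩ := hC x hx
  exact (if_pos h3).ge.trans (Finset.single_le_sum (fun a _ => h2 a x) ha)

theorem geo_int : Summable fun n : ℤ => (1 + |(n : ℝ)|) ^ (-(9 / 8) : ℝ) := by
  have h1 : Summable fun n : ℕ => (1 + (n : ℝ)) ^ (-(9 / 8) : ℝ) := by
    have := (summable_nat_add_iff 1).2 (Real.summable_nat_rpow.2 (by norm_num : -(9 / 8) < (-1 : ℝ)))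
    simpa [add_comm] using this
  exact Summable.of_nat_of_neg (by simpa using h1) (by simpa using h1)

theorem geo_zero : Summable fun p : ℤ × ℤ => (1 + (rr 0 p : ℝ)) ^ (-(9 / 4) : ℝ) := by
  refine Summable.of_nonneg_of_le (fun p => Real.rpow_nonneg ?_ _) (fun p => ?_)
    (geo_int.mul_of_nonneg geo_int (fun n => by positivity) fun n => by positivity)
  · have : (0 : ℝ) ≤ rr 0 p := by exact_mod_cast rr_nonneg 0 p
    positivity
  · have h1 : |(p.1 : ℝ)| ≤ rr 0 p := by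
      exact_mod_cast (show |p.1| ≤ rr 0 p by simp [rr])
    have h2 : |(p.2 : ℝ)| ≤ rr 0 p := by
      exact_mod_cast (show |p.2| ≤ rr 0 p by simp [rr])
    have h3 : (0 : ℝ) < 1 + rr 0 p := by linarith [abs_nonneg (p.1 : ℝ)]
    rw [show (-(9 / 4) : ℝ) = -(9 / 8) + -(9 / 8) by norm_num, Real.rpow_add h3]
    exact mul_le_mul (Real.rpow_le_rpow_of_nonpos (by positivity) (by linarith) (by norm_num))
      (Real.rpow_le_rpow_of_nonpos (by positivity) (by linarith) (by norm_num))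
      (Real.rpow_nonneg h3.le _) (by positivity)

theorem geo_shift (o p : ℤ × ℤ) : rr o p = rr 0 (Equiv.subRight o p) := by simp [rr]

/-- `(1 + max a b)^(9/4) ≥ (1 + a)^(9/8) (1 + b)^(9/8)`; product of two summable families
over the integers. -/
theorem summable_rr (o : ℤ × ℤ) :
    Summable fun p : ℤ × ℤ => (1 + (rr o p : ℝ)) ^ (-(9 / 4) : ℝ) := by
  simp only [geo_shift o]
  exact (Equiv.subRight o).summable_iff.2 geo_zero

/-- Uniform in `o` by translation. -/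
theorem sum_rr_le : ∃ C : ℝ, 0 ≤ C ∧ ∀ (o : ℤ × ℤ) (A : Finset (ℤ × ℤ)),
    ∑ p ∈ A, (1 + (rr o p : ℝ)) ^ (-(9 / 4) : ℝ) ≤ C := by
  have h0 : ∀ o p : ℤ × ℤ, 0 ≤ (1 + (rr o p : ℝ)) ^ (-(9 / 4) : ℝ) := fun o p => by
    have : (0 : ℝ) ≤ rr o p := by exact_mod_cast rr_nonneg o p
    positivity
  refine ⟨∑' p : ℤ × ℤ, (1 + (rr 0 p : ℝ)) ^ (-(9 / 4) : ℝ), tsum_nonneg (h0 0), fun o A => ?_⟩
  refine ((summable_rr o).sum_le_tsum A fun p _ => h0 o p).trans_eq ?_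
  simp only [geo_shift o]
  exact (Equiv.subRight o).tsum_eq fun p => (1 + (rr 0 p : ℝ)) ^ (-(9 / 4) : ℝ)

end Vale.Agent.P365
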