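import Vale.Agent.P365.St
import Vale.Agent.P365.Cls2
import Vale.Agent.P365.Geo

namespace Vale.Agent.P365

open MeasureTheory ProbabilityTheory Complex Filter
open scoped ComplexConjugate ENNReal

variable {ι : Type} [Fintype ι] [DecidableEq ι]

variable {μ : ℝ} {H : Matrix ι ι ℝ} {pos : ι → ℤ × ℤ} {U : Finset ι} {c : ι → ℝ}

theorem ct0_w {a b m p q : ℝ} (h : |a - b| ≤ m) (hp : 0 ≤ p) (hq : 0 ≤ q) :
    |Real.exp (2 * a) - Real.exp (2 * b)| * (p * q) ≤
      Real.sinh m * (Real.exp (2 * a) * p ^ 2 + Real.exp (2 * b) * q ^ 2) := by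
  have e : Real.exp (2 * a) - Real.exp (2 * b) =
      2 * (Real.exp a * Real.exp b) * Real.sinh (a - b) := by
    rw [Real.sinh_eq, neg_sub, Real.exp_sub, Real.exp_sub, two_mul, two_mul b, Real.exp_add,
      Real.exp_add]
    field_simp
  have h1 : |Real.sinh (a - b)| ≤ Real.sinh m := by
    rw [Real.abs_sinh]
    exact Real.sinh_le_sinh.2 h
  have h2 : 2 * (Real.exp a * p * (Real.exp b * q)) ≤
      Real.exp (2 * a) * p ^ 2 + Real.exp (2 * b) * q ^ 2 := by
    rw [two_mul a, two_mul b, Real.exp_add, Real.exp_add]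
    nlinarith [sq_nonneg (Real.exp a * p - Real.exp b * q)]
  rw [e, abs_mul, abs_of_pos (by positivity)]
  calc _ = |Real.sinh (a - b)| * (2 * (Real.exp a * p * (Real.exp b * q))) := by ring
    _ ≤ _ := mul_le_mul h1 h2 (by positivity) ((abs_nonneg _).trans h1)

theorem ct0_im (x y : ℂ) : |(conj x * y).im| ≤ ‖x‖ * ‖y‖ := by
  simpa using abs_im_le_norm (conj x * y)

/-- Combes-Thomas. Let `a = μ f`, `g = K⁻¹ u`, `g' = e^a g`. Then
`Σ_x conj (g' x) e^(a x) u x = Σ_{x,y} conj (g' x) H x y e^(a x - a y) g' y + Σ_x dd x ‖g' x‖²`.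
Imaginary part: the diagonal gives `-Σ_U ‖g'‖²`; symmetrising, the hopping gives
`Σ H x y sinh (a x - a y) im (conj (g' x) g' y)`, where only bonds inside `U` contribute, bounded by
`sinh μ Σ |H x y| (‖g' x‖² + ‖g' y‖²)/2 ≤ Σ_U ‖g'‖²/2`. Then Cauchy-Schwarz. -/
theorem ct_G (hs : Sys μ H pos) (hg : Good H U c) {f : ι → ℝ} (hf : Adm H U f) (u : ι → ℂ)
    (hu : ∀ z, z ∉ U → u z = 0) :
    ∑ y ∈ U, Real.exp (2 * μ * f y) * ‖∑ z, (Kmat H U c)⁻¹ y z * u z‖ ^ 2 ≤
      4 * ∑ z, Real.exp (2 * μ * f z) * ‖u z‖ ^ 2 := by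
  obtain ⟨g, hg'⟩ : ∃ g : ι → ℂ, ∀ y, ∑ z, (Kmat H U c)⁻¹ y z * u z = g y := ⟨_, fun _ => rfl⟩
  have hK : ∀ x, u x = ∑ y, (H x y : ℂ) * g y + dd U c x * g x := fun x => by
    have h1 : (Kmat H U c).mulVec ((Kmat H U c)⁻¹.mulVec u) = u := by
      rw [Matrix.mulVec_mulVec, Matrix.mul_nonsing_inv _ (isUnit_iff_ne_zero.2 hg),
        Matrix.one_mulVec]
    have h2 : (Kmat H U c)⁻¹.mulVec u = g := funext hg'
    rw [h2, Kmat, Kgen, Matrix.add_mulVec] at h1
    rw [← congrFun h1 x, Pi.add_apply, Matrix.mulVec_diagonal]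
    rfl
  simp only [hg', mul_assoc 2 μ]
  obtain ⟨w, hw⟩ : ∃ w : ι → ℝ, ∀ x, Real.exp (2 * (μ * f x)) = w x := ⟨_, fun _ => rfl⟩
  obtain ⟨P, hP⟩ : ∃ P : ι → ℝ, ∀ x, (if x ∈ U then w x * ‖g x‖ ^ 2 else 0) = P x :=
    ⟨_, fun _ => rfl⟩
  have hw0 : ∀ x, 0 ≤ w x := fun x => hw x ▸ (Real.exp_pos _).le
  have hP0 : ∀ x, 0 ≤ P x := fun x => by
    rw [← hP]
    split_ifs
    · exact mul_nonneg (hw0 x) (sq_nonneg _)
    · exact le_rfl
  have hsh := (Real.sinh_pos_iff.2 hs.mu_pos).le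
  have hH : ∀ x y, H y x = H x y := fun x y => hs.symm.apply x y
  have h1 : ∀ x, P x ≤ ∑ y, w x * (H x y * (conj (g x) * g y).im) +
      (P x / 4 + w x * ‖u x‖ ^ 2) := fun x => by
    have e : w x * (conj (g x) * u x).im = ∑ y, w x * (H x y * (conj (g x) * g y).im) - P x := by
      rw [hK x, mul_add, add_im, Finset.mul_sum, im_sum, mul_add, Finset.mul_sum, ← hP, dd,
        sub_eq_add_neg]
      congr 1
      · exact Finset.sum_congr rfl fun y _ => by rw [mul_left_comm (conj _), im_ofReal_mul]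
      · rw [mul_left_comm, conj_mul', ← ofReal_pow]
        split_ifs <;> simp [-ofReal_pow]
    by_cases hx : x ∈ U
    · have h2 := mul_le_mul_of_nonneg_left (neg_le_of_abs_le (ct0_im (g x) (u x))) (hw0 x)
      have h3 := mul_nonneg (hw0 x) (sq_nonneg (‖g x‖ / 2 - ‖u x‖))
      have h4 := hP x
      rw [if_pos hx] at h4
      nlinarith
    · rw [hu x hx, mul_zero, zero_im, mul_zero] at e
      rw [hu x hx, norm_zero]
      nlinarith [hP0 x]
  have h2 : ∀ x y, w x * (H x y * (conj (g x) * g y).im) + w y * (H y x * (conj (g y) * g x).im) ≤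
      (if y = x then 0 else |H x y|) * Real.sinh μ * P x +
        (if x = y then 0 else |H y x|) * Real.sinh μ * P y := fun x y => by
    have e : (conj (g y) * g x).im = -(conj (g x) * g y).im := by
      simp only [mul_im, conj_re, conj_im]
      ring
    rw [hH x y, e]
    by_cases hxy : x = y
    · subst hxy
      rw [if_pos rfl]
      linarith
    rw [if_neg hxy, if_neg (Ne.symm hxy)]
    have p0 := mul_nonneg (mul_nonneg (abs_nonneg (H x y)) hsh) (add_nonneg (hP0 x) (hP0 y))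
    by_cases h0 : H x y = 0
    · simp [h0]
    obtain ⟨h3, h4⟩ := hf x y hxy h0
    by_cases hU : x ∈ U ∧ y ∈ U
    · have h5 := ct0_w (a := μ * f x) (b := μ * f y) (m := μ) (by
        rw [← mul_sub, abs_mul, abs_of_pos hs.mu_pos]
        exact mul_le_of_le_one_right hs.mu_pos.le h3) (norm_nonneg (g x)) (norm_nonneg (g y))
      rw [hw, hw] at h5
      have h6 := (mul_le_mul_of_nonneg_left (ct0_im (g x) (g y)) (abs_nonneg (w x - w y))).trans h5
      have h7 := le_abs_self (H x y * ((w x - w y) * (conj (g x) * g y).im))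
      rw [abs_mul, abs_mul] at h7
      have h8 := mul_le_mul_of_nonneg_left h6 (abs_nonneg (H x y))
      rw [← hP, ← hP, if_pos hU.1, if_pos hU.2]
      linarith
    · have h5 : w x = w y := by rw [← hw, ← hw, h4 (not_and_or.1 hU)]
      rw [h5]
      linarith
  have h3 : ∀ x, ∑ y, (if y = x then 0 else |H x y|) * Real.sinh μ * P x ≤ P x / 2 := fun x => by
    have e : ∑ y, (if y = x then 0 else |H x y|) = ∑ y ∈ Finset.univ.erase x, |H x y| := by
      rw [← Finset.add_sum_erase _ _ (Finset.mem_univ x), if_pos rfl, zero_add]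
      exact Finset.sum_congr rfl fun y hy => if_neg (Finset.ne_of_mem_erase hy)
    rw [← Finset.sum_mul, ← Finset.sum_mul, e]
    linarith [mul_le_mul_of_nonneg_right (hs.row x) (hP0 x)]
  have h4 := Finset.sum_le_sum fun x (_ : x ∈ Finset.univ) =>
    Finset.sum_le_sum fun y (_ : y ∈ Finset.univ) => h2 x y
  simp only [Finset.sum_add_distrib] at h4
  rw [Finset.sum_comm (f := fun x y => w y * (H y x * (conj (g y) * g x).im)),
    Finset.sum_comm (f := fun x y => (if x = y then 0 else |H y x|) * Real.sinh μ * P y)] at h4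
  have h5 := Finset.sum_le_sum fun x (_ : x ∈ Finset.univ) => h3 x
  have h6 := Finset.sum_le_sum fun x (_ : x ∈ Finset.univ) => h1 x
  simp only [Finset.sum_add_distrib, ← Finset.sum_div] at h5 h6
  have e : ∑ y ∈ U, w y * ‖g y‖ ^ 2 = ∑ y, P y := by
    simp only [← hP, Finset.sum_ite_mem, Finset.univ_inter]
  simp only [hw, e]
  linarith

/-- `S u = 1_U u + 2 i 1_U G 1_U u` and `‖a + b‖² ≤ 5 ‖a‖² + (5/4) ‖b‖²`. -/
theorem ct_op (hs : Sys μ H pos) (hg : Good H U c) {f : ι → ℝ} (hf : Adm H U f) (u : ι → ℂ) :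
    ∑ y, Real.exp (2 * μ * f y) * ‖∑ z, Smat H U c y z * u z‖ ^ 2 ≤
      25 * ∑ z, Real.exp (2 * μ * f z) * ‖u z‖ ^ 2 := by
  have h1 := ct_G hs hg hf (fun z => if z ∈ U then u z else 0) fun z hz => if_neg hz
  have h2 : ∑ z, Real.exp (2 * μ * f z) * ‖if z ∈ U then u z else 0‖ ^ 2 ≤
      ∑ z, Real.exp (2 * μ * f z) * ‖u z‖ ^ 2 := Finset.sum_le_sum fun z _ => by
    split_ifs
    · exact le_rfl
    · rw [norm_zero, zero_pow two_ne_zero, mul_zero]
      positivity
  have h3 : ∀ y, Real.exp (2 * μ * f y) * ‖∑ z, Smat H U c y z * u z‖ ^ 2 ≤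
      5 * (Real.exp (2 * μ * f y) * ‖u y‖ ^ 2) + 5 * if y ∈ U then Real.exp (2 * μ * f y) *
        ‖∑ z, (Kmat H U c)⁻¹ y z * if z ∈ U then u z else 0‖ ^ 2 else 0 := fun y => by
    by_cases hy : y ∈ U
    · have e : ∑ z, Smat H U c y z * u z =
          u y + 2 * I * ∑ z, (Kmat H U c)⁻¹ y z * if z ∈ U then u z else 0 := by
        rw [Finset.mul_sum, ← Finset.sum_ite_eq_of_mem Finset.univ y u (Finset.mem_univ y),
          ← Finset.sum_add_distrib]
        refine Finset.sum_congr rfl fun z _ => ?_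
        by_cases hz : z ∈ U
        · simp only [Smat, hy, hz, and_self, if_true]
          split_ifs <;> ring
        · have : y ≠ z := fun h => hz (h ▸ hy)
          simp [Smat, hz, this]
      rw [e, if_pos hy]
      generalize (∑ z, (Kmat H U c)⁻¹ y z * if z ∈ U then u z else 0) = b
      have h4 : ‖u y + 2 * I * b‖ ≤ ‖u y‖ + 2 * ‖b‖ := (norm_add_le _ _).trans (by simp)
      have h5 := pow_le_pow_left₀ (norm_nonneg _) h4 2
      have h6 : (‖u y‖ + 2 * ‖b‖) ^ 2 ≤ 5 * ‖u y‖ ^ 2 + 5 * ‖b‖ ^ 2 := by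
        nlinarith [sq_nonneg (2 * ‖u y‖ - ‖b‖)]
      linarith [mul_le_mul_of_nonneg_left (h5.trans h6) (Real.exp_pos (2 * μ * f y)).le]
    · simp only [Smat, hy, false_and, if_false, zero_mul, Finset.sum_const_zero, norm_zero]
      rw [zero_pow two_ne_zero, mul_zero]
      positivity
  have h4 := Finset.sum_le_sum fun y (_ : y ∈ Finset.univ) => h3 y
  rw [Finset.sum_add_distrib, ← Finset.mul_sum, ← Finset.mul_sum, Finset.sum_ite_mem,
    Finset.univ_inter] at h4
  linarith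

theorem ct_row (hs : Sys μ H pos) (hg : Good H U c) {f : ι → ℝ} (hf : Adm H U f) (x : ι) :
    ∑ y ∈ Finset.univ.erase x, pp (Smat H U c) x y * Real.exp (2 * μ * (f y - f x)) ≤ 16 := by
  by_cases hx : x ∈ U
  swap
  · simp [pp, Smat, hx]
  have h1 := ct_G hs hg hf (Pi.single x 1) fun z hz =>
    Pi.single_eq_of_ne (fun h : z = x => hz (h ▸ hx)) _
  have e1 : ∑ z, Real.exp (2 * μ * f z) * ‖(Pi.single x 1 : ι → ℂ) z‖ ^ 2 =
      Real.exp (2 * μ * f x) := by
    rw [Finset.sum_eq_single_of_mem x (Finset.mem_univ x) fun z _ hz => by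
      simp [Pi.single_eq_of_ne hz]]
    simp
  have e2 : ∀ y, ∑ z, (Kmat H U c)⁻¹ y z * (Pi.single x 1 : ι → ℂ) z = (Kmat H U c)⁻¹ x y :=
    fun y => by
      have hsy : (Kmat H U c).IsSymm :=
        (hs.symm.map _).add (Matrix.isSymm_diagonal _)
      rw [Finset.sum_eq_single_of_mem x (Finset.mem_univ x) fun z _ hz => by
        rw [Pi.single_eq_of_ne hz, mul_zero], Pi.single_eq_same, mul_one]
      have h2 := Matrix.transpose_nonsing_inv (Kmat H U c)
      rw [hsy.eq] at h2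
      exact congrFun (congrFun h2 x) y
  simp only [e1, e2] at h1
  have h2 : ∑ y ∈ Finset.univ.erase x, pp (Smat H U c) x y * Real.exp (2 * μ * (f y - f x)) ≤
      ∑ y, (if y ∈ U then Real.exp (2 * μ * f y) * ‖(Kmat H U c)⁻¹ x y‖ ^ 2 else 0) *
        (4 / Real.exp (2 * μ * f x)) := by
    refine (Finset.sum_congr rfl fun y hy => ?_).trans_le
      (Finset.sum_le_sum_of_subset_of_nonneg (Finset.erase_subset _ _) fun y _ _ => ?_)
    · have hy' := (Finset.ne_of_mem_erase hy).symm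
      by_cases h : y ∈ U
      · simp only [pp, Smat, hx, h, and_self, if_true, if_neg hy', zero_add, norm_mul, norm_I,
          mul_sub, Real.exp_sub, Complex.norm_ofNat]
        ring
      · simp [pp, Smat, h]
    · split_ifs <;> positivity
  rw [← Finset.sum_mul, Finset.sum_ite_mem, Finset.univ_inter] at h2
  refine h2.trans ((mul_le_mul_of_nonneg_right h1 (by positivity)).trans_eq ?_)
  field_simp
  norm_num

end Vale.Agent.P365
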