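import Vale.Agent.P365.Mom2

namespace Vale.Agent.P365

open MeasureTheory ProbabilityTheory Complex Filter
open scoped ComplexConjugate ENNReal

variable {ι : Type} [Fintype ι] [DecidableEq ι]

variable {U : Finset ι} {S : Mx ι}

theorem pp_nonneg (S : Mx ι) (x y : ι) : 0 ≤ pp S x y :=
  sq_nonneg _
theorem pp_symm (hS : US U S) (x y : ι) : pp S x y = pp S y x := by rw [pp, pp, hS.symm]
theorem pp_zero_left (hS : US U S) {x : ι} (hx : x ∉ U) (y : ι) : pp S x y = 0 := by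
  simp [pp, hS.zero x y hx]
theorem pp_zero_right (hS : US U S) (x : ι) {y : ι} (hy : y ∉ U) : pp S x y = 0 := by
  rw [pp_symm hS, pp_zero_left hS hy]
theorem sum_pp (hS : US U S) (x : ι) : ∑ y, pp S x y = if x ∈ U then 1 else 0 := by
  have h := hS.unit x x
  simp only [mul_conj', true_and] at h
  have h2 : ((∑ y, pp S x y : ℝ) : ℂ) = ((if x ∈ U then 1 else 0 : ℝ) : ℂ) := by
    simp only [pp]
    push_cast
    rw [h]
    split_ifs <;> simp
  exact_mod_cast h2
theorem sum_pp_le (hS : US U S) (x : ι) : ∑ y, pp S x y ≤ 1 := by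
  rw [sum_pp hS]
  split_ifs <;> norm_num
theorem norm_le_one (hS : US U S) (x y : ι) : ‖S x y‖ ≤ 1 := by
  have := (Finset.single_le_sum (fun y _ => pp_nonneg S x y) (Finset.mem_univ y)).trans
    (sum_pp_le hS x)
  rwa [pp, sq_le_one_iff₀ (norm_nonneg _)] at this
theorem pset_nonneg (S : Mx ι) (x : ι) (A : Finset ι) : 0 ≤ pset S x A :=
  Finset.sum_nonneg fun y _ => pp_nonneg S x y
theorem pset_le_one (hS : US U S) (x : ι) (A : Finset ι) : pset S x A ≤ 1 :=
  (Finset.sum_le_sum_of_subset_of_nonneg (Finset.subset_univ A)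
    fun y _ _ => pp_nonneg S x y).trans (sum_pp_le hS x)
theorem pset_le_sv (S : Mx ι) {x : ι} {A : Finset ι} (hx : x ∉ A) : pset S x A ≤ sv S x :=
  Finset.sum_le_sum_of_subset_of_nonneg
    (fun _ hy => Finset.mem_erase.2 ⟨fun h => hx (h ▸ hy), Finset.mem_univ _⟩)
    fun y _ _ => pp_nonneg S x y
theorem sv_nonneg (S : Mx ι) (v : ι) : 0 ≤ sv S v :=
  Finset.sum_nonneg fun y _ => pp_nonneg S v y
theorem sv_le_one (hS : US U S) (v : ι) : sv S v ≤ 1 :=
  pset_le_one hS v _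
theorem sv_eq (hS : US U S) {v : ι} (hv : v ∈ U) : sv S v = 1 - ‖S v v‖ ^ 2 := by
  have := sum_pp hS v
  rw [if_pos hv, ← Finset.add_sum_erase _ _ (Finset.mem_univ v), pp] at this
  rw [sv]
  linarith
theorem sv_zero (hS : US U S) {v : ι} (hv : v ∉ U) : sv S v = 0 :=
  Finset.sum_eq_zero fun y _ => pp_zero_left hS hv y
theorem pp_le_sv (S : Mx ι) {v x : ι} (hx : x ≠ v) : pp S v x ≤ sv S v :=
  Finset.single_le_sum (fun y _ => pp_nonneg S v y)
    (Finset.mem_erase.2 ⟨hx, Finset.mem_univ _⟩)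
theorem NN_nonneg (S : Mx ι) (Γ : Finset ι) : 0 ≤ NN S Γ :=
  Finset.sum_nonneg fun w _ => sv_nonneg S w

/-- Contraction: `‖S u‖² = ‖1_U u‖² ≤ ‖u‖²` (columns are orthonormal as well, by symmetry). -/
theorem sum_mul_normSq (hS : US U S) (u : ι → ℂ) :
    ∑ y, ‖∑ z, S y z * u z‖ ^ 2 = ∑ z ∈ U, ‖u z‖ ^ 2 := by
  have h : ∀ z w, ∑ y, S y z * conj (S y w) = if z = w ∧ z ∈ U then 1 else 0 := fun z w => by
    rw [← hS.unit]
    exact Finset.sum_congr rfl fun y _ => by rw [hS.symm y z, hS.symm y w]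
  have h2 : ∑ y, (∑ z, S y z * u z) * conj (∑ z, S y z * u z) =
      ∑ z, ∑ w, u z * conj (u w) * ∑ y, S y z * conj (S y w) := by
    simp only [map_sum, map_mul, Finset.sum_mul_sum]
    simp only [Finset.mul_sum]
    rw [Finset.sum_comm]
    refine Finset.sum_congr rfl fun z _ => ?_
    rw [Finset.sum_comm]
    exact Finset.sum_congr rfl fun w _ => Finset.sum_congr rfl fun y _ => by ring
  simp only [h, mul_conj', ite_and, mul_ite, mul_one, mul_zero, Finset.sum_ite_eq, Finset.mem_univ,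
    if_true, Finset.sum_ite_mem, Finset.univ_inter] at h2
  exact_mod_cast h2
theorem sum_mul_normSq_le (hS : US U S) (u : ι → ℂ) :
    ∑ y, ‖∑ z, S y z * u z‖ ^ 2 ≤ ∑ z, ‖u z‖ ^ 2 :=
  (sum_mul_normSq hS u).trans_le
    (Finset.sum_le_sum_of_subset_of_nonneg (Finset.subset_univ U) fun _ _ _ => sq_nonneg _)

theorem xi_norm_le (hS : US U S) {v : ι} (hv : v ∈ U) (t : ℝ) : ‖xi S v t‖ ≤ 2 / sv S v := by
  rw [sv_eq hS hv]
  exact xi0_norm_le (norm_le_one hS v v) t
theorem xi_normSq (hS : US U S) {v : ι} (hv : v ∈ U) (t : ℝ) :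
    ‖xi S v t‖ ^ 2 = (1 + 2 * (S v v * xi S v t).re) / sv S v := by
  rw [sv_eq hS hv]
  exact xi0_normSq (norm_le_one hS v v) t
theorem xi_integrable {E : Type} [NormedAddCommGroup E] [NormedSpace ℝ E] [FiniteDimensional ℝ E]
    (hS : US U S) (v : ι) (f : ℂ → E) (hf : Continuous f) :
    Integrable (fun t => f (xi S v t)) cau :=
  integrable_xi0 (norm_le_one hS v v) f hf
theorem xi_pow (hS : US U S) (v : ι) (k : ℕ) : ∫ t, xi S v t ^ (k + 1) ∂cau = 0 :=
  mom_pow (norm_le_one hS v v) k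
theorem xi_mixed (hS : US U S) {v : ι} (hv : v ∈ U) (k : ℕ) :
    ∫ t, xi S v t ^ (k + 1) * conj (xi S v t) ∂cau =
      conj (S v v) ^ k / ((sv S v : ℝ) : ℂ) ^ (k + 1) := by
  rw [sv_eq hS hv]
  exact mom_mixed (norm_le_one hS v v) k
theorem xi_re (hS : US U S) (v : ι) (a : ℂ) : ∫ t, 2 * (xi S v t * a).re ∂cau = 0 :=
  mom_re (norm_le_one hS v v) a
theorem xi_re_re (hS : US U S) {v : ι} (hv : v ∈ U) (a b : ℂ) :
    ∫ t, (2 * (xi S v t * a).re) * (2 * (xi S v t * b).re) ∂cau =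
      2 * (a * conj b).re / sv S v := by
  rw [sv_eq hS hv]
  exact mom_re_re (norm_le_one hS v v) a b
theorem xi_sq (hS : US U S) {v : ι} (hv : v ∈ U) :
    ∫ t, ‖xi S v t‖ ^ 2 ∂cau = 1 / sv S v := by
  rw [sv_eq hS hv]
  exact mom_sq (norm_le_one hS v v)
theorem xi_sq_re (hS : US U S) {v : ι} (hv : v ∈ U) (a : ℂ) :
    ∫ t, ‖xi S v t‖ ^ 2 * (2 * (xi S v t * a).re) ∂cau =
      2 * (a * conj (S v v)).re / sv S v ^ 2 := by
  rw [sv_eq hS hv]
  exact mom_sq_re (norm_le_one hS v v) a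

/-- Closing preserves unitarity. For `x, y ≠ v`, with `ρ = S v v`, `a = S x v`, `b = S y v`:
`Σ_{z≠v} S x z conj (S y z) = δ - a conj b`, `Σ_{z≠v} S x z conj (S v z) = - a conj ρ`,
`Σ_{z≠v} ‖S v z‖² = s`, and `s ξ conj ξ = 1 + ρ ξ + conj ρ conj ξ` if `s ≠ 0`; if `s = 0` then
`a = b = 0`. -/
theorem cls_US (hS : US U S) {v : ι} (hv : v ∈ U) (t : ℝ) : US (U.erase v) (cls S v t) := by
  refine ⟨fun x y => ?_, fun x y hx => ?_, fun x y => ?_⟩
  · simp only [cls, or_comm (a := x = v), hS.symm x y, hS.symm x v, hS.symm v y, mul_right_comm]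
  · rw [cls]
    split_ifs with h
    · rfl
    have hx' : x ∉ U := fun h' => hx (Finset.mem_erase.2 ⟨fun e => h (.inl e), h'⟩)
    simp [hS.zero x _ hx']
  by_cases hx : x = v
  · simp [cls, hx]
  by_cases hy : y = v
  · simp [cls, hy, hx]
  have e : ∀ a b, ∑ z ∈ Finset.univ.erase v, S a z * conj (S b z) =
      (if a = b ∧ a ∈ U then 1 else 0) - S a v * conj (S b v) := fun a b => by
    rw [← hS.unit, ← Finset.add_sum_erase _ _ (Finset.mem_univ v)]
    ring
  have k : S x v * conj (S y v) * ((1 - S v v * conj (S v v)) * (xi S v t * conj (xi S v t)) -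
      (1 + S v v * xi S v t + conj (S v v * xi S v t))) = 0 := by
    rcases eq_or_ne (sv S v) 0 with h | h
    · have := pp_le_sv S hx
      rw [h, pp, hS.symm v x] at this
      rw [norm_eq_zero.1 (pow_eq_zero_iff two_ne_zero |>.1 (this.antisymm (sq_nonneg _)))]
      ring
    · have h1 := xi_normSq hS hv t
      rw [eq_div_iff h, sv_eq hS hv] at h1
      have h2 := congrArg (fun r : ℝ => (r : ℂ)) h1
      simp only [ofReal_mul, ofReal_add, ofReal_sub, ofReal_pow, ofReal_one, ofReal_ofNat] at h2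
      rw [mul_conj', mul_conj', add_assoc, add_conj, mul_comm (1 - _), h2]
      push_cast
      ring
  rw [← Finset.add_sum_erase _ _ (Finset.mem_univ v), Finset.sum_congr rfl
    (g := fun z => S x z * conj (S y z) + conj (xi S v t * S y v) * (S x z * conj (S v z)) +
      xi S v t * S x v * (S v z * conj (S y z)) +
      xi S v t * S x v * conj (xi S v t * S y v) * (S v z * conj (S v z))) fun z hz => by
      simp only [cls, hx, hy, Finset.ne_of_mem_erase hz, or_self, if_false, map_add, map_mul]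
      ring]
  simp only [Finset.sum_add_distrib, ← Finset.mul_sum, e, cls, or_true, if_true, hx, false_and,
    if_false, Ne.symm hy, hv, and_self, Finset.mem_erase, ne_eq, not_false_eq_true, true_and,
    map_mul] at k ⊢
  linear_combination k
theorem measurable_cls (S : Mx ι) (v : ι) : Measurable (cls S v) := by
  refine measurable_pi_lambda _ fun x => measurable_pi_lambda _ fun y => ?_
  unfold cls
  split_ifs
  · exact measurable_const
  · exact measurable_const.add (((measurable_xi0 _).mul_const _).mul_const _)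

theorem ee_nonneg (S : Mx ι) (ψ : ι → ℝ) (x : ι) : 0 ≤ ee S ψ x :=
  Finset.sum_nonneg fun y _ => mul_nonneg (pp_nonneg S x y) (sq_nonneg _)
theorem ee_le_sv (S : Mx ι) {ψ : ι → ℝ} (hψ : Osc ψ) (x : ι) : ee S ψ x ≤ sv S x := by
  rw [ee, ← Finset.add_sum_erase _ _ (Finset.mem_univ x), sub_self, zero_pow two_ne_zero, mul_zero,
    zero_add]
  exact Finset.sum_le_sum fun y _ =>
    mul_le_of_le_one_right (pp_nonneg S x y) ((sq_le_one_iff_abs_le_one _).2 (hψ x y))
theorem ee_zero_of_sv (S : Mx ι) (ψ : ι → ℝ) {x : ι} (h : sv S x = 0) : ee S ψ x = 0 :=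
  Finset.sum_eq_zero fun y _ => by
    rcases eq_or_ne y x with rfl | hy
    · simp
    · rw [((pp_le_sv S hy).trans h.le).antisymm (pp_nonneg S x y), zero_mul]
theorem jj_sq_le (S : Mx ι) (ψ : ι → ℝ) (x : ι) : jj S ψ x ^ 2 ≤ sv S x * ee S ψ x := by
  rw [ee, jj, ← Finset.add_sum_erase _ _ (Finset.mem_univ x),
    ← Finset.add_sum_erase _ _ (Finset.mem_univ x), sub_self, zero_pow two_ne_zero, mul_zero,
    zero_add, zero_add]
  exact Finset.sum_sq_le_sum_mul_sum_of_sq_le_mul _ (fun y _ => pp_nonneg S x y)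
    (fun y _ => mul_nonneg (pp_nonneg S x y) (sq_nonneg _)) fun y _ => le_of_eq (by ring)
theorem jj_sq_div_le (S : Mx ι) (ψ : ι → ℝ) (x : ι) : jj S ψ x ^ 2 / sv S x ≤ ee S ψ x :=
  div_le_of_le_mul₀ (sv_nonneg S x) (ee_nonneg S ψ x)
    ((jj_sq_le S ψ x).trans_eq (mul_comm _ _))
theorem FF_nonneg (S : Mx ι) (ψ : ι → ℝ) : 0 ≤ FF S ψ :=
  div_nonneg (Finset.sum_nonneg fun x _ => ee_nonneg S ψ x) zero_le_two
theorem sum_ee_le (S : Mx ι) (ψ : ι → ℝ) (A : Finset ι) : ∑ x ∈ A, ee S ψ x ≤ 2 * FF S ψ := by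
  have := Finset.sum_le_sum_of_subset_of_nonneg (Finset.subset_univ A)
    fun x _ _ => ee_nonneg S ψ x
  rw [FF]
  linarith
theorem sum_ee_compl (S : Mx ι) (ψ : ι → ℝ) (A : Finset ι) :
    ∑ x ∈ A, ee S ψ x = 2 * FF S ψ - ∑ x ∈ Aᶜ, ee S ψ x := by
  rw [FF, ← Finset.sum_add_sum_compl A]
  ring
theorem ga_nonneg (S : Mx ι) (Γ : Finset ι) (ψ : ι → ℝ) : 0 ≤ ga S Γ ψ :=
  Finset.sum_nonneg fun w _ => div_nonneg (sq_nonneg _) (sv_nonneg S w)
theorem Half.osc {ψ : ι → ℝ} (h : Half ψ) : Osc ψ := fun x y =>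
  (abs_sub _ _).trans (by linarith [h x, h y])
theorem osc_ind (A : Finset ι) : Osc (ind A) := fun x y => by
  unfold ind
  split_ifs <;> norm_num

end Vale.Agent.P365
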