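import Vale.Agent.P365.Geo

namespace Vale.Agent.P365

open MeasureTheory ProbabilityTheory Complex Filter
open scoped ComplexConjugate ENNReal

variable {ι : Type} [Fintype ι] [DecidableEq ι]

/-- Compactness. The data `(E, u)` lie in the compact product of intervals; take a cluster point
(ultrafilter limit, or `IsCompact.tendsto_subseq` in the countable product). The limit satisfies the
equation everywhere, is square summable by domination, and for every finite set `A` the sum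
`Σ_{p∈A} (δ - Σ_i u i p)²` is at most `ε`. -/
theorem cpt_one (V : ℤ × ℤ → ℝ) (x : ℤ × ℤ) {ε T : ℝ} {M : ℕ} (β : ℤ × ℤ → ℝ)
    (h : ∀ N : ℕ, ∃ (n : ℕ) (E : Fin M → ℝ) (u : Fin M → ℤ × ℤ → ℝ), N ≤ n ∧ (∀ i, |E i| ≤ T) ∧
      (∀ i p, |u i p| ≤ β p) ∧
      (∀ i p, rr 0 p < n → u i (p.1 + 1, p.2) + u i (p.1 - 1, p.2) + u i (p.1, p.2 + 1)
        + u i (p.1, p.2 - 1) + V p * u i p = E i * u i p) ∧
      ∑ p ∈ box n, ((if p = x then 1 else 0) - ∑ i, u i p) ^ 2 ≤ ε) :
    ∃ (E : Fin M → ℝ) (u : Fin M → ℤ × ℤ → ℝ), (∀ i p, |u i p| ≤ β p) ∧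
      (∀ i p, u i (p.1 + 1, p.2) + u i (p.1 - 1, p.2) + u i (p.1, p.2 + 1)
        + u i (p.1, p.2 - 1) + V p * u i p = E i * u i p) ∧
      ∀ A : Finset (ℤ × ℤ), ∑ p ∈ A, ((if p = x then 1 else 0) - ∑ i, u i p) ^ 2 ≤ ε := by
  choose n E u hn hE hu heq hs using h
  have hK : IsCompact ((Set.univ.pi fun _ : Fin M => Set.Icc (-T) T) ×ˢ
      (Set.univ.pi fun _ : Fin M => Set.univ.pi fun p : ℤ × ℤ => Set.Icc (-β p) (β p))) :=
    (isCompact_univ_pi fun _ => isCompact_Icc).prod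
      (isCompact_univ_pi fun _ => isCompact_univ_pi fun _ => isCompact_Icc)
  obtain ⟨⟨E', u'⟩, hm, φ, hφ, hl⟩ := hK.tendsto_subseq (x := fun N => (E N, u N)) fun N =>
    ⟨fun i _ => abs_le.1 (hE N i), fun i _ p _ => abs_le.1 (hu N i p)⟩
  have h1 : ∀ i, Tendsto (fun k => E (φ k) i) atTop (nhds (E' i)) :=
    tendsto_pi_nhds.1 hl.fst_nhds
  have h2 : ∀ i p, Tendsto (fun k => u (φ k) i p) atTop (nhds (u' i p)) := fun i =>
    tendsto_pi_nhds.1 (tendsto_pi_nhds.1 hl.snd_nhds i)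
  have h3 : ∀ p : ℤ × ℤ, ∀ᶠ k in atTop, rr 0 p < n (φ k) := fun p => by
    filter_upwards [eventually_gt_atTop (rr 0 p).toNat] with k hk
    have a1 := hn (φ k)
    have a2 : k ≤ φ k := hφ.le_apply
    omega
  refine ⟨E', u', fun i p => abs_le.2 (hm.2 i trivial p trivial), fun i p => ?_, fun A => ?_⟩
  · refine tendsto_nhds_unique_of_eventuallyEq
      (((((h2 i _).add (h2 i _)).add (h2 i _)).add (h2 i _)).add ((h2 i p).const_mul _))
      ((h1 i).mul (h2 i p)) ?_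
    filter_upwards [h3 p] with k hk
    exact heq (φ k) i p hk
  · refine le_of_tendsto (tendsto_finsetSum A fun p _ =>
      ((tendsto_finsetSum Finset.univ fun i _ => h2 i p).const_sub _).pow 2) ?_
    filter_upwards [(eventually_all_finset A).2 fun p _ => h3 p] with k hk
    refine le_trans (Finset.sum_le_sum_of_subset_of_nonneg (fun p hp => ?_)
      fun _ _ _ => sq_nonneg _) (hs (φ k))
    have a1 := hk p hp
    simp only [rr, Prod.fst_zero, Prod.snd_zero, sub_zero, max_lt_iff, abs_lt] at a1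
    simp only [box, Finset.mem_product, Finset.mem_Icc]
    omega

/-- Each `lp.single 2 x 1` is in the closure of the span (`memℓp_gen`, `lp.norm_le_of_forall_sum_le`);
the singles span a dense subspace (`lp.hasSum_single`). -/
theorem cpt (V : ℤ × ℤ → ℝ)
    (h : ∀ (x : ℤ × ℤ) (ε : ℝ), 0 < ε → ∃ (M : ℕ) (β : ℤ × ℤ → ℝ) (E : Fin M → ℝ)
      (u : Fin M → ℤ × ℤ → ℝ), Summable (fun p => β p ^ 2) ∧ (∀ i p, |u i p| ≤ β p) ∧
      (∀ i p, u i (p.1 + 1, p.2) + u i (p.1 - 1, p.2) + u i (p.1, p.2 + 1)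
        + u i (p.1, p.2 - 1) + V p * u i p = E i * u i p) ∧
      ∀ A : Finset (ℤ × ℤ), ∑ p ∈ A, ((if p = x then 1 else 0) - ∑ i, u i p) ^ 2 ≤ ε) :
    PurePoint V := by
  unfold PurePoint
  generalize hS : (Submodule.span ℂ _ : Submodule ℂ (lp (fun _ : ℤ × ℤ => ℂ) 2)) = S
  have e2 : (2 : ℝ≥0∞).toReal = ((2 : ℕ) : ℝ) := by norm_num
  have h1 : ∀ x : ℤ × ℤ, lp.single (E := fun _ : ℤ × ℤ => ℂ) 2 x 1 ∈ S.topologicalClosure := by
    intro x
    refine Metric.mem_closure_iff.2 fun δ hδ => ?_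
    obtain ⟨M, β, E, u, hβ, hu, heq, hs⟩ := h x ((δ / 2) ^ 2) (by positivity)
    have hm : ∀ i, Memℓp (fun p : ℤ × ℤ => (u i p : ℂ)) 2 := fun i => memℓp_gen (by
      simp only [e2, Real.rpow_natCast, Complex.norm_real, Real.norm_eq_abs]
      exact hβ.of_nonneg_of_le (fun _ => sq_nonneg _) fun p =>
        pow_le_pow_left₀ (abs_nonneg _) (hu i p) 2)
    refine ⟨∑ i, (⟨_, hm i⟩ : lp (fun _ : ℤ × ℤ => ℂ) 2), sum_mem fun i _ => ?_, ?_⟩
    · rw [← hS]
      refine Submodule.subset_span ⟨E i, fun p => ?_⟩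
      show (u i _ : ℂ) + (u i _ : ℂ) + (u i _ : ℂ) + (u i _ : ℂ) + (V p : ℂ) * (u i p : ℂ) =
        (E i : ℂ) * (u i p : ℂ)
      exact_mod_cast heq i p
    · rw [dist_eq_norm]
      refine lt_of_le_of_lt (lp.norm_le_of_forall_sum_le (by norm_num) (half_pos hδ).le
        fun A => ?_) (half_lt_self hδ)
      simp only [e2, Real.rpow_natCast]
      refine le_trans (le_of_eq (Finset.sum_congr rfl fun p _ => ?_)) (hs A)
      rw [← sq_abs ((if p = x then (1 : ℝ) else 0) - _), ← Real.norm_eq_abs, ← Complex.norm_real,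
        lp.coeFn_sub, Pi.sub_apply, lp.coeFn_sum, Finset.sum_apply, lp.single_apply,
        Pi.single_apply]
      push_cast
      split_ifs <;> rfl
  intro f
  refine S.isClosed_topologicalClosure.mem_of_tendsto (lp.hasSum_single (by norm_num) f)
    (Eventually.of_forall fun s => sum_mem fun x _ => ?_)
  have := S.topologicalClosure.smul_mem (f x) (h1 x)
  rwa [← lp.single_smul, smul_eq_mul, mul_one] at this

end Vale.Agent.P365
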