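import Vale.Agent.P365.Em0

namespace Vale.Agent.P365

open MeasureTheory ProbabilityTheory Complex Filter
open scoped ComplexConjugate ENNReal

variable {ι : Type} [Fintype ι] [DecidableEq ι]

variable {H : Matrix ι ι ℝ} {U : Finset ι} {c : ι → ℝ}

theorem em_sqrt {X a : ℝ} (hX : 0 ≤ X) (ha : 0 < a) : √X ≤ (2 * a)⁻¹ * X + a / 2 := by
  have e : (2 * a)⁻¹ * X + a / 2 = (X + a ^ 2) / (2 * a) := by
    field_simp
  rw [e, le_div_iff₀ (by positivity)]
  nlinarith [Real.mul_self_sqrt hX, sq_nonneg (√X - a)]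

theorem em_quart {X Y a b : ℝ} (hX : 0 ≤ X) (hY : 0 ≤ Y) (ha : 0 < a) (hb : 0 < b) :
    (X * Y) ^ (1 / 4 : ℝ) ≤ (a * b) ^ (1 / 4 : ℝ) * ((4 * a)⁻¹ * X + (4 * b)⁻¹ * Y + 1 / 2) := by
  have h := Real.geom_mean_le_arith_mean3_weighted (w₁ := 1 / 4) (w₂ := 1 / 4) (w₃ := 1 / 2)
    (p₁ := X / a) (p₂ := Y / b) (p₃ := 1) (by norm_num) (by norm_num) (by norm_num)
    (by positivity) (by positivity) zero_le_one (by norm_num)
  rw [Real.one_rpow, mul_one, ← Real.mul_rpow (by positivity) (by positivity)] at h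
  have e : X * Y = (a * b) * (X / a * (Y / b)) := by
    field_simp
  rw [e, Real.mul_rpow (by positivity) (by positivity)]
  refine mul_le_mul_of_nonneg_left (h.trans (le_of_eq ?_)) (by positivity)
  field_simp

theorem ES_tower (hH : H.IsSymm) (hg : Good H U c) {R1 : Finset ι} (hR : R1 ⊆ U) (R2 : Finset ι)
    {Φ Ψ : Mx ι → ℝ} (hΦ : Nice Φ) (hΨ : Nice Ψ)
    (h : ∀ c', Good H (U \ R1) c' → ES H (U \ R1) c' R2 Φ ≤ Ψ (Smat H (U \ R1) c')) :
    ES H U c (R1 ∪ R2) Φ ≤ ES H U c R1 Ψ := by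
  rw [(ES_union hH U c R1 R2 hΦ).1]
  exact integral_mono_ae (ES_union hH U c R1 R2 hΦ).2 (ES_integrable hH U c R1 hΨ)
    ((good_ae hg hR).mono fun ω hω => h _ hω)

theorem ES_tower2 (hH : H.IsSymm) (hg : Good H U c) {R1 : Finset ι} (hR : R1 ⊆ U)
    (R2 R3 : Finset ι) {Φ Ψ Ξ : Mx ι → ℝ} (hΦ : Nice Φ) (hΨ : Nice Ψ) (hΞ : Nice Ξ)
    (h : ∀ c', Good H (U \ R1) c' →
      ES H (U \ R1) c' R2 Φ ≤ Ψ (Smat H (U \ R1) c') + ES H (U \ R1) c' R3 Ξ) :
    ES H U c (R1 ∪ R2) Φ ≤ ES H U c R1 Ψ + ES H U c (R1 ∪ R3) Ξ := by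
  rw [(ES_union hH U c R1 R2 hΦ).1, (ES_union hH U c R1 R3 hΞ).1]
  have e := integral_add (ES_integrable hH U c R1 hΨ) (ES_union hH U c R1 R3 hΞ).2
  refine le_trans (integral_mono_ae (ES_union hH U c R1 R2 hΦ).2
    ((ES_integrable hH U c R1 hΨ).add (ES_union hH U c R1 R3 hΞ).2)
    ((good_ae hg hR).mono fun ω hω => h _ hω)) (le_of_eq e)

/-- `ES {v} Φ = Av S v Φ` by `Smat_close`, `good_close_ae` and the law of one coordinate. -/
theorem ES_single (hH : H.IsSymm) (hg : Good H U c) {v : ι} (hv : v ∈ U) {Φ : Mx ι → ℝ}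
    (hΦ : Nice Φ) : ES H U c {v} Φ = Av (Smat H U c) v Φ := by
  have hm : Measurable fun t : ℝ => Φ (Smat H (U.erase v) (Function.update c v t)) :=
    hΦ.1.comp ((measurable_Smat H _).comp (measurable_update c))
  have hp : MeasurePreserving (Function.eval v) (piC ι) cau :=
    measurePreserving_eval (fun _ : ι => cau) v
  have e : ES H U c {v} Φ =
      ∫ ω, Φ (Smat H (U.erase v) (Function.update c v (Function.eval v ω))) ∂(piC ι) := by
    unfold ES
    simp only [Finset.sdiff_singleton_eq_erase, Finset.piecewise_singleton, Function.eval]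
  have e2 := integral_map (μ := piC ι) hp.measurable.aemeasurable hm.aestronglyMeasurable
  rw [hp.map_eq] at e2
  rw [e, ← e2]
  exact integral_congr_ae ((good_close_ae hv hg).mono fun t ht => by
    simp only [Smat_close hH hv hg t ht])

/-- Lyapunov principle. Prove `∀ U c, Good H U c → ES H U c (U ∩ Γ) Φ ≤ Φ (Smat H U c)` by
induction on the cardinality of `U ∩ Γ`: `U ∩ Γ = {v} ∪ (U \ {v}) ∩ Γ`, `ES_tower`, `ES_single`. -/
theorem lyap (hH : H.IsSymm) (Γ : Finset ι) {Φ : Mx ι → ℝ} (hΦ : Nice Φ)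
    (hstep : ∀ (U : Finset ι) (S : Mx ι), US U S → (U ∩ Γ).Nonempty →
      ∃ v ∈ U ∩ Γ, Av S v Φ ≤ Φ S)
    (hg : Good H U c) (hΓ : Γ ⊆ U) : ES H U c Γ Φ ≤ Φ (Smat H U c) := by
  have key : ∀ (n : ℕ) (U : Finset ι) (c : ι → ℝ), (U ∩ Γ).card = n → Good H U c →
      ES H U c (U ∩ Γ) Φ ≤ Φ (Smat H U c) := by
    intro n
    induction n with
    | zero =>
      intro U c hn _
      rw [Finset.card_eq_zero.1 hn, ES_empty]
    | succ n ih =>
      intro U c hn hg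
      obtain ⟨v, hv, hle⟩ := hstep U _ (Smat_US hH U c) (Finset.card_pos.1 (by omega))
      have hvU := (Finset.mem_inter.1 hv).1
      have e1 : (U \ {v}) ∩ Γ = (U ∩ Γ).erase v := by
        ext x
        simp only [Finset.mem_inter, Finset.mem_sdiff, Finset.mem_singleton, Finset.mem_erase]
        tauto
      have e : U ∩ Γ = {v} ∪ (U \ {v}) ∩ Γ := by
        rw [e1, ← Finset.insert_eq, Finset.insert_erase hv]
      rw [e]
      refine (ES_tower hH hg (Finset.singleton_subset_iff.2 hvU) _ hΦ hΦ fun c' hc' =>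
        ih _ c' ?_ hc').trans ((ES_single hH hg hvU hΦ).trans_le hle)
      rw [e1, Finset.card_erase_of_mem hv, hn]
      rfl
  have := key _ U c rfl hg
  rwa [Finset.inter_eq_right.2 hΓ] at this

/-- `√X ≤ (X / a + a) / 2` for every `a > 0`; take `a = √(ES X) + δ`. -/
theorem ES_sqrt (hH : H.IsSymm) (U : Finset ι) (c : ι → ℝ) (R : Finset ι) {Φ : Mx ι → ℝ}
    (hΦ : Continuous Φ) (h0 : ∀ S, 0 ≤ Φ S) :
    ES H U c R (fun S => √(Φ S)) ≤ √(ES H U c R Φ) := by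
  have hi := ES_integrable hH U c R (Nice.of_continuous hΦ)
  have hi2 := ES_integrable hH U c R (Nice.of_continuous hΦ.sqrt)
  have hX := ES_nonneg H U c R h0
  refine le_of_forall_pos_le_add fun δ hδ => ?_
  have ha : 0 < √(ES H U c R Φ) + δ := add_pos_of_nonneg_of_pos (Real.sqrt_nonneg _) hδ
  have h1 : ES H U c R (fun S => √(Φ S)) ≤
      ∫ ω, ((2 * (√(ES H U c R Φ) + δ))⁻¹ * Φ (Smat H (U \ R) (R.piecewise ω c)) +
        (√(ES H U c R Φ) + δ) / 2) ∂(piC ι) :=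
    integral_mono hi2 ((hi.const_mul _).add (integrable_const _)) fun ω => em_sqrt (h0 _) ha
  rw [integral_add (hi.const_mul _) (integrable_const _), integral_const_mul, integral_const,
    probReal_univ, one_smul] at h1
  refine h1.trans ?_
  change (2 * (√(ES H U c R Φ) + δ))⁻¹ * ES H U c R Φ + _ ≤ _
  have h2 : (2 * (√(ES H U c R Φ) + δ))⁻¹ * ES H U c R Φ ≤ √(ES H U c R Φ) / 2 := by
    rw [inv_mul_le_iff₀ (by positivity)]
    nlinarith [Real.mul_self_sqrt hX, Real.sqrt_nonneg (ES H U c R Φ)]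
  linarith

/-- `(X Y)^(1/4) ≤ (a b)^(1/4) (X / a + Y / b + 2) / 4` for `a, b > 0` (two uses of AM-GM), or
Cauchy-Schwarz and `ES_sqrt`. -/
theorem ES_holder (hH : H.IsSymm) (U : Finset ι) (c : ι → ℝ) (R : Finset ι) {Φ Ψ : Mx ι → ℝ}
    (hΦ : Continuous Φ) (hΨ : Continuous Ψ) (h0 : ∀ S, 0 ≤ Φ S) (h1 : ∀ S, 0 ≤ Ψ S) :
    ES H U c R (fun S => (Φ S * Ψ S) ^ (1 / 4 : ℝ)) ≤
      (ES H U c R Φ * ES H U c R Ψ) ^ (1 / 4 : ℝ) := by
  have hi := ES_integrable hH U c R (Nice.of_continuous hΦ)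
  have hj := ES_integrable hH U c R (Nice.of_continuous hΨ)
  have hk := ES_integrable hH U c R (Nice.of_continuous
    ((hΦ.mul hΨ).rpow_const (p := (1 / 4 : ℝ)) fun _ => Or.inr (by norm_num)))
  have hX := ES_nonneg H U c R h0
  have hY := ES_nonneg H U c R h1
  have key : ∀ δ : ℝ, 0 < δ → ES H U c R (fun S => (Φ S * Ψ S) ^ (1 / 4 : ℝ)) ≤
      ((ES H U c R Φ + δ) * (ES H U c R Ψ + δ)) ^ (1 / 4 : ℝ) := by
    intro δ hδ
    have ha : 0 < ES H U c R Φ + δ := by linarith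
    have hb : 0 < ES H U c R Ψ + δ := by linarith
    have hiA := hi.const_mul (4 * (ES H U c R Φ + δ))⁻¹
    have hjA := hj.const_mul (4 * (ES H U c R Ψ + δ))⁻¹
    have h2 : ES H U c R (fun S => (Φ S * Ψ S) ^ (1 / 4 : ℝ)) ≤
        ∫ ω, ((ES H U c R Φ + δ) * (ES H U c R Ψ + δ)) ^ (1 / 4 : ℝ) *
          ((4 * (ES H U c R Φ + δ))⁻¹ * Φ (Smat H (U \ R) (R.piecewise ω c)) +
            (4 * (ES H U c R Ψ + δ))⁻¹ * Ψ (Smat H (U \ R) (R.piecewise ω c)) + 1 / 2) ∂(piC ι) :=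
      integral_mono hk (((hiA.add hjA).add (integrable_const _)).const_mul _)
        fun ω => em_quart (h0 _) (h1 _) ha hb
    have hij : Integrable (fun ω =>
        (4 * (ES H U c R Φ + δ))⁻¹ * Φ (Smat H (U \ R) (R.piecewise ω c)) +
          (4 * (ES H U c R Ψ + δ))⁻¹ * Ψ (Smat H (U \ R) (R.piecewise ω c))) (piC ι) := hiA.add hjA
    rw [integral_const_mul, integral_add hij (integrable_const _), integral_add hiA hjA,
      integral_const_mul, integral_const_mul, integral_const, probReal_univ, one_smul] at h2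
    refine h2.trans (mul_le_of_le_one_right (by positivity) ?_)
    change (4 * (ES H U c R Φ + δ))⁻¹ * ES H U c R Φ +
      (4 * (ES H U c R Ψ + δ))⁻¹ * ES H U c R Ψ + 1 / 2 ≤ 1
    have h3 : (4 * (ES H U c R Φ + δ))⁻¹ * ES H U c R Φ ≤ 1 / 4 := by
      rw [inv_mul_le_iff₀ (by positivity)]
      linarith
    have h4 : (4 * (ES H U c R Ψ + δ))⁻¹ * ES H U c R Ψ ≤ 1 / 4 := by
      rw [inv_mul_le_iff₀ (by positivity)]
      linarith
    linarith
  have hc : Continuous fun δ : ℝ =>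
      ((ES H U c R Φ + δ) * (ES H U c R Ψ + δ)) ^ (1 / 4 : ℝ) :=
    Continuous.rpow_const (by fun_prop) fun _ => Or.inr (by norm_num)
  have ht := (hc.tendsto 0).mono_left (nhdsWithin_le_nhds (s := Set.Ioi 0))
  simp only [add_zero] at ht
  exact ge_of_tendsto ht (eventually_nhdsWithin_of_forall fun δ hδ => key δ hδ)

end Vale.Agent.P365
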