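import Vale.Agent.P365.Step1
import Vale.Agent.P365.Em

namespace Vale.Agent.P365

open MeasureTheory ProbabilityTheory Complex Filter
open scoped ComplexConjugate ENNReal

variable {ι : Type} [Fintype ι] [DecidableEq ι]

variable {H : Matrix ι ι ℝ} {U : Finset ι} {c : ι → ℝ}

theorem pert_Av {S : Mx ι} (hS : US U S) {v : ι} (hv : v ∈ U) {x y : ι} (hx : x ≠ v) (hy : y ≠ v)
    (a : ℂ) :
    Av S v (fun S' => ‖S' x y - a‖ ^ 2) = ‖S x y - a‖ ^ 2 + pp S x v * pp S v y / sv S v := by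
  unfold Av
  have e : ∀ t, ‖cls S v t x y - a‖ ^ 2 = ‖S x y - a‖ ^ 2 +
      (2 * (xi S v t * (conj (S x y - a) * (S x v * S v y))).re +
        pp S x v * pp S v y * ‖xi S v t‖ ^ 2) := by
    intro t
    have h1 : cls S v t x y - a = (S x y - a) + xi S v t * (S x v * S v y) := by
      simp only [cls, hx, hy, or_self, if_false]
      ring
    have h2 : pp S x v * pp S v y * ‖xi S v t‖ ^ 2 = ‖xi S v t * (S x v * S v y)‖ ^ 2 := by
      unfold pp
      rw [norm_mul, norm_mul]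
      ring
    rw [h1, h2]
    generalize S x y - a = p
    generalize S x v * S v y = q
    generalize xi S v t = z
    rw [Complex.sq_norm, Complex.sq_norm, Complex.sq_norm]
    simp only [Complex.normSq_apply, Complex.add_re, Complex.add_im, Complex.mul_re,
      Complex.mul_im, Complex.conj_re, Complex.conj_im]
    ring
  simp only [e]
  have i1 : Integrable (fun t => 2 * (xi S v t * (conj (S x y - a) * (S x v * S v y))).re) cau :=
    xi_integrable hS v (fun z => 2 * (z * (conj (S x y - a) * (S x v * S v y))).re) (by fun_prop)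
  have i2 : Integrable (fun t => pp S x v * pp S v y * ‖xi S v t‖ ^ 2) cau :=
    xi_integrable hS v (fun z => pp S x v * pp S v y * ‖z‖ ^ 2) (by fun_prop)
  have i3 : Integrable (fun t => 2 * (xi S v t * (conj (S x y - a) * (S x v * S v y))).re +
      pp S x v * pp S v y * ‖xi S v t‖ ^ 2) cau := i1.add i2
  rw [integral_add (integrable_const _) i3, integral_add i1 i2, xi_re hS v,
    integral_const_mul, xi_sq hS hv]
  simp only [integral_const, probReal_univ, smul_eq_mul, one_mul, zero_add]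
  ring

theorem pert_step {S : Mx ι} (hS : US U S) {v : ι} (hv : v ∈ U) {x : ι} (hx : x ≠ v)
    (a : ι → ℂ) (ha : a v = 0) :
    Av S v (fun S' => ∑ y, ‖S' x y - a y‖ ^ 2) ≤ ∑ y, ‖S x y - a y‖ ^ 2 := by
  rw [Av_sum hS hv Finset.univ (Φ := fun y S' => ‖S' x y - a y‖ ^ 2)
    (fun y _ => Nice.of_continuous (by fun_prop))]
  rw [← Finset.add_sum_erase _ _ (Finset.mem_univ v), ← Finset.add_sum_erase _ _ (Finset.mem_univ v)]
  have h0 : Av S v (fun S' => ‖S' x v - a v‖ ^ 2) = 0 := by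
    unfold Av
    simp [cls, ha]
  have h1 : ∑ y ∈ Finset.univ.erase v, Av S v (fun S' => ‖S' x y - a y‖ ^ 2) =
      ∑ y ∈ Finset.univ.erase v, ‖S x y - a y‖ ^ 2 + pp S x v * (sv S v / sv S v) := by
    rw [Finset.sum_congr rfl (fun y hy => pert_Av hS hv hx (Finset.ne_of_mem_erase hy) (a y)),
      Finset.sum_add_distrib]
    congr 1
    rw [← Finset.sum_div, ← Finset.mul_sum, mul_div_assoc]
    rfl
  have h2 : sv S v / sv S v ≤ 1 := div_self_le_one _
  have h3 : ‖S x v - a v‖ ^ 2 = pp S x v := by rw [ha, sub_zero]; rfl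
  have h4 := mul_le_mul_of_nonneg_left h2 (pp_nonneg S x v)
  rw [h0, h1, h3]
  linarith

theorem pert_cs {U' : Finset ι} {S S' : Mx ι} (hS : US U S) (hS' : US U' S') (x : ι)
    (B : Finset ι) :
    ∑ y ∈ B, |pp S' x y - pp S x y| ≤ 2 * √(∑ y ∈ B, ‖S' x y - S x y‖ ^ 2) := by
  have h1 : ∑ y ∈ B, |pp S' x y - pp S x y| ≤
      ∑ y ∈ B, ‖S' x y - S x y‖ * (‖S' x y‖ + ‖S x y‖) := by
    refine Finset.sum_le_sum fun y _ => ?_
    unfold pp
    have e : ‖S' x y‖ ^ 2 - ‖S x y‖ ^ 2 = (‖S' x y‖ - ‖S x y‖) * (‖S' x y‖ + ‖S x y‖) := by ring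
    rw [e, abs_mul, abs_of_nonneg (by positivity : 0 ≤ ‖S' x y‖ + ‖S x y‖)]
    exact mul_le_mul_of_nonneg_right (abs_norm_sub_norm_le _ _) (by positivity)
  have h2 := Finset.sum_mul_sq_le_sq_mul_sq B (fun y => ‖S' x y - S x y‖)
    (fun y => ‖S' x y‖ + ‖S x y‖)
  have h3 : ∑ y ∈ B, (‖S' x y‖ + ‖S x y‖) ^ 2 ≤ 4 := by
    have a1 : ∑ y ∈ B, (‖S' x y‖ + ‖S x y‖) ^ 2 ≤ ∑ y ∈ B, (2 * pp S' x y + 2 * pp S x y) := by
      refine Finset.sum_le_sum fun y _ => ?_
      unfold pp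
      nlinarith [sq_nonneg (‖S' x y‖ - ‖S x y‖)]
    rw [Finset.sum_add_distrib, ← Finset.mul_sum, ← Finset.mul_sum] at a1
    have a2 := pset_le_one hS x B
    have a3 := pset_le_one hS' x B
    unfold pset at a2 a3
    linarith
  have hX : 0 ≤ ∑ y ∈ B, ‖S' x y - S x y‖ ^ 2 := Finset.sum_nonneg fun y _ => by positivity
  refine le_trans h1 (abs_le_of_sq_le_sq' ?_ (by positivity)).2
  rw [mul_pow, Real.sq_sqrt hX]
  have h4 := mul_le_mul_of_nonneg_left h3 hX
  linarith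

/-- `lyap` with `Φ S = Σ_{y∉R} ‖S x y - S0 x y‖² + Σ_{y∈R} pp S x y`, a martingale: closing any
`v ∈ U ∩ R` adds `P x v P v y / s` to the mean of each term with `y ≠ v` and removes `P x v`
(`Σ_{y≠v} P v y = s`; if `s = 0` then `P x v = 0`). -/
theorem pert (hH : H.IsSymm) (hg : Good H U c) {R : Finset ι} (hR : R ⊆ U) {x : ι} (hx : x ∉ R) :
    ES H U c R (fun S => ∑ y ∈ Rᶜ, ‖S x y - Smat H U c x y‖ ^ 2) ≤ pset (Smat H U c) x R := by
  have hS0 := Smat_US hH U c
  generalize hS0e : Smat H U c = S0 at hS0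
  let a : ι → ℂ := fun y => if y ∈ R then 0 else S0 x y
  have n1 : Nice (fun S : Mx ι => ∑ y, ‖S x y - a y‖ ^ 2) := Nice.of_continuous (by fun_prop)
  have n0 : Nice (fun S : Mx ι => ∑ y ∈ Rᶜ, ‖S x y - S0 x y‖ ^ 2) :=
    Nice.of_continuous (by fun_prop)
  have hly := lyap (c := c) hH R n1 (fun U' S hS hne => by
    obtain ⟨v, hv⟩ := hne
    have hv' := Finset.mem_inter.1 hv
    have hxv : x ≠ v := fun h => hx (h ▸ hv'.2)
    refine ⟨v, hv, pert_step hS hv'.1 hxv a ?_⟩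
    simp [a, hv'.2]) hg hR
  have hsplit : ∀ S : Mx ι, ∑ y, ‖S x y - a y‖ ^ 2 =
      pset S x R + ∑ y ∈ Rᶜ, ‖S x y - S0 x y‖ ^ 2 := by
    intro S
    rw [← Finset.sum_add_sum_compl R]
    congr 1
    · refine Finset.sum_congr rfl fun y hy => ?_
      simp [a, hy, pp]
    · refine Finset.sum_congr rfl fun y hy => ?_
      simp [a, Finset.mem_compl.1 hy]
  refine le_trans (ES_mono hH hg hR n0 n1 (fun c' _ => ?_)) (le_trans hly ?_)
  · rw [hsplit]
    have := pset_nonneg (Smat H (U \ R) c') x R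
    linarith
  · rw [hS0e, hsplit]
    simp

/-- For `y ∉ R`: `|P' - P| ≤ ‖S' - S‖ (‖S'‖ + ‖S‖)`, Cauchy-Schwarz gives `2 √(Σ ‖S' - S‖²)`;
for `y ∈ R`: `P' = 0`, total `p = pset ≤ √p`. Then `ES_sqrt`. -/
theorem pert1 (hH : H.IsSymm) (hg : Good H U c) {R : Finset ι} (hR : R ⊆ U) {x : ι} (hx : x ∉ R) :
    ES H U c R (fun S => ∑ y, |pp S x y - pp (Smat H U c) x y|) ≤
      3 * √(pset (Smat H U c) x R) := by
  have hp := pert hH hg hR hx
  have hS0 := Smat_US hH U c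
  generalize Smat H U c = S0 at hS0 hp
  have c1 : Continuous (fun S : Mx ι => ∑ y ∈ Rᶜ, ‖S x y - S0 x y‖ ^ 2) := by fun_prop
  have hsq := ES_sqrt hH U c R c1 (fun S => Finset.sum_nonneg fun y _ => by positivity)
  have n0 : Nice (fun S : Mx ι => ∑ y, |pp S x y - pp S0 x y|) := Nice.of_continuous (by fun_prop)
  have n1 : Nice (fun S : Mx ι => √(∑ y ∈ Rᶜ, ‖S x y - S0 x y‖ ^ 2)) :=
    Nice.of_continuous c1.sqrt
  have n2 := Nice.const_mul 2 n1
  have n3 := Nice.add (Nice.const (pset S0 x R)) n2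
  have h1 := ES_mono hH hg hR n0 n3 (fun c' _ => by
    have hS := Smat_US hH (U \ R) c'
    generalize Smat H (U \ R) c' = S at hS
    rw [← Finset.sum_add_sum_compl R]
    refine add_le_add (le_of_eq ?_) (pert_cs hS0 hS x Rᶜ)
    refine Finset.sum_congr rfl fun y hy => ?_
    rw [pp_zero_right hS x (by simp [hy]), zero_sub, abs_neg, abs_of_nonneg (pp_nonneg _ _ _)])
  rw [ES_add hH U c R (Nice.const _) n2, ES_const, ES_const_mul] at h1
  have h2 := Real.sqrt_le_sqrt hp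
  have h3 : pset S0 x R ≤ √(pset S0 x R) := by
    have a0 := pset_nonneg S0 x R
    have a1 := pset_le_one hS0 x R
    refine Real.le_sqrt_of_sq_le ?_
    nlinarith
  linarith

/-- Kernel form: `|Σ_y (P' - P) x y k y| ≤ m Σ_y |P' - P|`. -/
theorem pert_kernel (hH : H.IsSymm) (hg : Good H U c) {R : Finset ι} (hR : R ⊆ U)
    (A : Finset ι) (hA : Disjoint A R) (k : ι → ι → ℝ) {m κ : ℝ} (hm : ∀ x y, |k x y| ≤ m)
    (hκ0 : 0 ≤ κ) (hκ : ∀ x ∈ A, pset (Smat H U c) x R ≤ κ ^ 2) :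
    ES H U c R (fun S => |∑ x ∈ A, ∑ y, pp S x y * k x y -
      ∑ x ∈ A, ∑ y, pp (Smat H U c) x y * k x y|) ≤ 3 * m * A.card * κ := by
  have hp : ∀ x ∈ A, ES H U c R (fun S => ∑ y, |pp S x y - pp (Smat H U c) x y|) ≤ 3 * κ := by
    intro x hx
    refine le_trans (pert1 hH hg hR (Finset.disjoint_left.1 hA hx)) ?_
    have := Real.sqrt_le_sqrt (hκ x hx)
    rw [Real.sqrt_sq hκ0] at this
    linarith
  generalize Smat H U c = S0 at hp
  have n1 : ∀ x ∈ A, Nice (fun S : Mx ι => m * ∑ y, |pp S x y - pp S0 x y|) :=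
    fun x _ => Nice.of_continuous (by fun_prop)
  have n0 : Nice (fun S : Mx ι => |∑ x ∈ A, ∑ y, pp S x y * k x y -
      ∑ x ∈ A, ∑ y, pp S0 x y * k x y|) := Nice.of_continuous (by fun_prop)
  have h1 := ES_mono hH hg hR n0 (Nice.sum A n1) (fun c' _ => by
    generalize Smat H (U \ R) c' = S
    rw [← Finset.sum_sub_distrib]
    refine le_trans (Finset.abs_sum_le_sum_abs _ _) (Finset.sum_le_sum fun x _ => ?_)
    rw [← Finset.sum_sub_distrib, Finset.mul_sum]
    refine le_trans (Finset.abs_sum_le_sum_abs _ _) (Finset.sum_le_sum fun y _ => ?_)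
    rw [← sub_mul, abs_mul, mul_comm]
    exact mul_le_mul_of_nonneg_right (hm x y) (abs_nonneg _))
  rw [ES_sum hH U c R A n1] at h1
  refine le_trans h1 (le_trans (Finset.sum_le_sum (g := fun _ => m * (3 * κ)) fun x hx => ?_) ?_)
  · rw [ES_const_mul]
    exact mul_le_mul_of_nonneg_left (hp x hx) (le_trans (abs_nonneg _) (hm x x))
  · rw [Finset.sum_const, nsmul_eq_mul]
    exact le_of_eq (by ring)

end Vale.Agent.P365
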