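import Vale.Agent.P365.YN
import Vale.Agent.P365.Pert

namespace Vale.Agent.P365

open MeasureTheory ProbabilityTheory Complex Filter
open scoped ComplexConjugate ENNReal

variable {ι : Type} [Fintype ι] [DecidableEq ι]

variable {H : Matrix ι ι ℝ} {U : Finset ι} {c : ι → ℝ}

omit [DecidableEq ι] in
theorem dec_cF (ψ : ι → ℝ) : Continuous fun S : Mx ι => FF S ψ := by
  unfold FF ee pp
  fun_prop

omit [DecidableEq ι] in
theorem dec_cB (φ ψ : ι → ℝ) : Continuous fun S : Mx ι => BB S φ ψ := by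
  unfold BB pp
  fun_prop

theorem dec_free (hH : H.IsSymm) (hg : Good H U c) {O : Finset ι} (hO : O ⊆ U) (ψ η : ι → ℝ)
    (hψ0 : ∀ x ∈ U, x ∉ O → ψ x = 0) (b : ℝ) :
    ES H U c O (fun S => FF S (fun x => η x + ψ x)) ≤
      FF (Smat H U c) η + 2 * b * BB (Smat H U c) η ψ + b ^ 2 * FF (Smat H U c) ψ := by
  rw [← FF_add_smul]
  refine le_of_eq_of_le ?_ (superF hH hg hO _)
  unfold ES
  congr 1
  funext ω
  refine FF_congr (Smat_US hH _ _) fun x hx => ?_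
  rw [Finset.mem_sdiff] at hx
  rw [hψ0 x hx.1 hx.2, mul_zero]

/-- Adjusting along `ψ` is free when `ψ` vanishes on the probes left after closing `O`:
`ES O F(η+ψ) = ES O F(η+ψ+aψ) ≤ F(η+ψ+aψ)` (`FF_congr`, `superF`), with
`F(η + (1+a) ψ) = F η + 2 (1+a) y + (1+a)² X`, `y = BB η ψ`, `X = F ψ`. Average `a = 0` and
`1 + a = d/(X+Λ)` where `d = Λ - y0`: using `(1+a)² X ≤ (1+a)² X + a² Λ` one gets
`F η + Λ - d²/(X+Λ) + 2 (1+a) (y - y0)` and `0 ≤ 1 + a ≤ 3/2`. -/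
theorem adjust (hH : H.IsSymm) (hg : Good H U c) {O : Finset ι} (hO : O ⊆ U) (ψ η : ι → ℝ)
    (hψ0 : ∀ x ∈ U, x ∉ O → ψ x = 0) {Λ y0 : ℝ} (hΛ : 0 < Λ) (hy : |y0| ≤ Λ / 2) :
    ES H U c O (fun S => FF S (fun x => η x + ψ x)) ≤
      FF (Smat H U c) η + y0 + Λ / 2 + gt Λ (Λ - y0) (FF (Smat H U c) ψ) / 2
        + 5 / 2 * |BB (Smat H U c) η ψ - y0| := by
  have hX := FF_nonneg (Smat H U c) ψ
  have h1 := dec_free hH hg hO ψ η hψ0 1
  have h2 := dec_free hH hg hO ψ η hψ0 ((Λ - y0) / (FF (Smat H U c) ψ + Λ))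
  rw [gt]
  obtain ⟨X, hXe⟩ : ∃ X, X = FF (Smat H U c) ψ := ⟨_, rfl⟩
  obtain ⟨y, hye⟩ : ∃ y, y = BB (Smat H U c) η ψ := ⟨_, rfl⟩
  rw [← hXe] at hX
  rw [← hXe, ← hye] at h1 h2 ⊢
  have hp : 0 < X + Λ := by linarith
  obtain ⟨hy1, hy2⟩ := abs_le.1 hy
  obtain ⟨b, hb⟩ : ∃ b, b = (Λ - y0) / (X + Λ) := ⟨_, rfl⟩
  have b0 : 0 ≤ b := hb ▸ div_nonneg (by linarith) hp.le
  have b1 : b ≤ 3 / 2 := by
    rw [hb, div_le_iff₀ hp]
    linarith
  have e1 : b * (X + Λ) = Λ - y0 := by rw [hb, div_mul_cancel₀ _ hp.ne']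
  have e2 : (Λ - y0) ^ 2 / (X + Λ) = b * (Λ - y0) := by rw [hb]; ring
  rw [← hb] at h2
  rw [e2]
  have h3 : 0 ≤ (b - 1) ^ 2 * Λ := by positivity
  have h4 : (1 + b) * (y - y0) ≤ 5 / 2 * |y - y0| :=
    (mul_le_mul_of_nonneg_left (le_abs_self _) (by linarith)).trans
      (mul_le_mul_of_nonneg_right (by linarith) (abs_nonneg _))
  have e3 : b * (b * (X + Λ)) = b * (Λ - y0) := by rw [e1]
  nlinarith

theorem dec_BB {U' : Finset ι} {S : Mx ι} (hS : US U' S) (hU : U' ⊆ U) {C Z : Finset ι}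
    {ψ η : ι → ℝ} (hψ0 : ∀ x ∈ U, x ∉ C → ψ x = 0) (hη0 : ∀ x ∈ C, η x = 0)
    (hZ : ∀ z ∈ U, η z ≠ 0 → z ∈ Z) :
    BB S η ψ = -∑ z ∈ Z \ C, ∑ x, pp S z x * (η z * ψ x) := by
  rw [BB_disj hS fun x hx => ?_]
  · congr 1
    refine (Finset.sum_subset (Finset.subset_univ _) fun z _ hz => ?_).symm
    refine Finset.sum_eq_zero fun x _ => ?_
    by_cases h1 : z ∈ U'
    · have : η z = 0 := by
        by_contra h2
        exact hz (Finset.mem_sdiff.2 ⟨hZ z (hU h1) h2, fun h3 => h2 (hη0 z h3)⟩)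
      rw [this, zero_mul, mul_zero]
    · rw [pp_zero_left hS h1, zero_mul]
  · by_cases h1 : x ∈ C
    · rw [hη0 x h1, zero_mul]
    · rw [hψ0 x (hU hx) h1, mul_zero]

omit [Fintype ι] [DecidableEq ι] in
theorem dec_quarter {ψ η : ι → ℝ} (hψ : Half ψ) (hη : Half η) (z x : ι) :
    |η z * ψ x| ≤ 1 / 4 := by
  rw [abs_mul]
  exact (mul_le_mul (hη z) (hψ x) (abs_nonneg _) (by norm_num)).trans_eq (by norm_num)

theorem dec_T {S : Mx ι} (hS : US U S) {C : Finset ι} {ψ η : ι → ℝ} (hψ : Half ψ) (hη : Half η)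
    (hψ0 : ∀ x ∈ U, x ∉ C → ψ x = 0) (hη0 : ∀ x ∈ C, η x = 0) :
    |BB S η ψ| ≤ FF S (ind C) / 4 := by
  rw [dec_BB hS subset_rfl (Z := Finset.univ) hψ0 hη0 (fun z _ _ => Finset.mem_univ z), abs_neg,
    FF_ind hS, ← Finset.compl_eq_univ_sdiff]
  simp only [pset]
  rw [Finset.sum_comm (s := C), Finset.sum_div]
  refine (Finset.abs_sum_le_sum_abs _ _).trans (Finset.sum_le_sum fun z _ => ?_)
  rw [← Finset.sum_subset (Finset.subset_univ C) fun x _ hx => ?_, Finset.sum_div]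
  · refine (Finset.abs_sum_le_sum_abs _ _).trans (Finset.sum_le_sum fun x _ => ?_)
    rw [abs_mul, abs_of_nonneg (pp_nonneg S z x), pp_symm hS x z]
    exact (mul_le_mul_of_nonneg_left (dec_quarter hψ hη z x) (pp_nonneg S z x)).trans_eq
      (by ring)
  · by_cases h1 : x ∈ U
    · rw [hψ0 x h1 hx, mul_zero, mul_zero]
    · rw [pp_zero_right hS z h1, zero_mul]

/-- Let `y0 = BB S0 η ψ`. If `|y0| ≤ Λ/2`: `ES_tower` with `adjust`, then `superF` for `η`, `ATP`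
with `d = Λ - y0`, `E |y - y0| ≤ (3/4) card Z κ` (`BB_disj`, `pert_kernel` on `A = Z \ (Γ ∪ O)`
with kernel `η z ψ x`, `m = 1/4`), and `F η + y0 + Λ/2 + gt Λ d X/2 ≤ F η + 2 y0 + X = F (η+ψ)`
(it is `(X + Λ - d)² ≥ 0`). If `|y0| > Λ/2`: `|y0| ≤ T/4` with `T = F (ind (Γ ∪ O))` (`FF_ind`),
so `T ≥ 2/θ`, `al ≤ 2 F ψ ≤ θ (F ψ)² + 1/θ`, the bracket is `≤ 0` and `superF` suffices. -/
theorem dec {θ lam Λ : ℝ} (hAT : ATP θ lam Λ) (hθ : 0 < θ) (hlam : 0 ≤ lam) (hΛ : 1 / θ ≤ Λ)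
    (hH : H.IsSymm) (hg : Good H U c) {Γ O : Finset ι} (hΓ : Γ ⊆ U) (hO : O ⊆ U)
    (hd : Disjoint Γ O) {ψ η : ι → ℝ} (hψ : Half ψ) (hη : Half η)
    (hψ0 : ∀ x ∈ U, x ∉ Γ ∪ O → ψ x = 0) (hη0 : ∀ x ∈ Γ ∪ O, η x = 0) (Z : Finset ι)
    (hZ : ∀ z ∈ U, η z ≠ 0 → z ∈ Z) {κ : ℝ} (hκ0 : 0 ≤ κ)
    (hκ : ∀ z ∈ Z, z ∉ Γ ∪ O → pset (Smat H U c) z Γ ≤ κ ^ 2) :
    ES H U c (Γ ∪ O) (fun S => FF S (fun x => η x + ψ x)) ≤
      FF (Smat H U c) (fun x => η x + ψ x) - lam / 2 * (al (Smat H U c) Γ ψ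
        - θ * (1 + FF (Smat H U c) ψ + FF (Smat H U c) (ind Γ)) ^ 2
        - θ * FF (Smat H U c) (ind (Γ ∪ O)) ^ 2) + 2 * Z.card * κ := by
  have hΛ0 : 0 < Λ := (one_div_pos.2 hθ).trans_le hΛ
  have hS := Smat_US hH U c
  have hX := FF_nonneg (Smat H U c) ψ
  have hG := FF_nonneg (Smat H U c) (ind Γ)
  have hK : 0 ≤ (Z.card : ℝ) * κ := by positivity
  rcases le_or_gt |BB (Smat H U c) η ψ| (Λ / 2) with hy | hy
  · obtain ⟨y0, hy0⟩ : ∃ y0, y0 = BB (Smat H U c) η ψ := ⟨_, rfl⟩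
    rw [← hy0] at hy
    have n1 : Nice fun S : Mx ι => FF S η := Nice.of_continuous (dec_cF η)
    have n2 : Nice fun S : Mx ι => 1 / 2 * gt Λ (Λ - y0) (FF S ψ) :=
      (Nice.of_continuous (continuous_gt hΛ0 _ ψ)).const_mul _
    have n0 : Nice fun S : Mx ι => |BB S η ψ - y0| :=
      Nice.of_continuous ((dec_cB η ψ).sub continuous_const).abs
    have n3 : Nice fun S : Mx ι => 5 / 2 * |BB S η ψ - y0| := n0.const_mul _
    have n4 : Nice fun S : Mx ι => FF S η + (y0 + Λ / 2) := n1.add (Nice.const _)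
    have h1 := ES_tower hH hg hΓ O (Nice.of_continuous (dec_cF fun x => η x + ψ x))
      ((n4.add n2).add n3) fun c' hc' => (adjust hH hc' (Finset.subset_sdiff.2 ⟨hO, hd.symm⟩) ψ η
        (fun x hx hx' => hψ0 x (Finset.mem_sdiff.1 hx).1 fun h => (Finset.mem_union.1 h).elim
          (Finset.mem_sdiff.1 hx).2 hx') hΛ0 hy).trans_eq (by ring)
    rw [ES_add hH U c Γ (n4.add n2) n3, ES_add hH U c Γ n4 n2, ES_add hH U c Γ n1 (Nice.const _),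
      ES_const, ES_const_mul, ES_const_mul] at h1
    have h2 := superF hH hg hΓ η
    have h3 := hAT ι H hH U c hg Γ hΓ ψ hψ (Λ - y0) (by linarith [(abs_le.1 hy).2])
    have h4 := pert_kernel hH hg hΓ (Z \ (Γ ∪ O))
      (Finset.disjoint_of_subset_right Finset.subset_union_left Finset.sdiff_disjoint)
      (fun z x => η z * ψ x) (dec_quarter hψ hη) hκ0
      fun z hz => hκ z (Finset.mem_sdiff.1 hz).1 (Finset.mem_sdiff.1 hz).2
    have e1 : ES H U c Γ (fun S => |BB S η ψ - y0|) = ES H U c Γ fun S =>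
        |∑ z ∈ Z \ (Γ ∪ O), ∑ x, pp S z x * (η z * ψ x) -
          ∑ z ∈ Z \ (Γ ∪ O), ∑ x, pp (Smat H U c) z x * (η z * ψ x)| := by
      unfold ES
      congr 1
      funext ω
      beta_reduce
      rw [hy0, dec_BB (Smat_US hH _ _) Finset.sdiff_subset hψ0 hη0 hZ,
        dec_BB hS subset_rfl hψ0 hη0 hZ, neg_sub_neg, abs_sub_comm]
    rw [← e1] at h4
    have h5 : ((Z \ (Γ ∪ O)).card : ℝ) * κ ≤ Z.card * κ :=
      mul_le_mul_of_nonneg_right (by exact_mod_cast Finset.card_le_card Finset.sdiff_subset) hκ0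
    have h6 := FF_add_smul (Smat H U c) η ψ 1
    simp only [one_mul] at h6
    rw [← hy0] at h6
    have h7 : Λ + gt Λ (Λ - y0) (FF (Smat H U c) ψ) ≤ 2 * y0 + 2 * FF (Smat H U c) ψ := by
      have hp : 0 < FF (Smat H U c) ψ + Λ := by linarith
      have : 2 * (Λ - y0) - (FF (Smat H U c) ψ + Λ) ≤ (Λ - y0) ^ 2 / (FF (Smat H U c) ψ + Λ) := by
        rw [le_div_iff₀ hp]
        nlinarith [sq_nonneg (FF (Smat H U c) ψ + Λ - (Λ - y0))]
      rw [gt]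
      linarith
    have h8 : 0 ≤ lam * (θ * FF (Smat H U c) (ind (Γ ∪ O)) ^ 2) := by positivity
    linarith
  · have h1 := superF hH hg (Finset.union_subset hΓ hO) fun x => η x + ψ x
    have h2 := dec_T hS hψ hη hψ0 hη0
    have h3 := al_le_FF hS Γ ψ
    obtain ⟨X, hXe⟩ : ∃ X, X = FF (Smat H U c) ψ := ⟨_, rfl⟩
    obtain ⟨G, hGe⟩ : ∃ G, G = FF (Smat H U c) (ind Γ) := ⟨_, rfl⟩
    obtain ⟨T, hTe⟩ : ∃ T, T = FF (Smat H U c) (ind (Γ ∪ O)) := ⟨_, rfl⟩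
    rw [← hXe] at hX h3
    rw [← hGe] at hG
    rw [← hTe] at h2
    rw [← hXe, ← hGe, ← hTe]
    have h4 : 1 ≤ θ * T := by
      rw [div_le_iff₀ hθ] at hΛ
      nlinarith
    have h5 : 2 * X ≤ θ * (1 + X + G) ^ 2 + θ * T ^ 2 := by
      refine le_of_mul_le_mul_left ?_ hθ
      have h6 : θ ^ 2 * X ^ 2 ≤ θ ^ 2 * (1 + X + G) ^ 2 := by gcongr; linarith
      nlinarith [sq_nonneg (θ * X - 1)]
    have h6 : lam / 2 * (al (Smat H U c) Γ ψ - θ * (1 + X + G) ^ 2 - θ * T ^ 2) ≤ 0 :=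
      mul_nonpos_of_nonneg_of_nonpos (by positivity) (by linarith)
    linarith

end Vale.Agent.P365
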