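import Vale.Agent.P365.Cls2

namespace Vale.Agent.P365

open MeasureTheory ProbabilityTheory Complex Filter
open scoped ComplexConjugate ENNReal

variable {ι : Type} [Fintype ι] [DecidableEq ι]

variable {U : Finset ι} {S : Mx ι}

/-- The scattering matrices lie in the compact unit ball of the sup norm (`norm_le_one`). -/
theorem Nice.of_continuous {Φ : Mx ι → ℝ} (h : Continuous Φ) : Nice Φ := by
  obtain ⟨C, hC⟩ := (isCompact_closedBall (0 : Mx ι) 1).exists_bound_of_continuousOn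
    h.continuousOn
  refine ⟨h.measurable, C, fun U S hS => hC S ?_⟩
  rw [mem_closedBall_zero_iff]
  exact (pi_norm_le_iff_of_nonneg zero_le_one).2 fun x =>
    (pi_norm_le_iff_of_nonneg zero_le_one).2 fun y => norm_le_one hS x y

theorem Nice.const (a : ℝ) : Nice (fun _ : Mx ι => a) := by
  exact ⟨measurable_const, |a|, fun _ _ _ => le_rfl⟩

theorem Nice.add {Φ Ψ : Mx ι → ℝ} (h1 : Nice Φ) (h2 : Nice Ψ) : Nice fun S => Φ S + Ψ S := by
  obtain ⟨m1, M1, b1⟩ := h1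
  obtain ⟨m2, M2, b2⟩ := h2
  exact ⟨m1.add m2, M1 + M2, fun U S hS =>
    (abs_add_le _ _).trans (add_le_add (b1 U S hS) (b2 U S hS))⟩

theorem Nice.sub {Φ Ψ : Mx ι → ℝ} (h1 : Nice Φ) (h2 : Nice Ψ) : Nice fun S => Φ S - Ψ S := by
  obtain ⟨m1, M1, b1⟩ := h1
  obtain ⟨m2, M2, b2⟩ := h2
  exact ⟨m1.sub m2, M1 + M2, fun U S hS =>
    (abs_sub _ _).trans (add_le_add (b1 U S hS) (b2 U S hS))⟩

theorem Nice.mul {Φ Ψ : Mx ι → ℝ} (h1 : Nice Φ) (h2 : Nice Ψ) : Nice fun S => Φ S * Ψ S := by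
  obtain ⟨m1, M1, b1⟩ := h1
  obtain ⟨m2, M2, b2⟩ := h2
  refine ⟨m1.mul m2, M1 * M2, fun U S hS => ?_⟩
  rw [abs_mul]
  exact mul_le_mul (b1 U S hS) (b2 U S hS) (abs_nonneg _) ((abs_nonneg _).trans (b1 U S hS))

theorem Nice.const_mul {Φ : Mx ι → ℝ} (a : ℝ) (h : Nice Φ) : Nice fun S => a * Φ S := by
  exact (Nice.const a).mul h

theorem Nice.min {Φ Ψ : Mx ι → ℝ} (h1 : Nice Φ) (h2 : Nice Ψ) :
    Nice fun S => min (Φ S) (Ψ S) := by
  obtain ⟨m1, M1, b1⟩ := h1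
  obtain ⟨m2, M2, b2⟩ := h2
  refine ⟨m1.min m2, max M1 M2, fun U S hS => ?_⟩
  rcases min_choice (Φ S) (Ψ S) with h | h <;> simp only [h]
  · exact (b1 U S hS).trans (le_max_left _ _)
  · exact (b2 U S hS).trans (le_max_right _ _)

theorem Nice.sum {κ : Type} (A : Finset κ) {Φ : κ → Mx ι → ℝ} (h : ∀ k ∈ A, Nice (Φ k)) :
    Nice fun S => ∑ k ∈ A, Φ k S := by
  classical
  induction A using Finset.induction_on with
  | empty => simpa using Nice.const (ι := ι) 0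
  | insert a A ha ih =>
    simp only [Finset.sum_insert ha]
    exact (h a (Finset.mem_insert_self _ _)).add
      (ih fun k hk => h k (Finset.mem_insert_of_mem hk))

theorem Nice.integrable_cls {Φ : Mx ι → ℝ} (h : Nice Φ) (hS : US U S) {v : ι} (hv : v ∈ U) :
    Integrable (fun t => Φ (cls S v t)) cau := by
  obtain ⟨m, M, b⟩ := h
  exact Integrable.of_bound (m.comp (measurable_cls S v)).aestronglyMeasurable M
    (Eventually.of_forall fun t => b _ _ (cls_US hS hv t))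


@[fun_prop] theorem continuous_pp (x y : ι) : Continuous fun S : Mx ι => pp S x y := by
  unfold pp
  fun_prop

@[fun_prop] theorem continuous_pset (x : ι) (A : Finset ι) :
    Continuous fun S : Mx ι => pset S x A := by
  unfold pset
  fun_prop

@[fun_prop] theorem continuous_sv (x : ι) : Continuous fun S : Mx ι => sv S x := by
  unfold sv
  fun_prop

@[fun_prop] theorem continuous_ee (ψ : ι → ℝ) (x : ι) :
    Continuous fun S : Mx ι => ee S ψ x := by
  unfold ee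
  fun_prop

@[fun_prop] theorem continuous_jj (ψ : ι → ℝ) (x : ι) :
    Continuous fun S : Mx ι => jj S ψ x := by
  unfold jj
  fun_prop

@[fun_prop] theorem continuous_FF (ψ : ι → ℝ) : Continuous fun S : Mx ι => FF S ψ := by
  unfold FF
  fun_prop

@[fun_prop] theorem continuous_BB (φ ψ : ι → ℝ) : Continuous fun S : Mx ι => BB S φ ψ := by
  unfold BB
  fun_prop

@[fun_prop] theorem continuous_Th (ψ : ι → ℝ) (x y : ι) :
    Continuous fun S : Mx ι => Th S ψ x y := by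
  unfold Th
  fun_prop

@[fun_prop] theorem continuous_MM (ψ : ι → ℝ) (x : ι) :
    Continuous fun S : Mx ι => MM S ψ x := by
  unfold MM
  fun_prop

@[fun_prop] theorem continuous_NN (Γ : Finset ι) : Continuous fun S : Mx ι => NN S Γ := by
  unfold NN
  fun_prop

@[fun_prop] theorem continuous_al (Γ : Finset ι) (ψ : ι → ℝ) :
    Continuous fun S : Mx ι => al S Γ ψ := by
  unfold al
  fun_prop

theorem continuous_wN {A : ℝ} (hA : 0 < A) (Γ : Finset ι) :
    Continuous fun S : Mx ι => wN A (NN S Γ) := by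
  unfold wN
  exact (continuous_NN Γ).div (by fun_prop) fun S => (add_pos_of_nonneg_of_pos (NN_nonneg S Γ) hA).ne'

theorem continuous_gt {Λ : ℝ} (hΛ : 0 < Λ) (d : ℝ) (ψ : ι → ℝ) :
    Continuous fun S : Mx ι => gt Λ d (FF S ψ) := by
  unfold gt
  exact (continuous_FF ψ).sub (continuous_const.div (by fun_prop) fun S =>
    (add_pos_of_nonneg_of_pos (FF_nonneg S ψ) hΛ).ne')

theorem nice_qterm {ψ : ι → ℝ} (hψ : Osc ψ) (w : ι) :
    Nice fun S : Mx ι => ‖MM S ψ w‖ ^ 2 / sv S w := by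
  refine ⟨((continuous_MM ψ w).norm.pow 2).measurable.div (continuous_sv w).measurable, 1,
    fun U S hS => ?_⟩
  have h0 := sv_nonneg S w
  have h1 : ‖MM S ψ w‖ ≤ sv S w := (norm_MM_le hS ψ w).trans (ee_le_sv S hψ w)
  have h2 := sv_le_one hS w
  rw [abs_of_nonneg (by positivity)]
  refine div_le_one_of_le₀ ?_ h0
  nlinarith [norm_nonneg (MM S ψ w)]

theorem nice_qq (Γ : Finset ι) {ψ : ι → ℝ} (hψ : Osc ψ) : Nice fun S : Mx ι => qq S Γ ψ := by
  exact Nice.sum Γ fun w _ => nice_qterm hψ w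

theorem nice_W2 {Λ : ℝ} (hΛ : 0 < Λ) (d θ η1 η2 η3 η5 : ℝ) (Γ : Finset ι) {ψ : ι → ℝ}
    (hψ : Osc ψ) : Nice (W2 Λ d θ η1 η2 η3 η5 Γ ψ) := by
  unfold W2
  refine ((((Nice.of_continuous (continuous_gt hΛ d ψ)).sub (Nice.of_continuous ?_)).sub
    ((nice_qq Γ hψ).const_mul η2)).add (Nice.of_continuous ?_)).add (Nice.of_continuous ?_)
  all_goals fun_prop

theorem nice_W1 {Λ C1 : ℝ} (hΛ : 0 < Λ) (hC : 0 < C1) (d θ η1 : ℝ) (Γ : Finset ι) (ψ : ι → ℝ) :
    Nice (W1 Λ d θ η1 C1 Γ ψ) := by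
  refine Nice.of_continuous ?_
  have h1 := continuous_gt (ι := ι) hΛ d ψ
  have h2 := continuous_wN (ι := ι) hC Γ
  unfold W1
  fun_prop


theorem Av_mono (hS : US U S) {v : ι} (hv : v ∈ U) {Φ Ψ : Mx ι → ℝ} (h1 : Nice Φ) (h2 : Nice Ψ)
    (h : ∀ t, Φ (cls S v t) ≤ Ψ (cls S v t)) : Av S v Φ ≤ Av S v Ψ := by
  exact integral_mono (h1.integrable_cls hS hv) (h2.integrable_cls hS hv) h

theorem Av_add (hS : US U S) {v : ι} (hv : v ∈ U) {Φ Ψ : Mx ι → ℝ} (h1 : Nice Φ) (h2 : Nice Ψ) :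
    Av S v (fun S' => Φ S' + Ψ S') = Av S v Φ + Av S v Ψ := by
  exact integral_add (h1.integrable_cls hS hv) (h2.integrable_cls hS hv)

theorem Av_sub (hS : US U S) {v : ι} (hv : v ∈ U) {Φ Ψ : Mx ι → ℝ} (h1 : Nice Φ) (h2 : Nice Ψ) :
    Av S v (fun S' => Φ S' - Ψ S') = Av S v Φ - Av S v Ψ := by
  exact integral_sub (h1.integrable_cls hS hv) (h2.integrable_cls hS hv)

theorem Av_const_mul (S : Mx ι) (v : ι) (a : ℝ) (Φ : Mx ι → ℝ) :
    Av S v (fun S' => a * Φ S') = a * Av S v Φ := by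
  exact integral_const_mul _ _

theorem Av_const (S : Mx ι) (v : ι) (a : ℝ) : Av S v (fun _ => a) = a := by
  simp [Av]

theorem Av_sum (hS : US U S) {v : ι} (hv : v ∈ U) {κ : Type} (A : Finset κ)
    {Φ : κ → Mx ι → ℝ} (h : ∀ k ∈ A, Nice (Φ k)) :
    Av S v (fun S' => ∑ k ∈ A, Φ k S') = ∑ k ∈ A, Av S v (Φ k) := by
  exact integral_finsetSum A fun k hk => (h k hk).integrable_cls hS hv


end Vale.Agent.P365
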