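import Vale.Agent.P365.St
import Vale.Agent.P365.Nice

namespace Vale.Agent.P365

open MeasureTheory ProbabilityTheory Complex Filter
open scoped ComplexConjugate ENNReal

variable {ι : Type} [Fintype ι] [DecidableEq ι]

variable {H : Matrix ι ι ℝ} {U : Finset ι} {c : ι → ℝ}

/-- Check on boxes with `Measure.pi_eq`: the preimage of a box is a product of two boxes. -/
theorem mp_piecewise (R : Finset ι) :
    MeasurePreserving (fun q : (ι → ℝ) × (ι → ℝ) => R.piecewise q.2 q.1)
      ((piC ι).prod (piC ι)) (piC ι) := by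
  have hm : Measurable fun q : (ι → ℝ) × (ι → ℝ) => R.piecewise q.2 q.1 :=
    measurable_pi_lambda _ fun i => by
      by_cases hi : i ∈ R
      · simp only [Finset.piecewise_eq_of_mem _ _ _ hi]
        fun_prop
      · simp only [Finset.piecewise_eq_of_notMem _ _ _ hi]
        fun_prop
  refine ⟨hm, (Measure.pi_eq fun s hs => ?_).symm⟩
  have h1 : (fun q : (ι → ℝ) × (ι → ℝ) => R.piecewise q.2 q.1) ⁻¹' Set.pi Set.univ s =
      (Set.pi Set.univ fun i => if i ∈ R then Set.univ else s i) ×ˢ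
        Set.pi Set.univ fun i => if i ∈ R then s i else Set.univ := by
    ext q
    simp only [Set.mem_preimage, Set.mem_pi, Set.mem_univ, forall_true_left, Set.mem_prod,
      ← forall_and]
    refine forall_congr' fun i => ?_
    by_cases hi : i ∈ R <;> simp [hi]
  rw [Measure.map_apply hm (MeasurableSet.univ_pi hs), h1, Measure.prod_prod, piC, Measure.pi_pi,
    Measure.pi_pi, ← Finset.prod_mul_distrib]
  refine Finset.prod_congr rfl fun i _ => ?_
  by_cases hi : i ∈ R <;> simp [hi]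

theorem mp_update (v : ι) :
    MeasurePreserving (fun q : (ι → ℝ) × ℝ => Function.update q.1 v q.2)
      ((piC ι).prod cau) (piC ι) := by
  have hg : MeasurePreserving (Prod.map id fun ω : ι → ℝ => ω v) ((piC ι).prod (piC ι))
      ((piC ι).prod cau) :=
    (MeasurePreserving.id _).prod (measurePreserving_eval (fun _ : ι => cau) v)
  refine ⟨measurable_update', ?_⟩
  rw [← hg.map_eq, Measure.map_map measurable_update' hg.measurable]
  refine Eq.trans (congrArg (Measure.map · _) ?_) (mp_piecewise {v}).map_eq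
  funext q
  simp [Finset.piecewise_singleton]

theorem lintegral_update (v : ι) {f : (ι → ℝ) → ℝ≥0∞} (hf : Measurable f) :
    ∫⁻ ω, f ω ∂(piC ι) = ∫⁻ ω, ∫⁻ t, f (Function.update ω v t) ∂cau ∂(piC ι) := by
  rw [← (mp_update v).lintegral_comp hf]
  exact lintegral_prod _ (hf.comp (mp_update v).measurable).aemeasurable

omit [Fintype ι] in
theorem Em0_meas (R : Finset ι) (c : ι → ℝ) : Measurable fun ω : ι → ℝ => R.piecewise ω c :=
  measurable_pi_lambda _ fun i => by
    by_cases hi : i ∈ R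
    · simp only [Finset.piecewise_eq_of_mem _ _ _ hi]
      fun_prop
    · simp only [Finset.piecewise_eq_of_notMem _ _ _ hi]
      fun_prop

theorem ES_integrable (hH : H.IsSymm) (U : Finset ι) (c : ι → ℝ) (R : Finset ι) {Φ : Mx ι → ℝ}
    (hΦ : Nice Φ) :
    Integrable (fun ω => Φ (Smat H (U \ R) (R.piecewise ω c))) (piC ι) := by
  obtain ⟨M, hM⟩ := hΦ.2
  exact Integrable.of_bound
    (hΦ.1.comp ((measurable_Smat H _).comp (Em0_meas R c))).aestronglyMeasurable M
    (ae_of_all _ fun ω => hM _ _ (Smat_US hH _ _))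

theorem ES_empty (H : Matrix ι ι ℝ) (U : Finset ι) (c : ι → ℝ) (Φ : Mx ι → ℝ) :
    ES H U c ∅ Φ = Φ (Smat H U c) := by
  simp [ES]

/-- Induction on `R` with `good_close_ae` and `mp_update`. -/
theorem good_ae (hg : Good H U c) {R : Finset ι} (hR : R ⊆ U) :
    ∀ᵐ ω ∂(piC ι), Good H (U \ R) (R.piecewise ω c) := by
  induction R using Finset.induction_on with
  | empty => exact ae_of_all _ fun ω => by simpa using hg
  | insert v R hv ih =>
    have hS : MeasurableSet {ω : ι → ℝ | Good H (U \ insert v R) ((insert v R).piecewise ω c)} :=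
      Em0_meas _ c (measurableSet_good H _)
    have hm := (mp_update (ι := ι) v).measurable
    rw [← (mp_update v).map_eq, ae_map_iff hm.aemeasurable hS]
    refine (Measure.ae_prod_mem_iff_ae_ae_mem (hm hS)).2 ?_
    filter_upwards [ih ((Finset.subset_insert _ _).trans hR)] with ω hω
    have h1 : v ∈ U \ R := Finset.mem_sdiff.2 ⟨hR (Finset.mem_insert_self _ _), hv⟩
    filter_upwards [good_close_ae h1 hω] with t ht
    have h2 : (insert v R).piecewise (Function.update ω v t) c =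
        Function.update (R.piecewise ω c) v t := by
      funext i
      by_cases hi : i = v
      · subst hi
        simp
      · by_cases hi' : i ∈ R <;> simp [hi, hi']
    simpa only [Set.mem_preimage, Set.mem_ofPred_eq, h2, Finset.sdiff_insert] using ht

theorem ES_mono (hH : H.IsSymm) (hg : Good H U c) {R : Finset ι} (hR : R ⊆ U) {Φ Ψ : Mx ι → ℝ}
    (hΦ : Nice Φ) (hΨ : Nice Ψ)
    (h : ∀ c', Good H (U \ R) c' → Φ (Smat H (U \ R) c') ≤ Ψ (Smat H (U \ R) c')) :
    ES H U c R Φ ≤ ES H U c R Ψ :=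
  integral_mono_ae (ES_integrable hH U c R hΦ) (ES_integrable hH U c R hΨ)
    ((good_ae hg hR).mono fun _ hω => h _ hω)

theorem ES_add (hH : H.IsSymm) (U : Finset ι) (c : ι → ℝ) (R : Finset ι) {Φ Ψ : Mx ι → ℝ}
    (hΦ : Nice Φ) (hΨ : Nice Ψ) :
    ES H U c R (fun S => Φ S + Ψ S) = ES H U c R Φ + ES H U c R Ψ :=
  integral_add (ES_integrable hH U c R hΦ) (ES_integrable hH U c R hΨ)

theorem ES_sub (hH : H.IsSymm) (U : Finset ι) (c : ι → ℝ) (R : Finset ι) {Φ Ψ : Mx ι → ℝ}
    (hΦ : Nice Φ) (hΨ : Nice Ψ) :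
    ES H U c R (fun S => Φ S - Ψ S) = ES H U c R Φ - ES H U c R Ψ :=
  integral_sub (ES_integrable hH U c R hΦ) (ES_integrable hH U c R hΨ)

theorem ES_const_mul (H : Matrix ι ι ℝ) (U : Finset ι) (c : ι → ℝ) (R : Finset ι) (a : ℝ)
    (Φ : Mx ι → ℝ) : ES H U c R (fun S => a * Φ S) = a * ES H U c R Φ :=
  integral_const_mul _ _

theorem ES_const (H : Matrix ι ι ℝ) (U : Finset ι) (c : ι → ℝ) (R : Finset ι) (a : ℝ) :
    ES H U c R (fun _ => a) = a := by
  simp [ES]

theorem ES_sum (hH : H.IsSymm) (U : Finset ι) (c : ι → ℝ) (R : Finset ι) {κ : Type}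
    (A : Finset κ) {Φ : κ → Mx ι → ℝ} (h : ∀ k ∈ A, Nice (Φ k)) :
    ES H U c R (fun S => ∑ k ∈ A, Φ k S) = ∑ k ∈ A, ES H U c R (Φ k) :=
  integral_finsetSum A fun k hk => ES_integrable hH U c R (h k hk)

theorem ES_nonneg (H : Matrix ι ι ℝ) (U : Finset ι) (c : ι → ℝ) (R : Finset ι) {Φ : Mx ι → ℝ}
    (h : ∀ S, 0 ≤ Φ S) : 0 ≤ ES H U c R Φ :=
  integral_nonneg fun _ => h _

/-- Fubini with `mp_piecewise R2`:
`(R1 ∪ R2).piecewise (R2.piecewise ω2 ω1) c = R2.piecewise ω2 (R1.piecewise ω1 c)`. -/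
theorem ES_union (hH : H.IsSymm) (U : Finset ι) (c : ι → ℝ) (R1 R2 : Finset ι) {Φ : Mx ι → ℝ}
    (hΦ : Nice Φ) :
    ES H U c (R1 ∪ R2) Φ = ∫ ω, ES H (U \ R1) (R1.piecewise ω c) R2 Φ ∂(piC ι) ∧
      Integrable (fun ω => ES H (U \ R1) (R1.piecewise ω c) R2 Φ) (piC ι) := by
  have h1 := ES_integrable hH U c (R1 ∪ R2) hΦ
  have h2 := ((mp_piecewise R2).integrable_comp h1.aestronglyMeasurable).2 h1
  have h3 : ((fun ω => Φ (Smat H (U \ (R1 ∪ R2)) ((R1 ∪ R2).piecewise ω c))) ∘
      fun q : (ι → ℝ) × (ι → ℝ) => R2.piecewise q.2 q.1) =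
      fun q => Φ (Smat H ((U \ R1) \ R2) (R2.piecewise q.2 (R1.piecewise q.1 c))) := by
    funext q
    have h4 : (R1 ∪ R2).piecewise (R2.piecewise q.2 q.1) c =
        R2.piecewise q.2 (R1.piecewise q.1 c) := by
      funext i
      by_cases hi : i ∈ R1 <;> by_cases hi' : i ∈ R2 <;> simp [hi, hi']
    have h5 : U \ (R1 ∪ R2) = (U \ R1) \ R2 := by
      ext i
      simp [and_assoc]
    simp only [Function.comp, h4, h5]
  have h6 := integral_map (μ := (piC ι).prod (piC ι)) (mp_piecewise R2).measurable.aemeasurable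
    (f := fun ω => Φ (Smat H (U \ (R1 ∪ R2)) ((R1 ∪ R2).piecewise ω c)))
    (by rw [(mp_piecewise R2).map_eq]; exact h1.aestronglyMeasurable)
  rw [(mp_piecewise R2).map_eq] at h6
  have h7 := integral_prod _ h2
  have h8 := h2.integral_prod_left
  rw [h3] at h7 h8
  exact ⟨h6.trans ((congrArg (integral _) h3).trans h7), h8⟩

end Vale.Agent.P365
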