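import Vale.Agent.P365.Defs

namespace Vale.Agent.P365

open MeasureTheory ProbabilityTheory Complex Filter
open scoped ComplexConjugate ENNReal

variable {ι : Type} [Fintype ι] [DecidableEq ι]

variable {A : Matrix ι ι ℝ} {v : ι → ι → ℝ} {lam : ι → ℝ}

theorem fin_pars (h : Eig A v lam) (a : ι → ℝ) :
    ∑ y, (∑ k, a k * v k y) ^ 2 = ∑ k, a k ^ 2 := by
  have e : ∀ y, (∑ k, a k * v k y) ^ 2 = ∑ k, ∑ k', a k * a k' * (v k y * v k' y) := fun y => by
    rw [sq, Finset.sum_mul_sum]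
    exact Finset.sum_congr rfl fun k _ => Finset.sum_congr rfl fun k' _ => by ring
  simp_rw [e]
  rw [Finset.sum_comm]
  refine Finset.sum_congr rfl fun k _ => ?_
  rw [Finset.sum_comm]
  simp_rw [← Finset.mul_sum, h.orth]
  simp [sq]

omit [DecidableEq ι] in
theorem fin_prj (E : ℝ) (y x : ι) :
    prj v lam E y x = ∑ k, (if lam k = E then v k x else 0) * v k y :=
  Finset.sum_congr rfl fun k _ => by split_ifs <;> ring

theorem fin_sq (h : Eig A v lam) (E : ℝ) (x : ι) :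
    ∑ y, prj v lam E y x ^ 2 = prj v lam E x x := by
  simp_rw [fin_prj E _ x, fin_pars h]
  exact Finset.sum_congr rfl fun k _ => by split_ifs <;> ring

omit [DecidableEq ι] in
theorem fin_sum (G : Finset ℝ) (y x : ι) :
    ∑ E ∈ G, prj v lam E y x = ∑ k, (if lam k ∈ G then v k x else 0) * v k y := by
  simp_rw [fin_prj]
  rw [Finset.sum_comm]
  refine Finset.sum_congr rfl fun k _ => ?_
  rw [← Finset.sum_mul, Finset.sum_ite_eq]

theorem fin_le (h : Eig A v lam) (G : Finset ℝ) (x : ι) : ∑ E ∈ G, prj v lam E x x ≤ 1 := by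
  have h1 := h.comp x x
  rw [if_pos rfl] at h1
  rw [fin_sum, ← h1]
  refine Finset.sum_le_sum fun k _ => ?_
  split_ifs
  · exact le_rfl
  · rw [zero_mul]
    exact mul_self_nonneg _

theorem fin_eig (h : Eig A v lam) (E : ℝ) (y x : ι) :
    ∑ z, A y z * prj v lam E z x = E * prj v lam E y x := by
  simp_rw [fin_prj, Finset.mul_sum]
  rw [Finset.sum_comm]
  refine Finset.sum_congr rfl fun k _ => ?_
  simp_rw [mul_left_comm (A y _), ← Finset.mul_sum, h.eig]
  split_ifs with e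
  · rw [e]
    ring
  · ring

theorem fin_col (h : Eig A v lam) (x : ι) : ∑ y, A y x ^ 2 = ∑ k, (lam k * v k x) ^ 2 := by
  rw [← fin_pars h fun k => lam k * v k x]
  refine Finset.sum_congr rfl fun y _ => congrArg (· ^ 2) ?_
  have e : ∀ k, lam k * v k x * v k y = ∑ z, A y z * (v k z * v k x) := fun k => by
    rw [mul_right_comm, ← h.eig, Finset.sum_mul]
    exact Finset.sum_congr rfl fun z _ => mul_assoc _ _ _
  simp_rw [e]
  rw [Finset.sum_comm]
  simp_rw [← Finset.mul_sum, h.comp]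
  simp

omit [Fintype ι] [DecidableEq ι] in
theorem fin_pad {M : ℕ} (G : Finset ℝ) (h : G.card ≤ M) (Q : ℝ → (ι → ℝ) → Prop)
    (u : ℝ → ι → ℝ) (h0 : Q 0 0) (hG : ∀ E ∈ G, Q E (u E)) :
    ∃ (E : Fin M → ℝ) (U : Fin M → ι → ℝ), (∀ i, Q (E i) (U i)) ∧
      ∀ y, ∑ i, U i y = ∑ E ∈ G, u E y := by
  obtain ⟨e⟩ : Nonempty (G ↪ Fin M) := Function.Embedding.nonempty_of_card_le (by simpa using h)
  refine ⟨Function.extend e (fun g => g.1) 0, Function.extend e (fun g => u g.1) 0,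
    fun i => ?_, fun y => ?_⟩
  · by_cases hi : ∃ g, e g = i
    · obtain ⟨g, rfl⟩ := hi
      rw [e.injective.extend_apply, e.injective.extend_apply]
      exact hG _ g.2
    · rw [Function.extend_apply' _ _ _ hi, Function.extend_apply' _ _ _ hi]
      exact h0
  · rw [← Finset.sum_coe_sort G]
    refine (Fintype.sum_of_injective e e.injective _ _ (fun i hi => ?_) fun g => ?_).symm
    · rw [Function.extend_apply' _ _ _ hi]
      rfl
    · rw [e.injective.extend_apply]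

theorem fin_bound (h : Eig A v lam) {w : ι → ℝ} (hw : ∀ y, 1 ≤ w y) (x : ι) {B E : ℝ}
    (hp : 0 < prj v lam E x x)
    (hb : ∑ y, w y * |prj v lam E y x / prj v lam E x x| ^ (1 / 2 : ℝ) ≤ B) :
    (∀ y, |prj v lam E y x| ≤ (B / w y) ^ 2) ∧ 1 ≤ B ^ 4 * prj v lam E x x := by
  obtain ⟨t, ht⟩ : ∃ t : ι → ℝ, ∀ y, t y = |prj v lam E y x / prj v lam E x x| ^ (1 / 2 : ℝ) :=
    ⟨_, fun _ => rfl⟩
  simp_rw [← ht] at hb
  have t0 : ∀ y, 0 ≤ t y := fun y => ht y ▸ Real.rpow_nonneg (abs_nonneg _) _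
  have t2 : ∀ y, |prj v lam E y x| = t y ^ 2 * prj v lam E x x := fun y => by
    rw [ht, ← Real.sqrt_eq_rpow, Real.sq_sqrt (abs_nonneg _), abs_div, abs_of_pos hp,
      div_mul_cancel₀ _ hp.ne']
  have w0 : ∀ y, 0 < w y := fun y => zero_lt_one.trans_le (hw y)
  have p1 : prj v lam E x x ≤ 1 := by simpa using fin_le h {E} x
  have hs : ∑ y, t y ≤ B := (Finset.sum_le_sum fun y _ =>
    le_mul_of_one_le_left (t0 y) (hw y)).trans hb
  have s0 : 0 ≤ ∑ y, t y := Finset.sum_nonneg fun y _ => t0 y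
  refine ⟨fun y => ?_, ?_⟩
  · have h1 : w y * t y ≤ B := (Finset.single_le_sum (f := fun y => w y * t y)
      (fun y _ => mul_nonneg (w0 y).le (t0 y)) (Finset.mem_univ y)).trans hb
    have h2 : t y ≤ B / w y := (le_div_iff₀' (w0 y)).2 h1
    rw [t2]
    exact (mul_le_of_le_one_right (sq_nonneg _) p1).trans (pow_le_pow_left₀ (t0 y) h2 2)
  · have h1 : ∀ y, prj v lam E y x ^ 2 ≤ t y * (B ^ 3 * prj v lam E x x ^ 2) := fun y => by
      have h2 : t y ≤ B := (Finset.single_le_sum (fun y _ => t0 y) (Finset.mem_univ y)).trans hs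
      have h3 := mul_le_mul_of_nonneg_left (pow_le_pow_left₀ (t0 y) h2 3)
        (mul_nonneg (t0 y) (sq_nonneg (prj v lam E x x)))
      rw [← sq_abs, t2]
      linarith
    have h2 := Finset.sum_le_sum fun y (_ : y ∈ Finset.univ) => h1 y
    rw [fin_sq h, ← Finset.sum_mul] at h2
    have h3 := mul_le_mul_of_nonneg_right hs
      (mul_nonneg (pow_nonneg (s0.trans hs) 3) (sq_nonneg (prj v lam E x x)))
    refine le_of_mul_le_mul_right ?_ hp
    linarith

/-- `p E = prj E x x = Σ_y (prj E y x)²`, `b E = Σ_y w y |prj E y x / p E|^(1/2)`. Call `E` good if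
it is an eigenvalue, `|E| < T`, `p E > 0`, `b E ≤ B`. For good `E`: `|prj E y x| ≤ p E (B/w y)²`,
`p E ≤ 1`, `1/p E = Σ_y (prj/p)² ≤ (Σ_y |prj/p|^(1/2))⁴ ≤ B⁴`; `Σ_E p E = 1`, so there are at most
`B⁴` good values; enumerate them and pad with zero vectors. The remainder has squared norm
`Σ_{k not good} (v k x)² ≤ Qeig/B + Σ_k (lam k)² (v k x)²/T²`, `Σ_k (lam k v k x)² = Σ_y (A y x)²`. -/
theorem fin_good (hA : A.IsSymm) (h : Eig A v lam) (w : ι → ℝ) (hw : ∀ y, 1 ≤ w y) (x : ι)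
    {T B : ℝ} (hT : 0 < T) (hB : 0 < B) :
    ∃ (E : Fin ⌈B ^ 4⌉₊ → ℝ) (u : Fin ⌈B ^ 4⌉₊ → ι → ℝ), (∀ i, |E i| ≤ T) ∧
      (∀ i y, ∑ z, A y z * u i z = E i * u i y) ∧ (∀ i y, |u i y| ≤ (B / w y) ^ 2) ∧
      ∑ y, ((if y = x then 1 else 0) - ∑ i, u i y) ^ 2 ≤
        Qeig v lam w x T / B + (∑ y, A y x ^ 2) / T ^ 2 := by
  have _ := hA
  obtain ⟨b, hb⟩ : ∃ b : ℝ → ℝ,
      ∀ E, b E = ∑ y, w y * |prj v lam E y x / prj v lam E x x| ^ (1 / 2 : ℝ) := ⟨_, fun _ => rfl⟩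
  have b0 : ∀ E, 0 ≤ b E := fun E => hb E ▸ Finset.sum_nonneg fun y _ =>
    mul_nonneg (zero_le_one.trans (hw y)) (Real.rpow_nonneg (abs_nonneg _) _)
  obtain ⟨G, hG⟩ : ∃ G : Finset ℝ, ∀ E, E ∈ G ↔
      (∃ k, lam k = E) ∧ |E| < T ∧ 0 < prj v lam E x x ∧ b E ≤ B :=
    ⟨(Finset.univ.image lam).filter fun E => |E| < T ∧ 0 < prj v lam E x x ∧ b E ≤ B,
      fun E => by simp⟩
  have hbd := fun E (hE : E ∈ G) =>
    fin_bound h hw x ((hG E).1 hE).2.2.1 (hb E ▸ ((hG E).1 hE).2.2.2)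
  have hc : G.card ≤ ⌈B ^ 4⌉₊ := by
    have h1 := Finset.sum_le_sum fun E hE => (hbd E hE).2
    rw [← Finset.mul_sum, Finset.sum_const, nsmul_eq_mul, mul_one] at h1
    exact_mod_cast (h1.trans (mul_le_of_le_one_right (by positivity) (fin_le h G x))).trans
      (Nat.le_ceil _)
  obtain ⟨E, u, h1, h2⟩ := fin_pad G hc (fun E u => |E| ≤ T ∧
    (∀ y, ∑ z, A y z * u z = E * u y) ∧ ∀ y, |u y| ≤ (B / w y) ^ 2)
    (fun E y => prj v lam E y x) ⟨by simpa using hT.le, by simp, fun y => by simpa using sq_nonneg _⟩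
    fun E hE => ⟨((hG E).1 hE).2.1.le, fun y => fin_eig h E y x, (hbd E hE).1⟩
  refine ⟨E, u, fun i => (h1 i).1, fun i => (h1 i).2.1, fun i => (h1 i).2.2, ?_⟩
  have e : ∀ y, (if y = x then (1 : ℝ) else 0) - ∑ i, u i y =
      ∑ k, (if lam k ∈ G then 0 else v k x) * v k y := fun y => by
    rw [h2, fin_sum, ← h.comp y x, ← Finset.sum_sub_distrib]
    exact Finset.sum_congr rfl fun k _ => by split_ifs <;> ring
  simp_rw [e]
  rw [fin_pars h, fin_col h, Qeig, Finset.sum_div, Finset.sum_div, ← Finset.sum_add_distrib]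
  refine Finset.sum_le_sum fun k _ => ?_
  rw [← hb]
  have q0 : 0 ≤ (lam k * v k x) ^ 2 / T ^ 2 := by positivity
  have q1 : 0 ≤ v k x ^ 2 * b (lam k) / B := div_nonneg (mul_nonneg (sq_nonneg _) (b0 _)) hB.le
  by_cases g1 : |lam k| < T
  · rw [if_pos g1]
    split_ifs with g
    · linarith
    by_cases g2 : 0 < prj v lam (lam k) x x
    · have g3 : B ≤ b (lam k) := le_of_not_ge fun g3 => g ((hG _).2 ⟨⟨k, rfl⟩, g1, g2, g3⟩)
      have : v k x ^ 2 ≤ v k x ^ 2 * b (lam k) / B :=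
        (le_div_iff₀ hB).2 (mul_le_mul_of_nonneg_left g3 (sq_nonneg _))
      linarith
    · have := Finset.single_le_sum (f := fun k' => if lam k' = lam k then v k' x * v k' x else 0)
        (fun k' _ => by
          split_ifs
          · exact mul_self_nonneg _
          · exact le_rfl) (Finset.mem_univ k)
      rw [if_pos rfl] at this
      have g3 : v k x * v k x ≤ 0 := this.trans (not_lt.1 g2)
      linarith
  · rw [if_neg g1, if_neg fun g => g1 ((hG _).1 g).2.1, zero_div, zero_add,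
      le_div_iff₀ (by positivity), mul_pow, mul_comm]
    refine mul_le_mul_of_nonneg_right ?_ (sq_nonneg _)
    rw [← sq_abs (lam k)]
    exact pow_le_pow_left₀ hT.le (not_lt.1 g1) 2

end Vale.Agent.P365
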