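import Vale.Agent.P365.Avg

namespace Vale.Agent.P365

open MeasureTheory ProbabilityTheory Complex Filter
open scoped ComplexConjugate ENNReal

variable {ι : Type} [Fintype ι] [DecidableEq ι]

variable {H : Matrix ι ι ℝ}

theorem lim_meas (H : Matrix ι ι ℝ) (U : Finset ι) (x y : ι) :
    Measurable fun q : (ι → ℝ) × ℂ => (Kgen H fun u => dd U q.1 u - q.2)⁻¹ x y := by
  refine (measurable_Kgen_inv H x y).comp (measurable_pi_lambda _ fun u => ?_)
  unfold dd
  split_ifs <;> fun_prop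

theorem lim_measG (H : Matrix ι ι ℝ) (x y : ι) :
    Measurable fun q : (ι → ℝ) × ℂ => Gz H q.1 q.2 x y := by
  simpa [dd, Gz] using lim_meas H ∅ x y

theorem lim_im (E : ℝ) (m : ℕ) : 0 < ((E : ℂ) + I / ((m : ℂ) + 1)).im := by
  have h : I / ((m : ℂ) + 1) = (((m : ℝ) + 1)⁻¹ : ℝ) * I := by
    push_cast
    rw [div_eq_mul_inv, mul_comm]
  rw [h, add_im, ofReal_im, zero_add, mul_I_im, ofReal_re]
  positivity

theorem lim_bound (hH : H.IsSymm) {z : ℂ} (hz : 0 < z.im) {U : Finset ι} {x y : ι} (hx : x ∈ U)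
    (hy : y ∈ U) (ω : ι → ℝ) :
    ENNReal.ofReal (‖(Kgen H fun u => dd U ω u - z)⁻¹ x y‖ ^ (1 / 2 : ℝ)) ≤ 1 := by
  have h1 : ∀ u ∈ U, (dd U ω u - z).im < -1 := fun u hu => by
    simp only [dd, if_pos hu, sub_im, neg_im, I_im]
    linarith
  have h2 : ∀ u, (dd U ω u - z).im < 0 := fun u => by
    by_cases hu : u ∈ U
    · linarith [h1 u hu]
    · simp only [dd, if_neg hu, sub_im, ofReal_im]
      linarith
  exact ENNReal.ofReal_le_one.2 (Real.rpow_le_one (norm_nonneg _)
    ((probe_diag hH _ h2 (h1 x hx)).2.2.2 y (h1 y hy)) (by norm_num))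

omit [Fintype ι] in
theorem lim_symm (hH : H.IsSymm) (E : ℝ) : (H - E • (1 : Matrix ι ι ℝ)).IsSymm :=
  hH.sub (Matrix.isSymm_one.smul E)

omit [Fintype ι] in
theorem lim_K (H : Matrix ι ι ℝ) (U : Finset ι) (ω : ι → ℝ) (E : ℝ) :
    (Kgen H fun u => dd U ω u - (E : ℂ)) = Kmat (H - E • (1 : Matrix ι ι ℝ)) U ω := by
  ext i j
  by_cases h : i = j
  · subst h
    simp [Kgen, Kmat]
    ring
  · simp [Kgen, Kmat, h]

theorem lim_good (hH : H.IsSymm) (U : Finset ι) : ∀ᵐ ω ∂(piC ι), Good H U ω := by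
  filter_upwards [good_ae (good_univ hH 0) (Finset.subset_univ Uᶜ)] with ω h
  rw [← Finset.compl_eq_univ_sdiff, compl_compl] at h
  exact (good_congr fun u hu => Finset.piecewise_eq_of_mem _ _ _ (Finset.mem_compl.2 hu)).1 h

theorem lim_int (hH : H.IsSymm) (U : Finset ι) (x y : ι) {a : ℝ} (ha : 1 ≤ a) :
    Integrable (fun ω => (‖Smat H U ω x y‖ / a) ^ (1 / 2 : ℝ)) (piC ι) := by
  have h1 : Measurable fun ω => Smat H U ω x y :=
    (measurable_pi_apply y).comp ((measurable_pi_apply x).comp (measurable_Smat H U))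
  refine Integrable.of_bound ((h1.norm.div_const a).pow_const _).aestronglyMeasurable 1
    (Eventually.of_forall fun ω => ?_)
  have h2 : 0 ≤ ‖Smat H U ω x y‖ / a := div_nonneg (norm_nonneg _) (by linarith)
  rw [Real.norm_of_nonneg (Real.rpow_nonneg h2 _)]
  refine Real.rpow_le_one h2 ((div_le_one (by linarith)).2 ?_) (by norm_num)
  exact (norm_le_one (Smat_US hH U ω) x y).trans ha

theorem measurable_cor (H : Matrix ι ι ℝ) (w : ι → ℝ) (x : ι) :
    Measurable fun q : (ι → ℝ) × ℂ => cor H w x q.1 q.2 := by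
  refine Finset.measurable_sum _ fun y _ => Measurable.ennreal_ofReal ?_
  exact (measurable_const.mul
    (((lim_measG H y x).div (lim_measG H x x)).norm.pow_const _)).mul
    ((measurable_im.comp (lim_measG H x x)).div_const _)

theorem lim_measE (H : Matrix ι ι ℝ) (w : ι → ℝ) (x : ι) (m : ℕ) :
    Measurable fun q : (ι → ℝ) × ℝ => cor H w x q.1 ((q.2 : ℂ) + I / ((m : ℂ) + 1)) :=
  (measurable_cor H w x).comp
    (f := fun q : (ι → ℝ) × ℝ => (q.1, (q.2 : ℂ) + I / ((m : ℂ) + 1))) (by fun_prop)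

theorem measurable_Qhat (H : Matrix ι ι ℝ) (w : ι → ℝ) (x : ι) (T : ℝ) :
    Measurable (Qhat H w x T) :=
  Measurable.liminf fun m => (lim_measE H w x m).lintegral_prod_right'

/-- Dominated convergence in `ω` (bound 1 by `probe_diag`): on good `ω` (`good_univ`, `good_ae`,
`good_congr`) the inverse is continuous (`continuousAt_Kgen_inv`);
`Kgen H (dd U ω - E) = Kmat (H - E • 1) U ω` and `S x y = 2 i G x y`. -/
theorem lim_xy (hH : H.IsSymm) (E : ℝ) {x y : ι} (hxy : x ≠ y) :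
    Tendsto (fun m : ℕ => ∫⁻ ω, ENNReal.ofReal
      (‖(Kgen H fun u => dd {x, y} ω u - ((E : ℂ) + I / ((m : ℂ) + 1)))⁻¹ x y‖ ^ (1 / 2 : ℝ))
        ∂(piC ι)) atTop
      (nhds (ENNReal.ofReal (∫ ω, (‖Smat (H - E • (1 : Matrix ι ι ℝ)) {x, y} ω x y‖ / 2)
        ^ (1 / 2 : ℝ) ∂(piC ι)))) := by
  rw [ofReal_integral_eq_lintegral_ofReal (lim_int (lim_symm hH E) _ x y one_le_two)
    (Eventually.of_forall fun ω => Real.rpow_nonneg (by positivity) _)]
  refine tendsto_lintegral_of_dominated_convergence (fun _ => 1) (fun m => ?_)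
    (fun m => Eventually.of_forall fun ω => lim_bound hH (lim_im E m) (by simp) (by simp) ω)
    (by simp) ?_
  · exact (((lim_meas H {x, y} x y).comp
      (measurable_id.prodMk measurable_const)).norm.pow_const _).ennreal_ofReal
  · filter_upwards [lim_good (lim_symm hH E) {x, y}] with ω hω
    refine ENNReal.tendsto_ofReal (Tendsto.rpow_const ?_ (Or.inr (by norm_num)))
    have h1 : ‖Smat (H - E • (1 : Matrix ι ι ℝ)) {x, y} ω x y‖ / 2 =
        ‖(Kgen H fun u => dd {x, y} ω u - (E : ℂ))⁻¹ x y‖ := by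
      rw [lim_K]
      simp [Smat, hxy]
    rw [h1]
    refine Tendsto.norm ((continuousAt_Kgen_inv H ?_ x y).tendsto.comp ?_)
    · rw [lim_K]
      exact hω
    · refine tendsto_pi_nhds.2 fun u => tendsto_const_nhds.sub ?_
      have h2 := ((tendsto_one_div_add_atTop_nhds_zero_nat (𝕜 := ℂ)).const_mul I).const_add (E : ℂ)
      simpa only [mul_zero, add_zero, mul_one_div] using h2

/-- the bound for one energy -/
noncomputable def limJ (H : Matrix ι ι ℝ) (x y : ι) (z : ℂ) : ℝ≥0∞ :=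
  if x = y then 1 else
    ∫⁻ ω, ENNReal.ofReal (‖(Kgen H fun u => dd {x, y} ω u - z)⁻¹ x y‖ ^ (1 / 2 : ℝ)) ∂(piC ι)

theorem limJ_le (hH : H.IsSymm) {z : ℂ} (hz : 0 < z.im) (x y : ι) : limJ H x y z ≤ 1 := by
  unfold limJ
  split_ifs
  · exact le_rfl
  · exact (lintegral_mono fun ω => lim_bound hH hz (by simp) (by simp) ω).trans (by simp)

theorem limJ_meas (H : Matrix ι ι ℝ) (x y : ι) : Measurable (limJ H x y) := by
  unfold limJ
  split_ifs
  · exact measurable_const
  · exact ((lim_meas H {x, y} x y).norm.pow_const _).ennreal_ofReal.lintegral_prod_left'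

theorem lim_cor (hH : H.IsSymm) (w : ι → ℝ) (hw : ∀ y, 0 ≤ w y) (x : ι) {z : ℂ} (hz : 0 < z.im) :
    ∫⁻ ω, cor H w x ω z ∂(piC ι) ≤ ∑ y, ENNReal.ofReal (w y) * (4 * limJ H x y z) := by
  have hm : ∀ y, Measurable fun ω : ι → ℝ => Gz H ω z y x := fun y =>
    (lim_measG H y x).comp (f := fun ω : ι → ℝ => (ω, z)) (by fun_prop)
  have h1 : ∀ ω, cor H w x ω z ≤ ∑ y, ENNReal.ofReal (w y) * ENNReal.ofReal
      (‖Gz H ω z y x / Gz H ω z x x‖ ^ (1 / 2 : ℝ) * (Gz H ω z x x).im) := by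
    intro ω
    refine Finset.sum_le_sum fun y _ => ?_
    have h2 : 0 ≤ Real.pi⁻¹ := by positivity
    rw [mul_assoc, ← mul_div_assoc, div_eq_inv_mul, ENNReal.ofReal_mul (hw y),
      ENNReal.ofReal_mul h2]
    refine mul_le_mul_right (mul_le_of_le_one_left' (ENNReal.ofReal_le_one.2 ?_)) _
    exact inv_le_one_of_one_le₀ (by linarith [Real.two_le_pi])
  refine (lintegral_mono h1).trans ?_
  have h3 : ∀ y, Measurable fun ω : ι → ℝ => ENNReal.ofReal (w y) * ENNReal.ofReal
      (‖Gz H ω z y x / Gz H ω z x x‖ ^ (1 / 2 : ℝ) * (Gz H ω z x x).im) := fun y =>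
    measurable_const.mul
      ((((hm y).div (hm x)).norm.pow_const _).mul (measurable_im.comp (hm x))).ennreal_ofReal
  rw [lintegral_finsetSum _ fun y _ => h3 y]
  refine Finset.sum_le_sum fun y _ => ?_
  rw [lintegral_const_mul' _ _ ENNReal.ofReal_ne_top]
  refine mul_le_mul_right ((avg_x hH hz x y).trans ?_) _
  unfold limJ
  split_ifs with h
  · subst h
    refine (lintegral_mono fun ω => lim_bound hH hz (by simp) (by simp) ω).trans ?_
    simp
  · exact avg_y hH hz h

/-- Fatou, Tonelli, `avg_x`, `avg_y` (for `y = x` the bound is 1 by `probe_diag`), `1/π ≤ 1`,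
then dominated convergence in `E` over `Ioo (-T) T` (bound `Σ 4 w y`) with `lim_xy` and `hb`. -/
theorem qhat_mean (hH : H.IsSymm) (w : ι → ℝ) (hw : ∀ y, 0 ≤ w y) (x : ι) {T : ℝ} (hT : 0 ≤ T)
    (b : ι → ℝ) (hbx : 1 ≤ b x)
    (hb : ∀ (E : ℝ) (y : ι), x ≠ y →
      ∫ ω, ‖Smat (H - E • (1 : Matrix ι ι ℝ)) {x, y} ω x y‖ ^ (1 / 2 : ℝ) ∂(piC ι) ≤ b y) :
    ∫⁻ ω, Qhat H w x T ω ∂(piC ι) ≤ ENNReal.ofReal (8 * T * ∑ y, w y * b y) := by
  let J : ℝ → ι → ℝ≥0∞ := fun E y => if x = y then 1 else ENNReal.ofReal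
    (∫ ω, (‖Smat (H - E • (1 : Matrix ι ι ℝ)) {x, y} ω x y‖ / 2) ^ (1 / 2 : ℝ) ∂(piC ι))
  have hb0 : ∀ y, 0 ≤ b y := fun y => by
    by_cases h : x = y
    · rw [← h]; linarith
    · exact (integral_nonneg fun ω => Real.rpow_nonneg (norm_nonneg _) _).trans (hb 0 y h)
  have hJ : ∀ E y, J E y ≤ ENNReal.ofReal (b y) := by
    intro E y
    simp only [J]
    split_ifs with h
    · rw [← h]
      exact ENNReal.one_le_ofReal.2 hbx
    · refine ENNReal.ofReal_le_ofReal (le_trans ?_ (hb E y h))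
      have h1 := lim_int (lim_symm hH E) {x, y} x y le_rfl
      simp only [div_one] at h1
      refine integral_mono (lim_int (lim_symm hH E) _ x y one_le_two) h1 fun ω => ?_
      exact Real.rpow_le_rpow (by positivity) (half_le_self (norm_nonneg _)) (by norm_num)
  have hlim : Tendsto (fun m : ℕ => ∫⁻ E in Set.Ioo (-T) T,
      ∑ y, ENNReal.ofReal (w y) * (4 * limJ H x y ((E : ℂ) + I / ((m : ℂ) + 1)))) atTop
      (nhds (∫⁻ E in Set.Ioo (-T) T, ∑ y, ENNReal.ofReal (w y) * (4 * J E y))) := by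
    refine tendsto_lintegral_of_dominated_convergence
      (fun _ => ∑ y, ENNReal.ofReal (w y) * (4 * 1)) (fun m => ?_)
      (fun m => Eventually.of_forall fun E => Finset.sum_le_sum fun y _ => ?_) ?_
      (Eventually.of_forall fun E => tendsto_finsetSum _ fun y _ => ?_)
    · refine Finset.measurable_sum _ fun y _ => measurable_const.mul (measurable_const.mul ?_)
      exact (limJ_meas H x y).comp (by fun_prop)
    · exact mul_le_mul_right (mul_le_mul_right (limJ_le hH (lim_im E m) x y) _) _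
    · rw [setLIntegral_const, Real.volume_Ioo]
      refine ENNReal.mul_ne_top (ENNReal.sum_ne_top.2 fun y _ => ?_) ENNReal.ofReal_ne_top
      exact ENNReal.mul_ne_top ENNReal.ofReal_ne_top (by simp)
    · refine ENNReal.Tendsto.const_mul (ENNReal.Tendsto.const_mul ?_ (Or.inr (by simp)))
        (Or.inr ENNReal.ofReal_ne_top)
      simp only [limJ, J]
      split_ifs with h
      · exact tendsto_const_nhds
      · exact lim_xy hH E h
  refine (lintegral_liminf_le fun m => (lim_measE H w x m).lintegral_prod_right').trans ?_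
  refine (liminf_le_liminf (Eventually.of_forall fun m => ?_)).trans (hlim.liminf_eq.trans_le ?_)
  · rw [lintegral_lintegral_swap (f := fun (ω : ι → ℝ) (E : ℝ) =>
      cor H w x ω ((E : ℂ) + I / ((m : ℂ) + 1))) (lim_measE H w x m).aemeasurable]
    exact lintegral_mono fun E => lim_cor hH w hw x (lim_im E m)
  · have h1 : ∀ E, ∑ y, ENNReal.ofReal (w y) * (4 * J E y) ≤
        ENNReal.ofReal (4 * ∑ y, w y * b y) := by
      intro E
      rw [Finset.mul_sum, ENNReal.ofReal_sum_of_nonneg fun y _ =>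
        mul_nonneg (by norm_num) (mul_nonneg (hw y) (hb0 y))]
      refine Finset.sum_le_sum fun y _ => ?_
      rw [mul_left_comm (4 : ℝ), ENNReal.ofReal_mul (hw y), ENNReal.ofReal_mul (by norm_num),
        ENNReal.ofReal_ofNat]
      exact mul_le_mul_right (mul_le_mul_right (hJ E y) _) _
    refine (lintegral_mono h1).trans (le_of_eq ?_)
    rw [setLIntegral_const, Real.volume_Ioo, mul_comm, ← ENNReal.ofReal_mul (by linarith)]
    congr 1
    ring

end Vale.Agent.P365
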