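import Vale.Agent.P365.MainB

namespace Vale.Agent.P365

open MeasureTheory ProbabilityTheory Complex Filter
open scoped ComplexConjugate ENNReal

variable {ι : Type} [Fintype ι] [DecidableEq ι]

theorem main_det {γ : ℝ} (hγ : 0 < γ) (W : ℤ × ℤ → ℝ) :
    ∀ᵐ c ∂(Measure.infinitePi fun _ : ℤ × ℤ => cau), PurePoint fun p => W p + γ * c p :=
  (ae_mem_Gset hγ W).mono fun _ h => purePoint_of_mem hγ h

theorem main_rand {γ : ℝ} (hγ : 0 < γ) (lam : ℝ) (ν : Measure (ℤ × ℤ → ℝ)) [SFinite ν] :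
    ∀ᵐ q ∂(ν.prod (Measure.infinitePi fun _ : ℤ × ℤ => cau)),
      PurePoint fun p => lam * q.1 p + γ * q.2 p := by
  have hm : MeasurableSet {q : (ℤ × ℤ → ℝ) × (ℤ × ℤ → ℝ) |
      (fun p => lam * q.1 p + γ * q.2 p) ∈ Gset γ} := by
    have : Measurable fun q : (ℤ × ℤ → ℝ) × (ℤ × ℤ → ℝ) => fun p => lam * q.1 p + γ * q.2 p := by
      refine measurable_pi_lambda _ fun p => ?_
      fun_prop
    exact this (measurableSet_Gset γ)
  have h := (Measure.ae_prod_iff_ae_ae (μ := ν)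
    (ν := Measure.infinitePi fun _ : ℤ × ℤ => cau) hm).2
    (Eventually.of_forall fun W => ae_mem_Gset hγ fun p => lam * W p)
  exact h.mono fun _ h => purePoint_of_mem hγ h

end Vale.Agent.P365
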