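import Vale.Agent.P365.Reg
import Vale.Agent.P365.Fin
import Vale.Agent.P365.Cpt

namespace Vale.Agent.P365

open MeasureTheory ProbabilityTheory Complex Filter
open scoped ComplexConjugate ENNReal

variable {ι : Type} [Fintype ι] [DecidableEq ι]

theorem H0_symm (γ : ℝ) (n : ℕ) : (H0 γ n).IsSymm := by
  refine Matrix.IsSymm.ext fun x y => ?_
  simp only [H0, abs_sub_comm y.1.1 x.1.1, abs_sub_comm y.1.2 x.1.2]

/-- The four neighbours. -/
def mainaNb (p : ℤ × ℤ) : Finset (ℤ × ℤ) :=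
  {(p.1 + 1, p.2), (p.1 - 1, p.2), (p.1, p.2 + 1), (p.1, p.2 - 1)}

theorem maina_mem {p q : ℤ × ℤ} : q ∈ mainaNb p ↔ |p.1 - q.1| + |p.2 - q.2| = 1 := by
  obtain ⟨a, b⟩ := q
  simp only [mainaNb, Finset.mem_insert, Finset.mem_singleton, Prod.mk.injEq]
  rcases abs_cases (p.1 - a) with h | h <;> rcases abs_cases (p.2 - b) with h' | h' <;> omega

theorem maina_sum_nb (p : ℤ × ℤ) (g : ℤ × ℤ → ℝ) : ∑ q ∈ mainaNb p, g q =
    g (p.1 + 1, p.2) + g (p.1 - 1, p.2) + g (p.1, p.2 + 1) + g (p.1, p.2 - 1) := by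
  unfold mainaNb
  rw [Finset.sum_insert, Finset.sum_insert, Finset.sum_pair]
  · ring
  all_goals simp only [Finset.mem_insert, Finset.mem_singleton, Prod.mk.injEq, ne_eq]; omega

theorem maina_sum (n : ℕ) (p : ℤ × ℤ) (g : ℤ × ℤ → ℝ) :
    ∑ q : box n, (if |p.1 - q.1.1| + |p.2 - q.1.2| = 1 then g q.1 else 0) =
      ∑ q ∈ box n ∩ mainaNb p, g q := by
  rw [Finset.sum_coe_sort (box n) fun q => if |p.1 - q.1| + |p.2 - q.2| = 1 then g q else 0,
    ← Finset.sum_filter]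
  congr 1
  ext q
  simp only [Finset.mem_filter, Finset.mem_inter, maina_mem]

theorem maina_le (n : ℕ) (p : ℤ × ℤ) {c : ℝ} (hc : 0 ≤ c) :
    ∑ q : box n, (if |p.1 - q.1.1| + |p.2 - q.1.2| = 1 then c else 0) ≤ 4 * c := by
  rw [maina_sum n p fun _ => c]
  refine (Finset.sum_le_sum_of_subset_of_nonneg Finset.inter_subset_right
    fun _ _ _ => hc).trans ?_
  rw [maina_sum_nb]
  linarith

/-- For an interior point the sum over the box is the sum over the four neighbours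
(`u` is any function on the lattice). -/
theorem H0_apply (γ : ℝ) (n : ℕ) (u : ℤ × ℤ → ℝ) (p : box n) (hp : rr 0 p.1 < n) :
    ∑ q : box n, H0 γ n p q * u q.1 =
      (u (p.1.1 + 1, p.1.2) + u (p.1.1 - 1, p.1.2) + u (p.1.1, p.1.2 + 1)
        + u (p.1.1, p.1.2 - 1)) / γ := by
  have h1 : box n ∩ mainaNb p.1 = mainaNb p.1 := by
    refine Finset.inter_eq_right.2 fun q hq => ?_
    rw [maina_mem] at hq
    simp only [rr, Prod.fst_zero, Prod.snd_zero, sub_zero, max_lt_iff, abs_lt] at hp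
    simp only [box, Finset.mem_product, Finset.mem_Icc]
    rcases abs_cases (p.1.1 - q.1) with h | h <;> rcases abs_cases (p.1.2 - q.2) with h' | h' <;>
      omega
  simp only [H0, ite_mul, zero_mul]
  rw [maina_sum n p.1 fun q => 1 / γ * u q, h1, maina_sum_nb]
  ring

/-- At most four neighbours, and the diagonal of `H0` vanishes. -/
theorem H0_row (γ : ℝ) (hγ : 0 < γ) (n : ℕ) (p : box n) :
    ∑ q : box n, |H0 γ n p q| ≤ 4 / γ ∧ ∑ q : box n, H0 γ n q p ^ 2 ≤ 4 / γ ^ 2 ∧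
      H0 γ n p p = 0 := by
  refine ⟨?_, ?_, by simp [H0]⟩
  · refine le_of_eq_of_le (Finset.sum_congr rfl fun q _ => ?_)
      ((maina_le n p.1 (c := 1 / γ) (by positivity)).trans_eq (by ring))
    unfold H0
    split_ifs
    · exact abs_of_nonneg (by positivity)
    · exact abs_zero
  · refine le_of_eq_of_le (Finset.sum_congr rfl fun q _ => ?_)
      ((maina_le n p.1 (c := (1 / γ) ^ 2) (by positivity)).trans_eq (by ring))
    rw [(H0_symm γ n).apply p q]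
    unfold H0
    split_ifs <;> simp

theorem maina_col {γ : ℝ} (hγ : 0 < γ) (n : ℕ) (c : box n → ℝ) (x : box n) :
    ∑ y, (H0 γ n + Matrix.diagonal c) y x ^ 2 ≤ 4 / γ ^ 2 + c x ^ 2 := by
  obtain ⟨-, h2, h3⟩ := H0_row γ hγ n x
  have h : ∀ y, (H0 γ n + Matrix.diagonal c) y x ^ 2 =
      H0 γ n y x ^ 2 + if y = x then c x ^ 2 else 0 := by
    intro y
    by_cases hy : y = x
    · subst hy; simp [h3]
    · simp [hy]
  simp only [h, Finset.sum_add_distrib, Finset.sum_ite_eq', Finset.mem_univ, if_true]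
  linarith

theorem maina_wt (x p : ℤ × ℤ) : 1 ≤ wt x p := by
  have h : (0 : ℝ) ≤ rr x p := by exact_mod_cast rr_nonneg x p
  exact Real.one_le_rpow (by linarith) (by norm_num)

theorem maina_summable (x : ℤ × ℤ) (B : ℝ) : Summable fun p => ((B / wt x p) ^ 2) ^ 2 := by
  refine Summable.of_nonneg_of_le (fun p => by positivity) (fun p => ?_)
    ((summable_rr x).mul_left (B ^ 4))
  have h : (0 : ℝ) ≤ rr x p := by exact_mod_cast rr_nonneg x p
  have h1 : ((B / wt x p) ^ 2) ^ 2 = B ^ 4 * (1 + (rr x p : ℝ)) ^ (-3 : ℝ) := by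
    have h2 : wt x p ^ 4 = (1 + (rr x p : ℝ)) ^ (3 : ℝ) := by
      rw [wt, ← Real.rpow_natCast, ← Real.rpow_mul (by linarith)]
      norm_num
    rw [← pow_mul, div_pow, Real.rpow_neg (by linarith), ← h2, div_eq_mul_inv]
  rw [h1]
  exact mul_le_mul_of_nonneg_left
    (Real.rpow_le_rpow_of_exponent_le (by linarith) (by norm_num)) (by positivity)

theorem maina_box {γ : ℝ} (hγ : 0 < γ) (V : ℤ × ℤ → ℝ) (x : ℤ × ℤ) (T n : ℕ) (hx : x ∈ box n)
    {a B : ℝ} (ha : 0 ≤ a) (hB : 0 < B) (hQ : Qn γ x T n V ≤ ENNReal.ofReal a) :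
    ∃ (E : Fin ⌈B ^ 4⌉₊ → ℝ) (u : Fin ⌈B ^ 4⌉₊ → ℤ × ℤ → ℝ), (∀ i, |E i| ≤ γ * (T + 1)) ∧
      (∀ i p, |u i p| ≤ (B / wt x p) ^ 2) ∧
      (∀ i p, rr 0 p < n → u i (p.1 + 1, p.2) + u i (p.1 - 1, p.2) + u i (p.1, p.2 + 1)
        + u i (p.1, p.2 - 1) + V p * u i p = E i * u i p) ∧
      ∑ p ∈ box n, ((if p = x then 1 else 0) - ∑ i, u i p) ^ 2 ≤
        a / B + (4 / γ ^ 2 + (V x / γ) ^ 2) / ((T : ℝ) + 1) ^ 2 := by
  have hA : (H0 γ n + Matrix.diagonal fun y : box n => V y.1 / γ).IsSymm :=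
    (H0_symm γ n).add (Matrix.isSymm_diagonal _)
  obtain ⟨v, lam, hE⟩ := exists_eig hA
  have h1 := reg hE (fun y => wt x y.1) (fun y => zero_le_one.trans (maina_wt x y.1)) ⟨x, hx⟩
    ((T : ℝ) + 1)
  rw [Qn, dif_pos hx] at hQ
  have h2 := (ENNReal.ofReal_le_ofReal_iff ha).1 (h1.trans hQ)
  obtain ⟨E, u, e1, e2, e3, e4⟩ := fin_good hA hE (fun y => wt x y.1) (fun y => maina_wt x y.1)
    ⟨x, hx⟩ (T := (T : ℝ) + 1) (by positivity) hB
  obtain ⟨U, hU⟩ : ∃ U : Fin ⌈B ^ 4⌉₊ → ℤ × ℤ → ℝ,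
      U = fun i p => if h : p ∈ box n then u i ⟨p, h⟩ else 0 := ⟨_, rfl⟩
  have hUu : ∀ i (y : box n), U i y.1 = u i y := fun i y => by simp only [hU, dif_pos y.2]
  refine ⟨fun i => γ * E i, U, fun i => ?_, fun i p => ?_, fun i p hp => ?_, ?_⟩
  · rw [abs_mul, abs_of_pos hγ]
    exact mul_le_mul_of_nonneg_left (e1 i) hγ.le
  · by_cases h : p ∈ box n
    · rw [hUu i ⟨p, h⟩]; exact e3 i ⟨p, h⟩
    · simp only [hU, dif_neg h, abs_zero]; positivity
  · have h : p ∈ box n := mem_box.2 hp.le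
    have h3 := e2 i ⟨p, h⟩
    have h4 := H0_apply γ n (U i) ⟨p, h⟩ hp
    simp only [Matrix.add_apply, add_mul, Finset.sum_add_distrib, Matrix.diagonal_apply, ite_mul,
      zero_mul, Finset.sum_ite_eq, Finset.mem_univ, if_true, ← hUu] at h3
    rw [h4] at h3
    dsimp only at h3
    field_simp at h3
    linarith
  · rw [← Finset.sum_coe_sort (box n)]
    have h3 : ∀ y : box n, ((if y.1 = x then (1 : ℝ) else 0) - ∑ i, U i y.1) ^ 2 =
        ((if y = ⟨x, hx⟩ then (1 : ℝ) else 0) - ∑ i, u i y) ^ 2 := fun y => by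
      simp only [hUu, Subtype.ext_iff]
    simp only [h3]
    refine e4.trans (add_le_add (div_le_div_of_nonneg_right h2 hB.le)
      (div_le_div_of_nonneg_right (maina_col hγ n _ _) (by positivity)))

/-- Given `x, ε`: `T` natural with `(4 + (V x)²)/(γ² (T+1)²) ≤ ε/2`; the `liminf` is below a finite
`a`, so frequently `Qn < a`; `B` with `a/B ≤ ε/2`. For such `n` (large, `x ∈ box n`): `exists_eig`,
`reg`, `fin_good` for `A = H0 + diag (V/γ)`; extend `u` by zero, multiply the energies by `γ`;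
`β p = (B / wt x p)²`, `β² = B⁴ (1+r)^(-3) ≤ B⁴ (1+r)^(-9/4)` (`summable_rr`); `cpt_one`, `cpt`. -/
theorem purePoint_of_mem {γ : ℝ} (hγ : 0 < γ) {V : ℤ × ℤ → ℝ} (hV : V ∈ Gset γ) :
    PurePoint V := by
  refine cpt V fun x ε hε => ?_
  obtain ⟨c, hc⟩ : ∃ c : ℝ, c = 4 / γ ^ 2 + (V x / γ) ^ 2 := ⟨_, rfl⟩
  have hc0 : 0 ≤ c := by rw [hc]; positivity
  obtain ⟨T, hT⟩ := exists_nat_ge (2 * c / ε)
  have hT1 : c / ((T : ℝ) + 1) ^ 2 ≤ ε / 2 := by
    rw [div_le_iff₀ hε] at hT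
    rw [div_le_iff₀ (by positivity)]
    have h0 : (0 : ℝ) ≤ T := Nat.cast_nonneg T
    nlinarith [mul_nonneg hε.le (sq_nonneg (T : ℝ)), mul_nonneg hε.le h0]
  obtain ⟨a, ha1, ha2⟩ := exists_between (hV x T)
  have hf := frequently_lt_of_liminf_lt (h := ha1)
  have ha0 : 0 ≤ a.toReal := ENNReal.toReal_nonneg
  obtain ⟨B, hB⟩ : ∃ B : ℝ, B = 2 * a.toReal / ε + 1 := ⟨_, rfl⟩
  have hB0 : 0 < B := by rw [hB]; positivity
  have hB1 : a.toReal / B ≤ ε / 2 := by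
    rw [div_le_iff₀ hB0, hB]
    have : ε / 2 * (2 * a.toReal / ε + 1) = a.toReal + ε / 2 := by field_simp
    linarith
  obtain ⟨E, u, h1, h2, h3⟩ := cpt_one V x (ε := ε) (T := γ * (T + 1)) (M := ⌈B ^ 4⌉₊)
    (fun p => (B / wt x p) ^ 2) fun N => by
      obtain ⟨n, hn1, hn2⟩ :=
        (hf.and_eventually (eventually_ge_atTop (max N (rr 0 x).toNat))).exists
      have hx : x ∈ box n := mem_box.2 (by omega)
      obtain ⟨E, u, e1, e2, e3, e4⟩ := maina_box hγ V x T n hx ha0 hB0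
        (by rw [ENNReal.ofReal_toReal ha2.ne]; exact hn1.le)
      refine ⟨n, E, u, by omega, e1, e2, e3, e4.trans ?_⟩
      rw [← hc]
      linarith
  exact ⟨_, _, E, u, maina_summable x B, h1, h2, h3⟩

end Vale.Agent.P365
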