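import Vale.Agent.P365.Ann2

namespace Vale.Agent.P365

open MeasureTheory ProbabilityTheory Complex Filter
open scoped ComplexConjugate ENNReal

variable {ι : Type} [Fintype ι] [DecidableEq ι]

theorem rec2_nice (x : ι) : Nice fun S : Mx ι => sv S x ^ (1 / 4 : ℝ) := by
  refine Nice.of_continuous (Continuous.rpow_const ?_ fun _ => Or.inr (by norm_num))
  unfold sv pp
  fun_prop

theorem rec2_nice' (x y : ι) : Nice fun S : Mx ι => ‖S x y‖ ^ (1 / 2 : ℝ) :=
  Nice.of_continuous (Continuous.rpow_const (by fun_prop) fun _ => Or.inr (by norm_num))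

theorem rec2_step {μ : ℝ} {H : Matrix ι ι ℝ} {pos : ι → ℤ × ℤ} (hs : Sys μ H pos) (x : ι) {R : ℤ}
    (hR : 1 ≤ R) (hT : ∀ (U : Finset ι) (c : ι → ℝ), Good H U c →
      rng pos (pos x) (2 * R) (5 * R - 1) ⊆ U → ES H U c (rng pos (pos x) (2 * R) (5 * R - 1))
        (fun S => ∑ z ∈ bal pos (pos x) (2 * R), pset S z (bal pos (pos x) (5 * R - 1))ᶜ) ≤
          (1 / 5000) ^ 4) :
    ES H Finset.univ 0 (rng pos (pos x) 0 (5 * R - 1)) (fun S => sv S x ^ (1 / 4 : ℝ)) ≤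
      1 / 250 * ES H Finset.univ 0 (rng pos (pos x) 0 (R - 1)) (fun S => sv S x ^ (1 / 4 : ℝ)) +
        4 * Real.exp (-(μ * R / 2)) := by
  have h1 : rng pos (pos x) 0 (5 * R - 1) =
      rng pos (pos x) 0 (R - 1) ∪ rng pos (pos x) (R - 1) (5 * R - 1) := by
    ext z
    simp only [Finset.mem_union, mem_rng]
    omega
  have h2 : ((1 / 5000 : ℝ) ^ 4) ^ (1 / 4 : ℝ) = 1 / 5000 := by
    rw [← Real.rpow_natCast, ← Real.rpow_mul (by norm_num)]
    norm_num
  rw [h1, ← ES_const H Finset.univ 0 (rng pos (pos x) 0 (R - 1)) (4 * _), ← ES_const_mul,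
    ← ES_add hs.symm _ _ _ ((rec2_nice x).const_mul _) (Nice.const _)]
  refine ES_tower hs.symm (good_univ hs.symm 0) (Finset.subset_univ _) _ (rec2_nice x)
    (((rec2_nice x).const_mul _).add (Nice.const _)) fun c hc => ?_
  refine (rec_step hs hc x hR (fun z => ?_) (by positivity) (hT _ c hc fun z hz => ?_)).trans
    (le_of_eq ?_)
  · simp only [Finset.mem_sdiff, Finset.mem_univ, true_and, mem_rng]
    by_cases hz : z = x
    · simp [hz, rr_self]
    · have := rr_pos fun h => hz (hs.inj h).symm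
      simp only [hz, false_or]
      omega
  · simp only [Finset.mem_sdiff, Finset.mem_univ, true_and, mem_rng] at hz ⊢
    omega
  · rw [h2]
    ring

theorem rec2_exp {μ : ℝ} (hμ : 0 < μ) {R0 : ℤ} (hR : 1 ≤ R0) (k : ℕ) :
    4 * Real.exp (-(μ * (5 ^ k * R0 : ℤ) / 2)) ≤ 192 / μ ^ 3 / 125 ^ k := by
  have h1 : (1 : ℝ) ≤ R0 := by exact_mod_cast hR
  have h2 : μ * 5 ^ k / 2 ≤ μ * (5 ^ k * R0 : ℤ) / 2 := by
    push_cast
    gcongr
    exact le_mul_of_one_le_right (by positivity) h1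
  have h3 := (Real.pow_div_factorial_le_exp (μ * 5 ^ k / 2) (by positivity) 3).trans
    (Real.exp_le_exp.2 h2)
  have h4 : (μ * 5 ^ k / 2) ^ 3 / (3 : ℕ).factorial = μ ^ 3 * 125 ^ k / 48 := by
    rw [div_pow, mul_pow, ← pow_mul, mul_comm k, pow_mul]
    norm_num [Nat.factorial]
    ring
  rw [h4] at h3
  rw [Real.exp_neg, div_div, ← div_eq_mul_inv, div_le_div_iff₀ (Real.exp_pos _) (by positivity)]
  linarith

theorem rec2_last {H : Matrix ι ι ℝ} (hH : H.IsSymm) {x y : ι} (hxy : x ≠ y) {A : Finset ι}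
    (hA : A ⊆ Finset.univ \ {x, y}) :
    ∫ ω, ‖Smat H {x, y} ω x y‖ ^ (1 / 2 : ℝ) ∂(piC ι) ≤
      ES H Finset.univ 0 A fun S => sv S x ^ (1 / 4 : ℝ) := by
  have h1 : ∫ ω, ‖Smat H {x, y} ω x y‖ ^ (1 / 2 : ℝ) ∂(piC ι) =
      ES H Finset.univ 0 (Finset.univ \ {x, y}) fun S => ‖S x y‖ ^ (1 / 2 : ℝ) := by
    refine integral_congr_ae (Eventually.of_forall fun ω => ?_)
    simp only [Finset.sdiff_sdiff_eq_self (Finset.subset_univ _)]
    rw [Smat_congr (c := ω) (c' := (Finset.univ \ {x, y}).piecewise ω 0) fun z hz =>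
      (Finset.piecewise_eq_of_mem _ _ _ (Finset.mem_sdiff.2 ⟨Finset.mem_univ _, hz⟩)).symm]
  have h2 : Continuous fun S : Mx ι => FF S (ind {x}) := by
    unfold FF ee pp
    fun_prop
  rw [h1, ← Finset.union_sdiff_of_subset hA]
  refine ES_tower hH (good_univ hH 0) (Finset.subset_univ _) _ (rec2_nice' x y) (rec2_nice x)
    fun c hc => ?_
  have h3 : (Finset.univ \ {x, y}) \ A ⊆ Finset.univ \ A :=
    Finset.sdiff_subset_sdiff (Finset.subset_univ _) le_rfl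
  refine (ES_mono hH hc h3 (rec2_nice' x y) (Nice.of_continuous (Continuous.rpow_const
    (h2.mul continuous_const) fun _ => Or.inr (by norm_num))) fun c' _ => ?_).trans
    ((ES_holder hH _ c _ h2 (continuous_const (y := 1)) (fun S => FF_nonneg S _)
      fun _ => zero_le_one).trans ?_)
  · simp only [Pi.mul_apply]
    rw [mul_one, FF_ind_single (Smat_US hH _ _)]
    refine le_trans (le_of_eq ?_) (Real.rpow_le_rpow (pp_nonneg _ _ _) (pp_le_sv _ hxy.symm)
      (by norm_num))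
    rw [pp, ← Real.rpow_natCast, ← Real.rpow_mul (norm_nonneg _)]
    norm_num
  · rw [ES_const, mul_one, ← FF_ind_single (Smat_US hH _ _)]
    exact Real.rpow_le_rpow (ES_nonneg _ _ _ _ fun S => FF_nonneg S _) (superF hH hc h3 _)
      (by norm_num)

/-- `θ0 = 5000⁻⁴`, `R k = R0 5^k`, `m k = ES H univ c (rng (pos x) 0 (R k - 1)) (sv · x ^ (1/4))`.
`m 0 ≤ 1`, `m (k+1) ≤ m k/250 + 4 e^(-μ 5^k/2)` (`ES_tower`, `rec_step`), `e^(-t) ≤ 6/t³`, so
`m k ≤ C1 125^(-k)`, `C1 = max 1 (250·192/μ³)`. For `r = rr x y ≥ R0` take `R k ≤ r < 5 R k`, close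
the rest except `y`: `‖S x y‖^(1/2) ≤ (sv S x)^(1/4)`, `ES_holder` with `Ψ = 1`, `superF`.
The integral is `ES H univ c (univ \ {x, y})` by `Smat_congr`. For `r < R0` use `‖S x y‖ ≤ 1`. -/
theorem fm {μ : ℝ} (hμ : 0 < μ) : ∃ C : ℝ, 0 < C ∧
    ∀ (ι : Type) [Fintype ι] [DecidableEq ι] (H : Matrix ι ι ℝ) (pos : ι → ℤ × ℤ),
      Sys μ H pos → ∀ x y : ι, x ≠ y →
      ∫ ω, ‖Smat H {x, y} ω x y‖ ^ (1 / 2 : ℝ) ∂(piC ι) ≤
        C / (1 + (rr (pos x) (pos y) : ℝ)) ^ 3 := by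
  obtain ⟨R0, h0, hT⟩ := annulus hμ (θ0 := (1 / 5000) ^ 4) (by positivity)
  obtain ⟨C, h1, h2⟩ : ∃ C : ℝ, 1 ≤ C ∧ 250 * (192 / μ ^ 3) ≤ C :=
    ⟨_, le_max_left _ _, le_max_right _ _⟩
  have h3 : (1 : ℝ) ≤ R0 := by exact_mod_cast h0
  refine ⟨C * (5 * R0) ^ 3, by positivity, fun ι _ _ H pos hs x y hxy => ?_⟩
  have h4 : ∀ A, ES H Finset.univ 0 A (fun S => sv S x ^ (1 / 4 : ℝ)) ≤ 1 := fun A =>
    (ES_mono hs.symm (good_univ hs.symm 0) (Finset.subset_univ _) (rec2_nice x) (Nice.const 1)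
      fun c _ => Real.rpow_le_one (sv_nonneg _ _) (sv_le_one (Smat_US hs.symm _ _) _)
        (by norm_num)).trans (ES_const _ _ _ _ _).le
  have h5 : ∀ k : ℕ, ES H Finset.univ 0 (rng pos (pos x) 0 (5 ^ k * R0 - 1))
      (fun S => sv S x ^ (1 / 4 : ℝ)) ≤ C / 125 ^ k := fun k => by
    induction k with
    | zero => simpa using (h4 _).trans h1
    | succ k ih =>
      have h6 : R0 ≤ 5 ^ k * R0 := le_mul_of_one_le_left (by omega) (one_le_pow₀ (by norm_num))
      have h7 := rec2_step hs x (h0.trans h6) fun U c => hT _ h6 ι H pos hs (pos x) U c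
      have h8 := rec2_exp hμ h0 k
      have h9 : 250 * (192 / μ ^ 3) / 125 ^ k ≤ C / 125 ^ k := by gcongr
      rw [mul_div_assoc] at h9
      rw [pow_succ', mul_assoc, pow_succ, ← div_div]
      linarith
  have h6 : (0 : ℝ) ≤ rr (pos x) (pos y) := by exact_mod_cast rr_nonneg _ _
  have h7 : ∀ k : ℕ, rr (pos x) (pos y) < 5 ^ (k + 1) * R0 →
      C / 125 ^ k ≤ C * (5 * R0) ^ 3 / (1 + (rr (pos x) (pos y) : ℝ)) ^ 3 := fun k hk => by
    have h8 : 1 + (rr (pos x) (pos y) : ℝ) ≤ 5 * R0 * 5 ^ k := by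
      have h9 : 1 + rr (pos x) (pos y) ≤ 5 * R0 * 5 ^ k := by
        rw [pow_succ] at hk
        linarith
      exact_mod_cast h9
    rw [div_le_div_iff₀ (by positivity) (by positivity), mul_assoc, show (125 : ℝ) = 5 ^ 3 by norm_num,
      ← pow_mul, mul_comm 3, pow_mul, ← mul_pow]
    gcongr
  rcases lt_or_ge (rr (pos x) (pos y)) R0 with h8 | h8
  · refine ((rec2_last hs.symm hxy (Finset.empty_subset _)).trans ((h4 _).trans ?_)).trans
      (h7 0 (by omega))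
    simpa using h1
  · obtain ⟨k, h9, h10⟩ := exists_nat_pow_near ((Int.le_ediv_iff_mul_le (by omega : 0 < R0)).2
      ((one_mul R0).trans_le h8)) (by norm_num : (1 : ℤ) < 5)
    rw [Int.le_ediv_iff_mul_le (by omega)] at h9
    rw [Int.ediv_lt_iff_lt_mul (by omega)] at h10
    refine ((rec2_last hs.symm hxy fun z hz => ?_).trans (h5 k)).trans (h7 k h10)
    rw [mem_rng] at hz
    simp only [Finset.mem_sdiff, Finset.mem_univ, true_and, Finset.mem_insert,
      Finset.mem_singleton, not_or]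
    constructor <;> rintro rfl
    · simp [rr_self] at hz
    · omega

end Vale.Agent.P365
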