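import Vale.Agent.P365.Lim
import Vale.Agent.P365.Rec2
import Vale.Agent.P365.MainA

namespace Vale.Agent.P365

open MeasureTheory ProbabilityTheory Complex Filter
open scoped ComplexConjugate ENNReal

variable {ι : Type} [Fintype ι] [DecidableEq ι]

theorem measurable_Qn (γ : ℝ) (x : ℤ × ℤ) (T n : ℕ) : Measurable (Qn γ x T n) := by
  unfold Qn
  by_cases h : x ∈ box n
  · simp only [h, dite_true]
    refine (measurable_Qhat _ _ _ _).comp (measurable_pi_lambda _ fun y => ?_)
    fun_prop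
  · simp only [h, dite_false]
    exact measurable_const

theorem measurableSet_Gset (γ : ℝ) : MeasurableSet (Gset γ) := by
  have : Gset γ = ⋂ x : ℤ × ℤ, ⋂ T : ℕ, {V | liminf (fun n => Qn γ x T n V) atTop < ⊤} := by
    ext V
    simp [Gset]
  rw [this]
  exact MeasurableSet.iInter fun x => MeasurableSet.iInter fun T =>
    measurableSet_lt (Measurable.liminf fun n => measurable_Qn γ x T n) measurable_const

theorem Qhat_shift (H : Matrix ι ι ℝ) (w : ι → ℝ) (x : ι) (T : ℝ) (a c : ι → ℝ) :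
    Qhat H w x T (fun y => a y + c y) = Qhat (H + Matrix.diagonal a) w x T c := by
  have hG : ∀ z, Gz H (fun y => a y + c y) z = Gz (H + Matrix.diagonal a) c z := fun z => by
    unfold Gz Kgen
    congr 1
    ext i j
    by_cases h : i = j
    · subst h
      simp only [Matrix.add_apply, Matrix.map_apply, Matrix.diagonal_apply_eq]
      push_cast
      ring
    · simp [Matrix.diagonal_apply_ne _ h]
  unfold Qhat cor
  simp only [hG]

/-- `μ = arsinh (γ/8)`; off-diagonal entries are those of `H0` (`H0_row`). -/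
theorem sys_box {γ : ℝ} (hγ : 0 < γ) (n : ℕ) (a : box n → ℝ) (E : ℝ) :
    Sys (Real.arsinh (γ / 8)) (H0 γ n + Matrix.diagonal a - E • (1 : Matrix (box n) (box n) ℝ))
      Subtype.val := by
  have hoff : ∀ x y : box n, x ≠ y →
      (H0 γ n + Matrix.diagonal a - E • (1 : Matrix (box n) (box n) ℝ)) x y = H0 γ n x y :=
    fun x y h => by simp [Matrix.diagonal_apply_ne _ h, Matrix.one_apply_ne h]
  refine ⟨Real.arsinh_pos_iff.2 (by positivity), ?_, Subtype.val_injective, fun x y h => ?_,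
    fun x => ?_⟩
  · exact ((H0_symm γ n).add (Matrix.isSymm_diagonal a)).sub (Matrix.isSymm_one.smul E)
  · by_cases hxy : x = y
    · rw [hxy, rr_self]
      exact zero_le_one
    · rw [hoff x y hxy] at h
      unfold H0 at h
      have h1 : |x.1.1 - y.1.1| + |x.1.2 - y.1.2| = 1 := by
        by_contra h2
        exact h (if_neg h2)
      have h2 := abs_nonneg (x.1.1 - y.1.1)
      have h3 := abs_nonneg (x.1.2 - y.1.2)
      unfold rr
      rw [abs_sub_comm y.1.1, abs_sub_comm y.1.2]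
      exact max_le (by omega) (by omega)
  · have h1 : ∑ y ∈ Finset.univ.erase x,
        |(H0 γ n + Matrix.diagonal a - E • (1 : Matrix (box n) (box n) ℝ)) x y| ≤ 4 / γ := by
      rw [Finset.sum_congr rfl fun y hy => by rw [hoff x y (Finset.ne_of_mem_erase hy).symm]]
      exact (Finset.sum_le_sum_of_subset_of_nonneg (Finset.erase_subset _ _)
        fun _ _ _ => abs_nonneg _).trans (H0_row γ hγ n x).1
    rw [Real.sinh_arsinh]
    refine (mul_le_mul_of_nonneg_right h1 (by positivity)).trans (le_of_eq ?_)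
    field_simp
    norm_num

theorem mainb_mean {γ : ℝ} (hγ : 0 < γ) (W : ℤ × ℤ → ℝ) (x : ℤ × ℤ) (T : ℕ) :
    ∃ M : ℝ, ∀ n, ∫⁻ c, Qn γ x T n (fun p => W p + γ * c p)
      ∂(Measure.infinitePi fun _ : ℤ × ℤ => cau) ≤ ENNReal.ofReal M := by
  obtain ⟨C, hC, hfm⟩ := fm (μ := Real.arsinh (γ / 8)) (Real.arsinh_pos_iff.2 (by positivity))
  obtain ⟨D, hD, hsum⟩ := sum_rr_le
  refine ⟨8 * ((T : ℝ) + 1) * (max 1 C * D), fun n => ?_⟩
  unfold Qn
  by_cases h : x ∈ box n
  swap
  · simp only [h, dite_false, lintegral_zero, zero_le]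
  simp only [h, dite_true]
  have e1 : ∀ c : ℤ × ℤ → ℝ, Qhat (H0 γ n) (fun y => wt x y.1) ⟨x, h⟩ ((T : ℝ) + 1)
      (fun y => (W y.1 + γ * c y.1) / γ) =
      Qhat (H0 γ n + Matrix.diagonal fun y => W y.1 / γ) (fun y => wt x y.1) ⟨x, h⟩ ((T : ℝ) + 1)
        ((box n).restrict c) := fun c => by
    rw [← Qhat_shift]
    congr 1
    funext y
    simp only [Finset.restrict]
    field_simp
  simp only [e1]
  rw [← lintegral_map (measurable_Qhat _ _ _ _) (Finset.measurable_restrict _),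
    Measure.infinitePi_map_restrict]
  have hr : ∀ p : ℤ × ℤ, (0 : ℝ) < 1 + (rr x p : ℝ) := fun p => by
    have : (0 : ℝ) ≤ (rr x p : ℝ) := by exact_mod_cast rr_nonneg x p
    linarith
  refine (qhat_mean ((H0_symm γ n).add (Matrix.isSymm_diagonal _)) (fun y => wt x y.1)
    (fun y => (Real.rpow_pos_of_pos (hr y.1) _).le) ⟨x, h⟩ (by positivity)
    (fun y => max 1 C / (1 + (rr x y.1 : ℝ)) ^ 3) ?_ fun E y hy => ?_).trans
    (ENNReal.ofReal_le_ofReal (mul_le_mul_of_nonneg_left ?_ (by positivity)))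
  · simp [rr_self]
  · exact (hfm _ _ _ (sys_box hγ n _ E) _ _ hy).trans
      (div_le_div_of_nonneg_right (le_max_right _ _) (pow_pos (hr y.1) 3).le)
  · have e2 : ∀ p : ℤ × ℤ, wt x p * (max 1 C / (1 + (rr x p : ℝ)) ^ 3) =
        max 1 C * (1 + (rr x p : ℝ)) ^ (-(9 / 4) : ℝ) := fun p => by
      rw [show (-(9 / 4) : ℝ) = 3 / 4 - (3 : ℕ) by norm_num, Real.rpow_sub (hr p),
        Real.rpow_natCast]
      unfold wt
      ring
    rw [Finset.sum_congr rfl fun y _ => e2 y.1, ← Finset.mul_sum,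
      Finset.sum_coe_sort (box n) fun p => (1 + (rr x p : ℝ)) ^ (-(9 / 4) : ℝ)]
    exact mul_le_mul_of_nonneg_left (hsum x _) (by positivity)

/-- For fixed `x, T`: the restriction to `box n` maps the infinite product to `piC`
(`Measure.infinitePi_map_restrict`), `(W + γ c)/γ = W/γ + c`, `Qhat_shift`, `qhat_mean` with
`b y = max 1 C/(1+r)³` from `fm` and `sys_box`, `wt · (1+r)^(-3) = (1+r)^(-9/4)`, `sum_rr_le`;
so the means of `Qn` are bounded uniformly in `n`. Fatou, `ae_lt_top`, `ae_all_iff`. -/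
theorem ae_mem_Gset {γ : ℝ} (hγ : 0 < γ) (W : ℤ × ℤ → ℝ) :
    ∀ᵐ c ∂(Measure.infinitePi fun _ : ℤ × ℤ => cau), (fun p => W p + γ * c p) ∈ Gset γ := by
  refine ae_all_iff.2 fun x => ae_all_iff.2 fun T => ?_
  obtain ⟨M, hM⟩ := mainb_mean hγ W x T
  have hm : ∀ n, Measurable fun c : ℤ × ℤ → ℝ => Qn γ x T n fun p => W p + γ * c p := fun n =>
    (measurable_Qn γ x T n).comp (measurable_pi_lambda _ fun p => by fun_prop)
  refine ae_lt_top (Measurable.liminf hm) (ne_of_lt ((lintegral_liminf_le hm).trans_lt ?_))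
  exact (liminf_le_of_frequently_le' (Frequently.of_forall hM)).trans_lt ENNReal.ofReal_lt_top

end Vale.Agent.P365
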