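import Vale.Agent.P365.Defs

namespace Vale.Agent.P365

open MeasureTheory ProbabilityTheory Complex Filter
open scoped ComplexConjugate ENNReal

variable {ι : Type} [Fintype ι] [DecidableEq ι]

theorem mom_add_I_ne (t : ℝ) : (t : ℂ) + I ≠ 0 := by
  intro h
  have := congrArg Complex.im h
  simp at this

theorem norm_zeta (t : ℝ) : ‖zeta t‖ = 1 := by
  unfold zeta
  have h : ‖(t : ℂ) - I‖ = ‖(t : ℂ) + I‖ := by
    have : (t : ℂ) - I = conj ((t : ℂ) + I) := by simp [sub_eq_add_neg]
    rw [this, Complex.norm_conj]
  rw [norm_div, h, div_self (norm_ne_zero_iff.mpr (mom_add_I_ne t))]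

theorem zeta_ne_one (t : ℝ) : zeta t ≠ 1 := by
  unfold zeta
  intro h
  rw [div_eq_one_iff_eq (mom_add_I_ne t)] at h
  have := congrArg Complex.im h
  simp at this
  norm_num at this

theorem continuous_zeta : Continuous zeta := by
  unfold zeta
  exact Continuous.div (by fun_prop) (by fun_prop) mom_add_I_ne

/-- The angle of `zeta t`. -/
noncomputable def momAng (t : ℝ) : ℝ := Real.pi + 2 * Real.arctan t

theorem momAng_cont : Continuous momAng := by
  unfold momAng
  exact continuous_const.add (continuous_const.mul Real.continuous_arctan)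

theorem momAng_inj : Function.Injective momAng := by
  intro a b h
  unfold momAng at h
  apply Real.arctan_injective
  linarith

theorem momAng_emb : MeasurableEmbedding momAng :=
  momAng_cont.measurableEmbedding momAng_inj

theorem momAng_image : momAng '' Set.univ = Set.Ioo 0 (2 * Real.pi) := by
  ext y
  constructor
  · rintro ⟨t, -, rfl⟩
    unfold momAng
    have h1 := Real.arctan_lt_pi_div_two t
    have h2 := Real.neg_pi_div_two_lt_arctan t
    constructor <;> linarith
  · rintro ⟨h1, h2⟩
    have hm : (y - Real.pi) / 2 ∈ Set.range Real.arctan := by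
      rw [Real.range_arctan]
      constructor <;> linarith
    obtain ⟨t, ht⟩ := hm
    refine ⟨t, Set.mem_univ _, ?_⟩
    unfold momAng
    rw [ht]; ring

theorem momAng_deriv (t : ℝ) : HasDerivAt momAng (2 * (1 + t ^ 2)⁻¹) t := by
  unfold momAng
  exact ((Real.hasDerivAt_arctan' t).const_mul 2).const_add Real.pi

theorem circleMap_momAng (t : ℝ) : circleMap 0 1 (momAng t) = zeta t := by
  have hc : Real.cos (Real.arctan t) ^ 2 = 1 / (1 + t ^ 2) := Real.cos_sq_arctan t
  have hp := Real.cos_arctan_pos t
  have hs : Real.sin (Real.arctan t) = t * Real.cos (Real.arctan t) := by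
    have := Real.tan_arctan t
    rw [Real.tan_eq_sin_div_cos, div_eq_iff hp.ne'] at this
    exact this
  have h1 : (0 : ℝ) < 1 + t ^ 2 := by positivity
  have hcos : Real.cos (momAng t) = (t ^ 2 - 1) / (1 + t ^ 2) := by
    unfold momAng
    rw [add_comm, Real.cos_add_pi, Real.cos_two_mul, hc]
    field_simp
    ring
  have hsin : Real.sin (momAng t) = -(2 * t) / (1 + t ^ 2) := by
    unfold momAng
    rw [add_comm, Real.sin_add_pi, Real.sin_two_mul, hs]
    have : 2 * (t * Real.cos (Real.arctan t)) * Real.cos (Real.arctan t)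
        = 2 * t * Real.cos (Real.arctan t) ^ 2 := by ring
    rw [this, hc]
    field_simp
  have h1c : (1 : ℂ) + (t : ℂ) ^ 2 ≠ 0 := by
    have : ((1 + t ^ 2 : ℝ) : ℂ) ≠ 0 := Complex.ofReal_ne_zero.mpr h1.ne'
    simpa using this
  unfold circleMap zeta
  rw [Complex.exp_mul_I, ← Complex.ofReal_cos, ← Complex.ofReal_sin, hcos, hsin,
    eq_div_iff (mom_add_I_ne t)]
  push_cast
  field_simp
  have hI : I ^ 2 = -1 := Complex.I_sq
  linear_combination (-(2 * (t : ℂ))) * hI

theorem map_momAng : cau.map momAng =
    ENNReal.ofReal (2 * Real.pi)⁻¹ • (volume : Measure ℝ).restrict (Set.Ioc 0 (2 * Real.pi)) := by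
  have hpi := Real.pi_pos
  rw [← Measure.restrict_congr_set Ioo_ae_eq_Ioc]
  ext A hA
  rw [Measure.map_apply momAng_cont.measurable hA, Measure.smul_apply, smul_eq_mul,
    ← lintegral_indicator_one hA, ← momAng_image,
    lintegral_image_eq_lintegral_abs_deriv_mul MeasurableSet.univ
      (fun x _ => (momAng_deriv x).hasDerivWithinAt) momAng_inj.injOn,
    Measure.restrict_univ, ← lintegral_const_mul' _ _ ENNReal.ofReal_ne_top]
  unfold cau
  rw [cauchyMeasure_of_scale_ne_zero 0 one_ne_zero,
    withDensity_apply _ (momAng_cont.measurable hA),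
    ← lintegral_indicator (momAng_cont.measurable hA)]
  refine lintegral_congr fun t => ?_
  by_cases h : momAng t ∈ A
  · have h' : t ∈ momAng ⁻¹' A := h
    rw [Set.indicator_of_mem h', Set.indicator_of_mem h, Pi.one_apply, mul_one,
      ← ENNReal.ofReal_mul (by positivity), cauchyPDF_def, cauchyPDFReal_def]
    congr 1
    rw [abs_of_pos (by positivity)]
    have h1 : (0 : ℝ) < 1 + t ^ 2 := by positivity
    simp only [NNReal.coe_one, sub_zero, one_pow, mul_one]
    rw [add_comm (t ^ 2) 1]
    field_simp
  · have h' : t ∉ momAng ⁻¹' A := h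
    rw [Set.indicator_of_notMem h', Set.indicator_of_notMem h]
    simp

/-- Change of variables `t = -cot (θ/2)` (or `t = tan (θ/2)` with `zeta t = - exp (iθ)`),
density `1/(π(1+t²)) dt = dθ/(2π)`. Best proved once as an equality of measures:
`cau.map zeta = (ofReal (2π)⁻¹ • volume.restrict (Ioc 0 (2π))).map (circleMap 0 1)`. -/
theorem map_zeta : cau.map zeta =
    (ENNReal.ofReal (2 * Real.pi)⁻¹ • (volume : Measure ℝ).restrict (Set.Ioc 0 (2 * Real.pi))).map
      (circleMap 0 1) := by
  rw [← map_momAng, Measure.map_map (continuous_circleMap 0 1).measurable momAng_cont.measurable]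
  congr 1
  funext t
  exact (circleMap_momAng t).symm

theorem integral_zeta_gen {E : Type*} [NormedAddCommGroup E] [NormedSpace ℝ E] (f : ℂ → E) :
    ∫ t, f (zeta t) ∂cau = Real.circleAverage f 0 1 := by
  have hpi := Real.pi_pos
  have h1 : ∫ t, f (zeta t) ∂cau = ∫ θ, f (circleMap 0 1 θ) ∂(cau.map momAng) := by
    rw [momAng_emb.integral_map]
    simp only [circleMap_momAng]
  rw [h1, map_momAng, integral_smul_measure, Real.circleAverage_def,
    intervalIntegral.integral_of_le (by positivity), ENNReal.toReal_ofReal (by positivity)]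

theorem integral_zeta (f : ℂ → ℂ) (hf : Measurable f) :
    ∫ t, f (zeta t) ∂cau = Real.circleAverage f 0 1 := integral_zeta_gen f

theorem mom_avg (f : ℂ → ℂ) (hf : DifferentiableOn ℂ f (Metric.closedBall 0 1)) :
    Real.circleAverage f 0 1 = f 0 := by
  apply DiffContOnCl.circleAverage
  rw [abs_one]
  apply DifferentiableOn.diffContOnCl
  rwa [closure_ball 0 one_ne_zero]

/-- Mean value property: `integral_zeta` (extend or use continuity on the sphere) and
`DiffContOnCl.circleAverage`. -/
theorem mean_value (f : ℂ → ℂ) (hf : DifferentiableOn ℂ f (Metric.closedBall 0 1)) :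
    ∫ t, f (zeta t) ∂cau = f 0 := by
  rw [integral_zeta_gen f, mom_avg f hf]

/-- Same with the inverse (complex conjugate) of `zeta` (`circleAverage_zero_one_congr_inv`). -/
theorem mean_value_inv (f : ℂ → ℂ) (hf : DifferentiableOn ℂ f (Metric.closedBall 0 1)) :
    ∫ t, f (zeta t)⁻¹ ∂cau = f 0 := by
  rw [integral_zeta_gen (fun z => f z⁻¹), Real.circleAverage_zero_one_congr_inv, mom_avg f hf]

theorem mom_rot {E : Type*} [NormedAddCommGroup E] [NormedSpace ℝ E] (f : ℂ → E) (e : ℂ)
    (he : ‖e‖ = 1) :
    Real.circleAverage (fun z => f (e * z)) 0 1 = Real.circleAverage f 0 1 := by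
  rw [Real.circleAverage_eq_integral_add (f := f) (Complex.arg e), Real.circleAverage_def]
  congr 2
  funext θ
  congr 1
  have h : e = Complex.exp (Complex.arg e * I) := by
    have := Complex.norm_mul_exp_arg_mul_I e
    rw [he] at this
    simpa using this.symm
  unfold circleMap
  push_cast
  rw [add_mul, Complex.exp_add, ← h]
  ring

/-- Rotation invariance (periodicity of `circleMap`). -/
theorem map_zeta_rot (e : ℂ) (he : ‖e‖ = 1) :
    cau.map (fun t => e * zeta t) = cau.map zeta := by
  have hm : Measurable fun t => e * zeta t := (continuous_const.mul continuous_zeta).measurable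
  have hz : Measurable zeta := continuous_zeta.measurable
  ext A hA
  rw [Measure.map_apply hm hA, Measure.map_apply hz hA]
  have key : cau.real ((fun t => e * zeta t) ⁻¹' A) = cau.real (zeta ⁻¹' A) := by
    rw [← integral_indicator_one (hm hA), ← integral_indicator_one (hz hA)]
    have h1 := integral_zeta_gen (fun z => A.indicator (1 : ℂ → ℝ) (e * z))
    have h2 := integral_zeta_gen (A.indicator (1 : ℂ → ℝ))
    rw [mom_rot (A.indicator (1 : ℂ → ℝ)) e he, ← h2] at h1
    exact h1
  exact (ENNReal.toReal_eq_toReal_iff' (measure_ne_top _ _) (measure_ne_top _ _)).mp key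

end Vale.Agent.P365
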