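import Vale.Agent.P365.Mom

namespace Vale.Agent.P365

open MeasureTheory ProbabilityTheory Complex Filter
open scoped ComplexConjugate ENNReal

variable {ι : Type} [Fintype ι] [DecidableEq ι]

theorem mom2_ne {ρ : ℂ} (hρ : ‖ρ‖ < 1) (t : ℝ) : zeta t - ρ ≠ 0 := fun h => by
  rw [← sub_eq_zero.1 h, norm_zeta] at hρ
  exact lt_irrefl _ hρ

theorem mom2_ne0 (t : ℝ) : zeta t ≠ 0 := norm_ne_zero_iff.1 (by rw [norm_zeta]; exact one_ne_zero)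

theorem mom2_s {ρ : ℂ} (hρ : ‖ρ‖ < 1) : 0 < 1 - ‖ρ‖ ^ 2 := by nlinarith [norm_nonneg ρ]

theorem mom2_re {ρ w : ℂ} (hρ : ‖ρ‖ < 1) (hw : ‖w‖ ≤ 1) : 0 < (1 - ρ * w).re := by
  have h1 := (re_le_norm (ρ * w)).trans (norm_mul_le ρ w)
  have h2 := mul_le_of_le_one_right (norm_nonneg ρ) hw
  rw [sub_re, one_re]
  linarith

theorem mom2_two (z : ℂ) : (2 * z).re = 2 * z.re := by simp

theorem mom2_inv (t : ℝ) : ‖(zeta t)⁻¹‖ = 1 := by rw [norm_inv, norm_zeta, inv_one]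

theorem mom2_eq {ρ : ℂ} (hρ : ‖ρ‖ < 1) (t : ℝ) :
    xi0 ρ (zeta t) = (zeta t)⁻¹ * (1 - ρ * (zeta t)⁻¹)⁻¹ := by
  rw [xi0, if_pos hρ, ← mul_inv, mul_sub, mul_one, mul_left_comm, mul_inv_cancel₀ (mom2_ne0 t),
    mul_one]

theorem measurable_xi0 (ρ : ℂ) : Measurable fun t => xi0 ρ (zeta t) := by
  unfold xi0
  split_ifs
  exacts [(continuous_zeta.measurable.sub_const ρ).inv, measurable_const]

/-- `‖ζ - ρ‖ ≥ 1 - ‖ρ‖ = s / (1 + ‖ρ‖)`. For `‖ρ‖ = 1` both sides vanish (division by zero). -/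
theorem xi0_norm_le {ρ : ℂ} (hρ : ‖ρ‖ ≤ 1) (t : ℝ) :
    ‖xi0 ρ (zeta t)‖ ≤ 2 / (1 - ‖ρ‖ ^ 2) := by
  unfold xi0
  split_ifs with h
  · have h1 := norm_sub_norm_le (zeta t) ρ
    rw [norm_zeta] at h1
    rw [norm_inv, inv_eq_one_div, div_le_div_iff₀ (by linarith) (mom2_s h)]
    nlinarith [norm_nonneg ρ]
  · rw [norm_zero, le_antisymm hρ (not_lt.1 h)]
    norm_num

/-- From `1 = ‖ζ‖² = ‖1/ξ + ρ‖² = ‖1 + ρ ξ‖² / ‖ξ‖²`. -/
theorem xi0_normSq {ρ : ℂ} (hρ : ‖ρ‖ ≤ 1) (t : ℝ) :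
    ‖xi0 ρ (zeta t)‖ ^ 2 = (1 + 2 * (ρ * xi0 ρ (zeta t)).re) / (1 - ‖ρ‖ ^ 2) := by
  by_cases h : ‖ρ‖ < 1
  · have h1 : zeta t * xi0 ρ (zeta t) = 1 + ρ * xi0 ρ (zeta t) := by
      rw [← sub_eq_iff_eq_add, ← sub_mul, xi0, if_pos h, mul_inv_cancel₀ (mom2_ne h t)]
    have h2 := congrArg normSq h1
    rw [normSq_add, map_mul, map_mul, map_one, one_mul, conj_re] at h2
    simp only [normSq_eq_norm_sq, norm_zeta] at h2
    rw [eq_div_iff (mom2_s h).ne']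
    linarith
  · rw [xi0, if_neg h, le_antisymm hρ (not_lt.1 h)]
    norm_num

theorem integrable_xi0 {E : Type} [NormedAddCommGroup E] [NormedSpace ℝ E] [FiniteDimensional ℝ E]
    {ρ : ℂ} (hρ : ‖ρ‖ ≤ 1) (f : ℂ → E) (hf : Continuous f) :
    Integrable (fun t => f (xi0 ρ (zeta t))) cau := by
  obtain ⟨C, hC⟩ := (isCompact_closedBall (0 : ℂ) (2 / (1 - ‖ρ‖ ^ 2))).exists_bound_of_continuousOn
    hf.continuousOn
  exact .of_bound (hf.comp_aestronglyMeasurable (measurable_xi0 ρ).aestronglyMeasurable) C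
    (.of_forall fun t => hC _ (mem_closedBall_zero_iff.2 (xi0_norm_le hρ t)))

/-- `ξ = w / (1 - ρ w)` with `w = ζ⁻¹`; use `mean_value_inv`. -/
theorem mom_pow {ρ : ℂ} (hρ : ‖ρ‖ ≤ 1) (k : ℕ) :
    ∫ t, xi0 ρ (zeta t) ^ (k + 1) ∂cau = 0 := by
  by_cases h : ‖ρ‖ < 1
  · have h1 := mean_value_inv (fun w => (w * (1 - ρ * w)⁻¹) ^ (k + 1))
      ((differentiableOn_id.mul (DifferentiableOn.inv (by fun_prop) fun w hw h0 =>
        (mom2_re h (mem_closedBall_zero_iff.1 hw)).ne' (by rw [h0, zero_re]))).pow _)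
    simpa only [← mom2_eq h, zero_mul, zero_pow k.succ_ne_zero] using h1
  · simp [xi0, h]

theorem mom2_conj {ρ : ℂ} (hρ : ‖ρ‖ ≤ 1) (t : ℝ) : xi0 ρ (zeta t) * conj (xi0 ρ (zeta t)) =
    (1 + ρ * xi0 ρ (zeta t) + conj ρ * conj (xi0 ρ (zeta t))) / ((1 - ‖ρ‖ ^ 2 : ℝ) : ℂ) := by
  rw [mul_conj', ← ofReal_pow, xi0_normSq hρ, ofReal_div, ← map_mul, add_assoc, add_conj]
  push_cast
  rfl

theorem mom2_int_re {ρ : ℂ} (hρ : ‖ρ‖ ≤ 1) (f : ℂ → ℂ) (hf : Continuous f) :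
    ∫ t, (f (xi0 ρ (zeta t))).re ∂cau = (∫ t, f (xi0 ρ (zeta t)) ∂cau).re :=
  reCLM.integral_comp_comm (integrable_xi0 hρ f hf)

/-- Induction on `k` with `ξ conj ξ = (1 + ρ ξ + conj ρ conj ξ) / s`. -/
theorem mom_mixed {ρ : ℂ} (hρ : ‖ρ‖ ≤ 1) (k : ℕ) :
    ∫ t, xi0 ρ (zeta t) ^ (k + 1) * conj (xi0 ρ (zeta t)) ∂cau =
      conj ρ ^ k / (((1 - ‖ρ‖ ^ 2 : ℝ) : ℂ)) ^ (k + 1) := by
  have hi := fun f hf => integrable_xi0 (E := ℂ) hρ f hf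
  have h : ∀ k : ℕ, ∫ t, xi0 ρ (zeta t) ^ (k + 1) * conj (xi0 ρ (zeta t)) ∂cau =
      (∫ t, xi0 ρ (zeta t) ^ k ∂cau +
        conj ρ * ∫ t, xi0 ρ (zeta t) ^ k * conj (xi0 ρ (zeta t)) ∂cau) /
          ((1 - ‖ρ‖ ^ 2 : ℝ) : ℂ) := fun k => by
    have h1 := integral_add (hi (fun z => z ^ k) (by fun_prop))
      (hi (fun z => ρ * z ^ (k + 1)) (by fun_prop))
    have h2 := integral_add (hi (fun z => z ^ k + ρ * z ^ (k + 1)) (by fun_prop))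
      (hi (fun z => conj ρ * (z ^ k * conj z)) (by fun_prop))
    rw [h1, integral_const_mul, integral_const_mul, mom_pow hρ, mul_zero, add_zero] at h2
    rw [← h2, ← integral_div]
    refine integral_congr_ae (.of_forall fun t => ?_)
    simp only [pow_succ, mul_assoc, mom2_conj hρ]
    ring
  induction k with
  | zero =>
    have h1 := mom_pow hρ 0
    rw [h]
    simp only [zero_add, pow_one] at h1
    simp [integral_conj, h1]
  | succ k ih =>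
    rw [h, mom_pow hρ, ih]
    ring

theorem mom_re {ρ : ℂ} (hρ : ‖ρ‖ ≤ 1) (a : ℂ) :
    ∫ t, 2 * (xi0 ρ (zeta t) * a).re ∂cau = 0 := by
  have h := mom2_int_re hρ (fun z => 2 * a * z ^ (0 + 1)) (by fun_prop)
  rw [integral_const_mul, mom_pow hρ, mul_zero, zero_re] at h
  refine (integral_congr_ae (.of_forall fun t => ?_)).trans h
  simp
  ring

theorem mom_re_re {ρ : ℂ} (hρ : ‖ρ‖ ≤ 1) (a b : ℂ) :
    ∫ t, (2 * (xi0 ρ (zeta t) * a).re) * (2 * (xi0 ρ (zeta t) * b).re) ∂cau =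
      2 * (a * conj b).re / (1 - ‖ρ‖ ^ 2) := by
  have h := mom2_int_re hρ
    (fun z => 2 * a * b * z ^ (1 + 1) + 2 * (a * conj b) * (z ^ (0 + 1) * conj z)) (by fun_prop)
  rw [integral_add (integrable_xi0 hρ (fun z => 2 * a * b * z ^ (1 + 1)) (by fun_prop))
    (integrable_xi0 hρ (fun z => 2 * (a * conj b) * (z ^ (0 + 1) * conj z)) (by fun_prop)),
    integral_const_mul, integral_const_mul, mom_pow hρ, mom_mixed hρ, mul_zero, zero_add, pow_zero,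
    zero_add, pow_one, mul_one_div, div_ofReal_re, mom2_two] at h
  refine (integral_congr_ae (.of_forall fun t => ?_)).trans h
  simp [pow_succ]
  ring

theorem mom_sq {ρ : ℂ} (hρ : ‖ρ‖ ≤ 1) :
    ∫ t, ‖xi0 ρ (zeta t)‖ ^ 2 ∂cau = 1 / (1 - ‖ρ‖ ^ 2) := by
  have h := mom2_int_re hρ (fun z => z ^ (0 + 1) * conj z) (by fun_prop)
  rw [mom_mixed hρ, pow_zero, zero_add, pow_one, div_ofReal_re, one_re] at h
  refine (integral_congr_ae (.of_forall fun t => ?_)).trans h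
  simp only [pow_one, mul_conj', ← ofReal_pow, ofReal_re]

theorem mom_sq_re {ρ : ℂ} (hρ : ‖ρ‖ ≤ 1) (a : ℂ) :
    ∫ t, ‖xi0 ρ (zeta t)‖ ^ 2 * (2 * (xi0 ρ (zeta t) * a).re) ∂cau =
      2 * (a * conj ρ).re / (1 - ‖ρ‖ ^ 2) ^ 2 := by
  have h := mom2_int_re hρ (fun z => 2 * a * (z ^ (1 + 1) * conj z)) (by fun_prop)
  rw [integral_const_mul, mom_mixed hρ, pow_one, ← ofReal_pow, ← mul_div_assoc, div_ofReal_re,
    mul_assoc, mom2_two] at h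
  refine (integral_congr_ae (.of_forall fun t => ?_)).trans h
  simp only [← normSq_eq_norm_sq]
  simp [pow_succ, normSq_apply]
  ring

/-- `‖ξ‖ = ‖1 - ρ w‖⁻¹`, `w = ζ⁻¹`. The function `g w = (1 - ρ w) ^ (-1/2 : ℂ)` is holomorphic on
the closed disc (`re (1 - ρ w) > 0`), `|arg g| ≤ π/4`, so `‖g‖ ≤ √2 re g` (equivalently
`re (g²) ≥ 0`), and the mean of `g` is `g 0 = 1`. -/
theorem xi0_half {ρ : ℂ} (hρ : ‖ρ‖ ≤ 1) :
    ∫ t, ‖xi0 ρ (zeta t)‖ ^ (1 / 2 : ℝ) ∂cau ≤ 2 := by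
  by_cases h : ‖ρ‖ < 1
  · have hd : DifferentiableOn ℂ (fun w : ℂ => (1 - ρ * w) ^ ((-1 / 2 : ℝ) : ℂ))
        (Metric.closedBall 0 1) := DifferentiableOn.cpow_const (by fun_prop) fun w hw =>
      Or.inl (mom2_re h (mem_closedBall_zero_iff.1 hw))
    have hn : ∀ t, ‖(1 - ρ * (zeta t)⁻¹) ^ ((-1 / 2 : ℝ) : ℂ)‖ = ‖xi0 ρ (zeta t)‖ ^ (1 / 2 : ℝ) :=
      fun t => by
        rw [norm_cpow_real, mom2_eq h, norm_mul, mom2_inv, one_mul, norm_inv,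
          Real.inv_rpow (norm_nonneg _), ← Real.rpow_neg (norm_nonneg _), neg_div]
    have hi := integrable_xi0 hρ (fun z => ‖z‖ ^ (1 / 2 : ℝ))
      (continuous_norm.rpow_const fun _ => Or.inr (by norm_num))
    have hj : Integrable (fun t => (1 - ρ * (zeta t)⁻¹) ^ ((-1 / 2 : ℝ) : ℂ)) cau :=
      hi.mono' (hd.continuousOn.comp_continuous (continuous_zeta.inv₀ mom2_ne0) fun t =>
        mem_closedBall_zero_iff.2 (mom2_inv t).le).aestronglyMeasurable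
        (.of_forall fun t => (hn t).le)
    have h1 := reCLM.integral_comp_comm hj
    rw [mean_value_inv _ hd, mul_zero, sub_zero, one_cpow] at h1
    refine (integral_mono hi ((reCLM.integrable_comp hj).const_mul 2) fun t => ?_).trans_eq
      (by rw [integral_const_mul, h1, reCLM_apply, one_re, mul_one])
    have h2 := abs_le.1 (abs_arg_le_pi_div_two_iff.2 (mom2_re h (mom2_inv t).le).le)
    have h3 := Real.one_sub_sq_div_two_le_cos (x := (1 - ρ * (zeta t)⁻¹).arg * (-1 / 2))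
    have h4 : 1 / 2 ≤ Real.cos ((1 - ρ * (zeta t)⁻¹).arg * (-1 / 2)) := by
      nlinarith [Real.pi_le_four]
    simp only [reCLM_apply, cpow_ofReal_re, ← hn, norm_cpow_real]
    nlinarith [Real.rpow_nonneg (norm_nonneg (1 - ρ * (zeta t)⁻¹)) (-1 / 2)]
  · simp [xi0, h]

/-- `1 / (1 + (t + i) g) = 1 + (ρ - 1) ξ = (ζ - 1) ξ` for `ρ = 1 + 2 i g`, `‖ρ‖ < 1`
(use `t + i = 2 i / (1 - ζ)`). -/
theorem inv_one_add {g : ℂ} (hg : ‖1 + 2 * I * g‖ < 1) (t : ℝ) :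
    1 + ((t : ℂ) + I) * g ≠ 0 ∧
      (1 + ((t : ℂ) + I) * g)⁻¹ = 1 + 2 * I * g * xi0 (1 + 2 * I * g) (zeta t) ∧
      ‖(1 + ((t : ℂ) + I) * g)⁻¹‖ ≤ 2 * ‖xi0 (1 + 2 * I * g) (zeta t)‖ ∧
      ((t : ℂ) + I) * (1 + ((t : ℂ) + I) * g)⁻¹ = -2 * I * xi0 (1 + 2 * I * g) (zeta t) := by
  have h0 : (t : ℂ) + I ≠ 0 := fun h => by simpa using congrArg im h
  have h1 : zeta t - (1 + 2 * I * g) = -2 * I * (1 + (t + I) * g) / (t + I) := by
    rw [zeta]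
    field_simp
    ring
  have h2 : 1 + ((t : ℂ) + I) * g ≠ 0 := fun h => mom2_ne hg t (by rw [h1, h, mul_zero, zero_div])
  have h3 : ((t : ℂ) + I) * (1 + ((t : ℂ) + I) * g)⁻¹ = -2 * I * xi0 (1 + 2 * I * g) (zeta t) := by
    rw [xi0, if_pos hg, h1]
    field_simp
  refine ⟨h2, ?_, ?_, h3⟩
  · linear_combination mul_inv_cancel₀ h2 - g * h3
  · have h4 := congrArg norm h3
    have h5 := abs_im_le_norm ((t : ℂ) + I)
    simp only [norm_mul, norm_neg, norm_I, mul_one, Complex.norm_ofNat] at h4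
    simp only [add_im, ofReal_im, I_im, zero_add, abs_one] at h5
    exact (le_mul_of_one_le_left (norm_nonneg _) h5).trans_eq h4

end Vale.Agent.P365
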