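import Vale.Agent.P365.NabP
import Vale.Agent.P365.Mom

namespace Vale.Agent.P365

open MeasureTheory ProbabilityTheory Complex Filter
open scoped ComplexConjugate ENNReal

variable {ι : Type} [Fintype ι] [DecidableEq ι]

/-- If `f` is holomorphic on the closed unit disc with values in the slit plane, `0 < a ≤ 1/4`,
or with values in the right half plane and `a ≤ 1/2`, then `g = f ^ a` has `|arg g| ≤ π/4`,
`‖g‖ ≤ √2 re g`, and `mean_value` gives the bound. One statement: `|a arg f| ≤ π/4`. -/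
theorem mean_rpow (f : ℂ → ℂ) (hf : DifferentiableOn ℂ f (Metric.closedBall 0 1)) {a : ℝ}
    (hs : ∀ w ∈ Metric.closedBall (0 : ℂ) 1, f w ∈ slitPlane)
    (ha : ∀ w ∈ Metric.closedBall (0 : ℂ) 1, |a * (f w).arg| ≤ Real.pi / 4) :
    Integrable (fun s => ‖f (zeta s)‖ ^ a) cau ∧
      ∫ s, ‖f (zeta s)‖ ^ a ∂cau ≤ √2 * ‖f 0‖ ^ a := by
  have hg : DifferentiableOn ℂ (fun w => f w ^ (a : ℂ)) (Metric.closedBall 0 1) :=
    hf.cpow (differentiableOn_const _) hs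
  have hz : ∀ s, zeta s ∈ Metric.closedBall (0 : ℂ) 1 := fun s => by
    rw [mem_closedBall_zero_iff, norm_zeta]
  obtain ⟨B, hB⟩ := (isCompact_closedBall (0 : ℂ) 1).exists_bound_of_continuousOn hg.continuousOn
  have hi : Integrable (fun s => f (zeta s) ^ (a : ℂ)) cau :=
    Integrable.of_bound (hg.continuousOn.comp_continuous continuous_zeta hz).aestronglyMeasurable
      B (Eventually.of_forall fun s => hB _ (hz s))
  have hn : Integrable (fun s => ‖f (zeta s)‖ ^ a) cau := by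
    simpa only [Complex.norm_cpow_real] using hi.norm
  have h2 : √2 * √2 = 2 := Real.mul_self_sqrt (by norm_num)
  refine ⟨hn, ?_⟩
  calc ∫ s, ‖f (zeta s)‖ ^ a ∂cau ≤ ∫ s, √2 * (f (zeta s) ^ (a : ℂ)).re ∂cau := by
        refine integral_mono hn (hi.re.const_mul _) fun s => ?_
        have a1 := Real.cos_le_cos_of_nonneg_of_le_pi (abs_nonneg _)
          (by linarith [Real.pi_pos]) (ha _ (hz s))
        rw [Real.cos_abs, Real.cos_pi_div_four, mul_comm] at a1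
        have a2 := mul_le_mul_of_nonneg_left a1 (Real.sqrt_nonneg 2)
        have a3 := Real.rpow_nonneg (norm_nonneg (f (zeta s))) a
        simp only [Complex.cpow_ofReal_re]
        nlinarith
    _ = √2 * (f 0 ^ (a : ℂ)).re := by
        rw [integral_const_mul, ← mean_value _ hg]
        exact congrArg _ (Complex.reCLM.integral_comp_comm hi)
    _ ≤ _ := by
        rw [← Complex.norm_cpow_real]
        exact mul_le_mul_of_nonneg_left (Complex.re_le_norm _) (Real.sqrt_nonneg 2)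

theorem nabA_det {M : ℂ → Matrix ι ι ℂ} (h : ∀ i j, Differentiable ℂ fun w => M w i j) :
    Differentiable ℂ fun w => (M w).det := by
  simp only [Matrix.det_apply']
  exact Differentiable.fun_sum fun σ _ => (differentiable_const _).mul
    (Differentiable.fun_finsetProd fun i _ => h _ _)

theorem nabA_inv (C : Matrix ι ι ℂ) {w : ℂ} (hw : (1 - w • C).det ≠ 0) (i j : ι) :
    DifferentiableAt ℂ (fun w : ℂ => (1 - w • C)⁻¹ i j) w := by
  have h1 : ∀ i j, Differentiable ℂ fun w : ℂ => (1 - w • C) i j := fun i j => by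
    simp only [Matrix.sub_apply, Matrix.smul_apply, smul_eq_mul]
    fun_prop
  simp only [Matrix.inv_def, Ring.inverse_eq_inv', Matrix.smul_apply, smul_eq_mul,
    Matrix.adjugate_apply]
  refine ((nabA_det h1 w).inv hw).mul (nabA_det (fun i' j' => ?_) w)
  simp only [Matrix.updateRow_apply]
  split_ifs
  · exact differentiable_const _
  · exact h1 _ _

theorem nabA_cont (C : Matrix ι ι ℂ) {w : ℂ} (hw : (1 - w • C).det ≠ 0) (a : ι → ℂ)
    (t : ι → ι → ℂ) : ContinuousAt (fun w : ℂ => ENNReal.ofReal ((∑ y, ‖∑ i, ∑ j,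
      a i * (1 - w • C)⁻¹ i j * t j y‖ ^ 2) ^ (1 / 4 : ℝ))) w := by
  have h := fun i j => (nabA_inv C hw i j).continuousAt
  refine ENNReal.continuous_ofReal.continuousAt.comp
    (ContinuousAt.rpow_const ?_ (Or.inr (by norm_num)))
  fun_prop

omit [DecidableEq ι] in
theorem nabA_cs (a : ι → ℂ) (t : ι → ι → ℂ) (ha : ∑ i, ‖a i‖ ^ 2 ≤ 1)
    (ht : ∑ j, ∑ y, ‖t j y‖ ^ 2 ≤ 1) : ∑ y, ‖∑ i, a i * t i y‖ ^ 2 ≤ 1 := by
  rw [Finset.sum_comm] at ht
  refine le_trans (Finset.sum_le_sum fun y _ => ?_) ht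
  have a1 : ‖∑ i, a i * t i y‖ ≤ ∑ i, ‖a i‖ * ‖t i y‖ :=
    (norm_sum_le _ _).trans (le_of_eq (Finset.sum_congr rfl fun i _ => norm_mul _ _))
  refine (pow_le_pow_left₀ (norm_nonneg _) a1 2).trans
    ((Finset.sum_mul_sq_le_sq_mul_sq _ _ _).trans ?_)
  exact mul_le_of_le_one_left (Finset.sum_nonneg fun _ _ => sq_nonneg _) ha

theorem nabA_one (b c : ι → ℂ) :
    ∑ i, ∑ j, b i * (1 : Matrix ι ι ℂ) i j * c j = ∑ i, b i * c i := by
  simp [Matrix.one_apply]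

theorem nabA_zero (a : ι → ℂ) (t : ι → ι → ℂ) (ha : ∑ i, ‖a i‖ ^ 2 ≤ 1)
    (ht : ∑ j, ∑ y, ‖t j y‖ ^ 2 ≤ 1) :
    ‖PN 1 (fun i => conj (a i)) t‖ ≤ 2 ∧ ‖DN 1 (fun i => conj (a i)) t‖ ≤ 5 := by
  have h1 : ‖PN 1 (fun i => conj (a i)) t‖ ≤ 2 := by
    have a1 : ‖∑ i, a i * conj (a i)‖ ≤ 1 := (norm_sum_le _ _).trans (by
      simpa only [norm_mul, Complex.norm_conj, ← sq] using ha)
    have a2 : ‖∑ y, ∑ i, conj (t i y) * t i y‖ ≤ 1 := by
      rw [Finset.sum_comm] at ht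
      refine (norm_sum_le _ _).trans (le_trans (Finset.sum_le_sum fun y _ => ?_) ht)
      exact (norm_sum_le _ _).trans (by simp only [norm_mul, Complex.norm_conj, ← sq, le_refl])
    simp only [PN, nabA_one, Complex.conj_conj]
    refine (norm_add_le _ _).trans ?_
    have a3 := norm_add_le (∑ i, a i * conj (a i)) (∑ y, ∑ i, conj (t i y) * t i y)
    rw [norm_div, norm_one, Complex.norm_ofNat]
    linarith
  refine ⟨h1, (norm_sub_le _ _).trans ?_⟩
  have a1 : ‖∑ y, zz 1 (fun i => conj (a i)) t y * zt 1 (fun i => conj (a i)) t y‖ ≤ 1 := by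
    refine (norm_sum_le _ _).trans (le_trans (le_of_eq ?_) (nabA_cs a t ha ht))
    refine Finset.sum_congr rfl fun y _ => ?_
    have e : ∑ i, conj (t i y) * conj (a i) = conj (∑ i, a i * t i y) := by
      simp only [map_sum, map_mul, mul_comm]
    simp only [zz, zt, nabA_one, Complex.conj_conj, e, norm_mul, Complex.norm_conj, sq]
  have a2 := pow_le_pow_left₀ (norm_nonneg _) h1 2
  rw [norm_pow]
  linarith

theorem nabA_pt (R : Matrix ι ι ℂ) (a : ι → ℂ) (t : ι → ι → ℂ) (ha : ∑ i, ‖a i‖ ^ 2 ≤ 1)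
    (ht : ∑ j, ∑ y, ‖t j y‖ ^ 2 ≤ 1) :
    (∑ y, ‖∑ i, ∑ j, a i * R i j * t j y‖ ^ 2) ^ (1 / 4 : ℝ) ≤
      (∑ y, ‖zz ((2 : ℂ) • R - 1) (fun i => conj (a i)) t y‖ ^ 2) ^ (1 / 4 : ℝ) + 1 := by
  have h0 : 0 ≤ ∑ y, ‖zz ((2 : ℂ) • R - 1) (fun i => conj (a i)) t y‖ ^ 2 :=
    Finset.sum_nonneg fun _ _ => sq_nonneg _
  have h1 : ∑ y, ‖∑ i, ∑ j, a i * R i j * t j y‖ ^ 2 ≤
      ∑ y, ‖zz ((2 : ℂ) • R - 1) (fun i => conj (a i)) t y‖ ^ 2 + 1 := by
    refine le_trans ?_ (add_le_add_right (nabA_cs a t ha ht) _)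
    rw [← Finset.sum_add_distrib]
    refine Finset.sum_le_sum fun y _ => ?_
    have e : (2 : ℂ) * ∑ i, ∑ j, a i * R i j * t j y =
        zz ((2 : ℂ) • R - 1) (fun i => conj (a i)) t y + ∑ i, a i * t i y := by
      rw [← nabA_one a fun i => t i y]
      simp only [zz, Complex.conj_conj, Finset.mul_sum, ← Finset.sum_add_distrib,
        Matrix.sub_apply, Matrix.smul_apply, smul_eq_mul]
      exact Finset.sum_congr rfl fun i _ => Finset.sum_congr rfl fun j _ => by ring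
    have a1 := (congrArg norm e).le.trans (norm_add_le _ _)
    rw [norm_mul, Complex.norm_ofNat] at a1
    have a2 := pow_le_pow_left₀ (by positivity) a1 2
    nlinarith [sq_nonneg (‖zz ((2 : ℂ) • R - 1) (fun i => conj (a i)) t y‖ - ‖∑ i, a i * t i y‖),
      sq_nonneg ‖∑ i, ∑ j, a i * R i j * t j y‖]
  refine (Real.rpow_le_rpow (Finset.sum_nonneg fun _ _ => sq_nonneg _) h1 (by norm_num)).trans ?_
  refine (Real.rpow_add_le_add_rpow h0 zero_le_one (by norm_num) (by norm_num)).trans ?_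
  rw [Real.one_rpow]

/-- Normalised case on radius `r < 1`: `X w = 2 (1 - r w C)⁻¹ - 1` has holomorphic entries
(adjugate over determinant), `u = conj a`, `a (1 - r w C)⁻¹ t = (zz + a t)/2`, `X 0 = 1`,
`‖PN 0‖ ≤ 2`, `‖DN 0‖ ≤ 5`, `nabP`, `mean_rpow`; the constant is below 10. -/
theorem nabA1 (C : Matrix ι ι ℂ)
    (hC : ∀ k : ι → ℂ, ∑ j, ‖∑ i, k i * C i j‖ ^ 2 ≤ ∑ i, ‖k i‖ ^ 2) (a : ι → ℂ)
    (t : ι → ι → ℂ) (ha : ∑ i, ‖a i‖ ^ 2 ≤ 1) (ht : ∑ j, ∑ y, ‖t j y‖ ^ 2 ≤ 1) {r : ℝ}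
    (hr0 : 0 ≤ r) (hr : r < 1) :
    ∫⁻ s, ENNReal.ofReal ((∑ y, ‖∑ i, ∑ j,
      a i * (1 - ((r : ℂ) * zeta s) • C)⁻¹ i j * t j y‖ ^ 2) ^ (1 / 4 : ℝ)) ∂cau ≤
      ENNReal.ofReal 10 := by
  have hw : ∀ w ∈ Metric.closedBall (0 : ℂ) 1, ‖(r : ℂ) * w‖ < 1 := fun w hw => by
    rw [mem_closedBall_zero_iff] at hw
    rw [norm_mul, Complex.norm_real, Real.norm_eq_abs, abs_of_nonneg hr0]
    nlinarith [norm_nonneg w]
  obtain ⟨X, hX⟩ : ∃ X : ℂ → Matrix ι ι ℂ,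
      X = fun w => (2 : ℂ) • (1 - ((r : ℂ) * w) • C)⁻¹ - 1 := ⟨_, rfl⟩
  have hd : ∀ i j, DifferentiableOn ℂ (fun w => X w i j) (Metric.closedBall 0 1) := by
    intro i j w h
    have a1 := (nabA_inv C (det_one_sub C hC (hw w h)) i j).comp w
      (f := fun w : ℂ => (r : ℂ) * w) (by fun_prop)
    simp only [hX, Matrix.sub_apply, Matrix.smul_apply, smul_eq_mul]
    exact ((a1.const_mul 2).sub_const _).differentiableWithinAt
  have hP : DifferentiableOn ℂ (fun w => PN (X w) (fun i => conj (a i)) t)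
      (Metric.closedBall 0 1) := by
    simp only [PN]
    fun_prop
  have hD : DifferentiableOn ℂ (fun w => DN (X w) (fun i => conj (a i)) t)
      (Metric.closedBall 0 1) := by
    simp only [DN, zz, zt]
    fun_prop
  have hN := fun w (h : w ∈ Metric.closedBall (0 : ℂ) 1) =>
    nabP (X w) (fun k => by rw [hX]; exact re_cayley C hC (hw w h) k) (fun i => conj (a i)) t
  obtain ⟨i1, b1⟩ := mean_rpow _ hP (a := 1 / 2)
    (fun w h => Or.inl (lt_of_lt_of_le one_pos (hN w h).1)) fun w h => by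
      have := Complex.abs_arg_le_pi_div_two_iff.2 (zero_le_one.trans (hN w h).1)
      rw [abs_mul, abs_of_pos (by norm_num : (0 : ℝ) < 1 / 2)]
      linarith
  obtain ⟨i2, b2⟩ := mean_rpow _ hD (a := 1 / 4) (fun w h => (hN w h).2.1) fun w h => by
    have := Complex.abs_arg_le_pi (DN (X w) (fun i => conj (a i)) t)
    rw [abs_mul, abs_of_pos (by norm_num : (0 : ℝ) < 1 / 4)]
    linarith
  have e0 : X 0 = 1 := by
    simp only [hX, mul_zero, zero_smul, sub_zero, inv_one, two_smul, add_sub_cancel_right]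
  obtain ⟨c1, c2⟩ := nabA_zero a t ha ht
  rw [e0] at b1 b2
  have c3 : ‖PN 1 (fun i => conj (a i)) t‖ ^ (1 / 2 : ℝ) ≤ 2 :=
    (Real.rpow_le_rpow (norm_nonneg _) c1 (by norm_num)).trans
      ((Real.rpow_le_rpow_of_exponent_le one_le_two (by norm_num)).trans (Real.rpow_one 2).le)
  have c4 : ‖DN 1 (fun i => conj (a i)) t‖ ^ (1 / 4 : ℝ) ≤ 2 := by
    refine (Real.rpow_le_rpow (norm_nonneg _) (c2.trans (show (5 : ℝ) ≤ 2 ^ (4 : ℝ) by
      norm_num)) (by norm_num)).trans ?_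
    rw [← Real.rpow_mul (by norm_num)]
    norm_num
  have h2 : √2 * √2 = 2 := Real.mul_self_sqrt (by norm_num)
  have h3 := Real.sqrt_nonneg 2
  have h4 : √2 ≤ 3 / 2 := by nlinarith
  have i3 := ((i1.const_mul √2).add i2).add (integrable_const (1 : ℝ))
  refine (lintegral_mono fun s => ENNReal.ofReal_le_ofReal ((nabA_pt _ a t ha ht).trans
    (add_le_add_left ?_ 1))).trans ((ofReal_integral_eq_lintegral_ofReal i3
      (Eventually.of_forall fun s => by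
        simp only [Pi.add_apply, Pi.zero_apply]
        positivity)).symm.le.trans (ENNReal.ofReal_le_ofReal ?_))
  · have := (hN (zeta s) (by rw [mem_closedBall_zero_iff, norm_zeta])).2.2
    rw [hX] at this ⊢
    exact this
  · rw [integral_add' ((i1.const_mul √2).add i2) (integrable_const _),
      integral_add' (i1.const_mul √2) i2, integral_const_mul, integral_const, probReal_univ,
      one_smul]
    have d1 := mul_le_mul_of_nonneg_left (b1.trans (mul_le_mul_of_nonneg_left c3 h3)) h3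
    have d2 := b2.trans (mul_le_mul_of_nonneg_left c4 h3)
    nlinarith

theorem nabA2 (C : Matrix ι ι ℂ)
    (hC : ∀ k : ι → ℂ, ∑ j, ‖∑ i, k i * C i j‖ ^ 2 ≤ ∑ i, ‖k i‖ ^ 2) (a : ι → ℂ)
    (t : ι → ι → ℂ) (ha : ∑ i, ‖a i‖ ^ 2 ≤ 1) (ht : ∑ j, ∑ y, ‖t j y‖ ^ 2 ≤ 1) :
    ∫⁻ s, ENNReal.ofReal ((∑ y, ‖∑ i, ∑ j,
      a i * (1 - zeta s • C)⁻¹ i j * t j y‖ ^ 2) ^ (1 / 4 : ℝ)) ∂cau ≤ ENNReal.ofReal 10 := by
  have r0 : ∀ m : ℕ, (0 : ℝ) ≤ 1 - 1 / ((m : ℝ) + 1) := fun m =>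
    sub_nonneg.2 ((div_le_one (by positivity)).2 (by linarith [Nat.cast_nonneg (α := ℝ) m]))
  have r1 : ∀ m : ℕ, (1 : ℝ) - 1 / ((m : ℝ) + 1) < 1 := fun m => sub_lt_self _ (by positivity)
  have r2 : Tendsto (fun m : ℕ => (((1 : ℝ) - 1 / ((m : ℝ) + 1) : ℝ) : ℂ)) atTop (nhds 1) := by
    have := (Complex.continuous_ofReal.tendsto _).comp
      (tendsto_one_div_add_atTop_nhds_zero_nat.const_sub (1 : ℝ))
    rwa [sub_zero, Complex.ofReal_one] at this
  refine le_trans (lintegral_mono fun s => ?_) ((lintegral_liminf_le' (u := atTop)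
    (f := fun (m : ℕ) s => ENNReal.ofReal ((∑ y, ‖∑ i, ∑ j, a i *
      (1 - ((((1 : ℝ) - 1 / ((m : ℝ) + 1) : ℝ) : ℂ) * zeta s) • C)⁻¹ i j * t j y‖ ^ 2) ^
        (1 / 4 : ℝ))) fun m => ?_).trans
    (liminf_le_of_frequently_le' (Frequently.of_forall fun m =>
      nabA1 C hC a t ha ht (r0 m) (r1 m))))
  · by_cases h : (1 - zeta s • C).det = 0
    · rw [Matrix.nonsing_inv_apply_not_isUnit _ (by rw [h]; exact not_isUnit_zero)]
      simp
    · have a1 := r2.mul_const (zeta s)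
      rw [one_mul] at a1
      exact ((nabA_cont C h a t).tendsto.comp a1).liminf_eq.ge
  · refine (continuous_iff_continuousAt.2 fun s => ?_).measurable.aemeasurable
    refine (nabA_cont C (det_one_sub C hC ?_) a t).comp
      (f := fun s => (((1 : ℝ) - 1 / ((m : ℝ) + 1) : ℝ) : ℂ) * zeta s)
      (continuous_const.mul continuous_zeta).continuousAt
    rw [norm_mul, norm_zeta, mul_one, Complex.norm_real, Real.norm_eq_abs, abs_of_nonneg (r0 m)]
    exact r1 m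

theorem nabA_scale {κ : Type} [Fintype κ] (v : κ → ℂ) : ∃ (c : ℝ) (v' : κ → ℂ),
    (∀ k, v k = c * v' k) ∧ ∑ k, ‖v' k‖ ^ 2 ≤ 1 ∧ c ^ 2 = ∑ k, ‖v k‖ ^ 2 := by
  have h0 : 0 ≤ ∑ k, ‖v k‖ ^ 2 := Finset.sum_nonneg fun _ _ => sq_nonneg _
  rcases h0.eq_or_lt with h | h
  · refine ⟨0, 0, fun k => ?_, by simp, by rw [← h]; norm_num⟩
    have := (Finset.sum_eq_zero_iff_of_nonneg fun _ _ => sq_nonneg _).1 h.symm k (Finset.mem_univ k)
    simpa using this
  · have h1 := Real.sqrt_pos.2 h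
    refine ⟨√(∑ k, ‖v k‖ ^ 2), fun k => v k / (√(∑ k, ‖v k‖ ^ 2) : ℝ), fun k => ?_, ?_,
      Real.sq_sqrt h0⟩
    · rw [mul_div_cancel₀ _ (Complex.ofReal_ne_zero.2 h1.ne')]
    · simp only [norm_div, div_pow, Complex.norm_real, Real.norm_eq_abs, sq_abs, Real.sq_sqrt h0]
      rw [← Finset.sum_div, div_self h.ne']

/-- Scaling, then Fatou along `r = 1 - 1/(m+1)`: where `1 - ζ C` is invertible the integrand is
the limit (continuity of the inverse), elsewhere the inverse is `0`. -/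
theorem nabA (C : Matrix ι ι ℂ)
    (hC : ∀ k : ι → ℂ, ∑ j, ‖∑ i, k i * C i j‖ ^ 2 ≤ ∑ i, ‖k i‖ ^ 2) (a : ι → ℂ)
    (t : ι → ι → ℂ) :
    ∫⁻ s, ENNReal.ofReal ((∑ y, ‖∑ i, ∑ j,
      a i * (1 - zeta s • C)⁻¹ i j * t j y‖ ^ 2) ^ (1 / 4 : ℝ)) ∂cau ≤
      ENNReal.ofReal (10 * ((∑ i, ‖a i‖ ^ 2) * ∑ j, ∑ y, ‖t j y‖ ^ 2) ^ (1 / 4 : ℝ)) := by
  obtain ⟨α, a', h1, h2, h3⟩ := nabA_scale a
  obtain ⟨τ, t', h4, h5, h6⟩ := nabA_scale fun z : ι × ι => t z.1 z.2
  rw [Fintype.sum_prod_type] at h5 h6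
  have h7 : ∀ j y, t j y = τ * t' (j, y) := fun j y => h4 (j, y)
  have h0 : 0 ≤ (α ^ 2 * τ ^ 2) ^ (1 / 4 : ℝ) := by positivity
  have e : ∀ R : Matrix ι ι ℂ, (∑ y, ‖∑ i, ∑ j, a i * R i j * t j y‖ ^ 2) ^ (1 / 4 : ℝ) =
      (α ^ 2 * τ ^ 2) ^ (1 / 4 : ℝ) *
        (∑ y, ‖∑ i, ∑ j, a' i * R i j * t' (j, y)‖ ^ 2) ^ (1 / 4 : ℝ) := fun R => by
    rw [← Real.mul_rpow (by positivity) (Finset.sum_nonneg fun _ _ => sq_nonneg _),
      Finset.mul_sum]
    refine congrArg (· ^ (1 / 4 : ℝ)) (Finset.sum_congr rfl fun y _ => ?_)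
    have e1 : ∑ i, ∑ j, a i * R i j * t j y =
        (α : ℂ) * τ * ∑ i, ∑ j, a' i * R i j * t' (j, y) := by
      simp only [Finset.mul_sum, h1, h7]
      exact Finset.sum_congr rfl fun i _ => Finset.sum_congr rfl fun j _ => by ring
    rw [e1, norm_mul, norm_mul, mul_pow, mul_pow, Complex.norm_real, Complex.norm_real,
      Real.norm_eq_abs, Real.norm_eq_abs, sq_abs, sq_abs]
  rw [← h3, ← h6, mul_comm, ENNReal.ofReal_mul h0]
  simp only [e, ENNReal.ofReal_mul h0]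
  rw [lintegral_const_mul' _ _ ENNReal.ofReal_ne_top]
  exact mul_le_mul_right (nabA2 C hC a' (fun j y => t' (j, y)) h2 h5) _

end Vale.Agent.P365
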