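import Vale.Agent.P365.NabA
import Vale.Agent.P365.Em

namespace Vale.Agent.P365

open MeasureTheory ProbabilityTheory Complex Filter
open scoped ComplexConjugate ENNReal

variable {ι : Type} [Fintype ι] [DecidableEq ι]

variable {H : Matrix ι ι ℝ} {U : Finset ι} {c : ι → ℝ}

/-- Block formula. `G' = (Kmat H (U \ D) c')⁻¹`, `g^p u = -G' p u (c' u + i)` on `D`, `0` off `D`.
`resolvent` gives `2 i G' p w = 2 i G p w + Σ_u g^p u 2 i G u w`. For `w ∈ D` this reads
`(g^p M) w = 2 i G p w` (`1 - 2i/(t+i) = zeta t`), and `(g^p M) w = 0` off `D`. For `p ∈ D`: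
`(g^p + e_p) M = (z p - 1) e_p`, for `p ∉ D`: `e_p M = z p e_p`; so `M` is invertible
(`zeta_ne_one`, `norm_zeta`). For `p = x`: `g^x M = a`, and `S' x y - S x y = Σ_u g^x u S u y`. -/
theorem block (hH : H.IsSymm) (hg : Good H U c) {D : Finset ι} (hD : D ⊆ U) (ω : ι → ℝ)
    (hg' : Good H (U \ D) (D.piecewise ω c)) {x y : ι} (hx : x ∈ U) (hxD : x ∉ D) (hyD : y ∉ D) :
    Smat H (U \ D) (D.piecewise ω c) x y - Smat H U c x y =
      ∑ i, ∑ j, (if i ∈ D then Smat H U c x i else 0) *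
        (Matrix.diagonal (fun u => zeta (ω u)) -
          Matrix.of fun u w => if u ∈ D ∧ w ∈ D then Smat H U c u w else 0)⁻¹ i j *
        (if j ∈ D then Smat H U c j y else 0) := by
  obtain ⟨G, hG⟩ : ∃ G, G = (Kmat H U c)⁻¹ := ⟨_, rfl⟩
  obtain ⟨G', hG'⟩ : ∃ G', G' = (Kmat H (U \ D) (D.piecewise ω c))⁻¹ := ⟨_, rfl⟩
  obtain ⟨g, hgd⟩ : ∃ g : ι → ι → ℂ, ∀ p u, g p u = if u ∈ D then -(G' p u * (ω u + I)) else 0 :=
    ⟨_, fun _ _ => rfl⟩
  have hR : ∀ p w, G' p w = G p w + ∑ u, g p u * G u w := fun p w => by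
    rw [hG', hG, Kmat, Kmat, resolvent _ _ hg hg' p w, sub_eq_add_neg, ← Finset.sum_neg_distrib]
    congr 1
    refine Finset.sum_congr rfl fun u _ => ?_
    rw [hgd, hG', Kmat]
    by_cases hu : u ∈ D
    · simp [dd, hu, hD hu]
    · simp [dd, hu]
  have hS : ∀ u ∈ U, ∀ w ∈ U, Smat H U c u w = (if u = w then 1 else 0) + 2 * I * G u w :=
    fun u hu w hw => by rw [Smat, if_pos ⟨hu, hw⟩, hG]
  obtain ⟨M, hM⟩ : ∃ M : Matrix ι ι ℂ, M = Matrix.diagonal (fun u => zeta (ω u)) -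
    Matrix.of fun u w => if u ∈ D ∧ w ∈ D then Smat H U c u w else 0 := ⟨_, rfl⟩
  have hMa : ∀ u w, M u w = (if u = w then zeta (ω u) else 0) -
      if u ∈ D ∧ w ∈ D then (if u = w then 1 else 0) + 2 * I * G u w else 0 := fun u w => by
    rw [hM, Matrix.sub_apply, Matrix.diagonal_apply, Matrix.of_apply]
    by_cases h : u ∈ D ∧ w ∈ D
    · rw [if_pos h, if_pos h, hS u (hD h.1) w (hD h.2)]
    · rw [if_neg h, if_neg h]
  have hz : ∀ t : ℝ, (t + I) * (zeta t - 1) = -(2 * I) := fun t => by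
    have h0 : (t : ℂ) + I ≠ 0 := fun h => by simpa using congrArg Complex.im h
    rw [zeta]
    field_simp
    ring
  have hgM : ∀ p w, ∑ u, g p u * M u w = if w ∈ D then 2 * I * G p w else 0 := fun p w => by
    by_cases hw : w ∈ D
    · have h1 : ∀ u, g p u * M u w = (if u = w then g p w * (zeta (ω w) - 1) else 0) -
          2 * I * (g p u * G u w) := fun u => by
        rw [hMa]
        by_cases hu : u ∈ D
        · by_cases e : u = w
          · subst e
            simp [hu]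
            ring
          · simp [hu, hw, e]
            ring
        · have e : u ≠ w := fun e => hu (e ▸ hw)
          simp [hgd, hu, e]
      simp only [h1, Finset.sum_sub_distrib, Finset.sum_ite_eq', Finset.mem_univ, if_true,
        ← Finset.mul_sum, if_pos hw]
      rw [hgd, if_pos hw]
      linear_combination (-G' p w) * hz (ω w) + 2 * I * hR p w
    · rw [if_neg hw]
      refine Finset.sum_eq_zero fun u _ => ?_
      by_cases hu : u ∈ D
      · have e : u ≠ w := fun e => hw (e ▸ hu)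
        simp [hMa, hw, e]
      · simp [hgd, hu]
  have hinv : IsUnit M.det := by
    refine Matrix.isUnit_det_of_left_inverse (B := Matrix.of fun p u => if p ∈ D then
      (g p u + if u = p then 1 else 0) * (zeta (ω p) - 1)⁻¹ else
      (if u = p then 1 else 0) * (zeta (ω p))⁻¹) ?_
    ext p w
    rw [Matrix.mul_apply, Matrix.one_apply]
    by_cases hp : p ∈ D
    · have h0 := sub_ne_zero.2 (zeta_ne_one (ω p))
      have h1 : ∀ u, (g p u + if u = p then 1 else 0) * (zeta (ω p) - 1)⁻¹ * M u w =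
          (zeta (ω p) - 1)⁻¹ * (g p u * M u w + if u = p then M p w else 0) := fun u => by
        split_ifs with e
        · rw [e]
          ring
        · ring
      simp only [Matrix.of_apply, if_pos hp, h1, ← Finset.mul_sum, Finset.sum_add_distrib, hgM,
        Finset.sum_ite_eq', Finset.mem_univ, if_true]
      rw [hMa]
      by_cases e : p = w
      · subst e
        simp only [hp, and_self, if_true]
        field_simp
        ring
      · by_cases hw : w ∈ D <;> simp [hp, hw, e]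
    · have h0 : zeta (ω p) ≠ 0 := norm_ne_zero_iff.1 (by rw [norm_zeta]; exact one_ne_zero)
      simp only [Matrix.of_apply, if_neg hp, ite_mul, one_mul, zero_mul, Finset.sum_ite_eq',
        Finset.mem_univ, if_true]
      rw [hMa]
      by_cases e : p = w
      · subst e
        simp [hp, h0]
      · simp [hp, e]
  have ha : ∀ i, (if i ∈ D then Smat H U c x i else 0) = ∑ u, g x u * M u i := fun i => by
    rw [hgM]
    split_ifs with hi
    · rw [hS x hx i (hD hi), if_neg fun e : x = i => hxD (e ▸ hi), zero_add]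
    · rfl
  have hb : ∀ j, ∑ i, (∑ u, g x u * M u i) * M⁻¹ i j = g x j := fun j => by
    have h1 : Matrix.vecMul (Matrix.vecMul (g x) M) M⁻¹ = g x := by
      rw [Matrix.vecMul_vecMul, Matrix.mul_nonsing_inv _ hinv, Matrix.vecMul_one]
    exact congrFun h1 j
  rw [← hM, Finset.sum_comm]
  simp only [ha, ← Finset.sum_mul, hb]
  by_cases hy : y ∈ U
  · rw [hS x hx y hy, Smat, if_pos ⟨Finset.mem_sdiff.2 ⟨hx, hxD⟩, Finset.mem_sdiff.2 ⟨hy, hyD⟩⟩,
      ← hG', hR x y]
    have h1 : ∀ j, g x j * (if j ∈ D then Smat H U c j y else 0) = 2 * I * (g x j * G j y) :=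
      fun j => by
        split_ifs with hj
        · rw [hS j (hD hj) y hy, if_neg fun e : j = y => hyD (e ▸ hj)]
          ring
        · simp [hgd, hj]
    simp only [h1, ← Finset.mul_sum]
    ring
  · simp [Smat, hy]

/-- `Measure.pi_map_pi` (or `measurePreserving_pi`) and `map_zeta_rot`. -/
theorem lintegral_rot (f : (ι → ℂ) → ℝ≥0∞) (hf : Measurable f) (e : ℂ) (he : ‖e‖ = 1) :
    ∫⁻ ω, f (fun u => zeta (ω u)) ∂(piC ι) = ∫⁻ ω, f (fun u => e * zeta (ω u)) ∂(piC ι) := by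
  have hz := continuous_zeta.measurable
  have hz' : Measurable fun t => e * zeta t := hz.const_mul e
  have h1 : Measurable fun (ω : ι → ℝ) u => zeta (ω u) :=
    measurable_pi_lambda _ fun u => hz.comp (measurable_pi_apply u)
  have h2 : Measurable fun (ω : ι → ℝ) u => e * zeta (ω u) :=
    measurable_pi_lambda _ fun u => hz'.comp (measurable_pi_apply u)
  rw [← lintegral_map hf h1, ← lintegral_map hf h2, piC,
    Measure.pi_map_pi fun _ => hz.aemeasurable, Measure.pi_map_pi fun _ => hz'.aemeasurable,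
    map_zeta_rot e he]

theorem nabC_meas (C : Matrix ι ι ℂ) (i j : ι) :
    Measurable fun z : ι → ℂ => (Matrix.diagonal z - C)⁻¹ i j := by
  have h1 : Continuous fun z : ι → ℂ => Matrix.diagonal z - C :=
    continuous_id.matrix_diagonal.sub continuous_const
  simp only [Matrix.inv_def, Ring.inverse_eq_inv', Matrix.smul_apply, smul_eq_mul]
  exact h1.matrix_det.measurable.inv.mul (h1.matrix_adjugate.matrix_elem i j).measurable

theorem nabC_fac (C : Matrix ι ι ℂ) (z : ι → ℂ) (hz : ∀ u, z u ≠ 0) {e : ℂ} (he : e ≠ 0) :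
    (Matrix.diagonal (fun u => e⁻¹ * z u) - C)⁻¹ =
      (1 - e • (Matrix.diagonal (fun u => (z u)⁻¹) * C))⁻¹ *
        Matrix.diagonal fun u => e * (z u)⁻¹ := by
  have h1 : Matrix.diagonal (fun u => e * (z u)⁻¹) * Matrix.diagonal (fun u => e⁻¹ * z u) = 1 := by
    rw [Matrix.diagonal_mul_diagonal, ← Matrix.diagonal_one]
    congr 1
    funext u
    have := hz u
    field_simp
  have h2 : Matrix.diagonal (fun u => e⁻¹ * z u) - C = Matrix.diagonal (fun u => e⁻¹ * z u) *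
      (1 - e • (Matrix.diagonal (fun u => (z u)⁻¹) * C)) := by
    ext i j
    have := hz i
    simp only [Matrix.diagonal_mul, Matrix.sub_apply, Matrix.smul_apply, smul_eq_mul,
      Matrix.diagonal_apply, Matrix.one_apply]
    split_ifs
    · field_simp
    · field_simp
      ring
  rw [h2, Matrix.mul_inv_rev, Matrix.inv_eq_left_inv h1]

theorem nabC_con {S : Mx ι} (hS : US U S) (D : Finset ι) (k : ι → ℂ) :
    ∑ j, ‖∑ i, k i * (Matrix.of fun u w => if u ∈ D ∧ w ∈ D then S u w else 0) i j‖ ^ 2 ≤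
      ∑ i, ‖k i‖ ^ 2 := by
  refine le_trans (Finset.sum_le_sum fun j _ => ?_) ((sum_mul_normSq_le hS fun i =>
    if i ∈ D then k i else 0).trans (Finset.sum_le_sum fun i _ => ?_))
  · by_cases hj : j ∈ D
    · refine le_of_eq (congrArg (‖·‖ ^ 2) (Finset.sum_congr rfl fun i _ => ?_))
      rw [Matrix.of_apply, hS.symm j i]
      by_cases hi : i ∈ D
      · simp only [hi, hj, and_self, if_true]
        ring
      · simp [hi]
    · simp [hj]
  · split_ifs
    · rfl
    · simp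

theorem nabC_in (C : Matrix ι ι ℂ)
    (hC : ∀ k : ι → ℂ, ∑ j, ‖∑ i, k i * C i j‖ ^ 2 ≤ ∑ i, ‖k i‖ ^ 2) (a : ι → ℂ)
    (t : ι → ι → ℂ) (z : ι → ℂ) (hz : ∀ u, ‖z u‖ = 1) :
    ∫⁻ s, ENNReal.ofReal ((∑ y, ‖∑ i, ∑ j, a i *
      (Matrix.diagonal (fun u => (zeta s)⁻¹ * z u) - C)⁻¹ i j * t j y‖ ^ 2) ^ (1 / 4 : ℝ)) ∂cau ≤
      ENNReal.ofReal (10 * ((∑ i, ‖a i‖ ^ 2) * ∑ j, ∑ y, ‖t j y‖ ^ 2) ^ (1 / 4 : ℝ)) := by
  have hn : ∀ u, ‖(z u)⁻¹‖ = 1 := fun u => by rw [norm_inv, hz, inv_one]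
  have hz0 : ∀ u, z u ≠ 0 := fun u => norm_ne_zero_iff.1 (by rw [hz]; exact one_ne_zero)
  have hne : ∀ s : ℝ, zeta s ≠ 0 := fun s =>
    norm_ne_zero_iff.1 (by rw [norm_zeta]; exact one_ne_zero)
  have h3 := nabA (Matrix.diagonal (fun u => (z u)⁻¹) * C) (fun k => by
    have h1 := hC fun i => k i * (z i)⁻¹
    simp only [norm_mul, hn, mul_one] at h1
    simpa only [Matrix.diagonal_mul, mul_assoc] using h1) a fun j y => (z j)⁻¹ * t j y
  simp only [norm_mul, hn, one_mul] at h3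
  refine le_trans (le_of_eq (lintegral_congr fun s => ?_)) h3
  refine congrArg (fun r : ℝ => ENNReal.ofReal (r ^ (1 / 4 : ℝ)))
    (Finset.sum_congr rfl fun y _ => ?_)
  rw [nabC_fac C z hz0 (hne s)]
  generalize (1 - zeta s • (Matrix.diagonal (fun u => (z u)⁻¹) * C))⁻¹ = X
  have h4 : ∀ i j, a i * (X * Matrix.diagonal fun u => zeta s * (z u)⁻¹ : Matrix ι ι ℂ) i j *
      t j y = zeta s * (a i * X i j * ((z j)⁻¹ * t j y)) := fun i j => by
    rw [Matrix.mul_diagonal]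
    ring
  simp only [h4, ← Finset.mul_sum, norm_mul, norm_zeta, one_mul]

theorem nabC_measF (C : Matrix ι ι ℂ) (a : ι → ℂ) (t : ι → ι → ℂ) :
    Measurable fun z : ι → ℂ => (∑ y, ‖∑ i, ∑ j,
      a i * (Matrix.diagonal z - C)⁻¹ i j * t j y‖ ^ 2) ^ (1 / 4 : ℝ) := by
  have h1 : ∀ y, Measurable fun z : ι → ℂ =>
      ∑ i, ∑ j, a i * (Matrix.diagonal z - C)⁻¹ i j * t j y := fun y =>
    Finset.measurable_sum _ fun i _ => Finset.measurable_sum _ fun j _ =>
      ((nabC_meas C i j).const_mul (a i)).mul_const (t j y)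
  have h2 : Measurable fun z : ι → ℂ =>
      ∑ y, ‖∑ i, ∑ j, a i * (Matrix.diagonal z - C)⁻¹ i j * t j y‖ ^ 2 :=
    Finset.measurable_sum _ fun y _ => (h1 y).norm.pow_const 2
  exact h2.pow_const (1 / 4 : ℝ)

theorem nabC_avg (f : (ι → ℂ) → ℝ≥0∞) (hf : Measurable f) {K : ℝ≥0∞}
    (h : ∀ ω : ι → ℝ, ∫⁻ s, f (fun u => (zeta s)⁻¹ * zeta (ω u)) ∂cau ≤ K) :
    ∫⁻ ω, f (fun u => zeta (ω u)) ∂(piC ι) ≤ K := by
  have hn : ∀ s : ℝ, ‖(zeta s)⁻¹‖ = 1 := fun s => by rw [norm_inv, norm_zeta, inv_one]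
  have h6 : ∫⁻ ω, f (fun u => zeta (ω u)) ∂(piC ι) = ∫⁻ s, ∫⁻ ω,
      f (fun u => (zeta s)⁻¹ * zeta (ω u)) ∂(piC ι) ∂cau := by
    rw [lintegral_congr fun s => (lintegral_rot f hf _ (hn s)).symm, lintegral_const, measure_univ,
      mul_one]
  have h7 : Measurable fun (q : ℝ × (ι → ℝ)) u => (zeta q.1)⁻¹ * zeta (q.2 u) :=
    measurable_pi_lambda _ fun u => (continuous_zeta.measurable.comp measurable_fst).inv.mul
      (continuous_zeta.measurable.comp ((measurable_pi_apply u).comp measurable_snd))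
  rw [h6, lintegral_lintegral_swap
    (f := fun (s : ℝ) (ω : ι → ℝ) => f fun u => (zeta s)⁻¹ * zeta (ω u)) (hf.comp h7).aemeasurable]
  refine (lintegral_mono h).trans_eq ?_
  rw [lintegral_const, measure_univ, mul_one]

/-- `good_ae`, `block`, `lintegral_rot` with `e = (zeta s)⁻¹` averaged over `s` (Tonelli),
`diag (e z) - C0 = diag (e z) (1 - zeta s • (diag z⁻¹ C0))`, `Matrix.mul_inv_rev`, and `nabA` with
`C = diag z⁻¹ C0` (contraction by `sum_mul_normSq_le` and symmetry), `t j y` = unit factors times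
`1_D(j) 1_O(y) S j y` (the factor `e⁻¹` has norm one and is pulled out). -/
theorem nab (hH : H.IsSymm) (hg : Good H U c) {D : Finset ι} (hD : D ⊆ U) {x : ι} (hx : x ∈ U)
    (hxD : x ∉ D) {O : Finset ι} (hO : Disjoint D O) :
    ES H U c D (fun S => (∑ y ∈ O, ‖S x y - Smat H U c x y‖ ^ 2) ^ (1 / 4 : ℝ)) ≤
      10 * (pset (Smat H U c) x D * ∑ u ∈ D, pset (Smat H U c) u O) ^ (1 / 4 : ℝ) := by
  have hS := Smat_US hH U c
  obtain ⟨C0, hC0⟩ : ∃ C0 : Matrix ι ι ℂ,
    C0 = Matrix.of fun u w => if u ∈ D ∧ w ∈ D then Smat H U c u w else 0 := ⟨_, rfl⟩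
  obtain ⟨a, ha⟩ : ∃ a : ι → ℂ, a = fun i => if i ∈ D then Smat H U c x i else 0 := ⟨_, rfl⟩
  obtain ⟨t, ht⟩ : ∃ t : ι → ι → ℂ,
    t = fun j y => if y ∈ O then (if j ∈ D then Smat H U c j y else 0) else 0 := ⟨_, rfl⟩
  obtain ⟨F, hF⟩ : ∃ F : (ι → ℂ) → ℝ, F = fun z => (∑ y, ‖∑ i, ∑ j,
    a i * (Matrix.diagonal z - C0)⁻¹ i j * t j y‖ ^ 2) ^ (1 / 4 : ℝ) := ⟨_, rfl⟩
  have hFm : Measurable F := by
    rw [hF]
    exact nabC_measF C0 a t
  have hF0 : ∀ z, 0 ≤ F z := fun z => by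
    rw [hF]
    positivity
  have hzm : Measurable fun (ω : ι → ℝ) u => zeta (ω u) :=
    measurable_pi_lambda _ fun u => continuous_zeta.measurable.comp (measurable_pi_apply u)
  have h1 : ES H U c D (fun S => (∑ y ∈ O, ‖S x y - Smat H U c x y‖ ^ 2) ^ (1 / 4 : ℝ)) =
      ∫ ω, F (fun u => zeta (ω u)) ∂(piC ι) := by
    refine integral_congr_ae ?_
    filter_upwards [good_ae hg hD] with ω hω
    rw [hF]
    refine congrArg (· ^ (1 / 4 : ℝ)) ?_
    rw [← Finset.sum_subset (Finset.subset_univ O) fun y _ hy => by simp [ht, hy]]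
    refine Finset.sum_congr rfl fun y hy => ?_
    rw [block hH hg hD ω hω hx hxD (Finset.disjoint_right.1 hO hy)]
    simp only [ha, ht, hC0, if_pos hy]
  have ha2 : ∑ i, ‖a i‖ ^ 2 = pset (Smat H U c) x D := by
    rw [pset, ← Finset.sum_subset (Finset.subset_univ D) fun i _ hi => by simp [ha, hi]]
    exact Finset.sum_congr rfl fun i hi => by simp [ha, hi, pp]
  have ht2 : ∑ j, ∑ y, ‖t j y‖ ^ 2 = ∑ u ∈ D, pset (Smat H U c) u O := by
    rw [← Finset.sum_subset (Finset.subset_univ D) fun j _ hj => by simp [ht, hj]]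
    refine Finset.sum_congr rfl fun j hj => ?_
    rw [pset, ← Finset.sum_subset (Finset.subset_univ O) fun y _ hy => by simp [ht, hy]]
    exact Finset.sum_congr rfl fun y hy => by simp [ht, hj, hy, pp]
  have h2 : ∀ ω : ι → ℝ, ∫⁻ s, ENNReal.ofReal (F fun u => (zeta s)⁻¹ * zeta (ω u)) ∂cau ≤
      ENNReal.ofReal (10 * (pset (Smat H U c) x D *
        ∑ u ∈ D, pset (Smat H U c) u O) ^ (1 / 4 : ℝ)) := fun ω => by
    rw [hF, ← ha2, ← ht2]
    exact nabC_in C0 (by rw [hC0]; exact nabC_con hS D) a t (fun u => zeta (ω u)) fun u => norm_zeta _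
  have h5 := nabC_avg (fun z => ENNReal.ofReal (F z)) hFm.ennreal_ofReal h2
  rw [h1, integral_eq_lintegral_of_nonneg_ae (Eventually.of_forall fun ω => hF0 _)
    (hFm.comp hzm).aestronglyMeasurable]
  refine ENNReal.toReal_le_of_le_ofReal ?_ h5
  exact mul_nonneg (by norm_num) (Real.rpow_nonneg (mul_nonneg (pset_nonneg _ _ _)
    (Finset.sum_nonneg fun u _ => pset_nonneg _ _ _)) _)

end Vale.Agent.P365
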