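import Vale.Agent.P365.Defs

namespace Vale.Agent.P365

open MeasureTheory ProbabilityTheory Complex Filter
open scoped ComplexConjugate ENNReal

variable {ι : Type} [Fintype ι] [DecidableEq ι]

omit [DecidableEq ι] in
theorem nabp_cs (X : Matrix ι ι ℂ) (hX : ∀ k : ι → ℂ, 0 ≤ (∑ i, ∑ j, conj (k i) * X i j * k j).re)
    (u t : ι → ℂ) :
    ‖((∑ i, ∑ j, conj (u i) * X i j * t j) + conj (∑ i, ∑ j, conj (t i) * X i j * u j)) / 2‖ ^ 2 ≤
      (∑ i, ∑ j, conj (u i) * X i j * u j).re * (∑ i, ∑ j, conj (t i) * X i j * t j).re := by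
  have h1 : ∀ s e : ℂ, ∑ i, ∑ j, conj (s * u i + e * t i) * X i j * (s * u j + e * t j) =
      conj s * s * (∑ i, ∑ j, conj (u i) * X i j * u j) +
        conj s * e * (∑ i, ∑ j, conj (u i) * X i j * t j) +
        conj e * s * (∑ i, ∑ j, conj (t i) * X i j * u j) +
        conj e * e * ∑ i, ∑ j, conj (t i) * X i j * t j := fun s e => by
    simp only [Finset.mul_sum, ← Finset.sum_add_distrib, map_add, map_mul]
    exact Finset.sum_congr rfl fun i _ => Finset.sum_congr rfl fun j _ => by ring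
  have hb := hX t
  have ha := hX u
  have h2 := fun s e : ℂ => (hX fun i => s * u i + e * t i).trans_eq (congrArg re (h1 s e))
  generalize (∑ i, ∑ j, conj (u i) * X i j * u j) = a at *
  generalize (∑ i, ∑ j, conj (t i) * X i j * t j) = b at *
  generalize (∑ i, ∑ j, conj (u i) * X i j * t j) = z at *
  generalize (∑ i, ∑ j, conj (t i) * X i j * u j) = z' at *
  obtain ⟨n, hn⟩ : ∃ n, n = ‖(z + conj z') / 2‖ ^ 2 := ⟨_, rfl⟩
  have h3 : ∀ s : ℝ, 0 ≤ a.re * (s * s) + 2 * n * s + n * b.re := fun s => by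
    refine (h2 s (conj ((z + conj z') / 2))).trans_eq ?_
    rw [hn, Complex.sq_norm, normSq_apply]
    simp only [add_re, add_im, mul_re, mul_im, conj_re, conj_im, ofReal_re, ofReal_im,
      div_ofNat_re, div_ofNat_im]
    ring
  have h4 := discrim_le_zero h3
  rw [discrim] at h4
  rw [← hn]
  rcases (hn ▸ sq_nonneg _ : 0 ≤ n).eq_or_lt with h0 | h0
  · exact h0 ▸ mul_nonneg ha hb
  · exact le_of_mul_le_mul_left (by linarith) h0

omit [DecidableEq ι] in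
theorem nabp_core (α β z z' : ι → ℂ) {P : ℂ} (e1 : ∀ y, z y = α y + I * β y)
    (e2 : ∀ y, z' y = conj (α y) + I * conj (β y)) (hp : 1 ≤ P.re)
    (hA : ∑ y, ‖α y‖ ^ 2 ≤ (P.re - 1) ^ 2) :
    P ^ 2 - ∑ y, z y * z' y ∈ slitPlane ∧ (∑ y, ‖z y‖ ^ 2) ^ (1 / 4 : ℝ) ≤
      √2 * ‖P‖ ^ (1 / 2 : ℝ) + ‖P ^ 2 - ∑ y, z y * z' y‖ ^ (1 / 4 : ℝ) := by
  obtain ⟨D, hD⟩ : ∃ D, D = P ^ 2 - ∑ y, z y * z' y := ⟨_, rfl⟩
  have h1 : D.re = P.re ^ 2 - P.im ^ 2 - (∑ y, ‖α y‖ ^ 2 - ∑ y, ‖β y‖ ^ 2) := by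
    rw [hD, sub_re, re_sum, ← Finset.sum_sub_distrib, sq, mul_re, sq, sq]
    refine congrArg _ (Finset.sum_congr rfl fun y _ => ?_)
    rw [e1, e2, Complex.sq_norm, Complex.sq_norm, normSq_apply, normSq_apply]
    simp
    ring
  have h2 : D.im = 2 * (P.re * P.im - ∑ y, (α y * conj (β y)).re) := by
    rw [hD, sub_im, im_sum, sq, mul_im, mul_sub, Finset.mul_sum]
    refine congrArg₂ _ (by ring) (Finset.sum_congr rfl fun y _ => ?_)
    rw [e1, e2]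
    simp
    ring
  have h3 := Finset.sum_mul_sq_le_sq_mul_sq Finset.univ (fun y => ‖α y‖) fun y => ‖β y‖
  have h4 : |∑ y, (α y * conj (β y)).re| ≤ ∑ y, ‖α y‖ * ‖β y‖ :=
    (Finset.abs_sum_le_sum_abs _ _).trans (Finset.sum_le_sum fun y _ =>
      (abs_re_le_norm _).trans_eq (by rw [norm_mul, RCLike.norm_conj]))
  have h5 : ∑ y, ‖z y‖ ^ 2 ≤ ∑ y, ‖α y‖ ^ 2 + ∑ y, ‖β y‖ ^ 2 + 2 * ∑ y, ‖α y‖ * ‖β y‖ := by
    rw [Finset.mul_sum, ← Finset.sum_add_distrib, ← Finset.sum_add_distrib]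
    refine Finset.sum_le_sum fun y _ => ?_
    have h6 : ‖z y‖ ≤ ‖α y‖ + ‖β y‖ := by
      rw [e1]
      exact (norm_add_le _ _).trans_eq (by rw [norm_mul, norm_I, one_mul])
    exact (pow_le_pow_left₀ (norm_nonneg _) h6 2).trans_eq (by ring)
  have hB : 0 ≤ ∑ y, ‖β y‖ ^ 2 := Finset.sum_nonneg fun _ _ => sq_nonneg _
  have hZ : 0 ≤ ∑ y, ‖z y‖ ^ 2 := Finset.sum_nonneg fun _ _ => sq_nonneg _
  rw [← hD]
  generalize ∑ y, ‖α y‖ ^ 2 = A at *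
  generalize ∑ y, ‖β y‖ ^ 2 = B at *
  generalize ∑ y, ‖z y‖ ^ 2 = Z at *
  generalize ∑ y, ‖α y‖ * ‖β y‖ = W at *
  generalize ∑ y, (α y * conj (β y)).re = R at *
  have hA' : A ≤ P.re ^ 2 := by nlinarith
  have h6 : W ^ 2 ≤ P.re ^ 2 * B := h3.trans (mul_le_mul_of_nonneg_right hA' hB)
  refine ⟨mem_slitPlane_iff.2 (or_iff_not_imp_right.2 fun h => ?_), ?_⟩
  · have h7 : P.re * P.im = R := by
      rw [not_not, h2] at h
      linarith
    have h8 : R ^ 2 ≤ W ^ 2 := sq_abs R ▸ pow_le_pow_left₀ (abs_nonneg R) h4 2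
    have h9 : P.im ^ 2 ≤ B := le_of_mul_le_mul_left (a := P.re ^ 2)
      (by rw [← mul_pow, h7]; exact h8.trans h6) (by positivity)
    nlinarith
  · obtain ⟨m, hm⟩ : ∃ m, m = ‖D‖ ^ (1 / 4 : ℝ) := ⟨_, rfl⟩
    obtain ⟨r, hr⟩ : ∃ r, r = ‖P‖ ^ (1 / 2 : ℝ) := ⟨_, rfl⟩
    have m0 : 0 ≤ m := hm ▸ Real.rpow_nonneg (norm_nonneg _) _
    have r0 : 0 ≤ r := hr ▸ Real.rpow_nonneg (norm_nonneg _) _
    have m4 : m ^ 4 = ‖D‖ := by
      rw [hm, one_div]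
      exact Real.rpow_inv_natCast_pow (n := 4) (norm_nonneg _) (by norm_num)
    have r2 : r ^ 2 = ‖P‖ := by
      rw [hr, one_div]
      exact Real.rpow_inv_natCast_pow (n := 2) (norm_nonneg _) (by norm_num)
    have h7 : B ≤ (m ^ 2 + |P.im|) ^ 2 := by
      have h8 := re_le_norm D
      have h9 := mul_nonneg (sq_nonneg m) (abs_nonneg P.im)
      nlinarith [sq_abs P.im]
    have h8 : W ≤ P.re * (m ^ 2 + |P.im|) := le_of_sq_le_sq (by
      rw [mul_pow]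
      exact h6.trans (mul_le_mul_of_nonneg_left h7 (sq_nonneg _))) (by positivity)
    have h9 : Z ≤ (P.re + (m ^ 2 + |P.im|)) ^ 2 := by linarith [add_sq P.re (m ^ 2 + |P.im|)]
    have h10 : P.re + (m ^ 2 + |P.im|) ≤ (√2 * r + m) ^ 2 := by
      have h11 := re_le_norm P
      have h12 := abs_im_le_norm P
      have h13 : 0 ≤ √2 * r * m := by positivity
      rw [add_sq, mul_pow, Real.sq_sqrt zero_le_two, r2]
      linarith
    rw [← hm, ← hr, one_div]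
    refine (Real.rpow_inv_le_iff_of_pos hZ (by positivity) (by norm_num)).2 ?_
    rw [show (4 : ℝ) = ((2 * 2 : ℕ) : ℝ) by norm_num, Real.rpow_natCast, pow_mul]
    exact h9.trans (pow_le_pow_left₀ (by positivity) h10 2)

theorem nabp_vec (C : Matrix ι ι ℂ) (w : ℂ) (m : ι → ℂ) (j : ι) :
    Matrix.vecMul m (1 - w • C) j = m j - w * ∑ i, m i * C i j := by
  rw [Matrix.vecMul_sub, Matrix.vecMul_one, Matrix.vecMul_smul]
  rfl

/-- Write `X = A + i B` with `A = (X + X*)/2 ≥ 0`, `B = (X - X*)/(2i)`. Put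
`α y = (zz y + conj (zt y))/2 = u* A t_y`, `β y = (zz y - conj (zt y))/(2i)`, so `zz = α + i β`,
`zt = conj α + i conj β`, `Σ zz zt = ‖α‖² - ‖β‖² + 2 i re ⟨α, β⟩`. With `PN = p + i σ`:
`‖α y‖² ≤ re (u* X u) re (t_y* X t_y)` (apply `hX` to `s u + e t_y`), hence `‖α‖ ≤ p - 1`.
`DN = p² - σ² - ‖α‖² + ‖β‖² + 2 i (p σ - re ⟨α, β⟩)`. If `im DN = 0` then `|σ| ≤ ‖β‖` and
`re DN > 0`. Always `‖β‖² ≤ ‖DN‖ + σ²`, so `‖zz‖ ≤ 2 ‖PN‖ + ‖DN‖^(1/2)`. -/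
theorem nabP (X : Matrix ι ι ℂ) (hX : ∀ k : ι → ℂ, 0 ≤ (∑ i, ∑ j, conj (k i) * X i j * k j).re)
    (u : ι → ℂ) (t : ι → ι → ℂ) :
    1 ≤ (PN X u t).re ∧ DN X u t ∈ slitPlane ∧
      (∑ y, ‖zz X u t y‖ ^ 2) ^ (1 / 4 : ℝ) ≤
        √2 * ‖PN X u t‖ ^ (1 / 2 : ℝ) + ‖DN X u t‖ ^ (1 / 4 : ℝ) := by
  have h1 : (PN X u t).re = ((∑ i, ∑ j, conj (u i) * X i j * u j).re +
      ∑ y, (∑ i, ∑ j, conj (t i y) * X i j * t j y).re) / 2 + 1 := by
    rw [PN, add_re, one_re, div_ofNat_re, add_re, re_sum _ fun y =>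
      ∑ i, ∑ j, conj (t i y) * X i j * t j y]
  have h2 := hX u
  have h3 : 0 ≤ ∑ y, (∑ i, ∑ j, conj (t i y) * X i j * t j y).re :=
    Finset.sum_nonneg fun y _ => hX fun i => t i y
  have h4 : 1 ≤ (PN X u t).re := by linarith
  have h5 : ∑ y, ‖(zz X u t y + conj (zt X u t y)) / 2‖ ^ 2 ≤ ((PN X u t).re - 1) ^ 2 := by
    refine (Finset.sum_le_sum fun y _ => nabp_cs X hX u fun i => t i y).trans ?_
    rw [← Finset.mul_sum, h1]
    nlinarith [sq_nonneg ((∑ i, ∑ j, conj (u i) * X i j * u j).re -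
      ∑ y, (∑ i, ∑ j, conj (t i y) * X i j * t j y).re)]
  have e1 : ∀ y, zz X u t y = (zz X u t y + conj (zt X u t y)) / 2 +
      I * (-I * (zz X u t y - conj (zt X u t y)) / 2) := fun y => by
    linear_combination (zz X u t y - conj (zt X u t y)) / 2 * I_mul_I
  have e2 : ∀ y, zt X u t y = conj ((zz X u t y + conj (zt X u t y)) / 2) +
      I * conj (-I * (zz X u t y - conj (zt X u t y)) / 2) := fun y => by
    simp only [map_div₀, map_add, map_mul, map_sub, map_neg, conj_conj, conj_I, map_ofNat]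
    linear_combination (zt X u t y - conj (zz X u t y)) / 2 * I_mul_I
  exact ⟨h4, nabp_core _ _ _ _ e1 e2 h4 h5⟩

/-- If `m (1 - w C) = 0` then `‖m‖ ≤ ‖w‖ ‖m‖`. -/
theorem det_one_sub (C : Matrix ι ι ℂ)
    (hC : ∀ k : ι → ℂ, ∑ j, ‖∑ i, k i * C i j‖ ^ 2 ≤ ∑ i, ‖k i‖ ^ 2) {w : ℂ} (hw : ‖w‖ < 1) :
    (1 - w • C).det ≠ 0 := fun h => by
  obtain ⟨m, hm, h1⟩ := Matrix.exists_vecMul_eq_zero_iff.2 h
  have h2 : ∀ j, m j = w * ∑ i, m i * C i j := fun j => by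
    have h3 := congrFun h1 j
    rw [nabp_vec, Pi.zero_apply, sub_eq_zero] at h3
    exact h3
  have h3 : ∑ j, ‖m j‖ ^ 2 = ‖w‖ ^ 2 * ∑ j, ‖∑ i, m i * C i j‖ ^ 2 := by
    rw [Finset.mul_sum]
    exact Finset.sum_congr rfl fun j _ => by rw [← mul_pow, ← norm_mul, ← h2]
  obtain ⟨j, hj⟩ := Function.ne_iff.1 hm
  have h4 : 0 < ∑ j, ‖m j‖ ^ 2 := Finset.sum_pos' (fun _ _ => sq_nonneg _)
    ⟨j, Finset.mem_univ j, pow_pos (norm_pos_iff.2 hj) 2⟩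
  have h5 := mul_le_mul_of_nonneg_left (hC m) (sq_nonneg ‖w‖)
  have h6 : ‖w‖ ^ 2 < 1 := pow_lt_one₀ (norm_nonneg _) hw two_ne_zero
  nlinarith

/-- With the row `m = conj k (1 - w C)⁻¹` the form equals `‖m‖² - ‖w‖² ‖m C‖²`. -/
theorem re_cayley (C : Matrix ι ι ℂ)
    (hC : ∀ k : ι → ℂ, ∑ j, ‖∑ i, k i * C i j‖ ^ 2 ≤ ∑ i, ‖k i‖ ^ 2) {w : ℂ} (hw : ‖w‖ < 1)
    (k : ι → ℂ) :
    0 ≤ (∑ i, ∑ j, conj (k i) * ((2 : ℂ) • (1 - w • C)⁻¹ - 1 : Matrix ι ι ℂ) i j * k j).re := by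
  obtain ⟨m, hm⟩ : ∃ m, m = Matrix.vecMul (fun i => conj (k i)) (1 - w • C)⁻¹ := ⟨_, rfl⟩
  have h1 : ∀ j, conj (k j) = m j - w * ∑ i, m i * C i j := fun j => by
    rw [← nabp_vec, hm, Matrix.vecMul_vecMul,
      Matrix.nonsing_inv_mul _ (det_one_sub C hC hw).isUnit, Matrix.vecMul_one]
  have h2 : ∀ j, ∑ i, conj (k i) * ((2 : ℂ) • (1 - w • C)⁻¹ - 1 : Matrix ι ι ℂ) i j * k j =
      (2 * m j - conj (k j)) * k j := fun j => by
    rw [← Finset.sum_mul]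
    refine congrArg (· * k j) ?_
    simp only [hm, Matrix.vecMul, dotProduct, Matrix.sub_apply, Matrix.smul_apply, smul_eq_mul,
      Matrix.one_apply, mul_sub, Finset.sum_sub_distrib, mul_ite, mul_one, mul_zero,
      Finset.sum_ite_eq', Finset.mem_univ, if_true, Finset.mul_sum, mul_left_comm (2 : ℂ)]
  have h3 : ∀ j, ((2 * m j - conj (k j)) * k j).re =
      ‖m j‖ ^ 2 - ‖w‖ ^ 2 * ‖∑ i, m i * C i j‖ ^ 2 := fun j => by
    obtain ⟨c, hc⟩ : ∃ c, c = w * ∑ i, m i * C i j := ⟨_, rfl⟩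
    have h4 : k j = conj (m j - c) := by rw [hc, ← h1, conj_conj]
    rw [← mul_pow, ← norm_mul, ← hc, h4, Complex.sq_norm, Complex.sq_norm, normSq_apply,
      normSq_apply]
    simp
    ring
  rw [Finset.sum_comm, re_sum]
  simp only [h2, h3]
  rw [Finset.sum_sub_distrib, ← Finset.mul_sum]
  have h5 := mul_le_mul (pow_le_one₀ (n := 2) (norm_nonneg w) hw.le) (hC m)
    (Finset.sum_nonneg fun _ _ => sq_nonneg _) zero_le_one
  linarith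

end Vale.Agent.P365
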