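import Vale.Agent.P365.Cls2

namespace Vale.Agent.P365

open MeasureTheory ProbabilityTheory Complex Filter
open scoped ComplexConjugate ENNReal

variable {ι : Type} [Fintype ι] [DecidableEq ι]

variable {U : Finset ι} {S : Mx ι} {v : ι}

theorem StepM_exp (S : Mx ι) (v : ι) (a b : ι → ℂ) (c u : ℂ) :
    ∑ x, ∑ y, (a x + c * b x) * (conj (S x y) + u * (conj (S x v) * conj (S y v))) *
      (a y + c * b y) =
    (∑ x, ∑ y, a x * conj (S x y) * a y) +
      c * ((∑ x, ∑ y, a x * conj (S x y) * b y) + ∑ x, ∑ y, b x * conj (S x y) * a y) +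
      c ^ 2 * (∑ x, ∑ y, b x * conj (S x y) * b y) +
      u * ((∑ x, a x * conj (S x v)) + c * ∑ x, b x * conj (S x v)) ^ 2 := by
  have h : (∑ x, a x * conj (S x v)) + c * ∑ x, b x * conj (S x v) =
      ∑ x, (a x + c * b x) * conj (S x v) := by
    rw [Finset.mul_sum, ← Finset.sum_add_distrib]
    exact Finset.sum_congr rfl fun x _ => by ring
  rw [h, sq (∑ x, (a x + c * b x) * conj (S x v)), Finset.sum_mul_sum]
  simp only [mul_add, Finset.mul_sum, ← Finset.sum_add_distrib]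
  exact Finset.sum_congr rfl fun x _ => Finset.sum_congr rfl fun y _ => by ring

theorem StepM_one (v : ι) (f : ι → ℂ) :
    ∑ x, (if x = v then 0 else f x) = (∑ x, f x) - f v := by
  have h : ∀ x, (if x = v then 0 else f x) = f x - if x = v then f x else 0 := fun x => by
    split_ifs <;> simp
  simp only [h, Finset.sum_sub_distrib, Finset.sum_ite_eq', Finset.mem_univ, if_true]

/-- Let `β = S w v`, `δ = ψ w - ψ v`, `r x = S x w (ψ w - ψ x)`, `k x = S x v (ψ w - ψ x)`, sums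
over `x, y ≠ v`. Then `r' x = r x + ξ β k x` and
`M' = -[Σ r conj(S) r + 2 ξ β Σ r conj(S) k + ξ² β² Σ k conj(S) k] - conj ξ (A1 + ξ β A2)²` with
`A1 = Σ_{x≠v} r x conj (S x v) = -Θ - β δ conj ρ` (`Θ = Th S ψ w v`),
`A2 = Σ_{x≠v} P x v (ψ w - ψ x) = s δ - j`, and `Σ r conj(S) r = -M + 2 β δ Θ + β² δ² conj ρ`. -/
theorem MM_cls (hS : US U S) (hv : v ∈ U) (ψ : ι → ℝ) {w : ι} (hw : w ≠ v) :
    ∃ a1 a2 : ℂ, ∀ t, MM (cls S v t) ψ w =
      MM S ψ w - 2 * S w v * ((ψ w - ψ v : ℝ) : ℂ) * Th S ψ w v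
        - S w v ^ 2 * ((ψ w - ψ v : ℝ) : ℂ) ^ 2 * conj (S v v)
        + xi S v t * a1 + xi S v t ^ 2 * a2
        - conj (xi S v t) * (-Th S ψ w v - S w v * ((ψ w - ψ v : ℝ) : ℂ) * conj (S v v)
          + xi S v t * S w v * ((sv S v * (ψ w - ψ v) - jj S ψ v : ℝ) : ℂ)) ^ 2 := by
  obtain ⟨a, ha⟩ : ∃ a : ι → ℂ,
    a = fun x => if x = v then 0 else S x w * ((ψ w - ψ x : ℝ) : ℂ) := ⟨_, rfl⟩
  obtain ⟨b, hb⟩ : ∃ b : ι → ℂ,
    b = fun x => if x = v then 0 else S x v * ((ψ w - ψ x : ℝ) : ℂ) := ⟨_, rfl⟩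
  have hT : ∑ x, S x w * ((ψ w - ψ x : ℝ) : ℂ) * conj (S x v) = -Th S ψ w v := by
    rw [Th, ← Finset.sum_neg_distrib]
    refine Finset.sum_congr rfl fun x _ => ?_
    rw [hS.symm x w, hS.symm x v]
    push_cast
    ring
  have h1 : ∑ x, a x * conj (S x v) =
      -Th S ψ w v - S w v * ((ψ w - ψ v : ℝ) : ℂ) * conj (S v v) := by
    simp only [ha, ite_mul, zero_mul]
    rw [StepM_one, hT, hS.symm v w]
  have h2 : ∑ x, b x * conj (S x v) = ((sv S v * (ψ w - ψ v) - jj S ψ v : ℝ) : ℂ) := by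
    have h3 : sv S v = (∑ y, pp S v y) - pp S v v := by
      rw [sv, Finset.sum_erase_eq_sub (Finset.mem_univ v)]
    have h4 : ∀ x, S x v * ((ψ w - ψ x : ℝ) : ℂ) * conj (S x v) =
        ((pp S v x * (ψ w - ψ x) : ℝ) : ℂ) := fun x => by
      rw [mul_right_comm, mul_conj, normSq_eq_norm_sq, hS.symm x v, pp, ← ofReal_mul]
    simp only [hb, ite_mul, zero_mul]
    rw [StepM_one]
    simp only [h4]
    rw [← ofReal_sum, ← ofReal_sub, h3, jj, sub_mul, Finset.sum_mul, sub_right_comm,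
      ← Finset.sum_sub_distrib]
    congr 2
    exact Finset.sum_congr rfl fun x _ => by ring
  have h5 : ∑ x, ∑ y, a x * conj (S x y) * a y = -MM S ψ w +
      2 * S w v * ((ψ w - ψ v : ℝ) : ℂ) * Th S ψ w v +
      S w v ^ 2 * ((ψ w - ψ v : ℝ) : ℂ) ^ 2 * conj (S v v) := by
    have h6 : ∀ x, ∑ y, a x * conj (S x y) * a y = if x = v then 0 else
        (∑ y, S x w * ((ψ w - ψ x : ℝ) : ℂ) * conj (S x y) * (S y w * ((ψ w - ψ y : ℝ) : ℂ))) -
        S x w * ((ψ w - ψ x : ℝ) : ℂ) * conj (S x v) * (S v w * ((ψ w - ψ v : ℝ) : ℂ)) := by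
      intro x
      by_cases hx : x = v
      · simp only [ha, hx, if_true, zero_mul, Finset.sum_const_zero]
      · simp only [ha, hx, if_false, mul_ite, mul_zero]
        rw [StepM_one]
    have h7 : ∑ y, S v w * ((ψ w - ψ v : ℝ) : ℂ) * conj (S v y) * (S y w * ((ψ w - ψ y : ℝ) : ℂ)) =
        S v w * ((ψ w - ψ v : ℝ) : ℂ) * -Th S ψ w v := by
      rw [← hT, Finset.mul_sum]
      refine Finset.sum_congr rfl fun y _ => ?_
      rw [hS.symm v y]
      ring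
    simp only [h6]
    rw [StepM_one, Finset.sum_sub_distrib, ← Finset.sum_mul, hT, h7, MM, hS.symm v w]
    ring
  refine ⟨-(S w v * ((∑ x, ∑ y, a x * conj (S x y) * b y) + ∑ x, ∑ y, b x * conj (S x y) * a y)),
    -(S w v ^ 2 * ∑ x, ∑ y, b x * conj (S x y) * b y), fun t => ?_⟩
  have h8 := StepM_exp S v a b (xi S v t * S w v) (conj (xi S v t))
  rw [h1, h2, h5] at h8
  have h9 : MM (cls S v t) ψ w = -∑ x, ∑ y, (a x + xi S v t * S w v * b x) *
      (conj (S x y) + conj (xi S v t) * (conj (S x v) * conj (S y v))) *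
      (a y + xi S v t * S w v * b y) := by
    rw [MM]
    refine congrArg _ (Finset.sum_congr rfl fun x _ => Finset.sum_congr rfl fun y _ => ?_)
    by_cases hx : x = v
    · simp [cls, ha, hb, hx]
    by_cases hy : y = v
    · simp [cls, ha, hb, hy]
    simp only [cls, ha, hb, hx, hy, hw, or_self, if_false, map_add, map_mul, hS.symm v w,
      hS.symm v y]
    ring
  rw [h9, h8]
  ring

theorem MM_integrable (hS : US U S) (hv : v ∈ U) (ψ : ι → ℝ) {w : ι} (hw : w ≠ v) :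
    Integrable (fun t => MM (cls S v t) ψ w) cau ∧
      Integrable (fun t => xi S v t * MM (cls S v t) ψ w) cau := by
  obtain ⟨a1, a2, h⟩ := MM_cls hS hv ψ hw
  simp only [h]
  exact ⟨xi_integrable hS v (fun z => _ + z * a1 + z ^ 2 * a2 - conj z * (_ + z * _ * _) ^ 2)
      (by fun_prop),
    xi_integrable hS v (fun z => z * (_ + z * a1 + z ^ 2 * a2 - conj z * (_ + z * _ * _) ^ 2))
      (by fun_prop)⟩

/-- The mean of a polynomial in `ξ` and its conjugate. -/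
theorem StepM_poly (hS : US U S) (hv : v ∈ U) (c0 c1 c2 c3 d0 d1 d2 d3 : ℂ) :
    ∫ t, (c0 + c1 * xi S v t ^ (0 + 1) + c2 * xi S v t ^ (1 + 1) + c3 * xi S v t ^ (2 + 1) +
      d0 * conj (xi S v t ^ (0 + 1)) + d1 * (xi S v t ^ (0 + 1) * conj (xi S v t)) +
      d2 * (xi S v t ^ (1 + 1) * conj (xi S v t)) +
      d3 * (xi S v t ^ (2 + 1) * conj (xi S v t))) ∂cau =
    c0 + d1 / (sv S v : ℝ) + d2 * conj (S v v) / ((sv S v : ℝ) : ℂ) ^ 2 +
      d3 * conj (S v v) ^ 2 / ((sv S v : ℝ) : ℂ) ^ 3 := by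
  have p : ∀ (c : ℂ) (k : ℕ), Integrable (fun t => c * xi S v t ^ k) cau := fun c k =>
    xi_integrable hS v (fun z => c * z ^ k) (by fun_prop)
  have q : ∀ (c : ℂ) (k : ℕ), Integrable (fun t => c * (xi S v t ^ k * conj (xi S v t))) cau :=
    fun c k => xi_integrable hS v (fun z => c * (z ^ k * conj z)) (by fun_prop)
  have r : Integrable (fun t => d0 * conj (xi S v t ^ (0 + 1))) cau :=
    xi_integrable hS v (fun z => d0 * conj (z ^ (0 + 1))) (by fun_prop)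
  have i1 := (integrable_const c0).add (p c1 (0 + 1))
  have i2 := i1.add (p c2 (1 + 1))
  have i3 := i2.add (p c3 (2 + 1))
  have i4 := i3.add r
  have i5 := i4.add (q d1 (0 + 1))
  have i6 := i5.add (q d2 (1 + 1))
  erw [integral_add i6 (q d3 _), integral_add i5 (q d2 _), integral_add i4 (q d1 _),
    integral_add i3 r, integral_add i2 (p c3 _), integral_add i1 (p c2 _),
    integral_add (integrable_const c0) (p c1 _)]
  simp only [integral_const_mul, integral_conj, xi_pow hS, xi_mixed hS hv, integral_const,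
    probReal_univ, one_smul]
  rw [map_zero]
  ring

theorem StepM_beta (hS : US U S) {w : ι} (hw : w ≠ v) (h : sv S v = 0) : S w v = 0 := by
  have h1 := pp_le_sv S hw
  rw [h, pp, hS.symm v w] at h1
  exact norm_eq_zero.1 (pow_eq_zero_iff two_ne_zero |>.1 (le_antisymm h1 (sq_nonneg _)))

/-- `MM_cls`, `xi_pow`, `xi_mixed` (and the conjugate of `xi_pow`). If `s = 0` then `β = 0`. -/
theorem MM_int (hS : US U S) (hv : v ∈ U) (ψ : ι → ℝ) {w : ι} (hw : w ≠ v) :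
    ∫ t, MM (cls S v t) ψ w ∂cau = MM S ψ w -
      (2 * Th S ψ w v * S w v * ((jj S ψ v / sv S v : ℝ) : ℂ) +
        conj (S v v) * S w v ^ 2 * ((jj S ψ v / sv S v : ℝ) : ℂ) ^ 2) := by
  obtain ⟨a1, a2, h⟩ := MM_cls hS hv ψ hw
  obtain ⟨A, hA⟩ : ∃ A, A = -Th S ψ w v - S w v * ((ψ w - ψ v : ℝ) : ℂ) * conj (S v v) := ⟨_, rfl⟩
  obtain ⟨B, hB⟩ : ∃ B, B = S w v * ((sv S v * (ψ w - ψ v) - jj S ψ v : ℝ) : ℂ) := ⟨_, rfl⟩
  have h1 := StepM_poly hS hv (MM S ψ w - 2 * S w v * ((ψ w - ψ v : ℝ) : ℂ) * Th S ψ w v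
    - S w v ^ 2 * ((ψ w - ψ v : ℝ) : ℂ) ^ 2 * conj (S v v)) a1 a2 0 (-A ^ 2) (-(2 * A * B))
    (-B ^ 2) 0
  refine (integral_congr_ae (Eventually.of_forall fun t => ?_)).trans (h1.trans ?_)
  · simp only [h, ← hA, mul_assoc (xi S v t), ← hB, zero_add, pow_one]
    ring
  · rw [hA, hB]
    by_cases hs : sv S v = 0
    · simp [StepM_beta hS hw hs]
    · have h2 : ((sv S v : ℝ) : ℂ) ≠ 0 := ofReal_ne_zero.2 hs
      push_cast
      field_simp
      ring

theorem MM_xi_int (hS : US U S) (hv : v ∈ U) (ψ : ι → ℝ) {w : ι} (hw : w ≠ v) :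
    ∫ t, xi S v t * MM (cls S v t) ψ w ∂cau =
      -(Th S ψ w v + S w v * conj (S v v) * ((jj S ψ v / sv S v : ℝ) : ℂ)) ^ 2 /
        ((sv S v : ℝ) : ℂ) := by
  obtain ⟨a1, a2, h⟩ := MM_cls hS hv ψ hw
  obtain ⟨A, hA⟩ : ∃ A, A = -Th S ψ w v - S w v * ((ψ w - ψ v : ℝ) : ℂ) * conj (S v v) := ⟨_, rfl⟩
  obtain ⟨B, hB⟩ : ∃ B, B = S w v * ((sv S v * (ψ w - ψ v) - jj S ψ v : ℝ) : ℂ) := ⟨_, rfl⟩
  have h1 := StepM_poly hS hv 0 (MM S ψ w - 2 * S w v * ((ψ w - ψ v : ℝ) : ℂ) * Th S ψ w v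
    - S w v ^ 2 * ((ψ w - ψ v : ℝ) : ℂ) ^ 2 * conj (S v v)) a1 a2 0 (-A ^ 2) (-(2 * A * B))
    (-B ^ 2)
  refine (integral_congr_ae (Eventually.of_forall fun t => ?_)).trans (h1.trans ?_)
  · simp only [h, ← hA, mul_assoc (xi S v t), ← hB, zero_add, pow_one]
    ring
  · rw [hA, hB]
    by_cases hs : sv S v = 0
    · simp [hs]
    · have h2 : ((sv S v : ℝ) : ℂ) ≠ 0 := ofReal_ne_zero.2 hs
      push_cast
      field_simp
      ring

end Vale.Agent.P365
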