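import Vale.Agent.P365.Step1
import Vale.Agent.P365.StepM

namespace Vale.Agent.P365

open MeasureTheory ProbabilityTheory Complex Filter
open scoped ComplexConjugate ENNReal

variable {ι : Type} [Fintype ι] [DecidableEq ι]

variable {U : Finset ι} {S : Mx ι} {v : ι}

theorem qs_pt (z c : ℂ) {σ : ℝ} (h : ‖z‖ ≤ σ) :
    2 * (c * z).re - ‖c‖ ^ 2 * σ ≤ ‖z‖ ^ 2 / σ := by
  have h1 : (c * z).re ≤ ‖c‖ * ‖z‖ := (re_le_norm _).trans (norm_mul_le _ _)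
  rcases ((norm_nonneg z).trans h).eq_or_lt with h0 | h0
  · have h2 : ‖z‖ = 0 := le_antisymm (h0 ▸ h) (norm_nonneg z)
    rw [h2, mul_zero] at h1
    rw [← h0, div_zero, mul_zero]
    linarith
  · rw [le_div_iff₀ h0]
    nlinarith [sq_nonneg (‖z‖ - ‖c‖ * σ), mul_le_mul_of_nonneg_right h1 h0.le]

theorem qs_normSq (c u x : ℂ) :
    ‖c + u * x‖ ^ 2 = ‖c‖ ^ 2 + 2 * (x * (u * conj c)).re + ‖u‖ ^ 2 * ‖x‖ ^ 2 := by
  simp only [Complex.sq_norm, normSq_apply, add_re, add_im, mul_re, mul_im, conj_re, conj_im]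
  ring

theorem qs_re {f : ℝ → ℂ} (hf : Integrable f cau) (c : ℂ) :
    Integrable (fun t => 2 * (c * f t).re) cau ∧
      ∫ t, 2 * (c * f t).re ∂cau = 2 * (c * ∫ t, f t ∂cau).re := by
  refine ⟨(hf.const_mul c).re.const_mul 2, ?_⟩
  rw [integral_const_mul, ← integral_const_mul c]
  exact congrArg _ (integral_re (hf.const_mul c))

theorem qs_mom (hS : US U S) (hv : v ∈ U) (A B σ : ℝ) (p n : ℂ) :
    ∫ t, (A + 2 * (xi S v t * p).re + B * ‖xi S v t‖ ^ 2) * (σ - 2 * (xi S v t * n).re) ∂cau =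
      A * σ - 2 * (p * conj n).re / sv S v + B * σ * (1 / sv S v)
        - B * (2 * (n * conj (S v v)).re / sv S v ^ 2) := by
  have i0 : Integrable (fun _ : ℝ => A * σ) cau := integrable_const _
  have i1 := (xi_integrable hS v (fun x => 2 * (x * n).re) (by fun_prop)).const_mul A
  have i2 := (xi_integrable hS v (fun x => 2 * (x * p).re) (by fun_prop)).const_mul σ
  have i3 := xi_integrable hS v (fun x => 2 * (x * p).re * (2 * (x * n).re)) (by fun_prop)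
  have i4 := (xi_integrable hS v (fun x => ‖x‖ ^ 2) (by fun_prop)).const_mul (B * σ)
  have i5 := (xi_integrable hS v (fun x => ‖x‖ ^ 2 * (2 * (x * n).re)) (by fun_prop)).const_mul B
  have e5 := integral_sub ((((i0.sub i1).add i2).sub i3).add i4) i5
  have e4 := integral_add (((i0.sub i1).add i2).sub i3) i4
  have e3 := integral_sub ((i0.sub i1).add i2) i3
  have e2 := integral_add (i0.sub i1) i2
  have e1 := integral_sub i0 i1
  simp only [Pi.add_apply, Pi.sub_apply] at e5 e4 e3 e2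
  rw [e4, e3, e2, e1, integral_const_mul, integral_const_mul A, integral_const_mul σ,
    integral_const_mul (B * σ), integral_const_mul B, xi_re hS, xi_re hS, xi_re_re hS hv,
    xi_sq hS hv, xi_sq_re hS hv, integral_const, probReal_univ, one_smul] at e5
  refine Eq.trans (integral_congr_ae (Eventually.of_forall fun t => ?_)) (e5.trans (by ring))
  ring

theorem qs_low (hS : US U S) (hv : v ∈ U) {ψ : ι → ℝ} (hψ : Osc ψ) {w : ι} (hw : w ≠ v)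
    (c u : ℂ) :
    2 * (c * ∫ t, MM (cls S v t) ψ w ∂cau).re
      + 2 * (u * ∫ t, xi S v t * MM (cls S v t) ψ w ∂cau).re
      - (‖c‖ ^ 2 * (sv S w - pp S w v ^ 2 / sv S v)
        - 2 * (u * conj c * conj (nS S v w)).re / sv S v
        + ‖u‖ ^ 2 * (sv S w - pp S w v ^ 2 / sv S v) * (1 / sv S v)
        - ‖u‖ ^ 2 * (2 * (nS S v w * conj (S v v)).re / sv S v ^ 2)) ≤
      Av S v (fun S' => ‖MM S' ψ w‖ ^ 2 / sv S' w) := by
  obtain ⟨h1, h2⟩ := MM_integrable hS hv ψ hw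
  obtain ⟨i1, e1⟩ := qs_re h1 c
  obtain ⟨i2, e2⟩ := qs_re h2 u
  have i3 := xi_integrable hS v (fun x => (‖c‖ ^ 2 + 2 * (x * (u * conj c)).re
    + ‖u‖ ^ 2 * ‖x‖ ^ 2) * (sv S w - pp S w v ^ 2 / sv S v - 2 * (x * nS S v w).re)) (by fun_prop)
  rw [← e1, ← e2, ← qs_mom hS hv, ← integral_add i1 i2]
  refine (integral_sub (i1.add i2) i3).ge.trans (integral_mono ((i1.add i2).sub i3)
    ((nice_qterm hψ w).integrable_cls hS hv) fun t => ?_)
  have h3 := qs_pt (MM (cls S v t) ψ w) (c + u * xi S v t)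
    ((norm_MM_le (cls_US hS hv t) ψ w).trans (ee_le_sv _ hψ w))
  refine le_trans (le_of_eq ?_) h3
  rw [qs_normSq, sv_cls hS hv hw, add_mul c, add_re, mul_assoc u, mul_add]
  rfl

theorem qs_u {s d : ℝ} (hs : 0 ≤ s) (hd : 0 ≤ d) (h : s = 0 → d = 0) (b : ℂ) :
    ∃ u : ℂ, ‖u‖ = ‖b‖ ^ 2 / (2 * d) * s ∧
      (u * (-b ^ 2 / (s : ℂ))).re = ‖b‖ ^ 4 / (2 * d) := by
  refine ⟨-conj b ^ 2 * ((s / (2 * d) : ℝ) : ℂ), ?_, ?_⟩
  · rw [norm_mul, norm_neg, norm_pow, norm_conj, norm_real,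
      Real.norm_of_nonneg (by positivity)]
    ring
  · rcases eq_or_ne s 0 with h0 | h0
    · simp [h h0]
    have h1 : (s : ℂ) ≠ 0 := ofReal_ne_zero.2 h0
    have h2 : -conj b ^ 2 * ((s / (2 * d) : ℝ) : ℂ) * (-b ^ 2 / (s : ℂ)) =
        ((‖b‖ ^ 4 / (2 * d) : ℝ) : ℂ) := by
      have h3 : ((‖b‖ : ℝ) : ℂ) ^ 4 = (b * conj b) ^ 2 := by
        rw [mul_conj, normSq_eq_norm_sq]
        push_cast
        ring
      push_cast
      rw [h3]
      field_simp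
    rw [h2, ofReal_re]

theorem qs_div {s x y : ℝ} (hs : 0 ≤ s) (hy : 0 ≤ y) (h : x ≤ y * s) : x / s ≤ y :=
  div_le_of_le_mul₀ hs hy h

/-- Let `s = sv S v`, `P = pp S w v`, `t0 = M_w / s_w` (`‖t0‖ ≤ 1`), `d = s_w s + 4 P`,
`b = Θ + S w v conj ρ j/s`, `τ = ‖b‖²/(2d)`, `conj t1 = - s conj (b²) / (2 d)` (so `‖t1‖ = τ s` and
`2 re (conj t1 * (-b²/s)) = 2 τ ‖b‖²`). Pointwise `‖z‖²/σ ≥ 2 re (conj T z) - ‖T‖² σ` for
`z = M'_w`, `σ = s'_w` (if `σ = 0` then `z = 0`), `T = t0 + t1 conj ξ`. Use `MM_int`, `MM_xi_int`,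
`sv_cls`, `norm_nS_le`: `E ‖T‖² σ ≤ ‖t0‖² s_w + 4 ‖t0‖ τ P + τ² d` (`xi_re_re`, `xi_sq`, `xi_sq_re`),
`4 ‖t0‖ τ P ≤ τ² d + ‖t0‖² P`, `2 ‖t0‖ ‖a‖ ≤ ‖t0‖² P + 4 ‖Θ‖² (j/s)² + 2 P (j/s)²`.
Degenerate cases: `s = 0` (then `S w v = 0`, nothing changes, `b = 0`) and `d = 0`. -/
theorem step_q1 (hS : US U S) (hv : v ∈ U) {ψ : ι → ℝ} (hψ : Osc ψ) {w : ι} (hw : w ≠ v) :
    ‖MM S ψ w‖ ^ 2 / sv S w
      + ‖Th S ψ w v + S w v * conj (S v v) * ((jj S ψ v / sv S v : ℝ) : ℂ)‖ ^ 4 /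
          (2 * (sv S w * sv S v + 4 * pp S w v))
      - 2 * (‖MM S ψ w‖ / sv S w) ^ 2 * pp S w v
      - (4 * ‖Th S ψ w v‖ ^ 2 + 2 * pp S w v) * (jj S ψ v / sv S v) ^ 2 ≤
      Av S v (fun S' => ‖MM S' ψ w‖ ^ 2 / sv S' w) := by
  have hs := sv_nonneg S v
  have hsw := sv_nonneg S w
  have hP := pp_nonneg S w v
  have hPs : pp S w v ≤ sv S v := (pp_symm hS w v).trans_le (pp_le_sv S hw)
  have hn := norm_nS_le hS hw
  have hρ := norm_le_one hS v v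
  have hM : ‖MM S ψ w‖ ≤ sv S w := (norm_MM_le hS ψ w).trans (ee_le_sv _ hψ w)
  have hβ : pp S w v = ‖S w v‖ ^ 2 := rfl
  obtain ⟨u, hu1, hu2⟩ := qs_u (d := sv S w * sv S v + 4 * pp S w v) hs (by positivity)
    (fun h => by rw [h] at hPs ⊢; linarith)
    (Th S ψ w v + S w v * conj (S v v) * ((jj S ψ v / sv S v : ℝ) : ℂ))
  have h0 := qs_low hS hv hψ hw (conj (MM S ψ w) * (((sv S w)⁻¹ : ℝ) : ℂ)) u
  rw [MM_int hS hv ψ hw, MM_xi_int hS hv ψ hw, hu2] at h0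
  refine le_trans ?_ h0
  clear h0 hu2
  generalize jj S ψ v / sv S v = r at *
  generalize MM S ψ w = M, Th S ψ w v = Θ, nS S v w = n, S v v = ρ,
    pp S w v = P, S w v = β, sv S w = sw, sv S v = s at *
  generalize ‖Θ + β * conj ρ * (r : ℂ)‖ = bb at *
  obtain ⟨c, hc⟩ : ∃ c : ℂ, c = conj M * ((sw⁻¹ : ℝ) : ℂ) := ⟨_, rfl⟩
  obtain ⟨x, hx⟩ : ∃ x : ℝ, x = ‖M‖ / sw := ⟨_, rfl⟩
  obtain ⟨τ, hτ⟩ : ∃ τ : ℝ, τ = bb ^ 2 / (2 * (sw * s + 4 * P)) := ⟨_, rfl⟩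
  rw [← hτ] at hu1
  rw [← hc, ← hx]
  have hτ0 : 0 ≤ τ := by rw [hτ]; positivity
  have hx0 : 0 ≤ x := by rw [hx]; positivity
  have hx1 : x ≤ 1 := by rw [hx]; exact div_le_one_of_le₀ hM hsw
  have hcx : ‖c‖ = x := by
    rw [hc, hx, norm_mul, norm_conj, norm_real, Real.norm_of_nonneg (inv_nonneg.2 hsw),
      div_eq_mul_inv]
  have h1 : (c * M).re = ‖M‖ ^ 2 / sw := by
    rw [hc, mul_right_comm, mul_comm (conj M), mul_conj, normSq_eq_norm_sq, ← ofReal_mul,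
      ofReal_re, div_eq_mul_inv]
  have h2 : x ^ 2 * sw = ‖M‖ ^ 2 / sw := by
    rw [hx]
    rcases eq_or_ne sw 0 with h | h
    · simp [h]
    · field_simp
  have h3 : 2 * τ ^ 2 * (sw * s + 4 * P) = bb ^ 4 / (2 * (sw * s + 4 * P)) := by
    rw [hτ]
    rcases eq_or_ne (sw * s + 4 * P) 0 with h | h
    · simp [h]
    · field_simp
  have h4 : (c * (2 * Θ * β * (r : ℂ) + conj ρ * β ^ 2 * (r : ℂ) ^ 2)).re ≤
      x * (2 * ‖Θ‖ * ‖β‖ * |r| + P * r ^ 2) := by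
    refine (re_le_norm _).trans ?_
    rw [norm_mul, hcx]
    refine mul_le_mul_of_nonneg_left ((norm_add_le _ _).trans (add_le_add (le_of_eq ?_) ?_)) hx0
    · simp
    · rw [norm_mul, norm_mul, norm_conj, norm_pow, norm_pow, norm_real, Real.norm_eq_abs, sq_abs,
        ← hβ, mul_assoc]
      exact mul_le_of_le_one_left (by positivity) hρ
  have h5 : -(2 * (u * conj c * conj n).re / s) ≤ 4 * x * τ * P := by
    rw [← neg_div]
    refine qs_div hs (by positivity) ?_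
    have h := (neg_le_abs _).trans (abs_re_le_norm (u * conj c * conj n))
    rw [norm_mul, norm_mul, norm_conj, norm_conj, hcx, hu1] at h
    have h' := mul_le_mul_of_nonneg_left hn (show 0 ≤ τ * s * x by positivity)
    linarith
  have h6 : ‖u‖ ^ 2 * (sw - P ^ 2 / s) * (1 / s) ≤ τ ^ 2 * (sw * s) := by
    rw [mul_one_div, hu1]
    refine qs_div hs (by positivity) ?_
    have h := mul_le_mul_of_nonneg_left
      (sub_le_self sw (show 0 ≤ P ^ 2 / s by positivity)) (sq_nonneg (τ * s))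
    linarith
  have h7 : -(‖u‖ ^ 2 * (2 * (n * conj ρ).re / s ^ 2)) ≤ 4 * τ ^ 2 * P := by
    rw [← mul_div_assoc, ← neg_div, hu1]
    refine qs_div (sq_nonneg s) (by positivity) ?_
    have h := (neg_le_abs _).trans (abs_re_le_norm (n * conj ρ))
    rw [norm_mul, norm_conj] at h
    have h' := mul_le_mul_of_nonneg_left
      (h.trans ((mul_le_of_le_one_right (norm_nonneg n) hρ).trans hn)) (sq_nonneg (τ * s))
    linarith
  have h8 : x ^ 2 * (sw - P ^ 2 / s) ≤ x ^ 2 * sw := mul_le_mul_of_nonneg_left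
    (sub_le_self sw (show 0 ≤ P ^ 2 / s by positivity)) (sq_nonneg x)
  have h9 : x * (P * r ^ 2) ≤ P * r ^ 2 := mul_le_of_le_one_left (by positivity) hx1
  have h10 := sq_nonneg (x * ‖β‖ - 2 * ‖Θ‖ * |r|)
  have h11 := mul_nonneg hP (sq_nonneg (2 * τ - x))
  have h12 : 0 ≤ τ ^ 2 * (sw * s) := by positivity
  rw [sub_sq, mul_pow, mul_pow, sq_abs, ← hβ] at h10
  rw [mul_sub c, sub_re, h1, hcx]
  linarith

end Vale.Agent.P365
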