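import Vale.Agent.P365.Qs

namespace Vale.Agent.P365

open MeasureTheory ProbabilityTheory Complex Filter
open scoped ComplexConjugate ENNReal

variable {ι : Type} [Fintype ι] [DecidableEq ι]

variable {U : Finset ι} {S : Mx ι}

theorem qs2_amgm {x d : ℝ} (τ : ℝ) (hd : 0 ≤ d) (h : d = 0 → x = 0) :
    τ * x ^ 2 - τ ^ 2 * d / 2 ≤ x ^ 4 / (2 * d) := by
  rcases hd.eq_or_lt with h0 | h0
  · rw [h h0.symm, ← h0]
    simp
  · rw [le_div_iff₀ (by positivity)]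
    nlinarith [sq_nonneg (x ^ 2 - τ * d)]

theorem qs2_th (hS : US U S) {ψ : ι → ℝ} (hψ : Osc ψ) (v : ι) (A : Finset ι) :
    ∑ w ∈ A, ‖Th S ψ w v‖ ^ 2 ≤ sv S v := by
  refine le_trans ?_ (ee_le_sv S hψ v)
  rw [← Th_row hS]
  refine le_trans (le_of_eq (Finset.sum_congr rfl fun w _ => ?_))
    (Finset.sum_le_sum_of_subset_of_nonneg (Finset.subset_univ A) fun _ _ _ => sq_nonneg _)
  rw [Th_herm hS, RCLike.norm_conj]

theorem qs2_pp (hS : US U S) (v : ι) (Γ : Finset ι) : ∑ w ∈ Γ.erase v, pp S w v ≤ sv S v := by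
  simp only [fun w => pp_symm hS w v]
  exact pset_le_sv S (Finset.notMem_erase v Γ)

theorem qs2_zero (hS : US U S) {ψ : ι → ℝ} (hψ : Osc ψ) (v w : ι) (c : ℂ)
    (h : sv S w * sv S v + 4 * pp S w v = 0) : ‖Th S ψ w v + S w v * conj (S v v) * c‖ = 0 := by
  have h1 := mul_nonneg (sv_nonneg S w) (sv_nonneg S v)
  have h2 := pp_nonneg S w v
  have h3 : S w v = 0 := norm_eq_zero.1 (pow_eq_zero_iff two_ne_zero |>.1 (by
    have : pp S w v = 0 := by linarith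
    exact this))
  have h4 : ‖Th S ψ w v‖ ^ 2 ≤ sv S v := by simpa using qs2_th hS hψ v {w}
  have h5 : ‖Th S ψ w v‖ ^ 2 ≤ sv S w := by
    rw [Th_herm hS, RCLike.norm_conj]
    simpa using qs2_th hS hψ w {v}
  have h6 : ‖Th S ψ w v‖ ^ 2 = 0 := by
    refine le_antisymm ?_ (sq_nonneg _)
    rcases mul_eq_zero.1 (show sv S w * sv S v = 0 by linarith) with h7 | h7
    · exact h7 ▸ h5
    · exact h7 ▸ h4
  rw [h3, zero_mul, zero_mul, add_zero]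
  exact pow_eq_zero_iff two_ne_zero |>.1 h6

theorem qs2_sq (x s : ℝ) : (x / s) ^ 2 * s = x ^ 2 / s := by
  rcases eq_or_ne s 0 with rfl | h
  · simp
  · field_simp

theorem qs2_low (hS : US U S) (ψ : ι → ℝ) {Γ : Finset ι} {v : ι} (hv : v ∈ Γ) :
    (∑ w ∈ Γ, ‖Th S ψ w v‖ ^ 2) / 2 - 3 / 2 * (jj S ψ v ^ 2 / sv S v) ≤ ∑ w ∈ Γ.erase v,
      ‖Th S ψ w v + S w v * conj (S v v) * ((jj S ψ v / sv S v : ℝ) : ℂ)‖ ^ 2 := by
  have h1 : ∀ w, ‖Th S ψ w v‖ ^ 2 / 2 - (jj S ψ v / sv S v) ^ 2 * pp S w v ≤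
      ‖Th S ψ w v + S w v * conj (S v v) * ((jj S ψ v / sv S v : ℝ) : ℂ)‖ ^ 2 := fun w => by
    obtain ⟨c, hc⟩ : ∃ c, c = S w v * conj (S v v) * ((jj S ψ v / sv S v : ℝ) : ℂ) := ⟨_, rfl⟩
    have h2 : ‖c‖ ^ 2 ≤ (jj S ψ v / sv S v) ^ 2 * pp S w v := by
      rw [hc, norm_mul, norm_mul, RCLike.norm_conj, Complex.norm_real, Real.norm_eq_abs, mul_pow,
        mul_pow, sq_abs, mul_comm]
      exact mul_le_mul_of_nonneg_left (mul_le_of_le_one_right (sq_nonneg _)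
        (pow_le_one₀ (norm_nonneg _) (norm_le_one hS v v))) (sq_nonneg _)
    have h3 : ‖Th S ψ w v‖ ≤ ‖Th S ψ w v + c‖ + ‖c‖ := norm_le_add_norm_add _ _
    rw [← hc]
    nlinarith [sq_nonneg (‖Th S ψ w v + c‖ - ‖c‖), norm_nonneg (Th S ψ w v),
      pow_le_pow_left₀ (norm_nonneg _) h3 2]
  have h2 := Finset.sum_le_sum fun w (_ : w ∈ Γ.erase v) => h1 w
  rw [Finset.sum_sub_distrib, ← Finset.sum_div, ← Finset.mul_sum] at h2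
  have h3 := Finset.add_sum_erase Γ (fun w => ‖Th S ψ w v‖ ^ 2) hv
  rw [Th_diag, Complex.norm_real, Real.norm_eq_abs, sq_abs] at h3
  have h4 := mul_le_mul_of_nonneg_left (qs2_pp hS v Γ) (sq_nonneg (jj S ψ v / sv S v))
  rw [qs2_sq] at h4
  have h5 : jj S ψ v ^ 2 ≤ jj S ψ v ^ 2 / sv S v := by
    rcases (sv_nonneg S v).eq_or_lt with h0 | h0
    · have h6 := jj_sq_le S ψ v
      rw [← h0, zero_mul] at h6
      rw [← h0, div_zero]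
      exact h6
    · exact le_div_self (sq_nonneg _) h0 (sv_le_one hS v)
  linarith

theorem qs2_one (hS : US U S) {Γ : Finset ι} {ψ : ι → ℝ} (hψ : Osc ψ) {v : ι} (hv : v ∈ U)
    (hΓ : v ∈ Γ) (τ : ℝ) :
    τ * ∑ w ∈ Γ.erase v,
        ‖Th S ψ w v + S w v * conj (S v v) * ((jj S ψ v / sv S v : ℝ) : ℂ)‖ ^ 2
      - τ ^ 2 / 2 * ((NN S Γ + 4) * sv S v) - ‖MM S ψ v‖ ^ 2 / sv S v
      - ∑ w ∈ Γ.erase v, 2 * (‖MM S ψ w‖ / sv S w) ^ 2 * pp S w v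
      - 6 * (jj S ψ v ^ 2 / sv S v) ≤ Av S v (fun S' => qq S' Γ ψ) - qq S Γ ψ := by
  have h1 : Av S v (fun S' => qq S' Γ ψ) =
      ∑ w ∈ Γ, Av S v fun S' => ‖MM S' ψ w‖ ^ 2 / sv S' w :=
    Av_sum hS hv Γ fun w _ => nice_qterm hψ w
  have h2 := Finset.add_sum_erase Γ (fun w => Av S v fun S' => ‖MM S' ψ w‖ ^ 2 / sv S' w) hΓ
  have h3 : 0 ≤ Av S v fun S' => ‖MM S' ψ v‖ ^ 2 / sv S' v :=
    integral_nonneg fun t => div_nonneg (sq_nonneg _) (sv_nonneg _ _)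
  have h4 := Finset.add_sum_erase Γ (fun w => ‖MM S ψ w‖ ^ 2 / sv S w) hΓ
  have h5 : ∀ w ∈ Γ.erase v, ‖MM S ψ w‖ ^ 2 / sv S w +
      τ * ‖Th S ψ w v + S w v * conj (S v v) * ((jj S ψ v / sv S v : ℝ) : ℂ)‖ ^ 2 -
      τ ^ 2 / 2 * sv S v * sv S w - 2 * τ ^ 2 * pp S w v -
      2 * (‖MM S ψ w‖ / sv S w) ^ 2 * pp S w v -
      4 * (jj S ψ v / sv S v) ^ 2 * ‖Th S ψ w v‖ ^ 2 - 2 * (jj S ψ v / sv S v) ^ 2 * pp S w v ≤
      Av S v fun S' => ‖MM S' ψ w‖ ^ 2 / sv S' w := fun w hw => by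
    have h6 := step_q1 hS hv hψ (Finset.ne_of_mem_erase hw)
    have h7 := qs2_amgm τ (add_nonneg (mul_nonneg (sv_nonneg S w) (sv_nonneg S v))
      (mul_nonneg zero_le_four (pp_nonneg S w v)))
      (qs2_zero hS hψ v w ((jj S ψ v / sv S v : ℝ) : ℂ))
    linarith
  have h6 := Finset.sum_le_sum h5
  simp only [Finset.sum_sub_distrib, Finset.sum_add_distrib] at h6
  rw [← Finset.mul_sum _ _ τ, ← Finset.mul_sum _ _ (τ ^ 2 / 2 * sv S v),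
    ← Finset.mul_sum _ _ (2 * τ ^ 2), ← Finset.mul_sum _ _ (4 * (jj S ψ v / sv S v) ^ 2),
    ← Finset.mul_sum _ _ (2 * (jj S ψ v / sv S v) ^ 2)] at h6
  have h7 : ∑ w ∈ Γ.erase v, sv S w ≤ NN S Γ :=
    Finset.sum_le_sum_of_subset_of_nonneg (Finset.erase_subset v Γ) fun w _ _ => sv_nonneg S w
  have h8 := mul_le_mul_of_nonneg_left h7
    (mul_nonneg (div_nonneg (sq_nonneg τ) zero_le_two) (sv_nonneg S v))
  have h9 := mul_le_mul_of_nonneg_left (qs2_pp hS v Γ) (sq_nonneg τ)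
  have h10 := mul_le_mul_of_nonneg_left (qs2_pp hS v Γ) (sq_nonneg (jj S ψ v / sv S v))
  have h11 := mul_le_mul_of_nonneg_left (qs2_th hS hψ v (Γ.erase v))
    (sq_nonneg (jj S ψ v / sv S v))
  rw [qs2_sq] at h10 h11
  rw [h1, qq]
  linarith

theorem qs2_swap (S : Mx ι) {Γ A : Finset ι} (c : ι → ℝ) (hc : ∀ w, 0 ≤ c w) :
    ∑ v ∈ A, ∑ w ∈ Γ.erase v, c w * pp S w v ≤ ∑ w ∈ Γ, c w * sv S w := by
  rw [Finset.sum_comm' (s' := fun w => A.erase w) (t' := Γ) (by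
    simp only [Finset.mem_erase]
    tauto)]
  refine Finset.sum_le_sum fun w _ => ?_
  rw [← Finset.mul_sum]
  exact mul_le_mul_of_nonneg_left (pset_le_sv S (Finset.notMem_erase w A)) (hc w)

/-- Sum `step_q1` over `v ∈ U ∩ Γ`, `w ∈ Γ.erase v` (the term `w = v` of `qq (cls ..)` is zero).
Loss of `q_v`: total `q`. `Σ_v 2 (‖M_w‖/s_w)² P ≤ 2 q_w`. `Σ_w ‖Θ w v‖² ≤ e_v ≤ s` (`Th_herm`,
`Th_row`), `Σ_w P ≤ s`: total `6 ga`. Cauchy-Schwarz `(Σ ‖b‖²)² ≤ (Σ ‖b‖⁴/d) (Σ d)`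
(`d = 0` forces `b = 0`), `Σ d ≤ N² + 4 N`,
`Σ_{w≠v} ‖b‖² ≥ (Σ_{w∈Γ} ‖Θ w v‖² - j²)/2 - j²/s` and `j² ≤ j²/s`; columns `v ∉ U` of `Θ` vanish. -/
theorem step_q (hS : US U S) (Γ : Finset ι) {ψ : ι → ℝ} (hψ : Osc ψ) :
    max (al S Γ ψ - 3 * ga S Γ ψ) 0 ^ 2 / (8 * (NN S Γ ^ 2 + 4 * NN S Γ))
      - 3 * qq S Γ ψ - 6 * ga S Γ ψ ≤
      ∑ v ∈ U ∩ Γ, (Av S v (fun S' => qq S' Γ ψ) - qq S Γ ψ) := by
  obtain ⟨X, hX⟩ : ∃ X, X = max (al S Γ ψ - 3 * ga S Γ ψ) 0 := ⟨_, rfl⟩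
  obtain ⟨D, hD⟩ : ∃ D, D = NN S Γ ^ 2 + 4 * NN S Γ := ⟨_, rfl⟩
  have hN := NN_nonneg S Γ
  have hτ : 0 ≤ X / (2 * D) := div_nonneg (hX ▸ le_max_right _ _) (by rw [hD]; positivity)
  have hsub : U ∩ Γ ⊆ Γ := Finset.inter_subset_right
  have h1 := Finset.sum_le_sum fun v (hv : v ∈ U ∩ Γ) =>
    qs2_one hS hψ (Finset.mem_inter.1 hv).1 (Finset.mem_inter.1 hv).2 (X / (2 * D))
  rw [Finset.sum_sub_distrib, Finset.sum_sub_distrib, Finset.sum_sub_distrib,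
    Finset.sum_sub_distrib, ← Finset.mul_sum, ← Finset.mul_sum, ← Finset.mul_sum,
    ← Finset.mul_sum] at h1
  have h2 : ∑ v ∈ U ∩ Γ, jj S ψ v ^ 2 / sv S v ≤ ga S Γ ψ :=
    Finset.sum_le_sum_of_subset_of_nonneg hsub fun v _ _ =>
      div_nonneg (sq_nonneg _) (sv_nonneg S v)
  have h3 : ∑ v ∈ U ∩ Γ, ‖MM S ψ v‖ ^ 2 / sv S v ≤ qq S Γ ψ :=
    Finset.sum_le_sum_of_subset_of_nonneg hsub fun v _ _ =>
      div_nonneg (sq_nonneg _) (sv_nonneg S v)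
  have h4 : ∑ v ∈ U ∩ Γ, sv S v ≤ NN S Γ :=
    Finset.sum_le_sum_of_subset_of_nonneg hsub fun v _ _ => sv_nonneg S v
  have h5 := qs2_swap S (Γ := Γ) (A := U ∩ Γ) (fun w => 2 * (‖MM S ψ w‖ / sv S w) ^ 2)
    fun w => by positivity
  simp only [mul_assoc (2 : ℝ), qs2_sq] at h5 h1
  rw [← Finset.mul_sum Γ] at h5
  have h6 := Finset.sum_le_sum fun v (hv : v ∈ U ∩ Γ) => qs2_low hS ψ (hsub hv)
  rw [Finset.sum_sub_distrib, ← Finset.sum_div, ← Finset.mul_sum] at h6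
  have h7 : ∑ v ∈ U ∩ Γ, ∑ w ∈ Γ, ‖Th S ψ w v‖ ^ 2 = al S Γ ψ := by
    rw [al, Finset.sum_comm (s := Γ)]
    refine Finset.sum_subset hsub fun v hv hv' => Finset.sum_eq_zero fun w _ => ?_
    rw [Th_zero_right hS ψ w fun h => hv' (Finset.mem_inter.2 ⟨h, hv⟩), norm_zero]
    exact zero_pow two_ne_zero
  have h8 : X / 2 ≤ ∑ v ∈ U ∩ Γ, ∑ w ∈ Γ.erase v,
      ‖Th S ψ w v + S w v * conj (S v v) * ((jj S ψ v / sv S v : ℝ) : ℂ)‖ ^ 2 := by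
    rw [hX, div_le_iff₀ two_pos]
    exact max_le (by linarith) (by positivity)
  have h9 := mul_le_mul_of_nonneg_left h8 hτ
  have h10 := mul_le_mul_of_nonneg_left (mul_le_mul_of_nonneg_left h4
    (show 0 ≤ NN S Γ + 4 by positivity)) (show 0 ≤ (X / (2 * D)) ^ 2 / 2 by positivity)
  have h11 : X ^ 2 / (8 * D) =
      X / (2 * D) * (X / 2) - (X / (2 * D)) ^ 2 / 2 * ((NN S Γ + 4) * NN S Γ) := by
    rw [show (NN S Γ + 4) * NN S Γ = D by rw [hD]; ring]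
    rcases eq_or_ne D 0 with rfl | h
    · simp
    · field_simp
      ring
  rw [← hX, ← hD, h11]
  have h12 : qq S Γ ψ = ∑ w ∈ Γ, ‖MM S ψ w‖ ^ 2 / sv S w := rfl
  linarith

end Vale.Agent.P365
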