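import Vale.Agent.P365.RGa

namespace Vale.Agent.P365

open MeasureTheory ProbabilityTheory Complex Filter
open scoped ComplexConjugate ENNReal

variable {ι : Type} [Fintype ι] [DecidableEq ι]

variable {μ : ℝ} {H : Matrix ι ι ℝ} {pos : ι → ℤ × ℤ} {U : Finset ι} {c : ι → ℝ}

theorem FF_init (hs : Sys μ H pos) (hg : Good H U c) (o : ℤ × ℤ) {ρ h : ℤ} (h1 : 1 ≤ h)
    (h4 : 4 * h ≤ 2 * ρ + 1) (hU : bal pos o (5 * ρ + 2 + h) ⊆ U)
    (hsmall : (2 * (ρ : ℝ) + 1) ^ 2 * Real.exp (-(μ * h)) ≤ 1) {χ : ι → ℝ} (hχ : Osc χ)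
    (h0 : ∀ x, x ∉ bal pos o (5 * ρ + 2) → χ x = 0)
    (hL : ∀ x ∈ bal pos o (5 * ρ + 2 + h), ∀ y ∈ bal pos o (5 * ρ + 2 + h),
      |χ y - χ x| ≤ 2 / (2 * (ρ : ℝ) + 1) * (rr (pos x) (pos y) : ℝ)) :
    FF (Smat H U c) χ ≤ 1600 / μ ^ 2 + 400 := by
  have hS := Smat_US hs.symm U c
  have hμ := hs.mu_pos
  have hρ : (0 : ℤ) ≤ ρ := by omega
  have hρ' : (0 : ℝ) ≤ ρ := by exact_mod_cast hρ
  have hh : (1 : ℝ) ≤ h := by exact_mod_cast h1
  set l : ℝ := 2 * (ρ : ℝ) + 1 with hl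
  have hl0 : 0 < l := by positivity
  have h1' := energy0 hS (bal pos o (5 * ρ + 2)) (ψ := χ) fun x _ hx => h0 x hx
  have hb : ∀ x ∈ bal pos o (5 * ρ + 2), ee (Smat H U c) χ x ≤
      16 * (2 / l) ^ 2 / μ ^ 2 + 16 * 1 ^ 2 * Real.exp (-(2 * μ * (h : ℝ))) := by
    intro x hx
    rw [mem_bal] at hx
    refine ee_moment hs hg x (n := h) (by omega) ?_ ?_ (fun y => hχ x y)
    · intro y hy
      rw [mem_bal] at hy
      refine hU (mem_bal.2 ?_)
      have := rr_triangle o (pos x) (pos y)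
      omega
    · intro y hy
      refine hL x (mem_bal.2 (by omega)) y (mem_bal.2 ?_)
      have := rr_triangle o (pos x) (pos y)
      omega
  have h2 := Finset.sum_le_card_nsmul _ _ _ hb
  rw [nsmul_eq_mul] at h2
  have h3 := card_bal hs.inj o (n := 5 * ρ + 2) (by omega)
  have h4' : (2 * ((5 * ρ + 2 : ℤ) : ℝ) + 1) ^ 2 = 25 * l ^ 2 := by push_cast; rw [hl]; ring
  rw [h4'] at h3
  have he : Real.exp (-(2 * μ * (h : ℝ))) ≤ Real.exp (-(μ * h)) := by
    apply Real.exp_le_exp.2; nlinarith [mul_pos hμ (by linarith : (0 : ℝ) < h)]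
  have hpos : 0 ≤ 16 * (2 / l) ^ 2 / μ ^ 2 + 16 * 1 ^ 2 * Real.exp (-(2 * μ * (h : ℝ))) := by
    positivity
  have h5 := mul_le_mul_of_nonneg_right h3 hpos
  have h6 : 25 * l ^ 2 * (16 * (2 / l) ^ 2 / μ ^ 2 + 16 * 1 ^ 2 * Real.exp (-(2 * μ * (h : ℝ))))
      = 1600 / μ ^ 2 + 400 * (l ^ 2 * Real.exp (-(2 * μ * (h : ℝ)))) := by
    field_simp; ring
  have h7 : l ^ 2 * Real.exp (-(2 * μ * (h : ℝ))) ≤ 1 :=
    (mul_le_mul_of_nonneg_left he (by positivity)).trans hsmall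
  linarith

theorem rgc_tent (pos : ι → ℤ × ℤ) (o : ℤ × ℤ) (a : ℤ) {ρ h : ℤ} (h1 : 1 ≤ h)
    (h4 : 4 * h ≤ 2 * ρ + 1) (x y : ι) :
    |tent o a (2 * ρ + 1 - 2 * h) (pos y) - tent o a (2 * ρ + 1 - 2 * h) (pos x)| ≤
      2 / (2 * (ρ : ℝ) + 1) * (rr (pos x) (pos y) : ℝ) := by
  have hw : (0 : ℤ) < 2 * ρ + 1 - 2 * h := by omega
  refine (tent_lip o a hw (pos x) (pos y)).trans ?_
  have hr : (0 : ℝ) ≤ (rr (pos x) (pos y) : ℝ) := by exact_mod_cast rr_nonneg _ _
  have h4' : 4 * (h : ℝ) ≤ 2 * ρ + 1 := by exact_mod_cast h4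
  have hh : (1 : ℝ) ≤ h := by exact_mod_cast h1
  push_cast
  rw [div_mul_eq_mul_div, div_le_div_iff₀ (by linarith) (by linarith)]
  nlinarith

theorem rgc_osc_tent (pos : ι → ℤ × ℤ) (o : ℤ × ℤ) (a w : ℤ) :
    Osc fun x => tent o a w (pos x) := by
  intro x y
  have := tent_nonneg o a w (pos x)
  have := tent_nonneg o a w (pos y)
  have := tent_le_one o a w (pos x)
  have := tent_le_one o a w (pos y)
  rw [abs_le]; constructor <;> simp only <;> linarith

theorem rg_mom (hs : Sys μ H pos) (hg : Good H U c) (o : ℤ × ℤ) {ρ h : ℤ} (h1 : 1 ≤ h)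
    (h4 : 4 * h ≤ 2 * ρ + 1) (hU : bal pos o (5 * ρ + 2 + h) ⊆ U)
    (hsmall : (2 * (ρ : ℝ) + 1) ^ 2 * Real.exp (-(μ * h)) ≤ 1) {Φ : ℤ × ℤ → ℝ} (hΦ : Lip Φ) :
    ES H U c (bal pos o (5 * ρ + 2 - h) \ (gam pos o ρ h ∪ oo pos o ρ h)) (PsiR pos Φ o ρ h) ≤
      CY μ := by
  have hμ := hs.mu_pos
  have hw : (0 : ℤ) < 2 * ρ + 1 - 2 * h := by omega
  have h4' : 4 * (h : ℝ) ≤ 2 * ρ + 1 := by exact_mod_cast h4
  have hh : (1 : ℝ) ≤ h := by exact_mod_cast h1
  set R := bal pos o (5 * ρ + 2 - h) \ (gam pos o ρ h ∪ oo pos o ρ h) with hR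
  have hRU : R ⊆ U := fun x hx => hU (mem_bal.2 (by
    have := mem_bal.1 (Finset.mem_sdiff.1 hx).1; omega))
  set ψ := psiC pos Φ o ρ h with hψ
  set χ0 : ι → ℝ := fun x => tent o (ρ + h) (2 * ρ + 1 - 2 * h) (pos x) with hχ0
  set χ1 : ι → ℝ := fun x => tent o (3 * ρ + 1 + h) (2 * ρ + 1 - 2 * h) (pos x) with hχ1
  have hHψ : Half ψ := half_psiC pos hΦ o h1 h4
  have hF0 : FF (Smat H U c) χ0 ≤ 1600 / μ ^ 2 + 400 :=
    FF_init hs hg o h1 h4 hU hsmall (rgc_osc_tent pos o _ _)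
      (fun x hx => tent_zero hw (by rw [mem_bal] at hx; omega))
      (fun x _ y _ => rgc_tent pos o _ h1 h4 x y)
  have hF1 : FF (Smat H U c) χ1 ≤ 1600 / μ ^ 2 + 400 :=
    FF_init hs hg o h1 h4 hU hsmall (rgc_osc_tent pos o _ _)
      (fun x hx => tent_zero hw (by rw [mem_bal] at hx; omega))
      (fun x _ y _ => rgc_tent pos o _ h1 h4 x y)
  have hFψ : FF (Smat H U c) ψ ≤ 1600 / μ ^ 2 + 400 := by
    refine FF_init hs hg o h1 h4 hU hsmall hHψ.osc (fun x hx => ?_) (fun x hx y hy => ?_)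
    · rw [mem_bal] at hx
      simp only [hψ, psiC]
      rw [tent_zero hw (by omega), mul_zero]
    · have hr : (0 : ℝ) ≤ (rr (pos x) (pos y) : ℝ) := by exact_mod_cast rr_nonneg _ _
      have hρ' : (0 : ℝ) ≤ ρ := by exact_mod_cast (by omega : (0 : ℤ) ≤ ρ)
      have e1 : ψ y - ψ x = (phiN pos Φ o ρ h y - phiN pos Φ o ρ h x) * χ1 y
          + phiN pos Φ o ρ h x * (χ1 y - χ1 x) := by
        simp only [hψ, psiC, hχ1]; ring
      have e2 : |phiN pos Φ o ρ h y - phiN pos Φ o ρ h x| ≤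
          1 / (2 * (ρ : ℝ) + 1) * (rr (pos x) (pos y) : ℝ) := by
        simp only [phiN]
        rw [← sub_div, cutf_sub pos Φ o hx hy, abs_div]
        push_cast
        rw [abs_of_pos (by linarith : (0 : ℝ) < 2 * (5 * (ρ : ℝ) + 2 + h)), one_div_mul_eq_div]
        exact div_le_div₀ hr (hΦ _ _) (by linarith) (by linarith)
      have e3 := rgc_tent pos o (3 * ρ + 1 + h) h1 h4 x y
      have e4 := half_phiN pos hΦ o h1 h4 x
      have e5 : |χ1 y| ≤ 1 := by
        rw [abs_of_nonneg (tent_nonneg _ _ _ _)]; exact tent_le_one _ _ _ _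
      rw [e1]
      refine (abs_add_le _ _).trans ?_
      rw [abs_mul, abs_mul]
      have e6 := mul_le_mul e2 e5 (abs_nonneg _) (by positivity)
      have e7 := mul_le_mul e4 e3 (abs_nonneg _) (by norm_num)
      have e8 : 2 / (2 * (ρ : ℝ) + 1) = 2 * (1 / (2 * (ρ : ℝ) + 1)) := by ring
      rw [e8] at e7 ⊢
      simp only [hχ1] at e6 ⊢
      nlinarith
  have n1 : Nice fun S : Mx ι => FF S ψ ^ 2 := Nice.of_continuous (by fun_prop)
  have n2 : Nice fun S : Mx ι => FF S χ0 ^ 2 := Nice.of_continuous (by fun_prop)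
  have n3 : Nice fun S : Mx ι => FF S χ1 ^ 2 := Nice.of_continuous (by fun_prop)
  have hm := ES_mono hs.symm hg hRU (Φ := PsiR pos Φ o ρ h)
    (Ψ := fun S => (3 + 3 * FF S ψ ^ 2) + (3 * FF S χ0 ^ 2 + FF S χ1 ^ 2))
    (Nice.of_continuous (continuous_PsiR pos Φ o ρ h)) (Nice.of_continuous (by fun_prop)) (by
      intro c' _
      have hS := Smat_US hs.symm (U \ R) c'
      have key : ∀ x ∈ U \ R, x ∈ gam pos o ρ h ∨ x ∈ oo pos o ρ h ∨
          5 * ρ + 2 - h < rr o (pos x) := by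
        intro x hx
        have h2 := (Finset.mem_sdiff.1 hx).2
        rw [hR, Finset.mem_sdiff, Finset.mem_union, mem_bal] at h2
        by_contra hc
        push Not at hc
        exact h2 ⟨hc.2.2, by tauto⟩
      have a0 : FF (Smat H (U \ R) c') (ind (gam pos o ρ h)) = FF (Smat H (U \ R) c') χ0 := by
        refine FF_congr hS fun x hx => ?_
        by_cases hx0 : x ∈ gam pos o ρ h
        · have := mem_rng.1 hx0
          simp only [ind, if_pos hx0, hχ0]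
          exact (tent_one hw (by omega)).symm
        · simp only [ind, if_neg hx0, hχ0]
          rcases key x hx with h' | h' | h'
          · exact absurd h' hx0
          · have := mem_rng.1 h'
            exact (tent_zero hw (by omega)).symm
          · exact (tent_zero hw (by omega)).symm
      have a1 : FF (Smat H (U \ R) c') (ind (gam pos o ρ h ∪ oo pos o ρ h)) =
          FF (Smat H (U \ R) c') χ1 := by
        refine FF_congr hS fun x hx => ?_
        by_cases hx0 : x ∈ gam pos o ρ h ∪ oo pos o ρ h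
        · simp only [ind, if_pos hx0, hχ1]
          rcases Finset.mem_union.1 hx0 with h' | h'
          · have := mem_rng.1 h'
            exact (tent_one hw (by omega)).symm
          · have := mem_rng.1 h'
            exact (tent_one hw (by omega)).symm
        · simp only [ind, if_neg hx0, hχ1]
          rw [Finset.mem_union] at hx0
          rcases key x hx with h' | h' | h'
          · tauto
          · tauto
          · exact (tent_zero hw (by omega)).symm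
      simp only [PsiR]
      rw [a0, a1, ← hψ]
      nlinarith [sq_nonneg (1 - FF (Smat H (U \ R) c') ψ), sq_nonneg (1 - FF (Smat H (U \ R) c') χ0),
        sq_nonneg (FF (Smat H (U \ R) c') ψ - FF (Smat H (U \ R) c') χ0)])
  rw [ES_add hs.symm U c R ((Nice.const 3).add (n1.const_mul 3)) ((n2.const_mul 3).add n3),
    ES_add hs.symm U c R (Nice.const 3) (n1.const_mul 3),
    ES_add hs.symm U c R (n2.const_mul 3) n3, ES_const, ES_const_mul, ES_const_mul] at hm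
  have l1 := L2 hs.symm hg hRU hHψ.osc
  have l2 := L2 hs.symm hg hRU (rgc_osc_tent pos o (ρ + h) (2 * ρ + 1 - 2 * h))
  have l3 := L2 hs.symm hg hRU (rgc_osc_tent pos o (3 * ρ + 1 + h) (2 * ρ + 1 - 2 * h))
  have s1 := pow_le_pow_left₀ (FF_nonneg _ _) hFψ 2
  have s2 := pow_le_pow_left₀ (FF_nonneg _ _) hF0 2
  have s3 := pow_le_pow_left₀ (FF_nonneg _ _) hF1 2
  unfold CY
  simp only [hχ0, hχ1] at hm s2 s3
  linarith

end Vale.Agent.P365
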