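import Vale.Agent.P365.RGb
import Vale.Agent.P365.RGc

namespace Vale.Agent.P365

open MeasureTheory ProbabilityTheory Complex Filter
open scoped ComplexConjugate ENNReal

variable {ι : Type} [Fintype ι] [DecidableEq ι]

variable {μ : ℝ} {H : Matrix ι ι ℝ} {pos : ι → ℤ × ℤ}

theorem rg_R1 (pos : ι → ℤ × ℤ) (o : ℤ × ℤ) {ρ h : ℤ} (hρ : 0 ≤ ρ) {x : ι}
    (hx : x ∈ innr pos o ρ h (box 2)) :
    rr o (pos x) ≤ ρ - h ∨ (ρ + h < rr o (pos x) ∧ rr o (pos x) ≤ 3 * ρ + 1 - h) ∨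
      (3 * ρ + 1 + h < rr o (pos x) ∧ rr o (pos x) ≤ 5 * ρ + 2 - h) := by
  obtain ⟨a, ha, hx⟩ := mem_innr.1 hx
  have h2 : rr 0 a ≤ 2 := by exact_mod_cast mem_box.1 ha
  have h0 := rr_nonneg 0 a
  have h3 := rr_ctr_le o hρ a (pos x)
  obtain e | e | e : rr 0 a = 0 ∨ rr 0 a = 1 ∨ rr 0 a = 2 := by omega
  all_goals
    rw [e] at h3
    omega

theorem rg_cell (pos : ι → ℤ × ℤ) (o : ℤ × ℤ) {ρ h : ℤ} (hρ : 0 ≤ ρ) {a : ℤ × ℤ}
    (ha : a ∈ box 2) : bal pos (ctr o ρ a) (ρ + h) ⊆ bal pos o (5 * ρ + 2 + h) := fun x hx => by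
  have h2 : rr 0 a ≤ 2 := by exact_mod_cast mem_box.1 ha
  have h3 := (rr_ctr_le o hρ a (pos x)).2
  have h4 := mem_bal.1 hx
  have h5 := mul_le_mul_of_nonneg_left h2 (by omega : 0 ≤ 2 * ρ + 1)
  exact mem_bal.2 (by omega)

theorem rg_tile (pos : ι → ℤ × ℤ) (o : ℤ × ℤ) {ρ : ℤ} (hρ : 0 ≤ ρ) :
    ∀ x ∈ bal pos o (5 * ρ + 2), ∃ a ∈ box 2, x ∈ bal pos (ctr o ρ a) ρ := fun x hx => by
  obtain ⟨a, ha⟩ := tile o hρ (pos x)
  refine ⟨a, mem_box.2 ?_, mem_bal.2 ha⟩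
  have h3 := (rr_ctr_le o hρ a (pos x)).1
  have h4 := mem_bal.1 hx
  by_contra hc
  have h5 : 3 ≤ rr 0 a := by
    push_cast at hc
    omega
  have h6 := mul_le_mul_of_nonneg_left h5 (by omega : 0 ≤ 2 * ρ + 1)
  omega

/-- The first stage: the 25 small cells. -/
theorem rg_first {lam : ℝ} (hlam1 : lam ≤ 1) (hs : Sys μ H pos) {ρ h : ℤ} (h1 : 1 ≤ h)
    (h4 : 4 * h ≤ 2 * ρ + 1) {ε : ℝ} (hP : Pcell H pos ρ h ε) {U : Finset ι} {c : ι → ℝ}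
    (hg : Good H U c) (o : ℤ × ℤ) (hU : bal pos o (5 * ρ + 2 + h) ⊆ U) {Φ : ℤ × ℤ → ℝ}
    (hΦ : Lip Φ) :
    ES H U c (innr pos o ρ h (box 2))
        (fun S => ∑ x ∈ bal pos o (5 * ρ + 2), ee S (cutf pos Φ o (5 * ρ + 2 + h)) x)
      - lam * ES H U c (innr pos o ρ h (box 2))
        (fun S => ∑ x ∈ bal pos o ρ, ee S (cutf pos Φ o (5 * ρ + 2 + h)) x) ≤
      (25 - lam) * ((ε * 1 ^ 2 + 16 * (2 * ((5 * ρ + 2 + h : ℤ) : ℝ)) ^ 2
        * Real.exp (-(2 * μ * h))) * (2 * (ρ : ℝ) + 1) ^ 2) := by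
  have hH := hs.symm
  have hρ : 0 ≤ ρ := by omega
  set φ := cutf pos Φ o (5 * ρ + 2 + h) with hφ
  set K : ℝ := (ε * 1 ^ 2 + 16 * (2 * ((5 * ρ + 2 + h : ℤ) : ℝ)) ^ 2
        * Real.exp (-(2 * μ * h))) * (2 * (ρ : ℝ) + 1) ^ 2 with hK
  have hm : ∀ x, |φ x| ≤ ((5 * ρ + 2 + h : ℤ) : ℝ) := cutf_abs_le pos hΦ o (by omega)
  have hR : innr pos o ρ h (box 2) ⊆ U := fun x hx => hU (mem_bal.2 (by
    have := rg_R1 pos o hρ hx
    omega))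
  have key : ∀ a ∈ box 2, ES H U c (innr pos o ρ h (box 2))
      (fun S => ∑ x ∈ bal pos (ctr o ρ a) ρ, ee S φ x) ≤ K := fun a ha =>
    cells hs hP h1 h4 hg o (box 2) (fun b hb => (rg_cell pos o hρ hb).trans hU) ha hΦ
      (fun x hx y hy => by
        rw [one_mul]
        exact cutf_sub pos Φ o (rg_cell pos o hρ ha hx) (rg_cell pos o hρ ha hy))
      (fun x y => by
        have a1 := abs_le.1 (hm x)
        have a2 := abs_le.1 (hm y)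
        exact abs_le.2 ⟨by linarith, by linarith⟩)
  have nA : ∀ a ∈ box 2, Nice fun S : Mx ι => ∑ x ∈ bal pos (ctr o ρ a) ρ, ee S φ x :=
    fun a _ => Nice.of_continuous (by fun_prop)
  have b1 := ES_mono hH hg hR (Φ := fun S => ∑ x ∈ bal pos o (5 * ρ + 2), ee S φ x)
    (Nice.of_continuous (by fun_prop)) (Nice.sum (box 2) nA) (fun c' _ =>
      sum_le_cells pos o ρ (box 2) _ (rg_tile pos o hρ) _ (ee_nonneg _ φ))
  have h0 : (0 : ℤ × ℤ) ∈ box 2 := mem_box.2 (by rw [rr_self]; norm_num)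
  rw [ES_sum hH U c _ (box 2) nA, ← Finset.add_sum_erase _ _ h0, ctr_zero] at b1
  have b2 := Finset.sum_le_card_nsmul ((box 2).erase 0) _ K
    (fun a ha => key a (Finset.mem_of_mem_erase ha))
  have b3 : (((box 2).erase 0).card : ℝ) = 24 := by
    have e1 := card_box 2
    rw [← Finset.card_erase_add_one h0] at e1
    push_cast at e1
    linarith
  rw [nsmul_eq_mul, b3] at b2
  have b4 := key 0 h0
  rw [ctr_zero] at b4
  have b5 := mul_le_mul_of_nonneg_left b4 (sub_nonneg.2 hlam1)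
  linarith

/-- `R1 = innr pos o ρ h (box 2)`, `R2` as in `rg_mid` for `U \ R1`;
`bal (5ρ+2-h) = R1 ∪ (R2 ∪ (Γ ∪ O))` and `R1 ∪ R2 = bal (5ρ+2-h) \ (Γ ∪ O)` (`rr_ctr_le`: a point
of `I_a` has `l |a| - (ρ-h) ≤ rr ≤ l |a| + (ρ-h)`, `|a| ∈ {0,1,2}`). `ES_tower2` with `rg_mid`.
`sum_le_cells` (`tile`) gives `E_in - lam E_0 ≤ Σ_{a≠0} E_a + (1 - lam) E_0`; `cells` with `L = 1`,
`m = 2(5ρ+2+h) ≤ 6 l`; `rg_mom`. Divide by `(2(5ρ+2)+1)² = 25 l²`. -/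
theorem rg_step {θ lam Λ : ℝ} (hAT : ATP θ lam Λ) (hθ : 0 < θ) (hlam : 0 ≤ lam) (hlam1 : lam ≤ 1)
    (hΛ : 1 / θ ≤ Λ) (hs : Sys μ H pos) {ρ h : ℤ} (h1 : 1 ≤ h) (h4 : 4 * h ≤ 2 * ρ + 1)
    (hsmall : (2 * (ρ : ℝ) + 1) ^ 2 * Real.exp (-(μ * h)) ≤ 1) {ε : ℝ}
    (hP : Pcell H pos ρ h ε) :
    Pcell H pos (5 * ρ + 2) h ((1 - lam / 25) * ε + 2 * lam * θ * CY μ
      + 10000 * (2 * (ρ : ℝ) + 1) ^ 2 * Real.exp (-(μ * h))) := by
  intro o U c Φ hg hU hΦ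
  have hH := hs.symm
  have hρ : 0 ≤ ρ := by omega
  have f1 := rg_first hlam1 hs h1 h4 hP hg o hU hΦ
  have f2 := rg_mom hs hg o h1 h4 hU hsmall hΦ
  set φ := cutf pos Φ o (5 * ρ + 2 + h) with hφ
  set G := gam pos o ρ h ∪ oo pos o ρ h with hG
  set R1 := innr pos o ρ h (box 2) with hR1
  set R2 := ((U \ R1) ∩ bal pos o (5 * ρ + 2 - h)) \ G with hR2
  have hR1' : ∀ x ∈ R1, rr o (pos x) ≤ ρ - h ∨
      (ρ + h < rr o (pos x) ∧ rr o (pos x) ≤ 3 * ρ + 1 - h) ∨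
      (3 * ρ + 1 + h < rr o (pos x) ∧ rr o (pos x) ≤ 5 * ρ + 2 - h) :=
    fun x hx => rg_R1 pos o hρ hx
  have hG' : ∀ x, x ∈ G ↔ (ρ - h < rr o (pos x) ∧ rr o (pos x) ≤ ρ + h) ∨
      (3 * ρ + 1 - h < rr o (pos x) ∧ rr o (pos x) ≤ 3 * ρ + 1 + h) := fun x => by
    rw [hG, Finset.mem_union, gam, oo, mem_rng, mem_rng]
  have hU' : ∀ x, rr o (pos x) ≤ 5 * ρ + 2 + h → x ∈ U := fun x hx => hU (mem_bal.2 hx)
  have hR2' : ∀ x, x ∈ R2 ↔ ((x ∈ U ∧ x ∉ R1) ∧ rr o (pos x) ≤ 5 * ρ + 2 - h) ∧ x ∉ G :=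
    fun x => by rw [hR2, Finset.mem_sdiff, Finset.mem_inter, Finset.mem_sdiff, mem_bal]
  have hR : R1 ⊆ U := fun x hx => hU' x (by
    have := hR1' x hx
    omega)
  have e1 : bal pos o (5 * ρ + 2 - h) = R1 ∪ (R2 ∪ G) := by
    ext x
    rw [mem_bal, Finset.mem_union, Finset.mem_union]
    constructor
    · intro hx
      by_cases a1 : x ∈ R1
      · exact Or.inl a1
      by_cases a2 : x ∈ G
      · exact Or.inr (Or.inr a2)
      · exact Or.inr (Or.inl ((hR2' x).2 ⟨⟨⟨hU' x (by omega), a1⟩, hx⟩, a2⟩))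
    · rintro (hx | hx | hx)
      · have := hR1' x hx
        omega
      · exact ((hR2' x).1 hx).1.2
      · have := (hG' x).1 hx
        omega
  have e2 : bal pos o (5 * ρ + 2 - h) \ G = R1 ∪ R2 := by
    ext x
    rw [Finset.mem_sdiff, mem_bal, Finset.mem_union (s := R1)]
    constructor
    · rintro ⟨hx, a2⟩
      by_cases a1 : x ∈ R1
      · exact Or.inl a1
      · exact Or.inr ((hR2' x).2 ⟨⟨⟨hU' x (by omega), a1⟩, hx⟩, a2⟩)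
    · rintro (hx | hx)
      · have a1 := hR1' x hx
        refine ⟨by omega, fun a2 => ?_⟩
        have := (hG' x).1 a2
        omega
      · exact ⟨((hR2' x).1 hx).1.2, ((hR2' x).1 hx).2⟩
  have sub : ∀ {m n : ℤ}, n ≤ 5 * ρ + 2 + h →
      (∀ x ∈ R1, ¬ (m < rr o (pos x) ∧ rr o (pos x) ≤ n)) → rng pos o m n ⊆ U \ R1 :=
    fun hn hd x hx => Finset.mem_sdiff.2
      ⟨hU' x ((mem_rng.1 hx).2.trans hn), fun a1 => hd x a1 (mem_rng.1 hx)⟩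
  have hΓ : gam pos o ρ h ⊆ U \ R1 := sub (by omega) fun x hx => by
    have := hR1' x hx
    omega
  have hO : oo pos o ρ h ⊆ U \ R1 := sub (by omega) fun x hx => by
    have := hR1' x hx
    omega
  have hD : rng pos o (5 * ρ + 2 - h) (5 * ρ + 2 + h) ⊆ U \ R1 := sub le_rfl fun x hx => by
    have := hR1' x hx
    omega
  have hI : ∀ x ∈ bal pos o (ρ - h), x ∉ U \ R1 := fun x hx a1 =>
    (Finset.mem_sdiff.1 a1).2 (mem_innr.2 ⟨0, mem_box.2 (by rw [rr_self]; norm_num), by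
      rw [ctr_zero]
      exact mem_bal.1 hx⟩)
  have nI : Nice fun S : Mx ι => ∑ x ∈ bal pos o (5 * ρ + 2), ee S φ x :=
    Nice.of_continuous (by fun_prop)
  have nC : Nice fun S : Mx ι => lam * ∑ x ∈ bal pos o ρ, ee S φ x :=
    Nice.of_continuous (by fun_prop)
  have nP : Nice fun S : Mx ι =>
      lam * θ * (36 * (2 * (ρ : ℝ) + 1) ^ 2) * PsiR pos Φ o ρ h S :=
    (Nice.of_continuous (continuous_PsiR pos Φ o ρ h)).const_mul _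
  have t1 := ES_tower2 hH hg hR (R2 ∪ G) R2 nI ((nI.sub nC).add
    (Nice.const (60000 * (2 * (ρ : ℝ) + 1) ^ 4 * Real.exp (-(μ * h))))) nP (fun c' hc' =>
      rg_mid hAT hθ hlam hlam1 hΛ hs hc' o h1 h4 hΓ hO hD hI hR2 hΦ)
  rw [ES_add hH U c R1 (nI.sub nC) (Nice.const _), ES_sub hH U c R1 nI nC, ES_const,
    ES_const_mul H U c R1 lam, ES_const_mul, ← e1, ← e2] at t1
  refine t1.trans ?_
  set l : ℝ := 2 * (ρ : ℝ) + 1 with hl
  set M : ℝ := 2 * ((5 * ρ + 2 + h : ℤ) : ℝ) with hM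
  set E := Real.exp (-(μ * h)) with hE
  have E0 : 0 < E := Real.exp_pos _
  have hh : (1 : ℝ) ≤ h := by exact_mod_cast h1
  have hh4 : 4 * (h : ℝ) ≤ l := by rw [hl]; exact_mod_cast h4
  have M0 : 0 < M := by
    rw [hM]; push_cast; linarith
  have M1 : M ≤ 6 * l := by
    rw [hM]; push_cast; linarith
  have M2 : M ^ 2 ≤ 36 * l ^ 2 := by
    have := pow_le_pow_left₀ M0.le M1 2
    linarith [show (6 * l) ^ 2 = 36 * l ^ 2 by ring]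
  have lE : Real.exp (-(2 * μ * h)) ≤ E :=
    Real.exp_le_exp.2 (by linarith [mul_pos hs.mu_pos (by linarith : (0 : ℝ) < h)])
  have g1 : M ^ 2 * Real.exp (-(2 * μ * h)) ≤ 36 * l ^ 2 * E :=
    mul_le_mul M2 lE (Real.exp_pos _).le (by positivity)
  have g2 : M ^ 2 * Real.exp (-(2 * μ * h)) * l ^ 2 ≤ 36 * (l ^ 4 * E) := by
    have := mul_le_mul_of_nonneg_right g1 (sq_nonneg l)
    linarith [show 36 * l ^ 2 * E * l ^ 2 = 36 * (l ^ 4 * E) by ring]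
  have g3 : 0 ≤ lam * (M ^ 2 * Real.exp (-(2 * μ * h)) * l ^ 2) := by positivity
  have g4 : 0 ≤ l ^ 4 * E := by positivity
  have hCY : 0 ≤ CY μ := by
    rw [CY]
    positivity
  have g5 := mul_le_mul_of_nonneg_left f2 (show 0 ≤ lam * θ * (36 * l ^ 2) by positivity)
  have g6 : 0 ≤ lam * θ * l ^ 2 * CY μ := by positivity
  have e3 : 2 * ((5 * ρ + 2 : ℤ) : ℝ) + 1 = 5 * l := by
    rw [hl]; push_cast; ring
  rw [e3]
  have e4 : ((1 - lam / 25) * ε + 2 * lam * θ * CY μ + 10000 * l ^ 2 * E) * (5 * l) ^ 2 =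
      (25 - lam) * (ε * l ^ 2) + 50 * (lam * θ * l ^ 2 * CY μ) + 250000 * (l ^ 4 * E) := by ring
  have e5 : (25 - lam) * ((ε * 1 ^ 2 + 16 * M ^ 2 * Real.exp (-(2 * μ * h))) * l ^ 2) =
      (25 - lam) * (ε * l ^ 2) + 400 * (M ^ 2 * Real.exp (-(2 * μ * h)) * l ^ 2)
        - 16 * (lam * (M ^ 2 * Real.exp (-(2 * μ * h)) * l ^ 2)) := by ring
  have e6 : lam * θ * (36 * l ^ 2) * CY μ = 36 * (lam * θ * l ^ 2 * CY μ) := by ring
  have e7 : 60000 * l ^ 4 * E = 60000 * (l ^ 4 * E) := by ring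
  rw [e4]
  rw [e5] at f1
  rw [e6] at g5
  rw [e7]
  linarith

end Vale.Agent.P365
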