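import Vale.Agent.P365.CT
import Vale.Agent.P365.Dec

namespace Vale.Agent.P365

open MeasureTheory ProbabilityTheory Complex Filter
open scoped ComplexConjugate ENNReal

variable {ι : Type} [Fintype ι] [DecidableEq ι]

variable {μ : ℝ} {H : Matrix ι ι ℝ} {pos : ι → ℤ × ℤ} {U : Finset ι} {c : ι → ℝ}

theorem half_phiN (pos : ι → ℤ × ℤ) {Φ : ℤ × ℤ → ℝ} (hΦ : Lip Φ) (o : ℤ × ℤ) {ρ h : ℤ}
    (h1 : 1 ≤ h) (h4 : 4 * h ≤ 2 * ρ + 1) : Half (phiN pos Φ o ρ h) := fun x => by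
  have hn : 0 < 5 * ρ + 2 + h := by omega
  have hn' : (0 : ℝ) < ((5 * ρ + 2 + h : ℤ) : ℝ) := by exact_mod_cast hn
  have h2 := cutf_abs_le pos hΦ o hn.le x
  rw [phiN, abs_div, abs_of_pos (by positivity : (0 : ℝ) < 2 * ((5 * ρ + 2 + h : ℤ) : ℝ)),
    div_le_iff₀ (by positivity)]
  linarith

theorem half_psiC (pos : ι → ℤ × ℤ) {Φ : ℤ × ℤ → ℝ} (hΦ : Lip Φ) (o : ℤ × ℤ) {ρ h : ℤ}
    (h1 : 1 ≤ h) (h4 : 4 * h ≤ 2 * ρ + 1) : Half (psiC pos Φ o ρ h) := fun x => by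
  rw [psiC, abs_mul, abs_of_nonneg (tent_nonneg _ _ _ _)]
  have h2 := half_phiN pos hΦ o h1 h4 x
  have h3 := tent_le_one o (3 * ρ + 1 + h) (2 * ρ + 1 - 2 * h) (pos x)
  exact (mul_le_of_le_one_right (abs_nonneg _) h3).trans h2

theorem continuous_PsiR (pos : ι → ℤ × ℤ) (Φ : ℤ × ℤ → ℝ) (o : ℤ × ℤ) (ρ h : ℤ) :
    Continuous (PsiR pos Φ o ρ h) :=
  (((continuous_const.add (dec_cF _)).add (dec_cF _)).pow 2).add ((dec_cF _).pow 2)

theorem rga_ee (S : Mx ι) (B : Finset ι) {φ ψ : ι → ℝ} (hφ : Osc φ) {x : ι} (hx : φ x = ψ x)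
    (h : ∀ y ∈ B, φ y = ψ y) : ee S φ x ≤ ee S ψ x + pset S x Bᶜ := by
  have h1 : ∑ y ∈ B, pp S x y * (φ y - φ x) ^ 2 ≤ ee S ψ x := by
    rw [Finset.sum_congr rfl fun y hy => by rw [h y hy, hx]]
    exact Finset.sum_le_sum_of_subset_of_nonneg (Finset.subset_univ B) fun y _ _ =>
      mul_nonneg (pp_nonneg _ _ _) (sq_nonneg _)
  have h2 : ∑ y ∈ Bᶜ, pp S x y * (φ y - φ x) ^ 2 ≤ pset S x Bᶜ :=
    Finset.sum_le_sum fun y _ => mul_le_of_le_one_right (pp_nonneg _ _ _)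
      ((sq_le_one_iff_abs_le_one _).2 (hφ x y))
  rw [ee, ← Finset.sum_add_sum_compl B]
  exact add_le_add h1 h2

theorem rga_al (hs : Sys μ H pos) (hg : Good H U c) (o : ℤ × ℤ) {ρ h : ℤ} (h1 : 1 ≤ h)
    (h4 : 4 * h ≤ 2 * ρ + 1) (hΓ : gam pos o ρ h ⊆ U)
    (hI : ∀ x ∈ U, x ∈ bal pos o (5 * ρ + 2 - h) → x ∈ gam pos o ρ h ∪ oo pos o ρ h)
    {Φ : ℤ × ℤ → ℝ} (hΦ : Lip Φ) :
    ∑ x ∈ bal pos o ρ, ee (Smat H U c) (phiN pos Φ o ρ h) x ≤
      al (Smat H U c) (gam pos o ρ h) (psiC pos Φ o ρ h)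
        + 416 * (2 * (ρ : ℝ) + 1) ^ 2 * Real.exp (-(μ * h)) := by
  set S := Smat H U c with hS0
  set Γ := gam pos o ρ h with hG
  set ψ := psiC pos Φ o ρ h with hψ
  set E := Real.exp (-(μ * h)) with hE
  have hS : US U S := Smat_US hs.symm U c
  have E0 : 0 < E := Real.exp_pos _
  have hh : (1 : ℝ) ≤ h := by exact_mod_cast h1
  have lE : Real.exp (-(2 * μ * ((ρ + h - ρ : ℤ) : ℝ))) ≤ E := by
    rw [show ρ + h - ρ = h by ring]
    exact Real.exp_le_exp.2 (by linarith [mul_pos hs.mu_pos (by linarith : (0 : ℝ) < h)])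
  have hband : ∀ z, ρ ≤ rr o (pos z) → rr o (pos z) ≤ ρ + h → z ∈ U := fun z h2 h3 =>
    hΓ (mem_rng.2 ⟨by omega, h3⟩)
  have hfar : ∀ y ∈ Γᶜ, y ∈ U → ρ + h ≤ rr o (pos y) := fun y hy hyU => by
    by_contra hc
    rcases Finset.mem_union.1 (hI y hyU (mem_bal.2 (by omega))) with h2 | h2
    · exact Finset.mem_compl.1 hy h2
    · have := (mem_rng.1 h2).1
      omega
  have heq : ∀ y, rr o (pos y) ≤ ρ + h → phiN pos Φ o ρ h y = ψ y := fun y hy => by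
    rw [hψ, psiC, tent_one (by omega) (by omega), mul_one]
  have key : ∀ x ∈ bal pos o ρ, ee S (phiN pos Φ o ρ h) x ≤
      (if x ∈ Γ then ∑ y ∈ Γ, ‖Th S ψ x y‖ ^ 2 else 0) + 416 * E := fun x hx => by
    have hx' := mem_bal.1 hx
    by_cases hxG : x ∈ Γ
    · rw [if_pos hxG]
      have a1 := rga_ee S Γ (half_phiN pos hΦ o h1 h4).osc (heq x (by omega))
        (fun y hy => heq y (mem_rng.1 hy).2)
      have a2 := leak_out hs hg o le_rfl (by omega) hband hx' Γᶜ hfar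
      have a3 := leak_Th_out hs hg o le_rfl (by omega) hband (half_psiC pos hΦ o h1 h4).osc hx'
        Γᶜ hfar
      have a4 := Th_row hS ψ x
      rw [← Finset.sum_add_sum_compl Γ] at a4
      linarith
    · have hxU : x ∉ U := fun hxU => by
        have := hfar x (Finset.mem_compl.2 hxG) hxU
        omega
      rw [if_neg hxG, ee, Finset.sum_eq_zero fun y _ => by rw [pp_zero_left hS hxU, zero_mul]]
      positivity
  have a5 : ∑ x ∈ bal pos o ρ, (if x ∈ Γ then ∑ y ∈ Γ, ‖Th S ψ x y‖ ^ 2 else 0) ≤ al S Γ ψ := by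
    rw [← Finset.sum_filter, al]
    exact Finset.sum_le_sum_of_subset_of_nonneg (fun x hx => (Finset.mem_filter.1 hx).2)
      fun x _ _ => Finset.sum_nonneg fun y _ => sq_nonneg _
  have a6 := Finset.sum_le_sum key
  rw [Finset.sum_add_distrib, Finset.sum_const, nsmul_eq_mul] at a6
  have a7 := mul_le_mul_of_nonneg_right (card_bal hs.inj o (n := ρ) (by omega)) E0.le
  linarith

/-- State 2 of the renormalisation step: inside `bal (5ρ+2-h)` only the two bands are probes.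
Let `l = 2ρ+1`, `φ = cutf (5ρ+2+h)`, `M = 2(5ρ+2+h) ≤ 6 l`, `φ = M phiN` (`FF_smul`, `ee_smul`).
`dec` with `ψ = psiC`, `η = phiN - psiC`, `Z = bal (5ρ+2+h)` (`card ≤ 36 l²`), `κ = 4 e^(-μ h)`
(`leak_in` through the band `[3ρ+2-h, 3ρ+1+h]`, `k = n`, width `2h - 1 ≥ h`; sites outside `U` have
`pset = 0`). Lower bound: `al Γ ψ ≥ Σ_{x ∈ bal ρ} (ee ψ x - 400 e^(-2μh))` (`Th_row`,
`leak_Th_out` with band `[ρ-h+1, ρ+h]`, `k = ρ`; sites of `bal ρ` outside `Γ` are not in `U`) and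
`ee phiN x ≤ ee ψ x + 16 e^(-2μh)` (`phiN = ψ` on `Γ`, `leak_out`). Error
`2·36·288 + 36·416 ≤ 40000`. -/
theorem rg_two {θ lam Λ : ℝ} (hAT : ATP θ lam Λ) (hθ : 0 < θ) (hlam : 0 ≤ lam) (hlam1 : lam ≤ 1)
    (hΛ : 1 / θ ≤ Λ) (hs : Sys μ H pos) (hg : Good H U c) (o : ℤ × ℤ) {ρ h : ℤ} (h1 : 1 ≤ h)
    (h4 : 4 * h ≤ 2 * ρ + 1) (hΓ : gam pos o ρ h ⊆ U) (hO : oo pos o ρ h ⊆ U)
    (hI : ∀ x ∈ U, x ∈ bal pos o (5 * ρ + 2 - h) → x ∈ gam pos o ρ h ∪ oo pos o ρ h)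
    {Φ : ℤ × ℤ → ℝ} (hΦ : Lip Φ) :
    ES H U c (gam pos o ρ h ∪ oo pos o ρ h) (fun S => 2 * FF S (cutf pos Φ o (5 * ρ + 2 + h))) ≤
      2 * FF (Smat H U c) (cutf pos Φ o (5 * ρ + 2 + h))
        - lam * ∑ x ∈ bal pos o ρ, ee (Smat H U c) (cutf pos Φ o (5 * ρ + 2 + h)) x
        + lam * θ * (36 * (2 * (ρ : ℝ) + 1) ^ 2) * PsiR pos Φ o ρ h (Smat H U c)
        + 40000 * (2 * (ρ : ℝ) + 1) ^ 4 * Real.exp (-(μ * h)) := by
  have hal := rga_al hs hg o h1 h4 hΓ hI hΦ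
  set S := Smat H U c with hS0
  set φ := phiN pos Φ o ρ h with hφ
  set ψ := psiC pos Φ o ρ h with hψ
  set E := Real.exp (-(μ * h)) with hE
  set M : ℝ := 2 * ((5 * ρ + 2 + h : ℤ) : ℝ) with hM
  set l : ℝ := 2 * (ρ : ℝ) + 1 with hl
  have hS : US U S := Smat_US hs.symm U c
  have E0 : 0 < E := Real.exp_pos _
  have hh : (1 : ℝ) ≤ h := by exact_mod_cast h1
  have hh4 : 4 * (h : ℝ) ≤ l := by rw [hl]; exact_mod_cast h4
  have M0 : 0 < M := by
    rw [hM]; push_cast; linarith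
  have M1 : M + 1 ≤ 6 * l := by
    rw [hM]; push_cast; linarith
  have M2 : M ^ 2 ≤ 36 * l ^ 2 := by
    have := pow_le_pow_left₀ M0.le (by linarith : M ≤ 6 * l) 2
    linarith
  have hcut : cutf pos Φ o (5 * ρ + 2 + h) = fun y => M * φ y := by
    funext y
    rw [hφ, phiN, ← hM, mul_div_cancel₀ _ M0.ne']
  have hsum : (fun x => (φ x - ψ x) + ψ x) = φ := by
    funext x
    ring
  have hd : Disjoint (gam pos o ρ h) (oo pos o ρ h) := Finset.disjoint_left.2 fun x h2 h3 => by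
    have h5 := (mem_rng.1 h2).2
    have h6 := (mem_rng.1 h3).1
    omega
  have hη : Half fun x => φ x - ψ x := fun x => by
    have h2 := half_phiN pos hΦ o h1 h4 x
    have h3 := tent_le_one o (3 * ρ + 1 + h) (2 * ρ + 1 - 2 * h) (pos x)
    have h5 := tent_nonneg o (3 * ρ + 1 + h) (2 * ρ + 1 - 2 * h) (pos x)
    have h6 := abs_nonneg (φ x)
    have h7 : φ x - ψ x = φ x * (1 - tent o (3 * ρ + 1 + h) (2 * ρ + 1 - 2 * h) (pos x)) := by
      rw [hψ, psiC]; ring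
    change |φ x - ψ x| ≤ _
    rw [h7, abs_mul, abs_of_nonneg (sub_nonneg.2 h3)]
    exact (mul_le_of_le_one_right h6 (by linarith)).trans h2
  have hout : ∀ x ∈ U, x ∉ gam pos o ρ h ∪ oo pos o ρ h → 5 * ρ + 2 - h < rr o (pos x) :=
    fun x hx hx' => by
      by_contra hc
      exact hx' (hI x hx (mem_bal.2 (by omega)))
  have hψ0 : ∀ x ∈ U, x ∉ gam pos o ρ h ∪ oo pos o ρ h → ψ x = 0 := fun x hx hx' => by
    have := hout x hx hx'
    rw [hψ, psiC, tent_zero (by omega) (by omega), mul_zero]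
  have hη0 : ∀ x ∈ gam pos o ρ h ∪ oo pos o ρ h, φ x - ψ x = 0 := fun x hx => by
    have h2 : rr o (pos x) ≤ 3 * ρ + 1 + h := by
      rcases Finset.mem_union.1 hx with h2 | h2
      · have := (mem_rng.1 h2).2
        omega
      · exact (mem_rng.1 h2).2
    rw [hψ, psiC, tent_one (by omega) h2, mul_one, sub_self]
  have hZ : ∀ z ∈ U, φ z - ψ z ≠ 0 → z ∈ bal pos o (5 * ρ + 2 + h) := fun z _ hz => by
    by_contra hc
    apply hz
    rw [hψ, psiC, ← hφ, hφ, phiN, cutf_zero pos Φ o hc]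
    simp
  have hκ : ∀ z ∈ bal pos o (5 * ρ + 2 + h), z ∉ gam pos o ρ h ∪ oo pos o ρ h →
      pset S z (gam pos o ρ h) ≤ (4 * E) ^ 2 := fun z _ hz => by
    by_cases hzU : z ∈ U
    · have h2 := hout z hzU hz
      have h3 := leak_in hs hg o (m := 3 * ρ + 2 - h) (k := 3 * ρ + 1 + h) (n := 3 * ρ + 1 + h)
        (by omega) le_rfl (fun y h3 h5 => hO (mem_rng.2 ⟨by omega, h5⟩)) (x := z) (by omega)
        (gam pos o ρ h) (fun y hy _ => by have := (mem_rng.1 hy).2; omega)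
      have h5 : Real.exp (-(2 * μ * ((3 * ρ + 1 + h - (3 * ρ + 2 - h) : ℤ) : ℝ))) ≤ E ^ 2 := by
        rw [hE, sq, ← Real.exp_add]
        refine Real.exp_le_exp.2 ?_
        push_cast
        have := mul_le_mul_of_nonneg_left hh hs.mu_pos.le
        linarith
      linarith
    · rw [pset, Finset.sum_eq_zero fun y _ => pp_zero_left hS hzU y]
      positivity
  have hdec := dec hAT hθ hlam hΛ hs.symm hg hΓ hO hd (half_psiC pos hΦ o h1 h4) hη hψ0 hη0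
    (bal pos o (5 * ρ + 2 + h)) hZ (by positivity) hκ
  have hcard := card_bal hs.inj o (n := 5 * ρ + 2 + h) (by omega)
  rw [← hM] at hcard
  have hc2 : ((bal pos o (5 * ρ + 2 + h)).card : ℝ) ≤ 36 * l ^ 2 := by
    have := pow_le_pow_left₀ (by positivity) M1 2
    linarith
  rw [hsum] at hdec
  simp only [hcut, FF_smul, ee_smul, ← mul_assoc]
  rw [ES_const_mul, ← Finset.mul_sum]
  have hP : PsiR pos Φ o ρ h S = (1 + FF S ψ + FF S (ind (gam pos o ρ h))) ^ 2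
      + FF S (ind (gam pos o ρ h ∪ oo pos o ρ h)) ^ 2 := rfl
  have P0 : 0 ≤ PsiR pos Φ o ρ h S := by rw [hP]; positivity
  set P := PsiR pos Φ o ρ h S with hP'
  set X := ES H U c (gam pos o ρ h ∪ oo pos o ρ h) (fun S => FF S φ) with hX
  set T := ∑ x ∈ bal pos o ρ, ee S φ x with hT
  set a := al S (gam pos o ρ h) ψ with ha
  set N : ℝ := ((bal pos o (5 * ρ + 2 + h)).card : ℝ) with hN
  have b1 : X ≤ FF S φ - lam / 2 * (a - θ * P) + 288 * l ^ 2 * E := by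
    have := mul_le_mul_of_nonneg_right hc2 E0.le
    rw [hP]
    linarith
  have b2 : lam * T ≤ lam * a + 416 * l ^ 2 * E := by
    have b3 := mul_le_mul_of_nonneg_left hal hlam
    have b4 : lam * (416 * l ^ 2 * E) ≤ 416 * l ^ 2 * E :=
      mul_le_of_le_one_left (by positivity) hlam1
    linarith
  have b3 : 2 * X ≤ 2 * FF S φ - lam * T + lam * θ * P + 992 * l ^ 2 * E := by linarith
  have b4 := mul_le_mul_of_nonneg_left b3 (sq_nonneg M)
  have b5 : M ^ 2 * (lam * θ * P) ≤ 36 * l ^ 2 * (lam * θ * P) :=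
    mul_le_mul_of_nonneg_right M2 (by positivity)
  have b6 : M ^ 2 * (992 * l ^ 2 * E) ≤ 36 * l ^ 2 * (992 * l ^ 2 * E) :=
    mul_le_mul_of_nonneg_right M2 (by positivity)
  have b7 : 0 ≤ l ^ 4 * E := by positivity
  linarith

end Vale.Agent.P365
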