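import Vale.Agent.P365.Rows0

namespace Vale.Agent.P365

open MeasureTheory ProbabilityTheory Complex Filter
open scoped ComplexConjugate ENNReal

variable {ι : Type} [Fintype ι] [DecidableEq ι]

variable {μ : ℝ} {H : Matrix ι ι ℝ} {pos : ι → ℤ × ℤ} {U : Finset ι} {c : ι → ℝ}

theorem rows_ee (S : Mx ι) (B : Finset ι) {φ ψ : ι → ℝ} {L m : ℝ} {x : ι}
    (h : ∀ y ∈ B, φ y - φ x = L * (ψ y - ψ x)) (hm : ∀ y, |φ y - φ x| ≤ m) :
    ee S φ x ≤ L ^ 2 * ee S ψ x + m ^ 2 * pset S x Bᶜ := by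
  have e : pset S x Bᶜ = ∑ y, if y ∈ Bᶜ then pp S x y else 0 := by
    rw [Finset.sum_ite_mem, Finset.univ_inter, pset]
  rw [e, ee, ee, Finset.mul_sum, Finset.mul_sum, ← Finset.sum_add_distrib]
  refine Finset.sum_le_sum fun y _ => ?_
  have h0 := pp_nonneg S x y
  by_cases hy : y ∈ B
  · rw [if_neg (by simpa using hy), h y hy]
    exact le_of_eq (by ring)
  · rw [if_pos (by simpa using hy)]
    have h1 : (φ y - φ x) ^ 2 ≤ m ^ 2 := sq_le_sq' (abs_le.1 (hm y)).1 (abs_le.1 (hm y)).2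
    have h2 := mul_le_mul_of_nonneg_left h1 h0
    have h3 : 0 ≤ L ^ 2 * (pp S x y * (ψ y - ψ x) ^ 2) := by positivity
    linarith

theorem rows_one (hs : Sys μ H pos) {ρ h : ℤ} {ε : ℝ} (hP : Pcell H pos ρ h ε) (h1 : 1 ≤ h)
    (hρ : 0 ≤ ρ) (hg : Good H U c) (p : ℤ × ℤ) (hU : bal pos p (ρ + h) ⊆ U) {φ : ι → ℝ}
    {Φ : ℤ × ℤ → ℝ} (hΦ : Lip Φ) {L m : ℝ}
    (hφ : ∀ x ∈ bal pos p (ρ + h), ∀ y ∈ bal pos p (ρ + h),
      φ y - φ x = L * (Φ (pos y) - Φ (pos x)))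
    (hm : ∀ x y, |φ y - φ x| ≤ m) :
    ES H U c (bal pos p (ρ - h)) (fun S => ∑ x ∈ bal pos p ρ, ee S φ x) ≤
      (ε * L ^ 2 + 16 * m ^ 2 * Real.exp (-(2 * μ * h))) * (2 * (ρ : ℝ) + 1) ^ 2 := by
  have hI : bal pos p (ρ - h) ⊆ U := fun x hx =>
    hU (mem_bal.2 ((mem_bal.1 hx).trans (by omega)))
  have n1 : Nice fun S : Mx ι =>
      L ^ 2 * ∑ x ∈ bal pos p ρ, ee S (cutf pos Φ p (ρ + h)) x :=
    Nice.of_continuous (by fun_prop)
  have n2 := Nice.const (ι := ι) (16 * m ^ 2 * Real.exp (-(2 * μ * h)) * (2 * (ρ : ℝ) + 1) ^ 2)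
  refine (ES_mono hs.symm hg hI (Nice.of_continuous (by fun_prop)) (n1.add n2)
    fun c' hg' => ?_).trans ?_
  · have key : ∀ x ∈ bal pos p ρ, ee (Smat H (U \ bal pos p (ρ - h)) c') φ x ≤
        L ^ 2 * ee (Smat H (U \ bal pos p (ρ - h)) c') (cutf pos Φ p (ρ + h)) x +
          16 * m ^ 2 * Real.exp (-(2 * μ * h)) := fun x hx => by
      have hx1 := mem_bal.1 hx
      have hx2 : x ∈ bal pos p (ρ + h) := mem_bal.2 (by omega)
      refine (rows_ee _ (bal pos p (ρ + h)) (ψ := cutf pos Φ p (ρ + h)) (L := L)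
        (fun y hy => ?_) (hm x)).trans ?_
      · rw [cutf_sub pos Φ p hx2 hy]
        exact hφ x hx2 y hy
      have h2 := leak_out hs hg' p (m := ρ - h + 1) (k := ρ) (n := ρ + h) (by omega) (by omega)
        (fun z z1 z2 => Finset.mem_sdiff.2 ⟨hU (mem_bal.2 z2), fun z3 => by
          have := mem_bal.1 z3
          omega⟩) hx1 (bal pos p (ρ + h))ᶜ fun y hy _ => by
          have := mt mem_bal.2 (Finset.mem_compl.1 hy)
          omega
      rw [add_sub_cancel_left] at h2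
      have h3 := mul_le_mul_of_nonneg_left h2 (sq_nonneg m)
      linarith
    refine (Finset.sum_le_sum key).trans ?_
    rw [Finset.sum_add_distrib, ← Finset.mul_sum, Finset.sum_const, nsmul_eq_mul, mul_comm]
    have h3 := mul_le_mul_of_nonneg_left (card_bal hs.inj p hρ)
      (by positivity : 0 ≤ 16 * m ^ 2 * Real.exp (-(2 * μ * h)))
    linarith
  · rw [ES_add hs.symm _ _ _ n1 n2, ES_const_mul, ES_const]
    have h3 := mul_le_mul_of_nonneg_left (hP p U c Φ hg hU hΦ) (sq_nonneg L)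
    linarith

/-- Close first `innr A \ I_a` (it is disjoint from `bal (ctr a) (ρ+h)` by `rr_ctr`), then `I_a`
(`ES_tower` with a constant). In a good final state the band `rng (ctr a) (ρ-h) (ρ+h)` is still
there, so for `x` in the cell `ee φ x ≤ L² ee (cutf) x + m² pset x (bal (ρ+h))ᶜ` and `leak_out`
(band `[ρ-h+1, ρ+h]`, `k = ρ`). -/
theorem cells (hs : Sys μ H pos) {ρ h : ℤ} {ε : ℝ} (hP : Pcell H pos ρ h ε) (h1 : 1 ≤ h)
    (h4 : 4 * h ≤ 2 * ρ + 1) (hg : Good H U c) (o : ℤ × ℤ) (A : Finset (ℤ × ℤ))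
    (hU : ∀ a ∈ A, bal pos (ctr o ρ a) (ρ + h) ⊆ U) {a : ℤ × ℤ} (ha : a ∈ A) {φ : ι → ℝ}
    {Φ : ℤ × ℤ → ℝ} (hΦ : Lip Φ) {L m : ℝ}
    (hφ : ∀ x ∈ bal pos (ctr o ρ a) (ρ + h), ∀ y ∈ bal pos (ctr o ρ a) (ρ + h),
      φ y - φ x = L * (Φ (pos y) - Φ (pos x)))
    (hm : ∀ x y, |φ y - φ x| ≤ m) :
    ES H U c (innr pos o ρ h A) (fun S => ∑ x ∈ bal pos (ctr o ρ a) ρ, ee S φ x) ≤
      (ε * L ^ 2 + 16 * m ^ 2 * Real.exp (-(2 * μ * h))) * (2 * (ρ : ℝ) + 1) ^ 2 := by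
  have hρ : 0 ≤ ρ := by omega
  have e : innr pos o ρ h A = (innr pos o ρ h A \ bal pos (ctr o ρ a) (ρ - h)) ∪
      bal pos (ctr o ρ a) (ρ - h) :=
    (Finset.sdiff_union_of_subset fun x hx => mem_innr.2 ⟨a, ha, mem_bal.1 hx⟩).symm
  have hR : innr pos o ρ h A \ bal pos (ctr o ρ a) (ρ - h) ⊆ U := fun x hx => by
    obtain ⟨b, hb, hx⟩ := mem_innr.1 (Finset.mem_sdiff.1 hx).1
    exact hU b hb (mem_bal.2 (by omega))
  have hB : bal pos (ctr o ρ a) (ρ + h) ⊆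
      U \ (innr pos o ρ h A \ bal pos (ctr o ρ a) (ρ - h)) := fun x hx => by
    refine Finset.mem_sdiff.2 ⟨hU a ha hx, fun hx' => ?_⟩
    obtain ⟨h2, h3⟩ := Finset.mem_sdiff.1 hx'
    obtain ⟨b, -, h2⟩ := mem_innr.1 h2
    have hab : a ≠ b := fun e => h3 (mem_bal.2 (e ▸ h2))
    have h5 := rr_triangle (ctr o ρ a) (pos x) (ctr o ρ b)
    rw [rr_ctr o hρ, rr_symm (pos x)] at h5
    have h6 := mem_bal.1 hx
    have h7 := mul_le_mul_of_nonneg_left (rr_pos hab) (by omega : 0 ≤ 2 * ρ + 1)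
    omega
  rw [e]
  exact (ES_tower hs.symm hg hR _ (Nice.of_continuous (by fun_prop)) (Nice.const _)
    fun c' hg' => rows_one hs hP h1 hρ hg' _ hB hΦ hφ hm).trans (ES_const _ _ _ _ _).le

end Vale.Agent.P365
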