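import Vale.Agent.P365.RGa
import Vale.Agent.P365.Rows

namespace Vale.Agent.P365

open MeasureTheory ProbabilityTheory Complex Filter
open scoped ComplexConjugate ENNReal

variable {ι : Type} [Fintype ι] [DecidableEq ι]

variable {μ : ℝ} {H : Matrix ι ι ℝ} {pos : ι → ℤ × ℤ} {U : Finset ι} {c : ι → ℝ}

theorem rgb_pert (hs : Sys μ H pos) (hg : Good H U c) (o : ℤ × ℤ) {ρ h : ℤ} (h1 : 1 ≤ h)
    (hρ : 0 ≤ ρ) (hΓ : gam pos o ρ h ⊆ U) {R : Finset ι} (hR : R ⊆ U)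
    (hfar : ∀ y ∈ R, ρ + h < rr o (pos y)) {φ : ι → ℝ} {m : ℝ} (hm : ∀ x, |φ x| ≤ m) :
    ∑ x ∈ bal pos o ρ, ee (Smat H U c) φ x
      - 48 * m ^ 2 * (2 * (ρ : ℝ) + 1) ^ 2 * Real.exp (-(μ * h)) ≤
      ES H U c R (fun S => ∑ x ∈ bal pos o ρ, ee S φ x) := by
  have hE := Real.exp_pos (-(μ * h))
  have hk : ∀ x y, |(φ y - φ x) ^ 2| ≤ 4 * m ^ 2 := by
    intro x y
    have a1 := abs_le.1 (hm x)
    have a2 := abs_le.1 (hm y)
    rw [abs_of_nonneg (sq_nonneg _)]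
    nlinarith [a1.1, a1.2, a2.1, a2.2]
  have hd : Disjoint (bal pos o ρ) R := by
    rw [Finset.disjoint_left]
    intro x hx hx'
    have := hfar x hx'
    have := mem_bal.1 hx
    omega
  have hκ : ∀ x ∈ bal pos o ρ, pset (Smat H U c) x R ≤ (4 * Real.exp (-(μ * h))) ^ 2 := by
    intro x hx
    have := leak_out hs hg o (m := ρ - h + 1) (k := ρ) (n := ρ + h) (by omega) (by omega)
      (fun z a b => hΓ (mem_rng.2 ⟨by omega, b⟩)) (mem_bal.1 hx) R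
      (fun y hy _ => (hfar y hy).le)
    refine this.trans (le_of_eq ?_)
    rw [mul_pow, ← Real.exp_nat_mul]
    push_cast
    congr 1
    · norm_num
    · congr 1; ring
  have hp := pert_kernel hs.symm hg hR (bal pos o ρ) hd (fun x y => (φ y - φ x) ^ 2) hk
    (by positivity) hκ
  have hc := card_bal hs.inj o hρ
  set X : ℝ := ∑ x ∈ bal pos o ρ, ee (Smat H U c) φ x with hX
  have n1 : Nice fun S : Mx ι => ∑ x ∈ bal pos o ρ, ee S φ x :=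
    Nice.of_continuous (by fun_prop)
  have n2 : Nice fun S : Mx ι => |∑ x ∈ bal pos o ρ, ee S φ x - X| :=
    Nice.of_continuous (by fun_prop)
  have hp' : ES H U c R (fun S => |∑ x ∈ bal pos o ρ, ee S φ x - X|) ≤
      3 * (4 * m ^ 2) * ((bal pos o ρ).card : ℝ) * (4 * Real.exp (-(μ * h))) := hp
  have hm1 := ES_mono hs.symm hg hR ((Nice.const X).sub n2) n1 (fun c' _ => by
    have := neg_abs_le (∑ x ∈ bal pos o ρ, ee (Smat H (U \ R) c') φ x - X)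
    linarith)
  rw [ES_sub hs.symm U c R (Nice.const X) n2, ES_const] at hm1
  have hb : 3 * (4 * m ^ 2) * ((bal pos o ρ).card : ℝ) * (4 * Real.exp (-(μ * h))) ≤
      48 * m ^ 2 * (2 * (ρ : ℝ) + 1) ^ 2 * Real.exp (-(μ * h)) := by
    have := mul_le_mul_of_nonneg_left hc (show 0 ≤ 48 * m ^ 2 * Real.exp (-(μ * h)) by positivity)
    nlinarith
  linarith

/-- State 1 to the end. `sum_ee_compl`; `rows_out` for the big cell (`ρ' = 5ρ+2`,
`m = 5ρ+2+h ≤ 3 l`, `2(ρ'+h)+1 ≤ 6 l`, error `48·9·36 l⁴ e^(-μh)`); `ES_tower` over `R2` with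
`rg_two`; `superF` over `R2`; and `ES R2 (Σ_{bal ρ} ee) ≥ Σ_{bal ρ} ee - 3·36 l²·l²·4 e^(-μh)` by
`pert_kernel` (`A = bal ρ`, kernel `(φ y - φ x)² ≤ 36 l²`, `leak_out` through `Γ`: points of `R2`
have `rr > ρ + h`). -/
theorem rg_mid {θ lam Λ : ℝ} (hAT : ATP θ lam Λ) (hθ : 0 < θ) (hlam : 0 ≤ lam) (hlam1 : lam ≤ 1)
    (hΛ : 1 / θ ≤ Λ) (hs : Sys μ H pos) (hg : Good H U c) (o : ℤ × ℤ) {ρ h : ℤ} (h1 : 1 ≤ h)
    (h4 : 4 * h ≤ 2 * ρ + 1) (hΓ : gam pos o ρ h ⊆ U) (hO : oo pos o ρ h ⊆ U)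
    (hD : rng pos o (5 * ρ + 2 - h) (5 * ρ + 2 + h) ⊆ U)
    (hI : ∀ x ∈ bal pos o (ρ - h), x ∉ U) {R2 : Finset ι}
    (hR2 : R2 = (U ∩ bal pos o (5 * ρ + 2 - h)) \ (gam pos o ρ h ∪ oo pos o ρ h))
    {Φ : ℤ × ℤ → ℝ} (hΦ : Lip Φ) :
    ES H U c (R2 ∪ (gam pos o ρ h ∪ oo pos o ρ h))
        (fun S => ∑ x ∈ bal pos o (5 * ρ + 2), ee S (cutf pos Φ o (5 * ρ + 2 + h)) x) ≤
      (∑ x ∈ bal pos o (5 * ρ + 2), ee (Smat H U c) (cutf pos Φ o (5 * ρ + 2 + h)) x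
        - lam * ∑ x ∈ bal pos o ρ, ee (Smat H U c) (cutf pos Φ o (5 * ρ + 2 + h)) x
        + 60000 * (2 * (ρ : ℝ) + 1) ^ 4 * Real.exp (-(μ * h)))
        + ES H U c R2
          (fun S => lam * θ * (36 * (2 * (ρ : ℝ) + 1) ^ 2) * PsiR pos Φ o ρ h S) := by
  have hH := hs.symm
  have hρ : 0 ≤ ρ := by omega
  have hE := Real.exp_pos (-(μ * h))
  set φ := cutf pos Φ o (5 * ρ + 2 + h) with hφ
  set G := gam pos o ρ h ∪ oo pos o ρ h with hG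
  have hGU : G ⊆ U := Finset.union_subset hΓ hO
  have hmem : ∀ x, x ∈ R2 ↔ (x ∈ U ∧ x ∈ bal pos o (5 * ρ + 2 - h)) ∧ x ∉ G := by
    intro x
    rw [hR2, Finset.mem_sdiff, Finset.mem_inter]
  have hR2U : R2 ⊆ U := fun x hx => ((hmem x).1 hx).1.1
  have hRU : R2 ∪ G ⊆ U := Finset.union_subset hR2U hGU
  have hRI : R2 ∪ G ⊆ bal pos o (5 * ρ + 2 - h) := by
    refine Finset.union_subset (fun x hx => ((hmem x).1 hx).1.2) (Finset.union_subset ?_ ?_)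
    · intro x hx
      have := (mem_rng.1 hx).2
      exact mem_bal.2 (by omega)
    · intro x hx
      have := (mem_rng.1 hx).2
      exact mem_bal.2 (by omega)
  have hGR : G ⊆ U \ R2 := fun x hx =>
    Finset.mem_sdiff.2 ⟨hGU hx, fun hx' => ((hmem x).1 hx').2 hx⟩
  have hm : ∀ x, |φ x| ≤ ((5 * ρ + 2 + h : ℤ) : ℝ) := cutf_abs_le pos hΦ o (by omega)
  have hfar : ∀ y ∈ R2, ρ + h < rr o (pos y) := by
    intro y hy
    obtain ⟨⟨a, -⟩, b⟩ := (hmem y).1 hy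
    by_contra hlt
    refine b (Finset.mem_union_left _ (mem_rng.2 ⟨?_, by omega⟩))
    by_contra hle
    exact hI y (mem_bal.2 (by omega)) a
  have nF : Nice fun S : Mx ι => 2 * FF S φ := Nice.of_continuous (by fun_prop)
  have nF1 : Nice fun S : Mx ι => FF S φ := Nice.of_continuous (by fun_prop)
  have nO : Nice fun S : Mx ι => ∑ x ∈ (bal pos o (5 * ρ + 2))ᶜ, ee S φ x :=
    Nice.of_continuous (by fun_prop)
  have nC : Nice fun S : Mx ι => lam * ∑ x ∈ bal pos o ρ, ee S φ x :=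
    Nice.of_continuous (by fun_prop)
  have nP : Nice fun S : Mx ι =>
      lam * θ * (36 * (2 * (ρ : ℝ) + 1) ^ 2) * PsiR pos Φ o ρ h S :=
    (Nice.of_continuous (continuous_PsiR pos Φ o ρ h)).const_mul _
  have e1 : (fun S : Mx ι => ∑ x ∈ bal pos o (5 * ρ + 2), ee S φ x) =
      fun S => 2 * FF S φ - ∑ x ∈ (bal pos o (5 * ρ + 2))ᶜ, ee S φ x :=
    funext fun S => sum_ee_compl S φ _
  have r1 := rows_out hs hg o (ρ := 5 * ρ + 2) h1 (by omega) hD hRU hRI hm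
    (fun x hx => cutf_zero pos Φ o hx)
  have t1 := ES_tower hH hg hR2U G nF (((nF.sub nC).add nP).add
    (Nice.const (40000 * (2 * (ρ : ℝ) + 1) ^ 4 * Real.exp (-(μ * h))))) (fun c' hc' =>
      rg_two hAT hθ hlam hlam1 hΛ hs hc' o h1 h4 (Finset.subset_union_left.trans hGR)
        (Finset.subset_union_right.trans hGR) (fun x hx hx' => by
          by_contra hn
          exact (Finset.mem_sdiff.1 hx).2 ((hmem x).2 ⟨⟨(Finset.mem_sdiff.1 hx).1, hx'⟩, hn⟩)) hΦ)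
  rw [ES_add hH U c R2 ((nF.sub nC).add nP) (Nice.const _), ES_add hH U c R2 (nF.sub nC) nP,
    ES_sub hH U c R2 nF nC, ES_const, ES_const_mul H U c R2 2, ES_const_mul H U c R2 lam] at t1
  have s1 := superF hH hg hR2U φ
  have p1 := rgb_pert hs hg o h1 hρ hΓ hR2U hfar hm
  rw [e1, ES_sub hH U c _ nF nO, sum_ee_compl (Smat H U c) φ (bal pos o (5 * ρ + 2))]
  set l : ℝ := 2 * (ρ : ℝ) + 1 with hl
  set M : ℝ := ((5 * ρ + 2 + h : ℤ) : ℝ) with hM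
  have hM0 : 0 ≤ M := by
    have : (0 : ℤ) ≤ 5 * ρ + 2 + h := by omega
    rw [hM]; exact_mod_cast this
  have hM3 : M ≤ 3 * l := by
    have : 5 * ρ + 2 + h ≤ 3 * (2 * ρ + 1) := by omega
    rw [hM, hl]; exact_mod_cast this
  have hN0 : 0 ≤ 2 * (((5 * ρ + 2 : ℤ) : ℝ) + h) + 1 := by
    have : (0 : ℤ) ≤ 2 * (5 * ρ + 2 + h) + 1 := by omega
    exact_mod_cast this
  have hN6 : 2 * (((5 * ρ + 2 : ℤ) : ℝ) + h) + 1 ≤ 6 * l := by
    have : 2 * (5 * ρ + 2 + h) + 1 ≤ 6 * (2 * ρ + 1) := by omega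
    rw [hl]; exact_mod_cast this
  have b1 : M ^ 2 ≤ 9 * l ^ 2 := by
    have := pow_le_pow_left₀ hM0 hM3 2
    linarith [show (3 * l) ^ 2 = 9 * l ^ 2 by ring]
  have b2 : (2 * (((5 * ρ + 2 : ℤ) : ℝ) + h) + 1) ^ 2 ≤ 36 * l ^ 2 := by
    have := pow_le_pow_left₀ hN0 hN6 2
    linarith [show (6 * l) ^ 2 = 36 * l ^ 2 by ring]
  have b3 : 48 * M ^ 2 * (2 * (((5 * ρ + 2 : ℤ) : ℝ) + h) + 1) ^ 2 * Real.exp (-(μ * h)) ≤
      15552 * (l ^ 4 * Real.exp (-(μ * h))) := by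
    have := mul_le_mul b1 b2 (sq_nonneg _) (by positivity)
    have := mul_le_mul_of_nonneg_right this hE.le
    nlinarith
  have b4 : 48 * M ^ 2 * l ^ 2 * Real.exp (-(μ * h)) ≤ 432 * (l ^ 4 * Real.exp (-(μ * h))) := by
    have := mul_le_mul_of_nonneg_right b1
      (show 0 ≤ l ^ 2 * Real.exp (-(μ * h)) by positivity)
    nlinarith
  have b5 : 0 ≤ l ^ 4 * Real.exp (-(μ * h)) := by positivity
  have p2 : ∑ x ∈ bal pos o ρ, ee (Smat H U c) φ x - 432 * (l ^ 4 * Real.exp (-(μ * h))) ≤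
      ES H U c R2 (fun S => ∑ x ∈ bal pos o ρ, ee S φ x) := by linarith
  have p3 := mul_le_mul_of_nonneg_left p2 hlam
  have p4 : lam * (432 * (l ^ 4 * Real.exp (-(μ * h)))) ≤ 432 * (l ^ 4 * Real.exp (-(μ * h))) :=
    mul_le_of_le_one_left (by positivity) hlam1
  rw [mul_sub] at p3
  linarith

end Vale.Agent.P365
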