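import Vale.Agent.P365.NabC
import Vale.Agent.P365.Ann

namespace Vale.Agent.P365

open MeasureTheory ProbabilityTheory Complex Filter
open scoped ComplexConjugate ENNReal

variable {ι : Type} [Fintype ι] [DecidableEq ι]

variable {μ : ℝ} {H : Matrix ι ι ℝ} {pos : ι → ℤ × ℤ} {U : Finset ι} {c : ι → ℝ}

theorem rec1_sixteen : (16 : ℝ) ^ (1 / 4 : ℝ) = 2 := by
  rw [show (16 : ℝ) = 2 ^ (4 : ℝ) by norm_num, ← Real.rpow_mul (by norm_num)]
  norm_num

theorem rec1_split {s A B : ℝ} (hs : 0 ≤ s) (hA : 0 ≤ A) (hB : 0 ≤ B) (h : s ≤ 2 * A + 2 * B) :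
    s ^ (1 / 4 : ℝ) ≤ 2 * A ^ (1 / 4 : ℝ) + 2 * B ^ (1 / 4 : ℝ) := by
  calc s ^ (1 / 4 : ℝ) ≤ (16 * A + 16 * B) ^ (1 / 4 : ℝ) :=
        Real.rpow_le_rpow hs (by linarith) (by norm_num)
    _ ≤ (16 * A) ^ (1 / 4 : ℝ) + (16 * B) ^ (1 / 4 : ℝ) :=
        Real.rpow_add_le_add_rpow (by positivity) (by positivity) (by norm_num) (by norm_num)
    _ = 2 * A ^ (1 / 4 : ℝ) + 2 * B ^ (1 / 4 : ℝ) := by
        rw [Real.mul_rpow (by norm_num) hA, Real.mul_rpow (by norm_num) hB, rec1_sixteen]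

omit [Fintype ι] [DecidableEq ι] in
theorem rec1_cont {Φ : Mx ι → ℝ} (h : Continuous Φ) :
    Continuous fun S => Φ S ^ (1 / 4 : ℝ) :=
  h.rpow_const fun _ => Or.inr (by norm_num)

theorem rec1_norm (a b : ℂ) : ‖a‖ ^ 2 ≤ 2 * ‖a - b‖ ^ 2 + 2 * ‖b‖ ^ 2 := by
  have h : ‖a‖ ≤ ‖a - b‖ + ‖b‖ := by simpa using norm_add_le (a - b) b
  have h2 : ‖a‖ ^ 2 ≤ (‖a - b‖ + ‖b‖) ^ 2 := pow_le_pow_left₀ (norm_nonneg _) h 2
  nlinarith [sq_nonneg (‖a - b‖ - ‖b‖)]

/-- closing a ring `D` when the remaining probes are `x` and points of `O` -/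
theorem rec1_close (hH : H.IsSymm) (hg : Good H U c) {D O B : Finset ι} (hD : D ⊆ U) {x : ι}
    (hx : x ∈ U) (hxD : x ∉ D) (hO : Disjoint D O) (hB : D ⊆ B)
    (hrest : ∀ y ∈ U, y ∉ D → y ≠ x → y ∈ O) :
    ES H U c D (fun S => sv S x ^ (1 / 4 : ℝ)) ≤
      20 * (sv (Smat H U c) x * ∑ u ∈ B, pset (Smat H U c) u O) ^ (1 / 4 : ℝ) +
        2 * pset (Smat H U c) x O ^ (1 / 4 : ℝ) := by
  have hc : Continuous fun S : Mx ι => (∑ y ∈ O, ‖S x y - Smat H U c x y‖ ^ 2) ^ (1 / 4 : ℝ) :=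
    rec1_cont (by fun_prop)
  have n1 : Nice fun S : Mx ι =>
      2 * (∑ y ∈ O, ‖S x y - Smat H U c x y‖ ^ 2) ^ (1 / 4 : ℝ) :=
    Nice.const_mul 2 (Nice.of_continuous hc)
  have h1 : ES H U c D (fun S => sv S x ^ (1 / 4 : ℝ)) ≤
      ES H U c D (fun S => 2 * (∑ y ∈ O, ‖S x y - Smat H U c x y‖ ^ 2) ^ (1 / 4 : ℝ) +
        2 * pset (Smat H U c) x O ^ (1 / 4 : ℝ)) := by
    refine ES_mono hH hg hD (Nice.of_continuous (rec1_cont (continuous_sv x)))
      (n1.add (Nice.const _)) fun c' _ => ?_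
    have hS := Smat_US hH (U \ D) c'
    refine rec1_split (sv_nonneg _ _) (Finset.sum_nonneg fun _ _ => by positivity)
      (pset_nonneg _ _ _) ?_
    have e1 : sv (Smat H (U \ D) c') x ≤ ∑ y ∈ O, pp (Smat H (U \ D) c') x y := by
      unfold sv
      rw [← Finset.sum_filter_ne_zero]
      refine Finset.sum_le_sum_of_subset_of_nonneg (fun y hy' => ?_) fun _ _ _ => pp_nonneg _ _ _
      obtain ⟨hy, hne⟩ := Finset.mem_filter.1 hy'
      by_contra hyO
      refine hne (pp_zero_right hS x fun hyU => hyO ?_)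
      exact hrest y (Finset.mem_sdiff.1 hyU).1 (Finset.mem_sdiff.1 hyU).2
        (Finset.ne_of_mem_erase hy)
    refine e1.trans ?_
    unfold pset pp
    rw [Finset.mul_sum, Finset.mul_sum, ← Finset.sum_add_distrib]
    exact Finset.sum_le_sum fun y _ => rec1_norm _ _
  rw [ES_add hH U c D n1 (Nice.const _), ES_const_mul, ES_const] at h1
  have h2 := nab hH hg hD hx hxD hO
  have h3 : (pset (Smat H U c) x D * ∑ u ∈ D, pset (Smat H U c) u O) ^ (1 / 4 : ℝ) ≤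
      (sv (Smat H U c) x * ∑ u ∈ B, pset (Smat H U c) u O) ^ (1 / 4 : ℝ) := by
    have p0 : 0 ≤ ∑ u ∈ D, pset (Smat H U c) u O :=
      Finset.sum_nonneg fun _ _ => pset_nonneg _ _ _
    refine Real.rpow_le_rpow (mul_nonneg (pset_nonneg _ _ _) p0) ?_ (by norm_num)
    exact mul_le_mul (pset_le_sv _ hxD)
      (Finset.sum_le_sum_of_subset_of_nonneg hB fun _ _ _ => pset_nonneg _ _ _) p0
      (sv_nonneg _ _)
  linarith

/-- `G = rng (2R) (5R-1)`, `D = rng (R-1) (2R)`, `O = (bal (5R-1))ᶜ`, the closed set is `G ∪ D`.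
`ES_tower`: from a good state `S*` on `U \ G`, after closing `D` the probes are `{x} ∪ O`, so
`sv S x = Σ_O ‖S x y‖²` and `(Σ_O ‖S‖²)^(1/4) ≤ (Σ_O ‖S - S*‖²)^(1/4) + (Σ_O ‖S*‖²)^(1/4)`
(Minkowski, or with a factor: `‖a+b‖² ≤ 2‖a‖² + 2‖b‖²` costs `2^(1/4) ≤ 2`, which the constants
allow). `nab`; `leak_out` (band `[R, 2R]`, `k = R`) gives `(16 e^(-2μR))^(1/4) = 2 e^(-μR/2)`.
Then `pset x D ≤ sv x`, `ES_holder`, `superF` with `ind {x}` (`FF_ind_single`), and `hT`. -/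
theorem rec_step (hs : Sys μ H pos) (hg : Good H U c) (x : ι) {R : ℤ} (hR : 1 ≤ R)
    (hU : ∀ z, z ∈ U ↔ z = x ∨ R ≤ rr (pos x) (pos z)) {θ0 : ℝ} (hθ : 0 ≤ θ0)
    (hT : ES H U c (rng pos (pos x) (2 * R) (5 * R - 1))
      (fun S => ∑ z ∈ bal pos (pos x) (2 * R), pset S z (bal pos (pos x) (5 * R - 1))ᶜ) ≤ θ0) :
    ES H U c (rng pos (pos x) (R - 1) (5 * R - 1)) (fun S => sv S x ^ (1 / 4 : ℝ)) ≤
      20 * θ0 ^ (1 / 4 : ℝ) * sv (Smat H U c) x ^ (1 / 4 : ℝ)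
        + 4 * Real.exp (-(μ * R / 2)) := by
  have hH := hs.symm
  have hx0 : rr (pos x) (pos x) = 0 := rr_self _
  have hGD : rng pos (pos x) (R - 1) (5 * R - 1) =
      rng pos (pos x) (2 * R) (5 * R - 1) ∪ rng pos (pos x) (R - 1) (2 * R) := by
    ext z
    simp only [Finset.mem_union, mem_rng]
    omega
  have hG : rng pos (pos x) (2 * R) (5 * R - 1) ⊆ U := fun z hz => by
    rw [mem_rng] at hz
    exact (hU z).2 (Or.inr (by omega))
  have cT : Continuous fun S : Mx ι =>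
      ∑ z ∈ bal pos (pos x) (2 * R), pset S z (bal pos (pos x) (5 * R - 1))ᶜ := by fun_prop
  have n1 : Nice fun S : Mx ι => 20 * (sv S x *
      ∑ z ∈ bal pos (pos x) (2 * R), pset S z (bal pos (pos x) (5 * R - 1))ᶜ) ^ (1 / 4 : ℝ) :=
    Nice.const_mul 20 (Nice.of_continuous (rec1_cont ((continuous_sv x).mul cT)))
  have h1 : ES H U c (rng pos (pos x) (R - 1) (5 * R - 1)) (fun S => sv S x ^ (1 / 4 : ℝ)) ≤
      ES H U c (rng pos (pos x) (2 * R) (5 * R - 1)) (fun S => 20 * (sv S x *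
        ∑ z ∈ bal pos (pos x) (2 * R), pset S z (bal pos (pos x) (5 * R - 1))ᶜ) ^ (1 / 4 : ℝ)
          + 4 * Real.exp (-(μ * R / 2))) := by
    rw [hGD]
    refine ES_tower hH hg hG _ (Nice.of_continuous (rec1_cont (continuous_sv x)))
      (n1.add (Nice.const _)) fun c' hg' => ?_
    have hmem : ∀ z, z ∈ U \ rng pos (pos x) (2 * R) (5 * R - 1) ↔
        (z = x ∨ R ≤ rr (pos x) (pos z)) ∧
          ¬(2 * R < rr (pos x) (pos z) ∧ rr (pos x) (pos z) ≤ 5 * R - 1) := fun z => by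
      rw [Finset.mem_sdiff, hU, mem_rng]
    have h2 := rec1_close (D := rng pos (pos x) (R - 1) (2 * R))
      (O := (bal pos (pos x) (5 * R - 1))ᶜ) (B := bal pos (pos x) (2 * R)) (x := x) hH hg'
      (fun z hz => by
        rw [mem_rng] at hz
        exact (hmem z).2 ⟨Or.inr (by omega), by omega⟩)
      ((hmem x).2 ⟨Or.inl rfl, by omega⟩) (by rw [mem_rng]; omega)
      (Finset.disjoint_left.2 fun z hz hz' => by
        rw [mem_rng] at hz
        rw [Finset.mem_compl, mem_bal] at hz'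
        omega)
      (fun z hz => by
        rw [mem_rng] at hz
        exact mem_bal.2 hz.2)
      (fun y hy hyD hyx => by
        rw [hmem] at hy
        rw [mem_rng] at hyD
        rw [Finset.mem_compl, mem_bal]
        rcases hy.1 with h | h
        · exact absurd h hyx
        · have := hy.2
          omega)
    have h3 := leak_out hs hg' (pos x) (m := R) (k := R) (n := 2 * R) le_rfl (by omega)
      (fun z h h' => (hmem z).2 ⟨Or.inr h, by omega⟩) (x := x) (by omega)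
      (bal pos (pos x) (5 * R - 1))ᶜ (fun y hy _ => by
        rw [Finset.mem_compl, mem_bal] at hy
        omega)
    have h4 := Real.rpow_le_rpow (pset_nonneg _ _ _) h3 (by norm_num : (0 : ℝ) ≤ 1 / 4)
    rw [Real.mul_rpow (by norm_num) (Real.exp_pos _).le, rec1_sixteen, ← Real.exp_mul,
      show -(2 * μ * ((2 * R - R : ℤ) : ℝ)) * (1 / 4) = -(μ * R / 2) by push_cast; ring] at h4
    linarith
  rw [ES_add hH U c _ n1 (Nice.const _), ES_const_mul, ES_const] at h1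
  have h5 := ES_holder hH U c (rng pos (pos x) (2 * R) (5 * R - 1)) (continuous_sv x) cT
    (fun S => sv_nonneg S x) fun S => Finset.sum_nonneg fun _ _ => pset_nonneg _ _ _
  have h6 : ES H U c (rng pos (pos x) (2 * R) (5 * R - 1)) (fun S => sv S x) ≤
      sv (Smat H U c) x := by
    have h7 := superF hH hg hG (ind {x})
    rw [FF_ind_single (Smat_US hH U c)] at h7
    refine le_trans (ES_mono hH hg hG (Nice.of_continuous (continuous_sv x))
      (Nice.of_continuous (continuous_FF _)) fun c' _ => ?_) h7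
    rw [FF_ind_single (Smat_US hH _ c')]
  have p1 : 0 ≤ ES H U c (rng pos (pos x) (2 * R) (5 * R - 1)) (fun S => sv S x) :=
    ES_nonneg _ _ _ _ fun S => sv_nonneg S x
  have p2 : 0 ≤ ES H U c (rng pos (pos x) (2 * R) (5 * R - 1))
      (fun S => ∑ z ∈ bal pos (pos x) (2 * R), pset S z (bal pos (pos x) (5 * R - 1))ᶜ) :=
    ES_nonneg _ _ _ _ fun S => Finset.sum_nonneg fun _ _ => pset_nonneg _ _ _
  have h8 := Real.rpow_le_rpow (mul_nonneg p1 p2) (mul_le_mul h6 hT p2 (sv_nonneg _ _))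
    (by norm_num : (0 : ℝ) ≤ 1 / 4)
  rw [Real.mul_rpow (sv_nonneg _ _) hθ] at h8
  nlinarith [h5.trans h8]

end Vale.Agent.P365
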