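import Vale.Agent.P365.Reg0

namespace Vale.Agent.P365

open MeasureTheory ProbabilityTheory Complex Filter
open scoped ComplexConjugate ENNReal

variable {ι : Type} [Fintype ι] [DecidableEq ι]

variable {A : Matrix ι ι ℝ} {v : ι → ι → ℝ} {lam : ι → ℝ}

theorem reg_sub (f : ℝ → ℝ≥0∞) (hf : Measurable f) (a : ℝ) {n : ℝ} (hn : 0 < n) :
    ∫⁻ E, f E = ∫⁻ u, ENNReal.ofReal n⁻¹ * f (a + u / n) := by
  have h1 : Measurable fun u : ℝ => f (a + u / n) := hf.comp (by fun_prop)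
  have h2 : Measurable fun u : ℝ => f (a + u) := hf.comp (by fun_prop)
  rw [lintegral_const_mul _ h1, ← lintegral_add_left_eq_self f a]
  conv_lhs => rw [← Real.smul_map_volume_mul_left (inv_pos.2 hn).ne']
  rw [lintegral_smul_measure, lintegral_map h2 (by fun_prop), abs_of_pos (inv_pos.2 hn),
    smul_eq_mul]
  simp only [div_eq_inv_mul]

theorem reg_poisson {q : ℝ} (hq : 0 ≤ q) :
    ∫⁻ u : ℝ, ENNReal.ofReal (q * (Real.pi⁻¹ * (1 + u ^ 2)⁻¹)) = ENNReal.ofReal q := by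
  rw [← ofReal_integral_eq_lintegral_ofReal
    ((integrable_inv_one_add_sq.const_mul _).const_mul _)
    (Eventually.of_forall fun u => by positivity), integral_const_mul, integral_const_mul,
    integral_univ_inv_one_add_sq, inv_mul_cancel₀ Real.pi_pos.ne', mul_one]

theorem reg_z (E : ℝ) (m : ℕ) : ((E : ℂ) + I / ((m : ℂ) + 1)).re = E ∧
    ((E : ℂ) + I / ((m : ℂ) + 1)).im = ((m : ℝ) + 1)⁻¹ := by
  have : I / ((m : ℂ) + 1) = ((((m : ℝ) + 1)⁻¹ : ℝ) : ℂ) * I := by
    push_cast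
    ring
  rw [this]
  constructor
  · simp only [add_re, ofReal_re, mul_re, I_re, I_im, ofReal_im]
    ring
  · simp only [add_im, ofReal_re, mul_im, I_re, I_im, ofReal_im]
    ring

theorem reg_im {H : Matrix ι ι ℝ} {c : ι → ℝ} (h : Eig (H + Matrix.diagonal c) v lam) {z : ℂ}
    (hz : 0 < z.im) (x : ι) :
    (Gz H c z x x).im = ∑ k, v k x ^ 2 * (z.im / ((lam k - z.re) ^ 2 + z.im ^ 2)) := by
  rw [Gz_eig h hz, im_sum]
  refine Finset.sum_congr rfl fun k _ => ?_
  rw [div_im, normSq_apply]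
  simp only [ofReal_im, ofReal_re, sub_re, sub_im]
  ring

/-- `im Gz x x / π = Σ_k (v k x)² η / (π ((lam k - E)² + η²))`, `η = 1/(m+1)`. For each `k` with
`|lam k| < T` substitute `E = lam k + η u` (`lintegral` under an affine map), the kernel becomes
`1/(π (1+u²))`; Fatou in `m` (`lintegral_liminf_le`), `ratio_tendsto`, and superadditivity of
`liminf` over the finite sums (or: for each `k, y` and each `a` below the limit value the term is
eventually above `a`). -/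
theorem reg {H : Matrix ι ι ℝ} {c : ι → ℝ} (h : Eig (H + Matrix.diagonal c) v lam)
    (w : ι → ℝ) (hw : ∀ y, 0 ≤ w y) (x : ι) (T : ℝ) :
    ENNReal.ofReal (Qeig v lam w x T) ≤ Qhat H w x T c := by
  classical
  have hn : ∀ m : ℕ, (0 : ℝ) < (m : ℝ) + 1 := fun m => by positivity
  have him : ∀ (m : ℕ) (E : ℝ), 0 < ((E : ℂ) + I / ((m : ℂ) + 1)).im := fun m E => by
    rw [(reg_z E m).2]
    exact inv_pos.2 (hn m)
  obtain ⟨R, hR⟩ : ∃ R : ℕ → ℝ → ℝ, ∀ m E, R m E = ∑ y, w y *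
      ‖Gz H c ((E : ℂ) + I / ((m : ℂ) + 1)) y x / Gz H c ((E : ℂ) + I / ((m : ℂ) + 1)) x x‖ ^
        (1 / 2 : ℝ) := ⟨_, fun _ _ => rfl⟩
  have R0 : ∀ m E, 0 ≤ R m E := fun m E => by
    rw [hR]
    exact Finset.sum_nonneg fun y _ => mul_nonneg (hw y) (by positivity)
  have Rm : ∀ m, Measurable (R m) := fun m => by
    rw [show R m = _ from funext (hR m)]
    simp only [fun (E : ℝ) y => Gz_eig h (him m E) y x]
    fun_prop
  obtain ⟨P, hP⟩ : ∃ P : ι → ℕ → ℝ → ℝ, ∀ k m E, P k m E = v k x ^ 2 * R m E *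
      (Real.pi⁻¹ * (((m : ℝ) + 1)⁻¹ / ((lam k - E) ^ 2 + ((m : ℝ) + 1)⁻¹ ^ 2))) :=
    ⟨_, fun _ _ _ => rfl⟩
  have P0 : ∀ k m E, 0 ≤ P k m E := fun k m E => by
    have := R0 m E
    rw [hP]
    positivity
  have Pm : ∀ k m, Measurable ((Set.Ioo (-T) T).indicator fun E => ENNReal.ofReal (P k m E)) :=
    fun k m => by
      refine Measurable.indicator (Measurable.ennreal_ofReal ?_) measurableSet_Ioo
      have := Rm m
      rw [show P k m = _ from funext (hP k m)]
      fun_prop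
  obtain ⟨q, hq⟩ : ∃ q : ι → ℝ, ∀ k, q k = v k x ^ 2 *
      ∑ y, w y * |prj v lam (lam k) y x / prj v lam (lam k) x x| ^ (1 / 2 : ℝ) :=
    ⟨_, fun _ => rfl⟩
  have q0 : ∀ k, 0 ≤ q k := fun k => by
    rw [hq]
    exact mul_nonneg (sq_nonneg _) (Finset.sum_nonneg fun y _ => mul_nonneg (hw y) (by positivity))
  obtain ⟨K, hK⟩ : ∃ K : Finset ι, K = Finset.univ.filter fun k => |lam k| < T ∧ v k x ≠ 0 :=
    ⟨_, rfl⟩
  have hQ : Qeig v lam w x T = ∑ k ∈ K, q k := by
    rw [hK, Finset.sum_filter, Qeig]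
    refine Finset.sum_congr rfl fun k _ => ?_
    rw [← hq]
    by_cases h1 : v k x = 0
    · simp [hq, h1]
    · simp [h1]
  have hcor : ∀ (m : ℕ) (E : ℝ), ∑ k ∈ K, ENNReal.ofReal (P k m E) ≤
      cor H w x c ((E : ℂ) + I / ((m : ℂ) + 1)) := fun m E => by
    have h0 : 0 ≤ (Gz H c ((E : ℂ) + I / ((m : ℂ) + 1)) x x).im := by
      have := him m E
      rw [reg_im h this]
      exact Finset.sum_nonneg fun k _ => by positivity
    rw [cor, ← ENNReal.ofReal_sum_of_nonneg fun y _ =>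
      mul_nonneg (mul_nonneg (hw y) (by positivity)) (div_nonneg h0 Real.pi_pos.le),
      ← ENNReal.ofReal_sum_of_nonneg fun k _ => P0 k m E, ← Finset.sum_mul, ← hR,
      reg_im h (him m E), (reg_z E m).1, (reg_z E m).2]
    refine ENNReal.ofReal_le_ofReal ((Finset.sum_le_sum_of_subset_of_nonneg
      (Finset.subset_univ K) fun k _ _ => P0 k m E).trans (le_of_eq ?_))
    rw [Finset.sum_div, Finset.mul_sum]
    refine Finset.sum_congr rfl fun k _ => ?_
    rw [hP]
    ring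
  obtain ⟨g, hg⟩ : ∃ g : ι → ℕ → ℝ → ℝ≥0∞, ∀ k m u, g k m u = ENNReal.ofReal ((m : ℝ) + 1)⁻¹ *
      (Set.Ioo (-T) T).indicator (fun E => ENNReal.ofReal (P k m E)) (lam k + u / ((m : ℝ) + 1)) :=
    ⟨_, fun _ _ _ => rfl⟩
  have gm : ∀ k m, Measurable (g k m) := fun k m => by
    rw [show g k m = _ from funext (hg k m)]
    exact ((Pm k m).comp (by fun_prop)).const_mul _
  have hle : ∀ m : ℕ, ∫⁻ u, ∑ k ∈ K, g k m u ≤
      ∫⁻ E in Set.Ioo (-T) T, cor H w x c ((E : ℂ) + I / ((m : ℂ) + 1)) := fun m => by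
    rw [lintegral_finsetSum _ fun k _ => gm k m]
    simp only [hg]
    rw [Finset.sum_congr rfl fun k _ => (reg_sub _ (Pm k m) (lam k) (hn m)).symm,
      ← lintegral_finsetSum _ fun k _ => Pm k m, ← lintegral_indicator measurableSet_Ioo]
    refine lintegral_mono fun E => ?_
    by_cases hE : E ∈ Set.Ioo (-T) T
    · simp only [Set.indicator_of_mem hE]
      exact hcor m E
    · simp [Set.indicator_of_notMem hE]
  have hlim : ∀ u : ℝ, Tendsto (fun m => ∑ k ∈ K, g k m u) atTop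
      (nhds (∑ k ∈ K, ENNReal.ofReal (q k * (Real.pi⁻¹ * (1 + u ^ 2)⁻¹)))) := fun u => by
    refine tendsto_finsetSum _ fun k hk => ?_
    rw [hK, Finset.mem_filter] at hk
    have l1 : Tendsto (fun m : ℕ => lam k + u / ((m : ℝ) + 1)) atTop (nhds (lam k)) := by
      have := ((tendsto_one_div_add_atTop_nhds_zero_nat (𝕜 := ℝ)).const_mul u).const_add (lam k)
      rw [mul_zero, add_zero] at this
      exact this.congr fun m => by rw [mul_one_div]
    have l2 : Tendsto (fun m : ℕ => v k x ^ 2 * R m (lam k + u / ((m : ℝ) + 1)) *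
        (Real.pi⁻¹ * (1 + u ^ 2)⁻¹)) atTop (nhds (q k * (Real.pi⁻¹ * (1 + u ^ 2)⁻¹))) := by
      rw [hq]
      simp only [hR]
      exact ((tendsto_finsetSum _ fun y _ => ((ratio_tendsto h hk.2.2 y u).rpow_const
        (Or.inr (by norm_num))).const_mul (w y)).const_mul _).mul_const _
    refine (ENNReal.tendsto_ofReal l2).congr' ?_
    filter_upwards [l1.eventually (Ioo_mem_nhds (abs_lt.1 hk.2.1).1 (abs_lt.1 hk.2.1).2)]
      with m hm
    rw [hg, Set.indicator_of_mem (Set.mem_Ioo.2 hm), ← ENNReal.ofReal_mul (inv_pos.2 (hn m)).le, hP]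
    congr 1
    have := hn m
    have := Real.pi_pos
    field_simp
    ring
  calc ENNReal.ofReal (Qeig v lam w x T)
      = ∫⁻ u : ℝ, ∑ k ∈ K, ENNReal.ofReal (q k * (Real.pi⁻¹ * (1 + u ^ 2)⁻¹)) := by
        rw [lintegral_finsetSum _ fun k _ => by fun_prop, hQ,
          ENNReal.ofReal_sum_of_nonneg fun k _ => q0 k]
        exact Finset.sum_congr rfl fun k _ => (reg_poisson (q0 k)).symm
    _ = ∫⁻ u : ℝ, liminf (fun m => ∑ k ∈ K, g k m u) atTop :=
        lintegral_congr fun u => (hlim u).liminf_eq.symm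
    _ ≤ liminf (fun m => ∫⁻ u, ∑ k ∈ K, g k m u) atTop :=
        lintegral_liminf_le fun m => Finset.measurable_sum _ fun k _ => gm k m
    _ ≤ Qhat H w x T c := liminf_le_liminf (Eventually.of_forall hle)

end Vale.Agent.P365
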