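import Vale.Agent.P365.Defs

namespace Vale.Agent.P365

open MeasureTheory ProbabilityTheory Complex Filter
open scoped ComplexConjugate ENNReal

variable {ι : Type} [Fintype ι] [DecidableEq ι]

variable {A : Matrix ι ι ℝ} {v : ι → ι → ℝ} {lam : ι → ℝ}

/-- `Matrix.IsHermitian.eigenvectorBasis` over the reals (`v k = eigenvectorBasis k`). -/
theorem exists_eig (hA : A.IsSymm) : ∃ (v : ι → ι → ℝ) (lam : ι → ℝ), Eig A v lam := by
  have hH : A.IsHermitian := by
    rw [Matrix.IsHermitian, Matrix.conjTranspose_eq_transpose_of_trivial]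
    exact hA
  refine ⟨fun k y => hH.eigenvectorUnitary y k, hH.eigenvalues, fun k k' => ?_, fun x y => ?_,
    fun k x => congrFun (hH.mulVec_eigenvectorBasis k) x⟩
  · have := congrFun (congrFun (Unitary.coe_star_mul_self hH.eigenvectorUnitary) k) k'
    simpa [Matrix.mul_apply, Matrix.one_apply] using this
  · have := congrFun (congrFun (Unitary.coe_mul_star_self hH.eigenvectorUnitary) x) y
    simpa [Matrix.mul_apply, Matrix.one_apply] using this

/-- Check that the right side is a right inverse of `Kgen`. -/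
theorem Gz_eig {H : Matrix ι ι ℝ} {c : ι → ℝ} (h : Eig (H + Matrix.diagonal c) v lam) {z : ℂ}
    (hz : 0 < z.im) (y x : ι) :
    Gz H c z y x = ∑ k, ((v k y * v k x : ℝ) : ℂ) / ((lam k : ℂ) - z) := by
  have hne : ∀ k, (lam k : ℂ) - z ≠ 0 := fun k e => by
    have := congrArg Complex.im e
    simp at this
    exact hz.ne' this
  have hK : ∀ k y, ∑ w, Kgen H (fun x => (c x : ℂ) - z) y w * (v k w : ℂ) =
      ((lam k : ℂ) - z) * v k y := fun k y => by
    have h1 := congrArg (fun r : ℝ => (r : ℂ)) (h.eig k y)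
    simp only [Matrix.add_apply, add_mul, Finset.sum_add_distrib, Matrix.diagonal_apply, ite_mul,
      zero_mul, Finset.sum_ite_eq, Finset.mem_univ, if_true] at h1
    push_cast at h1
    simp only [Kgen, Matrix.add_apply, add_mul, Finset.sum_add_distrib, Matrix.diagonal_apply,
      ite_mul, zero_mul, Finset.sum_ite_eq, Finset.mem_univ, if_true, Matrix.map_apply]
    linear_combination h1
  have key : Kgen H (fun x => (c x : ℂ) - z) *
      (Matrix.of fun y x => ∑ k, ((v k y * v k x : ℝ) : ℂ) / ((lam k : ℂ) - z)) = 1 := by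
    ext y x
    have e : ∀ k, ∑ w, Kgen H (fun x => (c x : ℂ) - z) y w *
        (((v k w * v k x : ℝ) : ℂ) / ((lam k : ℂ) - z)) = ((v k y * v k x : ℝ) : ℂ) := fun k => by
      simp_rw [ofReal_mul, mul_div_assoc, ← mul_assoc]
      rw [← Finset.sum_mul, hK]
      field_simp [hne k]
    simp_rw [Matrix.mul_apply, Matrix.of_apply, Finset.mul_sum]
    rw [Finset.sum_comm]
    simp_rw [e]
    rw [← ofReal_sum, h.comp, Matrix.one_apply]
    split_ifs <;> simp
  rw [Gz, Matrix.inv_eq_right_inv key, Matrix.of_apply]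

/-- Multiply numerator and denominator by `E - z`; both converge, to `prj E y x` and to
`prj E x x ≥ (v k x)² > 0`. -/
theorem ratio_tendsto {H : Matrix ι ι ℝ} {c : ι → ℝ} (h : Eig (H + Matrix.diagonal c) v lam)
    {k x : ι} (hk : v k x ≠ 0) (y : ι) (u : ℝ) :
    Tendsto (fun m : ℕ =>
      ‖Gz H c (((lam k + u / ((m : ℝ) + 1) : ℝ) : ℂ) + I / ((m : ℂ) + 1)) y x /
        Gz H c (((lam k + u / ((m : ℝ) + 1) : ℝ) : ℂ) + I / ((m : ℂ) + 1)) x x‖) atTop
      (nhds |prj v lam (lam k) y x / prj v lam (lam k) x x|) := by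
  obtain ⟨z, hz⟩ : ∃ z : ℕ → ℂ, ∀ m : ℕ,
      z m = ((lam k + u / ((m : ℝ) + 1) : ℝ) : ℂ) + I / ((m : ℂ) + 1) := ⟨_, fun _ => rfl⟩
  simp_rw [← hz]
  have e1 : ∀ m : ℕ, z m = lam k + ((u : ℂ) + I) * ((1 / ((m : ℝ) + 1) : ℝ) : ℂ) := fun m => by
    rw [hz]
    push_cast
    ring
  have him : ∀ m, 0 < (z m).im := fun m => by
    rw [e1]
    simp only [add_im, ofReal_im, mul_im, add_re, ofReal_re, I_re, I_im]
    have : (0 : ℝ) < 1 / ((m : ℝ) + 1) := Nat.one_div_pos_of_nat
    linarith
  have hne : ∀ m, (lam k : ℂ) - z m ≠ 0 := fun m e => by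
    have := congrArg Complex.im e
    simp at this
    exact (him m).ne' this
  have lz : Tendsto z atTop (nhds (lam k : ℂ)) := by
    have h1 := ((continuous_ofReal.tendsto 0).comp
      (tendsto_one_div_add_atTop_nhds_zero_nat (𝕜 := ℝ))).const_mul ((u : ℂ) + I)
    have h2 := h1.const_add (lam k : ℂ)
    rw [ofReal_zero, mul_zero, add_zero] at h2
    exact h2.congr fun m => (e1 m).symm
  have key : ∀ y, Tendsto (fun m => ((lam k : ℂ) - z m) * Gz H c (z m) y x) atTop
      (nhds ((prj v lam (lam k) y x : ℝ) : ℂ)) := fun y => by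
    simp_rw [fun m => Gz_eig h (him m) y x, Finset.mul_sum]
    rw [prj, ofReal_sum]
    refine tendsto_finsetSum _ fun j _ => ?_
    split_ifs with e
    · refine tendsto_const_nhds.congr fun m => ?_
      rw [e, mul_div_cancel₀ _ (hne m)]
    · have h1 := (lz.const_sub (lam k : ℂ)).mul ((tendsto_const_nhds
        (x := ((v j y * v j x : ℝ) : ℂ))).div (lz.const_sub (lam j : ℂ))
        (sub_ne_zero.2 fun e' => e (ofReal_injective e')))
      rwa [sub_self, zero_mul] at h1
  have hp : 0 < prj v lam (lam k) x x := by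
    have := Finset.single_le_sum (f := fun j => if lam j = lam k then v j x * v j x else 0)
      (fun j _ => by
        split_ifs
        · exact mul_self_nonneg _
        · exact le_rfl) (Finset.mem_univ k)
    rw [if_pos rfl] at this
    exact (mul_self_pos.2 hk).trans_le this
  have h1 := ((key y).div (key x) (ofReal_ne_zero.2 hp.ne')).norm
  rw [← ofReal_div, norm_real, Real.norm_eq_abs] at h1
  refine h1.congr fun m => ?_
  rw [Pi.div_apply, mul_div_mul_left _ _ (hne m)]

end Vale.Agent.P365
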