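import Vale.Agent.P365.Step1
import Vale.Agent.P365.Em

namespace Vale.Agent.P365

open MeasureTheory ProbabilityTheory Complex Filter
open scoped ComplexConjugate ENNReal

variable {ι : Type} [Fintype ι] [DecidableEq ι]

variable {U : Finset ι} {S : Mx ι} {v : ι}

theorem YN_tangent {A N N' : ℝ} (hA : 0 < A) (hN : 0 ≤ N) (hN' : 0 ≤ N') :
    wN A N' ≤ wN A N + A / (N + A) ^ 2 * (N' - N) := by
  unfold wN
  have h1 : 0 < N + A := by linarith
  have h2 : 0 < N' + A := by linarith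
  have h : N / (N + A) + A / (N + A) ^ 2 * (N' - N) - N' / (N' + A) =
      A * (N' - N) ^ 2 / ((N + A) ^ 2 * (N' + A)) := by
    field_simp
    ring
  have h3 : 0 ≤ A * (N' - N) ^ 2 / ((N + A) ^ 2 * (N' + A)) := by positivity
  linarith

theorem YN_w_nonneg {A N : ℝ} (hA : 0 < A) (hN : 0 ≤ N) : 0 ≤ wN A N := by
  unfold wN
  positivity

theorem YN_w_le {A N : ℝ} (hA : 0 < A) (hN : 0 ≤ N) : wN A N ≤ 1 := by
  unfold wN
  rw [div_le_one (by linarith)]
  linarith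

theorem YN_int (hS : US U S) (hv : v ∈ U) (y n : ℂ) (c0 c1 c2 c3 c4 : ℝ) :
    Integrable (fun t => c0 + c1 * (2 * (xi S v t * y).re)
      + c2 * ((2 * (xi S v t * y).re) * (2 * (xi S v t * y).re))
      + c3 * (2 * (xi S v t * n).re)
      + c4 * ((2 * (xi S v t * y).re) * (2 * (xi S v t * n).re))) cau ∧
    ∫ t, (c0 + c1 * (2 * (xi S v t * y).re)
      + c2 * ((2 * (xi S v t * y).re) * (2 * (xi S v t * y).re))
      + c3 * (2 * (xi S v t * n).re)
      + c4 * ((2 * (xi S v t * y).re) * (2 * (xi S v t * n).re))) ∂cau =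
      c0 + c2 * (2 * ‖y‖ ^ 2 / sv S v) + c4 * (2 * (y * conj n).re / sv S v) := by
  have i0 : Integrable (fun _ : ℝ => c0) cau := integrable_const _
  have i1 : Integrable (fun t => c1 * (2 * (xi S v t * y).re)) cau :=
    xi_integrable hS v (fun z => c1 * (2 * (z * y).re)) (by fun_prop)
  have i2 : Integrable
      (fun t => c2 * ((2 * (xi S v t * y).re) * (2 * (xi S v t * y).re))) cau :=
    xi_integrable hS v (fun z => c2 * ((2 * (z * y).re) * (2 * (z * y).re))) (by fun_prop)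
  have i3 : Integrable (fun t => c3 * (2 * (xi S v t * n).re)) cau :=
    xi_integrable hS v (fun z => c3 * (2 * (z * n).re)) (by fun_prop)
  have i4 : Integrable
      (fun t => c4 * ((2 * (xi S v t * y).re) * (2 * (xi S v t * n).re))) cau :=
    xi_integrable hS v (fun z => c4 * ((2 * (z * y).re) * (2 * (z * n).re))) (by fun_prop)
  have j1 : Integrable (fun t => c0 + c1 * (2 * (xi S v t * y).re)) cau := i0.add i1
  have j2 : Integrable (fun t => c0 + c1 * (2 * (xi S v t * y).re)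
      + c2 * ((2 * (xi S v t * y).re) * (2 * (xi S v t * y).re))) cau := j1.add i2
  have j3 : Integrable (fun t => c0 + c1 * (2 * (xi S v t * y).re)
      + c2 * ((2 * (xi S v t * y).re) * (2 * (xi S v t * y).re))
      + c3 * (2 * (xi S v t * n).re)) cau := j2.add i3
  refine ⟨j3.add i4, ?_⟩
  rw [integral_add j3 i4, integral_add j2 i3, integral_add j1 i2, integral_add i0 i1,
    integral_const_mul c1, integral_const_mul c2, integral_const_mul c3, integral_const_mul c4,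
    xi_re hS v y, xi_re hS v n, xi_re_re hS hv y y,
    xi_re_re hS hv y n, Complex.mul_conj, Complex.normSq_eq_norm_sq]
  simp only [integral_const, probReal_univ, smul_eq_mul, one_mul, mul_zero, add_zero,
    Complex.ofReal_re]

theorem YN_m_le (hS : US U S) (hv : v ∈ U) {n : ℂ} (hn : ‖n‖ ≤ 2 * sv S v) (t : ℝ) :
    |2 * (xi S v t * n).re| ≤ 8 := by
  have h1 := xi_norm_le hS hv t
  have hs := sv_nonneg S v
  have h2 : |(xi S v t * n).re| ≤ ‖xi S v t‖ * ‖n‖ := by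
    rw [← norm_mul]; exact Complex.abs_re_le_norm _
  have h3 : ‖xi S v t‖ * ‖n‖ ≤ 2 / sv S v * (2 * sv S v) :=
    mul_le_mul h1 hn (norm_nonneg _) (by positivity)
  have h4 : 2 / sv S v * (2 * sv S v) ≤ 4 := by
    rcases hs.eq_or_lt with h | h
    · rw [← h]; norm_num
    · rw [div_mul_eq_mul_div, div_le_iff₀ h]; linarith
  rw [abs_mul, abs_two]
  linarith

theorem YN_key {s e F F0 N : ℝ} (hs : 0 ≤ s) (hs1 : s ≤ 1) (he : 0 ≤ e) (hes : e ≤ s)
    (hF0 : 0 ≤ F0) (hF : F0 ≤ F) (hN : 0 ≤ N) (hg : e ≤ 2 * F * s / N) :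
    16 * (e ^ 2 / s) + 2048 / (N + 2048) ^ 2 *
      (-(s * F0 ^ 2) + 16 * F0 * e + 64 * (e ^ 2 / s) - 68 * 2048 * s) ≤ F ^ 2 - F0 ^ 2 := by
  have hFF : 0 ≤ F ^ 2 - F0 ^ 2 := by nlinarith
  rcases hs.eq_or_lt with h | h
  · have he0 : e = 0 := by linarith
    subst h
    simp only [he0]
    simpa using hFF
  set q := e ^ 2 / s with hq
  set w := 2048 / (N + 2048) ^ 2 with hw
  have hw0 : 0 < w := by positivity
  have hqs : q * s = e ^ 2 := by rw [hq]; field_simp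
  have hq0 : 0 ≤ q := by positivity
  have hq1 : q ≤ s := by
    rw [hq, div_le_iff₀ h]; nlinarith
  have h16 : 16 * F0 * e ≤ s * F0 ^ 2 / 2 + 128 * q := by
    have : 0 ≤ (s * F0 - 16 * e) ^ 2 := sq_nonneg _
    have h2 : (16 * F0 * e) * s ≤ (s * F0 ^ 2 / 2 + 128 * q) * s := by nlinarith
    exact le_of_mul_le_mul_right h2 h
  have hin : -(s * F0 ^ 2) + 16 * F0 * e + 64 * q - 68 * 2048 * s ≤
      -(s * (F0 ^ 2 / 2 + 139072)) := by linarith
  have hin2 := mul_le_mul_of_nonneg_left hin hw0.le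
  suffices hh : 16 * q ≤ w * (s * (F0 ^ 2 / 2 + 139072)) + (F ^ 2 - F0 ^ 2) by linarith
  rcases le_total N 2048 with hN1 | hN1
  · have hw1 : 1 / 8192 ≤ w := by
      rw [hw, div_le_div_iff₀ (by norm_num) (by positivity)]; nlinarith
    have h1 : 139072 * s ≤ s * (F0 ^ 2 / 2 + 139072) := by nlinarith [sq_nonneg F0]
    have h2 : 1 / 8192 * (139072 * s) ≤ w * (s * (F0 ^ 2 / 2 + 139072)) :=
      mul_le_mul hw1 h1 (by positivity) hw0.le
    linarith
  · have hN0 : 0 < N := by linarith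
    set r := 1 / N ^ 2 with hr
    have hr0 : 0 < r := by positivity
    have hw1 : 512 * r ≤ w := by
      rw [hw, hr, mul_one_div, div_le_div_iff₀ (by positivity) (by positivity)]; nlinarith
    have hr1 : 64 * r ≤ 1 := by
      rw [hr, mul_one_div, div_le_one (by positivity)]; nlinarith
    have hF1 : 0 ≤ F := hF0.trans hF
    have he2 : e ^ 2 ≤ (2 * F * s / N) ^ 2 := pow_le_pow_left₀ he hg 2
    have he3 : (2 * F * s / N) ^ 2 = (4 * F ^ 2 * s * r) * s := by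
      rw [hr]; field_simp; ring
    have hq2 : q ≤ 4 * F ^ 2 * s * r := by
      rw [hq, div_le_iff₀ h]; linarith
    have h1 : s * (F0 ^ 2 / 2) ≤ s * (F0 ^ 2 / 2 + 139072) := by nlinarith
    have h2 : 512 * r * (s * (F0 ^ 2 / 2)) ≤ w * (s * (F0 ^ 2 / 2 + 139072)) :=
      mul_le_mul hw1 h1 (by positivity) hw0.le
    have h3 : 64 * r * s ≤ 1 := by nlinarith
    have h4 : 64 * r * s * (F ^ 2 - F0 ^ 2) ≤ F ^ 2 - F0 ^ 2 := by nlinarith
    have h5 : 0 ≤ r * s * F0 ^ 2 := by positivity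
    nlinarith

/-- Concavity: `wN A N' ≤ wN A N + A/(N+A)² (N' - N)` for `N, N' ≥ 0`; `NN_cls`. -/
theorem Av_wN (hS : US U S) (hv : v ∈ U) {Γ : Finset ι} (hΓ : v ∈ Γ) {A : ℝ} (hA : 0 < A) :
    Av S v (fun S' => wN A (NN S' Γ)) ≤
      wN A (NN S Γ) - A / (NN S Γ + A) ^ 2 * sv S v := by
  obtain ⟨N0, n, -, hN0, -, hN⟩ := NN_cls hS hv hΓ
  set w := A / (NN S Γ + A) ^ 2 with hw
  have hw0 : 0 ≤ w := by have := NN_nonneg S Γ; positivity
  obtain ⟨hi, hI⟩ := YN_int hS hv 0 n (wN A (NN S Γ) - w * sv S v) 0 0 (-w) 0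
  have hle := integral_mono ((Nice.of_continuous (continuous_wN hA Γ)).integrable_cls hS hv) hi
    (fun t => by
      have h1 := YN_tangent hA (NN_nonneg S Γ) (NN_nonneg (cls S v t) Γ)
      rw [← hw] at h1
      have h2 : NN (cls S v t) Γ - NN S Γ ≤ -sv S v - 2 * (xi S v t * n).re := by
        rw [hN t]; linarith
      have h3 := mul_le_mul_of_nonneg_left h2 hw0
      simp only
      linarith)
  rw [hI] at hle
  unfold Av
  linarith

/-- `Y' = Y0 + Z`, `Z = 2 re (ξ y)`, `‖y‖ ≤ 2 e`; `N' = N0 - 2 re (ξ n)`, `N0 ≤ N - s`, `‖n‖ ≤ 2 s`,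
`|2 re (ξ n)| ≤ 8` (`xi_norm_le`). `E Z = 0`, `E Z² = 2‖y‖²/s ≤ 8 e²/s`,
`|E Z 2 re (ξ n)| ≤ 2 ‖y‖ ‖n‖ / s ≤ 8 e`. Use the tangent bound for `wN` and `0 ≤ wN ≤ 1`.
`Y0 = E Y' ≥ 0`. -/
theorem step_YN (hS : US U S) (hv : v ∈ U) {Γ : Finset ι} (hΓ : v ∈ Γ) (ψ χ : ι → ℝ) {A : ℝ}
    (hA : 0 < A) {Y0 e : ℝ}
    (hY : Y0 = FF S ψ + FF S χ - jj S ψ v ^ 2 / sv S v - jj S χ v ^ 2 / sv S v)
    (he : e = ee S ψ v + ee S χ v) :
    0 ≤ Y0 ∧ Av S v (fun S' => (FF S' ψ + FF S' χ) ^ 2) ≤ Y0 ^ 2 + 8 * e ^ 2 / sv S v ∧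
      Av S v (fun S' => (FF S' ψ + FF S' χ) ^ 2 * wN A (NN S' Γ)) ≤
        Y0 ^ 2 * wN A (NN S Γ) + 8 * e ^ 2 / sv S v + A / (NN S Γ + A) ^ 2 *
          (-(sv S v * Y0 ^ 2) + 16 * Y0 * e + 64 * e ^ 2 / sv S v) := by
  obtain ⟨N0, n, -, hN0, hn, hN⟩ := NN_cls hS hv hΓ
  set w := A / (NN S Γ + A) ^ 2 with hw
  have hw0 : 0 ≤ w := by have := NN_nonneg S Γ; positivity
  have hs := sv_nonneg S v
  set y := yF S ψ v + yF S χ v with hy
  have he0 : 0 ≤ e := by rw [he]; exact add_nonneg (ee_nonneg _ _ _) (ee_nonneg _ _ _)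
  have hyn : ‖y‖ ≤ 2 * e := by
    have h1 := norm_yF_le hS ψ v
    have h2 := norm_yF_le hS χ v
    have h3 := norm_add_le (yF S ψ v) (yF S χ v)
    rw [he, hy]; linarith
  have hYt : ∀ t, FF (cls S v t) ψ + FF (cls S v t) χ = Y0 + 2 * (xi S v t * y).re := by
    intro t
    rw [FF_cls hS hv ψ t, FF_cls hS hv χ t, hY, hy, mul_add, Complex.add_re]
    ring
  have hZ : 2 * ‖y‖ ^ 2 / sv S v ≤ 8 * e ^ 2 / sv S v := by
    apply div_le_div_of_nonneg_right _ hs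
    have := pow_le_pow_left₀ (norm_nonneg y) hyn 2
    linarith
  have hZ0 : 0 ≤ 2 * ‖y‖ ^ 2 / sv S v := by positivity
  have hY0 : 0 ≤ Y0 := by
    obtain ⟨-, hI⟩ := YN_int hS hv y n Y0 1 0 0 0
    have h0 : 0 ≤ ∫ t, (Y0 + 1 * (2 * (xi S v t * y).re)
      + 0 * ((2 * (xi S v t * y).re) * (2 * (xi S v t * y).re))
      + 0 * (2 * (xi S v t * n).re)
      + 0 * ((2 * (xi S v t * y).re) * (2 * (xi S v t * n).re))) ∂cau := by
      refine integral_nonneg fun t => ?_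
      have h1 := hYt t
      have h2 := FF_nonneg (cls S v t) ψ
      have h3 := FF_nonneg (cls S v t) χ
      simp only [Pi.zero_apply]
      linarith
    rw [hI] at h0
    linarith
  refine ⟨hY0, ?_, ?_⟩
  · obtain ⟨-, hI⟩ := YN_int hS hv y n (Y0 ^ 2) (2 * Y0) 1 0 0
    have h1 : Av S v (fun S' => (FF S' ψ + FF S' χ) ^ 2) = _ :=
      (integral_congr_ae (Filter.Eventually.of_forall fun t => by
        simp only
        rw [hYt t]; ring)).trans hI
    rw [h1]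
    linarith
  · set W := wN A (NN S Γ) with hW
    have hW0 : 0 ≤ W := YN_w_nonneg hA (NN_nonneg S Γ)
    have hW1 : W ≤ 1 := YN_w_le hA (NN_nonneg S Γ)
    obtain ⟨hi, hI⟩ := YN_int hS hv y n (W * Y0 ^ 2 - w * sv S v * Y0 ^ 2)
      (2 * Y0 * W - 2 * w * sv S v * Y0) (W + 8 * w) (-(w * Y0 ^ 2)) (-(2 * w * Y0))
    have hnice : Nice (fun S' : Mx ι => (FF S' ψ + FF S' χ) ^ 2 * wN A (NN S' Γ)) :=
      Nice.of_continuous (Continuous.mul (by fun_prop) (continuous_wN hA Γ))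
    have hle := integral_mono (hnice.integrable_cls hS hv) hi
      (fun t => by
        have h1 := YN_tangent hA (NN_nonneg S Γ) (NN_nonneg (cls S v t) Γ)
        rw [← hw, ← hW] at h1
        have h2 : NN (cls S v t) Γ - NN S Γ ≤ -sv S v - 2 * (xi S v t * n).re := by
          rw [hN t]; linarith
        have h3 := mul_le_mul_of_nonneg_left h2 hw0
        have h4 := YN_m_le hS hv hn t
        simp only
        rw [hYt t]
        set Z := 2 * (xi S v t * y).re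
        set m := 2 * (xi S v t * n).re
        have h5 : wN A (NN (cls S v t) Γ) ≤ W + w * (-sv S v - m) := by linarith
        have h6 := mul_le_mul_of_nonneg_left h5 (sq_nonneg (Y0 + Z))
        have h7 : -m ≤ 8 := by have := neg_abs_le m; linarith
        have h8 : w * Z ^ 2 * (-m) ≤ w * Z ^ 2 * 8 :=
          mul_le_mul_of_nonneg_left h7 (by positivity)
        have h9 : 0 ≤ w * sv S v * Z ^ 2 := by positivity
        nlinarith)
    rw [hI] at hle
    have hc : -(2 * (y * conj n).re / sv S v) ≤ 8 * e := by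
      have h1 : |(y * conj n).re| ≤ ‖y‖ * ‖n‖ := by
        have := Complex.abs_re_le_norm (y * conj n)
        rwa [norm_mul, Complex.norm_conj] at this
      have h2 : ‖y‖ * ‖n‖ ≤ 2 * e * (2 * sv S v) :=
        mul_le_mul hyn hn (norm_nonneg _) (by positivity)
      have h3 := neg_abs_le (y * conj n).re
      rcases hs.eq_or_lt with h | h
      · rw [← h]; simp only [div_zero, neg_zero]; positivity
      · rw [← neg_div, div_le_iff₀ h]; linarith
    have h1 : 2 * w * Y0 * -(2 * (y * conj n).re / sv S v) ≤ 2 * w * Y0 * (8 * e) :=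
      mul_le_mul_of_nonneg_left hc (by positivity)
    have h2 : W * (2 * ‖y‖ ^ 2 / sv S v) ≤ 8 * e ^ 2 / sv S v := by nlinarith
    have h3 : w * (2 * ‖y‖ ^ 2 / sv S v) ≤ w * (8 * e ^ 2 / sv S v) :=
      mul_le_mul_of_nonneg_left hZ hw0
    have h4 : 64 * e ^ 2 / sv S v = 8 * (8 * e ^ 2 / sv S v) := by ring
    unfold Av
    rw [h4]
    linarith

/-- `lyap` with `FF_cls_Av`. -/
theorem superF {H : Matrix ι ι ℝ} (hH : H.IsSymm) {c : ι → ℝ} (hg : Good H U c) {R : Finset ι}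
    (hR : R ⊆ U) (ψ : ι → ℝ) : ES H U c R (fun S => FF S ψ) ≤ FF (Smat H U c) ψ := by
  refine lyap hH R (Nice.of_continuous (continuous_FF ψ)) ?_ hg hR
  intro U' S' hS' hne
  obtain ⟨v, hv⟩ := hne
  refine ⟨v, hv, ?_⟩
  rw [FF_cls_Av hS' (Finset.mem_inter.1 hv).1 ψ]
  have : 0 ≤ jj S' ψ v ^ 2 / sv S' v := div_nonneg (sq_nonneg _) (sv_nonneg _ _)
  linarith

/-- `lyap` with `Φ = F² (1 + w) + 68 A w`, `w = wN A (NN S R)`, `A = 2048`, `step_YN` with `χ = 0`,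
and `greedy`: `e ≤ 2 F s / N`, also `e ≤ s`. With `w' = A/(N+A)²` it suffices that
`16 e²/s ≤ w' s (F0²/2 + 68 A - 192) + (F² - F0²)` (use `16 F0 e ≤ s F0²/2 + 128 e²/s`).
If `N ≤ A`: `w' ≥ 1/(4A)` and `e²/s ≤ s`. If `N ≥ A`: `w' ≥ A/(4N²)`, `16 e²/s ≤ 64 F² s/N²`,
`64 s/N² ≤ 1`. Finally `F² ≤ Φ ≤ 2 F² + 68 A`. -/
theorem L2 {H : Matrix ι ι ℝ} (hH : H.IsSymm) {c : ι → ℝ} (hg : Good H U c) {R : Finset ι}
    (hR : R ⊆ U) {ψ : ι → ℝ} (hψ : Osc ψ) :
    ES H U c R (fun S => FF S ψ ^ 2) ≤ 2 * FF (Smat H U c) ψ ^ 2 + 140000 := by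
  have hA : (0 : ℝ) < 2048 := by norm_num
  have n1 : Nice (fun S : Mx ι => (FF S ψ + FF S (fun _ => 0)) ^ 2) :=
    Nice.of_continuous (by fun_prop)
  have n3 : Nice (fun S : Mx ι => wN 2048 (NN S R)) := Nice.of_continuous (continuous_wN hA R)
  have n2 : Nice (fun S : Mx ι => (FF S ψ + FF S (fun _ => 0)) ^ 2 * wN 2048 (NN S R)) :=
    n1.mul n3
  have n4 : Nice (fun S : Mx ι => 68 * 2048 * wN 2048 (NN S R)) := n3.const_mul _
  have nΦ := (n1.add n2).add n4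
  have hly := lyap hH R nΦ (fun U' S hS hne => by
    obtain ⟨v, hv, hgr⟩ := greedy hS hne (ee S ψ) (ee_nonneg S ψ)
      (fun x hx => ee_zero_of_sv S ψ hx) (sum_ee_le S ψ R)
    obtain ⟨hvU, hvR⟩ := Finset.mem_inter.1 hv
    refine ⟨v, hv, ?_⟩
    have hj : jj S (fun _ => 0) v = 0 := by simp [jj]
    have hee : ee S (fun _ => 0) v = 0 := by simp [ee]
    obtain ⟨hF0, h1, h2⟩ := step_YN hS hvU hvR ψ (fun _ => 0) hA
      (Y0 := FF S ψ - jj S ψ v ^ 2 / sv S v) (e := ee S ψ v)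
      (by rw [FF_zero, hj]; ring) (by rw [hee]; ring)
    have h3 := Av_wN hS hvU hvR hA
    rw [Av_add hS hvU (n1.add n2) n4, Av_add hS hvU n1 n2, Av_const_mul]
    have hF : FF S ψ - jj S ψ v ^ 2 / sv S v ≤ FF S ψ := by
      have : 0 ≤ jj S ψ v ^ 2 / sv S v := div_nonneg (sq_nonneg _) (sv_nonneg _ _)
      linarith
    have hk := YN_key (sv_nonneg S v) (sv_le_one hS v) (ee_nonneg S ψ v) (ee_le_sv S hψ v) hF0 hF
      (NN_nonneg S R) hgr
    have hW0 : 0 ≤ wN 2048 (NN S R) := YN_w_nonneg hA (NN_nonneg S R)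
    have h4 : (FF S ψ - jj S ψ v ^ 2 / sv S v) ^ 2 * wN 2048 (NN S R) ≤
        FF S ψ ^ 2 * wN 2048 (NN S R) :=
      mul_le_mul_of_nonneg_right (pow_le_pow_left₀ hF0 hF 2) hW0
    simp only [FF_zero, add_zero] at h1 h2 ⊢
    have e1 : 8 * ee S ψ v ^ 2 / sv S v = 8 * (ee S ψ v ^ 2 / sv S v) := by ring
    have e2 : 64 * ee S ψ v ^ 2 / sv S v = 64 * (ee S ψ v ^ 2 / sv S v) := by ring
    rw [e1] at h1 h2
    rw [e2] at h2
    nlinarith) hg hR
  have hmono := ES_mono hH hg hR (Φ := fun S => FF S ψ ^ 2) (Nice.of_continuous (by fun_prop)) nΦ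
    (fun c' _ => by
      have hW0 := YN_w_nonneg hA (NN_nonneg (Smat H (U \ R) c') R)
      simp only [FF_zero, add_zero]
      have := mul_nonneg (sq_nonneg (FF (Smat H (U \ R) c') ψ)) hW0
      linarith)
  have hW1 := YN_w_le hA (NN_nonneg (Smat H U c) R)
  simp only [FF_zero, add_zero] at hly hmono
  have := mul_le_mul_of_nonneg_left hW1 (sq_nonneg (FF (Smat H U c) ψ))
  linarith

end Vale.Agent.P365
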