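import Vale.Agent.P365.CT
import Vale.Agent.P365.YN
import Vale.Agent.P365.Pert

namespace Vale.Agent.P365

open MeasureTheory ProbabilityTheory Complex Filter
open scoped ComplexConjugate ENNReal

variable {ι : Type} [Fintype ι] [DecidableEq ι]

variable {μ : ℝ} {H : Matrix ι ι ℝ} {pos : ι → ℤ × ℤ} {U : Finset ι} {c : ι → ℝ}

theorem rows0_split {S : Mx ι} (hS : US U S) {B C : Finset ι} (hCB : C ⊆ B) {φ : ι → ℝ}
    (h0 : ∀ x, x ∉ B → φ x = 0) :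
    ∑ x ∈ Cᶜ, ee S φ x =
      ∑ x ∈ B \ C, ∑ y, pp S x y * ((φ y - φ x) ^ 2 + if y ∈ B then 0 else φ x ^ 2) +
        ∑ y ∈ C, φ y ^ 2 * pset S y Bᶜ := by
  have e0 : Cᶜ = (B \ C) ∪ Bᶜ := by
    ext x
    simp only [Finset.mem_compl, Finset.mem_union, Finset.mem_sdiff]
    have := @hCB x
    tauto
  have d0 : Disjoint (B \ C) Bᶜ := Finset.disjoint_left.2 fun x hx hx' =>
    Finset.mem_compl.1 hx' (Finset.mem_sdiff.1 hx).1
  have e1 : ∑ x ∈ Bᶜ, ee S φ x = ∑ y ∈ B, φ y ^ 2 * pset S y Bᶜ := by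
    have e2 : ∑ x ∈ Bᶜ, ee S φ x = ∑ x ∈ Bᶜ, ∑ y ∈ B, φ y ^ 2 * pp S y x := by
      refine Finset.sum_congr rfl fun x hx => ?_
      rw [ee, ← Finset.sum_add_sum_compl B, Finset.sum_eq_zero (s := Bᶜ), add_zero]
      · refine Finset.sum_congr rfl fun y _ => ?_
        rw [h0 x (Finset.mem_compl.1 hx), sub_zero, pp_symm hS, mul_comm]
      · intro y hy
        rw [h0 x (Finset.mem_compl.1 hx), h0 y (Finset.mem_compl.1 hy)]
        ring
    rw [e2, Finset.sum_comm]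
    refine Finset.sum_congr rfl fun y _ => ?_
    rw [pset, Finset.mul_sum]
  have e3 : ∀ x, ∑ y, pp S x y * ((φ y - φ x) ^ 2 + if y ∈ B then 0 else φ x ^ 2) =
      ee S φ x + φ x ^ 2 * pset S x Bᶜ := fun x => by
    simp only [mul_add, Finset.sum_add_distrib]
    refine congrArg (ee S φ x + ·) ?_
    rw [pset, Finset.mul_sum, ← Finset.sum_add_sum_compl B, Finset.sum_eq_zero, zero_add]
    · refine Finset.sum_congr rfl fun y hy => ?_
      rw [if_neg (Finset.mem_compl.1 hy), mul_comm]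
    · intro y hy
      rw [if_pos hy, mul_zero]
  rw [e0, Finset.sum_union d0, e1, ← Finset.sum_sdiff hCB]
  simp only [e3, Finset.sum_add_distrib]
  ring

theorem rows0_exp {μ : ℝ} (hμ : 0 < μ) {h : ℤ} (h1 : 1 ≤ h) :
    Real.exp (-(2 * μ * (h : ℝ))) = Real.exp (-(μ * h)) ^ 2 ∧
      Real.exp (-(2 * μ * (h : ℝ))) ≤ Real.exp (-(μ * h)) := by
  have hh : (1 : ℝ) ≤ h := by exact_mod_cast h1
  refine ⟨?_, Real.exp_le_exp.2 (by nlinarith)⟩
  rw [sq, ← Real.exp_add]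
  refine congrArg Real.exp ?_
  ring

/-- With `B = bal (ρ+h)`, `C = bal ρ`, `A = B \ C`: for every scattering matrix
`Σ_{x∉C} ee = Σ_{x∈A} Σ_y P x y k x y + Σ_{y∈C} φ_y² pset y Bᶜ`,
`k x y = (φ y - φ x)² + [y ∉ B] φ_x²`, `|k| ≤ 4 m²`. First term: `pert_kernel` with
`κ = 4 e^(-μ h)` (`leak_in`, band `[ρ-h+1, ρ+h]`, `k = ρ+1`). Second term: `≥ 0` at the end and
`≤ 16 m² e^(-2 μ h)` per site at the start (`leak_out`, `k = ρ`, `n = ρ+h`).
`card A + card C = card B`. -/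
theorem rows_out (hs : Sys μ H pos) (hg : Good H U c) (o : ℤ × ℤ) {ρ h : ℤ} (h1 : 1 ≤ h)
    (hρ : 0 ≤ ρ) (hD : rng pos o (ρ - h) (ρ + h) ⊆ U) {R : Finset ι} (hR : R ⊆ U)
    (hRI : R ⊆ bal pos o (ρ - h)) {φ : ι → ℝ} {m : ℝ} (hm : ∀ x, |φ x| ≤ m)
    (h0 : ∀ x, x ∉ bal pos o (ρ + h) → φ x = 0) :
    ∑ x ∈ (bal pos o ρ)ᶜ, ee (Smat H U c) φ x
      - 48 * m ^ 2 * (2 * ((ρ : ℝ) + h) + 1) ^ 2 * Real.exp (-(μ * h)) ≤
      ES H U c R (fun S => ∑ x ∈ (bal pos o ρ)ᶜ, ee S φ x) := by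
  set B := bal pos o (ρ + h) with hB
  set C := bal pos o ρ with hC
  set k : ι → ι → ℝ := fun x y => (φ y - φ x) ^ 2 + if y ∈ B then 0 else φ x ^ 2 with hk
  set E := Real.exp (-(μ * h)) with hE
  have E0 : 0 < E := Real.exp_pos _
  obtain ⟨eE, lE⟩ := rows0_exp hs.mu_pos h1
  have hCB : C ⊆ B := fun x hx => mem_bal.2 (by have := mem_bal.1 hx; omega)
  have hsq : ∀ x, φ x ^ 2 ≤ m ^ 2 := fun x => sq_le_sq' (abs_le.1 (hm x)).1 (abs_le.1 (hm x)).2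
  have hkm : ∀ x y, |k x y| ≤ 4 * m ^ 2 := fun x y => by
    have h2 := hsq x
    have h3 := hsq y
    change |(φ y - φ x) ^ 2 + if y ∈ B then 0 else φ x ^ 2| ≤ _
    by_cases hy : y ∈ B
    · rw [if_pos hy, add_zero, abs_of_nonneg (sq_nonneg _)]
      nlinarith [sq_nonneg (φ y + φ x)]
    · rw [if_neg hy, h0 y hy, abs_of_nonneg (by positivity)]
      nlinarith [sq_nonneg m]
  have hdis : Disjoint (B \ C) R := Finset.disjoint_left.2 fun x hx hx' =>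
    (Finset.mem_sdiff.1 hx).2 (mem_bal.2 (by have := mem_bal.1 (hRI hx'); omega))
  have hκ : ∀ x ∈ B \ C, pset (Smat H U c) x R ≤ (4 * E) ^ 2 := fun x hx => by
    have hx2 : ¬rr o (pos x) ≤ ρ := fun h' => (Finset.mem_sdiff.1 hx).2 (mem_bal.2 h')
    have h2 := leak_in hs hg o (m := ρ - h + 1) (k := ρ + 1) (n := ρ + h) (by omega) (by omega)
      (fun z h3 h4 => hD (mem_rng.2 ⟨by omega, h4⟩)) (x := x) (by omega) R
      (fun y hy _ => by have := mem_bal.1 (hRI hy); omega)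
    rw [show ρ + 1 - (ρ - h + 1) = h by ring, eE] at h2
    linarith
  have hp := pert_kernel hs.symm hg hR (B \ C) hdis k hkm (by positivity) hκ
  have h2 : ∑ y ∈ C, φ y ^ 2 * pset (Smat H U c) y Bᶜ ≤ C.card * (48 * m ^ 2 * E) := by
    rw [← nsmul_eq_mul]
    refine Finset.sum_le_card_nsmul _ _ _ fun y hy => ?_
    have h3 := leak_out hs hg o (m := ρ) (k := ρ) (n := ρ + h) le_rfl (by omega)
      (fun z h3 h4 => hD (mem_rng.2 ⟨by omega, h4⟩)) (mem_bal.1 hy) Bᶜ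
      (fun z hz _ => by
        have h5 : ¬rr o (pos z) ≤ ρ + h := fun h' => Finset.mem_compl.1 hz (mem_bal.2 h')
        omega)
    rw [show ρ + h - ρ = h by ring] at h3
    have h4 : pset (Smat H U c) y Bᶜ ≤ 48 * E := by linarith
    calc φ y ^ 2 * pset (Smat H U c) y Bᶜ ≤ m ^ 2 * (48 * E) :=
          mul_le_mul (hsq y) h4 (pset_nonneg _ _ _) (sq_nonneg _)
      _ = 48 * m ^ 2 * E := by ring
  set T0 := ∑ x ∈ B \ C, ∑ y, pp (Smat H U c) x y * k x y with hT0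
  have cT : Continuous fun S : Mx ι => |∑ x ∈ B \ C, ∑ y, pp S x y * k x y - T0| := by
    fun_prop
  have h3 : ES H U c R (fun S => T0 - |∑ x ∈ B \ C, ∑ y, pp S x y * k x y - T0|) ≤
      ES H U c R (fun S => ∑ x ∈ Cᶜ, ee S φ x) := by
    refine ES_mono hs.symm hg hR ((Nice.const T0).sub (Nice.of_continuous cT))
      (Nice.of_continuous (by fun_prop)) fun c' _ => ?_
    rw [rows0_split (Smat_US hs.symm (U \ R) c') hCB h0]
    have h4 : 0 ≤ ∑ y ∈ C, φ y ^ 2 * pset (Smat H (U \ R) c') y Bᶜ :=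
      Finset.sum_nonneg fun y _ => mul_nonneg (sq_nonneg _) (pset_nonneg _ _ _)
    have h5 := neg_abs_le (∑ x ∈ B \ C, ∑ y, pp (Smat H (U \ R) c') x y * k x y - T0)
    change _ ≤ ∑ x ∈ B \ C, ∑ y, pp (Smat H (U \ R) c') x y * k x y + _
    linarith
  rw [ES_sub hs.symm U c R (Nice.const T0) (Nice.of_continuous cT), ES_const] at h3
  have h4 : ((B \ C).card : ℝ) + C.card ≤ (2 * ((ρ : ℝ) + h) + 1) ^ 2 := by
    have h5 := card_bal hs.inj o (n := ρ + h) (by omega)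
    rw [← Nat.cast_add, Finset.card_sdiff_add_card_eq_card hCB]
    push_cast at h5
    exact h5
  have h5 := mul_le_mul_of_nonneg_right h4 (show 0 ≤ 48 * m ^ 2 * E by positivity)
  rw [rows0_split (Smat_US hs.symm U c) hCB h0]
  change T0 + _ - _ ≤ _
  nlinarith

/-- `sum_ee_compl`, `superF`, `rows_out`, then `ee_moment` (`L = 1`, `m = 2(ρ+h)`, `n = h`) on
the at most `l²` sites of the cell; `ρ + h ≤ l`, `2(ρ+h)+1 ≤ 2 l`, `l = 2ρ+1`. -/
theorem base (hs : Sys μ H pos) {ρ h : ℤ} (h1 : 1 ≤ h) (h4 : 4 * h ≤ 2 * ρ + 1) :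
    Pcell H pos ρ h (16 / μ ^ 2 + 256 * (2 * (ρ : ℝ) + 1) ^ 2 * Real.exp (-(μ * h))) := by
  intro o U c Φ hg hU hΦ
  have hρ : 0 ≤ ρ := by omega
  set φ := cutf pos Φ o (ρ + h) with hφ
  set E := Real.exp (-(μ * h)) with hE
  have E0 : 0 < E := Real.exp_pos _
  obtain ⟨-, lE⟩ := rows0_exp hs.mu_pos h1
  have hR : bal pos o (ρ - h) ⊆ U := fun x hx =>
    hU (mem_bal.2 (by have := mem_bal.1 hx; omega))
  have hm : ∀ x, |φ x| ≤ (ρ : ℝ) + h := fun x => by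
    have h2 := cutf_abs_le pos hΦ o (n := ρ + h) (by omega) x
    push_cast at h2
    exact h2
  have h2 := rows_out hs hg o h1 hρ (fun x hx => hU (mem_bal.2 (mem_rng.1 hx).2)) hR
    (Finset.Subset.refl _) hm fun x hx => cutf_zero pos Φ o hx
  have h3 := superF hs.symm hg hR φ
  have e : ES H U c (bal pos o (ρ - h)) (fun S => ∑ x ∈ bal pos o ρ, ee S φ x) =
      2 * ES H U c (bal pos o (ρ - h)) (fun S => FF S φ) -
        ES H U c (bal pos o (ρ - h)) (fun S => ∑ x ∈ (bal pos o ρ)ᶜ, ee S φ x) := by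
    rw [← ES_const_mul, ← ES_sub hs.symm _ _ _ (Nice.of_continuous (by fun_prop))
      (Nice.of_continuous (by fun_prop))]
    exact congrArg _ (funext fun S => sum_ee_compl S φ _)
  have h5 := sum_ee_compl (Smat H U c) φ (bal pos o ρ)
  have r0 : (0 : ℝ) ≤ ρ := by exact_mod_cast hρ
  have r1 : (1 : ℝ) ≤ h := by exact_mod_cast h1
  have r4 : 4 * (h : ℝ) ≤ 2 * ρ + 1 := by exact_mod_cast h4
  set l : ℝ := 2 * (ρ : ℝ) + 1 with hl
  have l1 : ((ρ : ℝ) + h) ^ 2 ≤ l ^ 2 := pow_le_pow_left₀ (by linarith) (by linarith) 2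
  have l2 : (2 * ((ρ : ℝ) + h) + 1) ^ 2 ≤ (2 * l) ^ 2 :=
    pow_le_pow_left₀ (by linarith) (by linarith) 2
  have h6 : ∑ x ∈ bal pos o ρ, ee (Smat H U c) φ x ≤
      (bal pos o ρ).card * (16 / μ ^ 2 + 64 * l ^ 2 * E) := by
    rw [← nsmul_eq_mul]
    refine Finset.sum_le_card_nsmul _ _ _ fun x hx => ?_
    have hx' := mem_bal.1 hx
    have hb : ∀ y, rr (pos x) (pos y) ≤ h → y ∈ bal pos o (ρ + h) := fun y hy =>
      mem_bal.2 (by have := rr_triangle o (pos x) (pos y); omega)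
    have h7 := ee_moment hs hg x (n := h) (by omega) (fun y hy => hU (hb y (mem_bal.1 hy)))
      (φ := φ) (L := 1) (m := 2 * ((ρ : ℝ) + h))
      (fun y hy => by
        rw [hφ, cutf_sub pos Φ o (mem_bal.2 (by omega)) (hb y hy), one_mul]
        exact hΦ _ _)
      (fun y => by
        have h8 := abs_le.1 (hm x)
        have h9 := abs_le.1 (hm y)
        exact abs_le.2 ⟨by linarith, by linarith⟩)
    have h8 : ((ρ : ℝ) + h) ^ 2 * Real.exp (-(2 * μ * (h : ℝ))) ≤ l ^ 2 * E :=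
      mul_le_mul l1 lE (Real.exp_pos _).le (sq_nonneg _)
    rw [one_pow, mul_one] at h7
    nlinarith
  have h7 : ((bal pos o ρ).card : ℝ) * (16 / μ ^ 2 + 64 * l ^ 2 * E) ≤
      l ^ 2 * (16 / μ ^ 2 + 64 * l ^ 2 * E) :=
    mul_le_mul_of_nonneg_right (card_bal hs.inj o hρ) (by positivity)
  have h8 : ((ρ : ℝ) + h) ^ 2 * (2 * ((ρ : ℝ) + h) + 1) ^ 2 * E ≤ l ^ 2 * (2 * l) ^ 2 * E :=
    mul_le_mul_of_nonneg_right (mul_le_mul l1 l2 (sq_nonneg _) (sq_nonneg _)) E0.le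
  rw [e]
  nlinarith

theorem Pcell.mono {ρ h : ℤ} {ε ε' : ℝ} (hP : Pcell H pos ρ h ε) (hε : ε ≤ ε') :
    Pcell H pos ρ h ε' := fun o U c Φ hg hU hΦ =>
  (hP o U c Φ hg hU hΦ).trans (mul_le_mul_of_nonneg_right hε (sq_nonneg _))

end Vale.Agent.P365
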