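import Vale.Agent.P365.St0

namespace Vale.Agent.P365

open MeasureTheory ProbabilityTheory Complex Filter
open scoped ComplexConjugate ENNReal

variable {ι : Type} [Fintype ι] [DecidableEq ι]

variable {H : Matrix ι ι ℝ} {U : Finset ι} {c : ι → ℝ}

theorem st_ward (hH : H.IsSymm) (U : Finset ι) (c : ι → ℝ) (x y : ι) :
    (Kmat H U c)⁻¹ x y - conj ((Kmat H U c)⁻¹ y x) =
      2 * I * ∑ z, if z ∈ U then (Kmat H U c)⁻¹ x z * conj ((Kmat H U c)⁻¹ y z) else 0 := by
  by_cases hg : (Kmat H U c).det = 0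
  · rw [Matrix.nonsing_inv_apply_not_isUnit _ (by rw [hg]; exact not_isUnit_zero)]
    simp
  · refine (ward hH (dd U c) hg x y).trans ?_
    rw [Finset.mul_sum]
    refine Finset.sum_congr rfl fun z _ => ?_
    by_cases hz : z ∈ U
    · have e : ((dd U c z).im : ℂ) = -1 := by simp [dd, hz]
      rw [if_pos hz, e, Kmat]
      ring
    · have e : ((dd U c z).im : ℂ) = 0 := by simp [dd, hz]
      rw [if_neg hz, e]
      ring

omit [Fintype ι] in
theorem st_in {U : Finset ι} {G : ι → ι → ℂ} {x y z : ι} (hx : x ∈ U) (hy : y ∈ U) :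
    (if x ∈ U ∧ z ∈ U then (if x = z then 1 else 0) + 2 * I * G x z else 0) *
      conj (if y ∈ U ∧ z ∈ U then (if y = z then 1 else 0) + 2 * I * G y z else 0) =
    (if x = z then (if x = y then 1 else 0) - 2 * I * conj (G y x) else 0) +
      (if y = z then 2 * I * G x y else 0) + 4 * if z ∈ U then G x z * conj (G y z) else 0 := by
  have hI : I * I = -1 := I_mul_I
  by_cases hz : z ∈ U
  · rw [if_pos (And.intro hx hz), if_pos (And.intro hy hz), if_pos hz, map_add, map_mul, map_mul,
      conj_I, map_ofNat]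
    by_cases e1 : x = z
    · subst e1
      by_cases e2 : y = x
      · subst e2
        simp only [if_true, map_one]
        linear_combination (-4 * G y y * conj (G y y)) * hI
      · simp only [if_true, if_neg e2, if_neg (Ne.symm e2), map_zero]
        linear_combination (-4 * G x x * conj (G y x)) * hI
    · by_cases e2 : y = z
      · subst e2
        simp only [if_true, if_neg e1, map_one]
        linear_combination (-4 * G x y * conj (G y y)) * hI
      · simp only [if_neg e1, if_neg e2, map_zero]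
        linear_combination (-4 * G x z * conj (G y z)) * hI
  · have e1 : x ≠ z := fun e => hz (e ▸ hx)
    have e2 : y ≠ z := fun e => hz (e ▸ hy)
    simp only [hz, and_false, if_false, if_neg e1, if_neg e2]
    ring

/-- From `ward` in the good case; if the determinant vanishes the inverse is `0`. -/
theorem Smat_US (hH : H.IsSymm) (U : Finset ι) (c : ι → ℝ) : US U (Smat H U c) := by
  refine ⟨fun x y => ?_, fun x y hx => if_neg fun h => hx h.1, fun x y => ?_⟩
  · unfold Smat Kmat
    rw [Kgen_inv_symm hH _ x y]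
    simp only [and_comm (a := x ∈ U), eq_comm (a := x)]
  · by_cases hx : x ∈ U
    · by_cases hy : y ∈ U
      · have hI : I * I = -1 := I_mul_I
        have hw := st_ward hH U c x y
        unfold Smat
        rw [Finset.sum_congr rfl fun z _ => st_in (G := fun a b => (Kmat H U c)⁻¹ a b) hx hy,
          Finset.sum_add_distrib, Finset.sum_add_distrib, Finset.sum_ite_eq, Finset.sum_ite_eq,
          ← Finset.mul_sum, if_pos (Finset.mem_univ _), if_pos (Finset.mem_univ _)]
        simp only [hx, and_true]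
        linear_combination (2 * I) * hw + (4 * ∑ z, if z ∈ U then (Kmat H U c)⁻¹ x z *
          conj ((Kmat H U c)⁻¹ y z) else 0) * hI
      · rw [if_neg fun h : x = y ∧ x ∈ U => hy (h.1 ▸ h.2)]
        refine Finset.sum_eq_zero fun z _ => ?_
        rw [show Smat H U c y z = 0 from if_neg fun h => hy h.1, map_zero, mul_zero]
    · rw [if_neg fun h : x = y ∧ x ∈ U => hx h.2]
      refine Finset.sum_eq_zero fun z _ => ?_
      rw [show Smat H U c x z = 0 from if_neg fun h => hx h.1, zero_mul]

theorem good_univ (hH : H.IsSymm) (c : ι → ℝ) : Good H Finset.univ c :=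
  Kgen_det_ne hH _ fun z => by simp [dd]

theorem dd_congr {c' : ι → ℝ} (h : ∀ x, x ∉ U → c x = c' x) : dd U c = dd U c' := by
  funext x
  unfold dd
  by_cases hx : x ∈ U
  · rw [if_pos hx, if_pos hx]
  · rw [if_neg hx, if_neg hx, h x hx]

theorem Smat_congr {c' : ι → ℝ} (h : ∀ x, x ∉ U → c x = c' x) : Smat H U c = Smat H U c' := by
  unfold Smat Kmat
  rw [dd_congr h]

theorem good_congr {c' : ι → ℝ} (h : ∀ x, x ∉ U → c x = c' x) : Good H U c ↔ Good H U c' := by
  unfold Good Kmat
  rw [dd_congr h]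

omit [Fintype ι] in
theorem st_cont (U : Finset ι) : Continuous fun c : ι → ℝ => dd U c := by
  refine continuous_pi fun x => ?_
  unfold dd
  by_cases hx : x ∈ U
  · simp only [if_pos hx]
    exact continuous_const
  · simp only [if_neg hx]
    exact continuous_ofReal.comp (continuous_apply x)

theorem measurable_Smat (H : Matrix ι ι ℝ) (U : Finset ι) :
    Measurable fun c : ι → ℝ => Smat H U c := by
  refine measurable_pi_lambda _ fun x => measurable_pi_lambda _ fun y => ?_
  unfold Smat
  by_cases h : x ∈ U ∧ y ∈ U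
  · simp only [if_pos h]
    exact (((measurable_Kgen_inv H x y).comp (st_cont U).measurable).const_mul _).const_add _
  · simp only [if_neg h]
    exact measurable_const

theorem measurableSet_good (H : Matrix ι ι ℝ) (U : Finset ι) :
    MeasurableSet {c : ι → ℝ | Good H U c} :=
  (isOpen_ne_fun ((continuous_Kgen_det H).comp (st_cont U)) continuous_const).measurableSet

omit [Fintype ι] in
theorem st_dd {v : ι} (hv : v ∈ U) (c : ι → ℝ) (t : ℝ) :
    dd (U.erase v) (Function.update c v t) =
      Function.update (dd U c) v (dd U c v + ((t : ℂ) + I)) := by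
  funext x
  by_cases hx : x = v
  · subst hx
    simp [dd, hv]
  · simp [dd, hx]

theorem st_good {v : ι} (hv : v ∈ U) (hg : Good H U c) (t : ℝ) :
    Good H (U.erase v) (Function.update c v t) ↔
      1 + ((t : ℂ) + I) * (Kmat H U c)⁻¹ v v ≠ 0 := by
  unfold Good Kmat
  rw [st_dd hv, det_update _ hg, mul_ne_zero_iff]
  exact and_iff_right hg

/-- `dd (U.erase v) (update c v t) = update (dd U c) v (dd U c v + (t + I))`; `det_update` is
affine in `t` with a nonzero value at `t = -i`, so it has at most one real root. -/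
theorem good_close_ae {v : ι} (hv : v ∈ U) (hg : Good H U c) :
    ∀ᵐ t ∂cau, Good H (U.erase v) (Function.update c v t) := by
  have hac : cau ≪ (volume : Measure ℝ) := by
    rw [cau, cauchyMeasure_of_scale_ne_zero 0 one_ne_zero]
    exact withDensity_absolutelyContinuous _ _
  refine hac.ae_le ?_
  refine Set.Subsingleton.measure_zero (fun t ht t' ht' => ?_) _
  have h1 := not_not.1 (mt (st_good hv hg t).2 ht)
  have h2 := not_not.1 (mt (st_good hv hg t').2 ht')
  have h3 : (t : ℂ) = t' := by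
    linear_combination ((t : ℂ) + I) * h2 - ((t' : ℂ) + I) * h1
  exact_mod_cast h3

theorem st_row {S : Mx ι} (hS : US U S) {v x : ι} (hv : v ∈ U) (hx : x ≠ v) (h : ¬‖S v v‖ < 1) :
    S x v = 0 := by
  have h1 := hS.unit v v
  rw [if_pos ⟨rfl, hv⟩] at h1
  simp only [mul_conj'] at h1
  have h2 : ∑ z, ‖S v z‖ ^ 2 = 1 := by exact_mod_cast h1
  have h3 : ∑ z ∈ {x, v}, ‖S v z‖ ^ 2 ≤ ∑ z, ‖S v z‖ ^ 2 :=
    Finset.sum_le_sum_of_subset_of_nonneg (Finset.subset_univ _) fun z _ _ => sq_nonneg _
  rw [Finset.sum_pair hx, h2] at h3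
  have h4 : 1 ≤ ‖S v v‖ ^ 2 := one_le_pow₀ (not_lt.1 h)
  have h5 : ‖S v x‖ ^ 2 = 0 := le_antisymm (by linarith) (sq_nonneg _)
  rw [hS.symm]
  exact norm_eq_zero.1 (pow_eq_zero_iff two_ne_zero |>.1 h5)

/-- `inv_update` with `a = t + i`, `S x v = 2 i G x v`, `ρ = 1 + 2 i G v v`; for `‖ρ‖ < 1` use
`inv_one_add`: `a / (1 + a g) = -2 i ξ`; for `‖ρ‖ = 1` unitarity gives `S x v = 0` for `x ≠ v`. -/
theorem Smat_close (hH : H.IsSymm) {v : ι} (hv : v ∈ U) (hg : Good H U c) (t : ℝ)
    (hg' : Good H (U.erase v) (Function.update c v t)) :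
    Smat H (U.erase v) (Function.update c v t) = cls (Smat H U c) v t := by
  have hS := Smat_US hH U c
  funext x y
  unfold cls
  by_cases h : x = v ∨ y = v
  · rw [if_pos h]
    refine if_neg fun h' => ?_
    rcases h with h | h
    · exact (Finset.mem_erase.1 h'.1).1 h
    · exact (Finset.mem_erase.1 h'.2).1 h
  rw [if_neg h]
  obtain ⟨hxv, hyv⟩ := not_or.1 h
  by_cases hx : x ∈ U
  swap
  · rw [hS.zero x y hx, hS.zero x v hx, mul_zero, zero_mul, add_zero]
    exact if_neg fun h' => hx (Finset.mem_of_mem_erase h'.1)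
  by_cases hy : y ∈ U
  swap
  · rw [hS.symm x y, hS.symm v y, hS.zero y x hy, hS.zero y v hy, mul_zero, add_zero]
    exact if_neg fun h' => hy (Finset.mem_of_mem_erase h'.2)
  have ha := (st_good hv hg t).1 hg'
  have e0 : (Kmat H (U.erase v) (Function.update c v t))⁻¹ x y = (Kmat H U c)⁻¹ x y -
      ((t : ℂ) + I) * (Kmat H U c)⁻¹ x v * (Kmat H U c)⁻¹ v y /
        (1 + ((t : ℂ) + I) * (Kmat H U c)⁻¹ v v) := by
    unfold Kmat
    rw [st_dd hv]
    exact inv_update _ hg v _ ha x y
  have e1 : Smat H (U.erase v) (Function.update c v t) x y = (if x = y then 1 else 0) +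
      2 * I * (Kmat H (U.erase v) (Function.update c v t))⁻¹ x y :=
    if_pos ⟨Finset.mem_erase.2 ⟨hxv, hx⟩, Finset.mem_erase.2 ⟨hyv, hy⟩⟩
  have e2 : Smat H U c x y = (if x = y then 1 else 0) + 2 * I * (Kmat H U c)⁻¹ x y :=
    if_pos ⟨hx, hy⟩
  have e3 : Smat H U c x v = 2 * I * (Kmat H U c)⁻¹ x v := by
    refine (if_pos ⟨hx, hv⟩).trans ?_
    rw [if_neg hxv, zero_add]
  have e4 : Smat H U c v y = 2 * I * (Kmat H U c)⁻¹ v y := by
    refine (if_pos ⟨hv, hy⟩).trans ?_
    rw [if_neg (Ne.symm hyv), zero_add]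
  have e5 : Smat H U c v v = 1 + 2 * I * (Kmat H U c)⁻¹ v v := by
    refine (if_pos ⟨hv, hv⟩).trans ?_
    rw [if_pos rfl]
  rw [e1, e0, e2, e4, div_eq_mul_inv]
  by_cases hρ : ‖Smat H U c v v‖ < 1
  · have e6 := (inv_one_add (e5 ▸ hρ) t).2.2.2
    rw [e3, xi, e5]
    linear_combination (-2 * I * (Kmat H U c)⁻¹ x v * (Kmat H U c)⁻¹ v y) * e6
  · have e6 := st_row hS hv hxv hρ
    have e7 : (Kmat H U c)⁻¹ x v = 0 := by
      rw [e3] at e6
      exact (mul_eq_zero.1 e6).resolve_left (mul_ne_zero two_ne_zero I_ne_zero)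
    rw [e6, e7]
    ring

end Vale.Agent.P365
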