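import Vale.Agent.P365.Mom2

namespace Vale.Agent.P365

open MeasureTheory ProbabilityTheory Complex Filter
open scoped ComplexConjugate ENNReal

variable {ι : Type} [Fintype ι] [DecidableEq ι]

variable {H : Matrix ι ι ℝ} {U : Finset ι} {c : ι → ℝ}

theorem Kgen_symm (hH : H.IsSymm) (d : ι → ℂ) : (Kgen H d).IsSymm :=
  (hH.map _).add (Matrix.isSymm_diagonal d)

theorem Kgen_inv_symm (hH : H.IsSymm) (d : ι → ℂ) (x y : ι) :
    (Kgen H d)⁻¹ x y = (Kgen H d)⁻¹ y x := by
  have h := Matrix.transpose_nonsing_inv (Kgen H d)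
  rw [(Kgen_symm hH d).eq] at h
  exact (congrFun (congrFun h x) y).symm

theorem st0_res (d d' : ι → ℂ) (hd : (Kgen H d).det ≠ 0) (hd' : (Kgen H d').det ≠ 0) (x y : ι) :
    (Kgen H d')⁻¹ x y = (Kgen H d)⁻¹ x y -
      ∑ u, (Kgen H d')⁻¹ x u * (d' u - d u) * (Kgen H d)⁻¹ u y := by
  have e : Matrix.diagonal (fun u => d' u - d u) = Kgen H d' - Kgen H d := by
    rw [Kgen, Kgen, add_sub_add_left_eq_sub, Matrix.diagonal_sub]
  have h : (Kgen H d')⁻¹ * Matrix.diagonal (fun u => d' u - d u) * (Kgen H d)⁻¹ =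
      (Kgen H d)⁻¹ - (Kgen H d')⁻¹ := by
    rw [e, Matrix.mul_sub, Matrix.sub_mul, Matrix.nonsing_inv_mul _ hd'.isUnit, Matrix.one_mul,
      Matrix.mul_nonsing_inv_cancel_right _ _ hd.isUnit]
  have h2 := congrFun (congrFun h x) y
  rw [Matrix.mul_apply, Matrix.sub_apply] at h2
  simp only [Matrix.mul_diagonal] at h2
  rw [h2, sub_sub_cancel]

omit [Fintype ι] [DecidableEq ι] in
theorem st0_herm (hH : H.IsSymm) : (H.map fun r => (r : ℂ)).IsHermitian := by
  ext x y
  rw [Matrix.conjTranspose_apply, Matrix.map_apply, Matrix.map_apply, hH.apply, Complex.star_def,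
    conj_ofReal]

omit [Fintype ι] in
theorem st0_star (hH : H.IsSymm) (d : ι → ℂ) : Kgen H (star d) = (Kgen H d).conjTranspose := by
  rw [Kgen, Kgen, Matrix.conjTranspose_add, (st0_herm hH).eq, Matrix.diagonal_conjTranspose]

/-- Ward identity: with `G = K⁻¹`, `G - G* = G (K* - K) G*` and `K* - K = diag (-2 i im d)`. -/
theorem ward (hH : H.IsSymm) (d : ι → ℂ) (hd : (Kgen H d).det ≠ 0) (x y : ι) :
    (Kgen H d)⁻¹ x y - conj ((Kgen H d)⁻¹ y x) =
      ∑ z, (Kgen H d)⁻¹ x z * (-2 * I * ((d z).im : ℂ)) * conj ((Kgen H d)⁻¹ y z) := by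
  have h1 : (Kgen H (star d)).det ≠ 0 := by
    rw [st0_star hH, Matrix.det_conjTranspose]
    exact star_ne_zero.2 hd
  have h2 := st0_res (star d) d h1 hd x y
  rw [st0_star hH, ← Matrix.conjTranspose_nonsing_inv] at h2
  simp only [Matrix.conjTranspose_apply, Pi.star_apply, Complex.star_def, sub_conj] at h2
  rw [h2, sub_sub_cancel_left, ← Finset.sum_neg_distrib]
  refine Finset.sum_congr rfl fun z _ => ?_
  push_cast
  ring

/-- If `K g = 0` then `0 = im ⟨g, K g⟩ = Σ im (d z) ‖g z‖²`. -/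
theorem Kgen_det_ne (hH : H.IsSymm) (d : ι → ℂ) (hd : ∀ z, (d z).im < 0) :
    (Kgen H d).det ≠ 0 := by
  intro h
  obtain ⟨g, hg, h0⟩ := Matrix.exists_mulVec_eq_zero_iff.2 h
  have h1 : (star g ⬝ᵥ (H.map fun r => (r : ℂ)).mulVec g).im = 0 :=
    (st0_herm hH).im_star_dotProduct_mulVec_self g
  have h2 : (star g ⬝ᵥ (Matrix.diagonal d).mulVec g).im = ∑ z, (d z).im * ‖g z‖ ^ 2 := by
    rw [dotProduct, im_sum]
    refine Finset.sum_congr rfl fun z _ => ?_
    rw [Matrix.mulVec_diagonal, Pi.star_apply, Complex.star_def, mul_left_comm, conj_mul',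
      ← ofReal_pow, im_mul_ofReal]
  have h3 := congrArg (fun w => (star g ⬝ᵥ w).im) h0
  simp only [Kgen, Matrix.add_mulVec, dotProduct_add, add_im, h1, h2, dotProduct_zero, zero_im,
    zero_add] at h3
  rw [Finset.sum_eq_zero_iff_of_nonpos fun z _ =>
    mul_nonpos_of_nonpos_of_nonneg (hd z).le (sq_nonneg _)] at h3
  refine hg (funext fun z => ?_)
  have h4 := (mul_eq_zero.1 (h3 z (Finset.mem_univ z))).resolve_left (hd z).ne
  exact norm_eq_zero.1 (pow_eq_zero_iff two_ne_zero |>.1 h4)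

/-- Resolvent identity `G' = G - G' (D' - D) G`. -/
theorem resolvent (d d' : ι → ℂ) (hd : (Kgen H d).det ≠ 0) (hd' : (Kgen H d').det ≠ 0) (x y : ι) :
    (Kgen H d')⁻¹ x y = (Kgen H d)⁻¹ x y -
      ∑ u, (Kgen H d')⁻¹ x u * (d' u - d u) * (Kgen H d)⁻¹ u y := st0_res d d' hd hd' x y

/-- Rank one update of the determinant (`K' = K (1 + G e_v a e_vᵀ)`, or multilinearity of the
determinant in row `v` with the adjugate). -/
theorem det_update (d : ι → ℂ) (hd : (Kgen H d).det ≠ 0) (v : ι) (a : ℂ) :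
    (Kgen H (Function.update d v (d v + a))).det =
      (Kgen H d).det * (1 + a * (Kgen H d)⁻¹ v v) := by
  have e : Kgen H (Function.update d v (d v + a)) = Kgen H d +
      Matrix.replicateCol Unit (Pi.single v (1 : ℂ)) *
        Matrix.replicateRow Unit (Pi.single v a) := by
    ext x y
    simp only [Kgen, Matrix.add_apply, Matrix.mul_apply, Matrix.replicateCol_apply,
      Matrix.replicateRow_apply, Matrix.diagonal_apply, Function.update_apply, Pi.single_apply,
      Finset.univ_unique, Finset.sum_singleton]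
    by_cases h1 : x = y
    · subst h1
      by_cases h2 : x = v
      · subst h2
        simp [add_assoc]
      · simp [h2]
    · by_cases h2 : x = v
      · subst h2
        simp [h1, Ne.symm h1]
      · simp [h1, h2]
  rw [e, Matrix.det_add_replicateCol_mul_replicateRow hd.isUnit,
    Matrix.det_unique (n := Unit)]
  simp [Matrix.mul_apply, Pi.single_apply]

theorem inv_update (d : ι → ℂ) (hd : (Kgen H d).det ≠ 0) (v : ι) (a : ℂ)
    (ha : 1 + a * (Kgen H d)⁻¹ v v ≠ 0) (x y : ι) :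
    (Kgen H (Function.update d v (d v + a)))⁻¹ x y = (Kgen H d)⁻¹ x y -
      a * (Kgen H d)⁻¹ x v * (Kgen H d)⁻¹ v y / (1 + a * (Kgen H d)⁻¹ v v) := by
  have hd' : (Kgen H (Function.update d v (d v + a))).det ≠ 0 := by
    rw [det_update d hd]
    exact mul_ne_zero hd ha
  have h : ∀ y, (Kgen H (Function.update d v (d v + a)))⁻¹ x y = (Kgen H d)⁻¹ x y -
      (Kgen H (Function.update d v (d v + a)))⁻¹ x v * a * (Kgen H d)⁻¹ v y := fun y => by
    rw [st0_res d _ hd hd' x y, Finset.sum_eq_single v (fun u _ hu => by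
      rw [Function.update_of_ne hu, sub_self, mul_zero, zero_mul]) (by simp),
      Function.update_self, add_sub_cancel_left]
  have h1 : (Kgen H (Function.update d v (d v + a)))⁻¹ x v =
      (Kgen H d)⁻¹ x v / (1 + a * (Kgen H d)⁻¹ v v) := by
    rw [eq_div_iff ha]
    linear_combination h v
  rw [h y, h1]
  ring

omit [Fintype ι] in
theorem st0_cont (H : Matrix ι ι ℝ) : Continuous fun d : ι → ℂ => Kgen H d :=
  continuous_const.add continuous_id.matrix_diagonal

theorem continuous_Kgen_det (H : Matrix ι ι ℝ) :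
    Continuous fun d : ι → ℂ => (Kgen H d).det := (st0_cont H).matrix_det

theorem measurable_Kgen_inv (H : Matrix ι ι ℝ) (x y : ι) :
    Measurable fun d : ι → ℂ => (Kgen H d)⁻¹ x y := by
  simp only [Matrix.inv_def, Ring.inverse_eq_inv', Matrix.smul_apply, smul_eq_mul]
  exact (continuous_Kgen_det H).measurable.inv.mul
    ((st0_cont H).matrix_adjugate.matrix_elem x y).measurable

theorem continuousAt_Kgen_inv (H : Matrix ι ι ℝ) {d : ι → ℂ} (hd : (Kgen H d).det ≠ 0) (x y : ι) :
    ContinuousAt (fun d : ι → ℂ => (Kgen H d)⁻¹ x y) d := by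
  simp only [Matrix.inv_def, Ring.inverse_eq_inv', Matrix.smul_apply, smul_eq_mul]
  exact ((continuous_Kgen_det H).continuousAt.inv₀ hd).mul
    ((st0_cont H).matrix_adjugate.matrix_elem x y).continuousAt

end Vale.Agent.P365
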