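import Vale.Agent.P365.Nice

namespace Vale.Agent.P365

open MeasureTheory ProbabilityTheory Complex Filter
open scoped ComplexConjugate ENNReal

variable {ι : Type} [Fintype ι] [DecidableEq ι]

variable {U : Finset ι} {S : Mx ι} {v : ι}

/-- `‖S x y + ξ a b‖²` expanded with `xi_normSq`. -/
theorem pp_cls (hS : US U S) (hv : v ∈ U) {x y : ι} (hx : x ≠ v) (hy : y ≠ v) (t : ℝ) :
    pp (cls S v t) x y = pp S x y + pp S x v * pp S v y / sv S v +
      2 * (xi S v t * (conj (S x y) * S x v * S v y +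
        S v v * ((pp S x v * pp S v y / sv S v : ℝ) : ℂ))).re := by
  have h1 := xi_normSq hS hv t
  have h2 : pp (cls S v t) x y = pp S x y + ‖xi S v t‖ ^ 2 * (pp S x v * pp S v y) +
      2 * (xi S v t * (conj (S x y) * S x v * S v y)).re := by
    simp only [pp, cls, hx, hy, or_self, if_false, ← normSq_eq_norm_sq, normSq_apply, add_re,
      add_im, mul_re, mul_im, conj_re, conj_im]
    ring
  rw [h2, h1, mul_add (xi S v t), add_re, ← mul_assoc (xi S v t) (S v v), re_mul_ofReal,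
    mul_comm (xi S v t) (S v v)]
  ring

theorem step0_int (hS : US U S) (v : ι) (a : ℝ) (y : ℂ) :
    ∫ t, (a + 2 * (xi S v t * y).re) ∂cau = a := by
  rw [integral_add (integrable_const a)
    (xi_integrable hS v (fun z => 2 * (z * y).re) (by fun_prop)), xi_re hS]
  simp

theorem pp_cls_Av (hS : US U S) (hv : v ∈ U) {x y : ι} (hx : x ≠ v) (hy : y ≠ v) :
    Av S v (fun S' => pp S' x y) = pp S x y + pp S x v * pp S v y / sv S v := by
  simp only [Av, pp_cls hS hv hx hy]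
  exact step0_int hS v _ _

omit [DecidableEq ι] in
theorem step0_two (p δ : ι → ℝ) : ∑ x, ∑ y, p x * p y * (δ y - δ x) ^ 2 =
    2 * ((∑ x, p x) * (∑ x, p x * δ x ^ 2) - (∑ x, p x * δ x) ^ 2) := by
  have h1 : 2 * ((∑ x, p x) * (∑ x, p x * δ x ^ 2) - (∑ x, p x * δ x) ^ 2) =
      (∑ x, p x) * (∑ x, p x * δ x ^ 2) + (∑ x, p x * δ x ^ 2) * (∑ x, p x) -
        (∑ x, 2 * (p x * δ x)) * (∑ x, p x * δ x) := by
    rw [← Finset.mul_sum]
    ring
  rw [h1]
  simp only [Finset.sum_mul_sum, ← Finset.sum_add_distrib, ← Finset.sum_sub_distrib]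
  exact Finset.sum_congr rfl fun x _ => Finset.sum_congr rfl fun y _ => by ring

omit [DecidableEq ι] in
theorem step0_three {c : ι → ι → ℂ} (hc : ∀ x y, c x y = c y x) (b δ : ι → ℂ) :
    ∑ x, ∑ y, c x y * b x * b y * (δ y - δ x) ^ 2 =
      2 * ∑ x, b x * δ x ^ 2 * ∑ y, c x y * b y -
        2 * ∑ x, ∑ y, (b x * δ x) * c x y * (b y * δ y) := by
  have h1 : ∑ x, b x * δ x ^ 2 * ∑ y, c x y * b y = ∑ x, ∑ y, b y * δ y ^ 2 * (c x y * b x) := by
    rw [Finset.sum_comm]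
    simp only [Finset.mul_sum, hc]
  rw [two_mul (∑ x, b x * δ x ^ 2 * ∑ y, c x y * b y)]
  nth_rw 1 [h1]
  simp only [Finset.mul_sum, ← Finset.sum_add_distrib, ← Finset.sum_sub_distrib]
  exact Finset.sum_congr rfl fun x _ => Finset.sum_congr rfl fun y _ => by ring

theorem step0_lin (hS : US U S) (ψ : ι → ℝ) (v : ι) :
    ∑ x, ∑ y, conj (S x y) * (if x = v then 0 else S v x) * (if y = v then 0 else S v y) *
      (((ψ y - ψ x) ^ 2 : ℝ) : ℂ) = 2 * MM S ψ v - 2 * (S v v * (ee S ψ v : ℝ)) := by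
  have h1 := step0_three (c := fun x y => conj (S x y)) (fun x y => by rw [hS.symm])
    (fun x => if x = v then 0 else S v x) fun x => ((ψ x - ψ v : ℝ) : ℂ)
  have h2 : ∀ x, (if x = v then 0 else S v x) * ((ψ x - ψ v : ℝ) : ℂ) =
      -(S x v * ((ψ v - ψ x : ℝ) : ℂ)) := fun x => by
    rw [hS.symm x v]
    split_ifs with h
    · simp [h]
    · push_cast
      ring
  have h3 : ∀ x, (if x = v then 0 else S v x) * ((ψ x - ψ v : ℝ) : ℂ) ^ 2 *
      ∑ y, conj (S x y) * (if y = v then 0 else S v y) =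
      -(S v v * ((pp S v x * (ψ x - ψ v) ^ 2 : ℝ) : ℂ)) := fun x => by
    by_cases h : x = v
    · simp [h]
    have h4 := hS.unit v x
    have h5 : ∀ y, conj (S x y) * (if y = v then 0 else S v y) =
        S v y * conj (S x y) - if y = v then S v v * conj (S v x) else 0 := fun y => by
      split_ifs with h6
      · rw [h6, hS.symm x v, mul_zero, sub_self]
      · rw [sub_zero, mul_comm]
    rw [if_neg fun h6 => h h6.1.symm] at h4
    simp only [h5, Finset.sum_sub_distrib, h4, Finset.sum_ite_eq', Finset.mem_univ, if_true,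
      if_neg h, pp, ← normSq_eq_norm_sq, ofReal_mul, ← mul_conj, ofReal_pow]
    ring
  simp only [h2, h3] at h1
  simp only [← ofReal_sub, sub_sub_sub_cancel_right, ← ofReal_pow] at h1
  rw [h1, MM, ee, ofReal_sum, Finset.sum_neg_distrib, ← Finset.mul_sum]
  simp only [neg_mul, mul_neg, neg_neg]
  ring

/-- Sum `pp_cls` against `(ψ y - ψ x)²/2` over `x, y ≠ v`. Write
`ψ y - ψ x = (ψ y - ψ v) - (ψ x - ψ v)`. Constant part: `F - e + (s e - j²)/s`. For the linear part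
use `Σ_y conj (S x y) S v y = 0` for `x ≠ v` (unitarity), so that
`Σ_{y≠v} conj (S x y) S v y = - conj (S x v) ρ`; the terms `- ρ e` and `+ ρ e` cancel.
If `s = 0` then `ξ = 0`, the row of `v` vanishes off the diagonal and nothing changes. -/
theorem FF_cls (hS : US U S) (hv : v ∈ U) (ψ : ι → ℝ) (t : ℝ) :
    FF (cls S v t) ψ = FF S ψ - jj S ψ v ^ 2 / sv S v + 2 * (xi S v t * yF S ψ v).re := by
  have h1 : ∀ x y, pp (cls S v t) x y * (ψ y - ψ x) ^ 2 = pp S x y * (ψ y - ψ x) ^ 2 -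
      (if x = v then pp S v y * (ψ y - ψ v) ^ 2 else 0) -
      (if y = v then pp S v x * (ψ x - ψ v) ^ 2 else 0) +
      (if x = v then 0 else pp S v x) * (if y = v then 0 else pp S v y) * (ψ y - ψ x) ^ 2 / sv S v +
      2 * (xi S v t * (conj (S x y) * (if x = v then 0 else S v x) * (if y = v then 0 else S v y) *
        (((ψ y - ψ x) ^ 2 : ℝ) : ℂ) + S v v * (((if x = v then 0 else pp S v x) *
          (if y = v then 0 else pp S v y) * (ψ y - ψ x) ^ 2 / sv S v : ℝ) : ℂ))).re := by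
    intro x y
    by_cases hx : x = v
    · by_cases hy : y = v
      · simp [hx, hy]
      · simp [hx, hy, pp, cls]
    by_cases hy : y = v
    · have h2 : (ψ v - ψ x) ^ 2 = (ψ x - ψ v) ^ 2 := by ring
      simp [hx, hy, pp, cls, h2, hS.symm x v]
    rw [pp_cls hS hv hx hy, pp_symm hS x v, hS.symm x v]
    simp only [if_neg hx, if_neg hy, mul_div_right_comm _ ((ψ y - ψ x) ^ 2),
      ofReal_mul _ ((ψ y - ψ x) ^ 2), ← mul_assoc _ _ (((ψ y - ψ x) ^ 2 : ℝ) : ℂ),
      ← add_mul _ _ (((ψ y - ψ x) ^ 2 : ℝ) : ℂ), re_mul_ofReal]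
    ring
  have h2 := step0_two (fun x => if x = v then 0 else pp S v x) fun x => ψ x - ψ v
  have h3 : ∑ x, (if x = v then 0 else pp S v x) = sv S v := by
    rw [sv, ← Finset.add_sum_erase _ _ (Finset.mem_univ v), if_pos rfl, zero_add]
    exact Finset.sum_congr rfl fun x hx => if_neg (Finset.mem_erase.1 hx).1
  have h4 : ∑ x, (if x = v then 0 else pp S v x) * (ψ x - ψ v) ^ 2 = ee S ψ v :=
    Finset.sum_congr rfl fun x _ => by split_ifs with h <;> simp [h]
  have h5 : ∑ x, (if x = v then 0 else pp S v x) * (ψ x - ψ v) = jj S ψ v :=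
    Finset.sum_congr rfl fun x _ => by split_ifs with h <;> simp [h]
  simp only [sub_sub_sub_cancel_right, h3, h4, h5] at h2
  have h6 : 2 * (sv S v * ee S ψ v - jj S ψ v ^ 2) / sv S v =
      2 * ee S ψ v - 2 * (jj S ψ v ^ 2 / sv S v) := by
    rcases eq_or_ne (sv S v) 0 with h | h
    · simp [h, ee_zero_of_sv S ψ h]
    · field_simp
  have h7 : ∑ x, ∑ y, (if x = v then pp S v y * (ψ y - ψ v) ^ 2 else 0) = ee S ψ v := by
    rw [Finset.sum_comm]
    simp [ee]
  have h8 : ∑ x, ∑ y, (if y = v then pp S v x * (ψ x - ψ v) ^ 2 else 0) = ee S ψ v := by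
    simp [ee]
  have h9 : FF (cls S v t) ψ = (∑ x, ∑ y, pp (cls S v t) x y * (ψ y - ψ x) ^ 2) / 2 := rfl
  have h10 : ∑ x, ∑ y, pp S x y * (ψ y - ψ x) ^ 2 = 2 * FF S ψ := by
    rw [FF, mul_div_cancel₀ _ two_ne_zero]
    rfl
  rw [h9]
  simp only [h1, Finset.sum_add_distrib, Finset.sum_sub_distrib, ← Finset.sum_div,
    ← Finset.mul_sum, ← re_sum, ← ofReal_sum]
  rw [h7, h8, h10, h2, h6, step0_lin hS, yF]
  have h11 : xi S v t * (2 * MM S ψ v - 2 * (S v v * (ee S ψ v : ℝ)) +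
      S v v * ((2 * ee S ψ v - 2 * (jj S ψ v ^ 2 / sv S v) : ℝ) : ℂ)) =
      xi S v t * (MM S ψ v - S v v * ((jj S ψ v ^ 2 / sv S v : ℝ) : ℂ)) * ((2 : ℝ) : ℂ) := by
    push_cast
    ring
  rw [h11, re_mul_ofReal]
  ring

theorem norm_yF_le (hS : US U S) (ψ : ι → ℝ) (v : ι) : ‖yF S ψ v‖ ≤ 2 * ee S ψ v := by
  have hg : 0 ≤ jj S ψ v ^ 2 / sv S v := div_nonneg (sq_nonneg _) (sv_nonneg S v)
  refine (norm_sub_le _ _).trans ?_
  rw [norm_mul, norm_real, Real.norm_of_nonneg hg]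
  linarith [norm_MM_le hS ψ v, jj_sq_div_le S ψ v, mul_le_of_le_one_left hg (norm_le_one hS v v)]

theorem FF_cls_Av (hS : US U S) (hv : v ∈ U) (ψ : ι → ℝ) :
    Av S v (fun S' => FF S' ψ) = FF S ψ - jj S ψ v ^ 2 / sv S v := by
  simp only [Av, FF_cls hS hv ψ]
  exact step0_int hS v _ _

end Vale.Agent.P365
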