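import Vale.Agent.P365.Step0

namespace Vale.Agent.P365

open MeasureTheory ProbabilityTheory Complex Filter
open scoped ComplexConjugate ENNReal

variable {ι : Type} [Fintype ι] [DecidableEq ι]

variable {U : Finset ι} {S : Mx ι} {v : ι}

/-- For `w ∈ U` use `sv_eq` for `cls` (`cls_US`) and `pp_cls` at `(w, w)`; for `w ∉ U` all vanish. -/
theorem sv_cls (hS : US U S) (hv : v ∈ U) {w : ι} (hw : w ≠ v) (t : ℝ) :
    sv (cls S v t) w = sv S w - pp S w v ^ 2 / sv S v - 2 * (xi S v t * nS S v w).re := by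
  by_cases h : w ∈ U
  · have h1 := pp_cls hS hv hw hw t
    have h2 : sv (cls S v t) w = 1 - pp (cls S v t) w w :=
      sv_eq (cls_US hS hv t) (Finset.mem_erase.2 ⟨hw, h⟩)
    have h3 : sv S w = 1 - pp S w w := sv_eq hS h
    rw [h2, h1, h3, nS, pp_symm hS v w, hS.symm v w, ← sq, mul_assoc (conj (S w w)), ← sq]
    ring
  · rw [sv_zero (cls_US hS hv t) fun h1 => h (Finset.mem_erase.1 h1).2, sv_zero hS h, nS,
      pp_zero_left hS h, hS.zero w v h]
    simp

theorem step1_div (hS : US U S) {w : ι} (hw : w ≠ v) : pp S w v ^ 2 / sv S v ≤ pp S w v := by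
  have h1 : pp S w v ≤ sv S v := by
    rw [pp_symm hS]
    exact pp_le_sv S hw
  refine div_le_of_le_mul₀ (sv_nonneg S v) (pp_nonneg S w v) ?_
  rw [sq]
  exact mul_le_mul_of_nonneg_left h1 (pp_nonneg S w v)

theorem norm_nS_le (hS : US U S) {w : ι} (hw : w ≠ v) : ‖nS S v w‖ ≤ 2 * pp S w v := by
  have hg : 0 ≤ pp S w v ^ 2 / sv S v := div_nonneg (sq_nonneg _) (sv_nonneg S v)
  refine (norm_add_le _ _).trans ?_
  rw [norm_mul, norm_mul, norm_real, Real.norm_of_nonneg hg, norm_pow, norm_conj]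
  have h1 : ‖S w w‖ * ‖S w v‖ ^ 2 ≤ pp S w v :=
    mul_le_of_le_one_left (sq_nonneg _) (norm_le_one hS w w)
  linarith [step1_div hS hw, mul_le_of_le_one_left hg (norm_le_one hS v v)]

theorem NN_cls (hS : US U S) (hv : v ∈ U) {Γ : Finset ι} (hΓ : v ∈ Γ) :
    ∃ (N0 : ℝ) (n : ℂ), 0 ≤ N0 ∧ N0 ≤ NN S Γ - sv S v ∧ ‖n‖ ≤ 2 * sv S v ∧
      ∀ t, NN (cls S v t) Γ = N0 - 2 * (xi S v t * n).re := by
  refine ⟨∑ w ∈ Γ.erase v, (sv S w - pp S w v ^ 2 / sv S v), ∑ w ∈ Γ.erase v, nS S v w,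
    Finset.sum_nonneg fun w hw => ?_, ?_, ?_, fun t => ?_⟩
  · have h1 := (Finset.mem_erase.1 hw).1
    linarith [step1_div hS h1, pp_le_sv S h1.symm]
  · rw [NN, ← Finset.add_sum_erase _ _ hΓ, add_sub_cancel_left]
    exact Finset.sum_le_sum fun w _ =>
      sub_le_self _ (div_nonneg (sq_nonneg _) (sv_nonneg S v))
  · refine (norm_sum_le _ _).trans ((Finset.sum_le_sum fun w hw =>
      norm_nS_le hS (Finset.mem_erase.1 hw).1).trans ?_)
    rw [← Finset.mul_sum, sv]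
    refine mul_le_mul_of_nonneg_left ?_ zero_le_two
    simp only [pp_symm hS _ v]
    exact Finset.sum_le_sum_of_subset_of_nonneg
      (Finset.erase_subset_erase _ (Finset.subset_univ _)) fun w _ _ => pp_nonneg S v w
  · rw [NN, ← Finset.add_sum_erase _ _ hΓ,
      sv_zero (cls_US hS hv t) (Finset.notMem_erase v U), zero_add, Finset.mul_sum, re_sum,
      Finset.mul_sum, ← Finset.sum_sub_distrib]
    exact Finset.sum_congr rfl fun w hw => sv_cls hS hv (Finset.mem_erase.1 hw).1 t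

theorem step1_sv (S : Mx ι) (v : ι) : ∑ x, (if x = v then 0 else pp S v x) = sv S v := by
  rw [sv, ← Finset.add_sum_erase _ _ (Finset.mem_univ v), if_pos rfl, zero_add]
  exact Finset.sum_congr rfl fun x hx => if_neg (Finset.mem_erase.1 hx).1

theorem step1_cancel (hS : US U S) {x : ι} (hx : x ≠ v) :
    pp S x v / sv S v * sv S v = pp S x v := by
  rcases eq_or_ne (sv S v) 0 with h | h
  · have h1 := pp_le_sv S hx
    rw [h, ← pp_symm hS] at h1
    rw [h, mul_zero, le_antisymm h1 (pp_nonneg S x v)]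
  · exact div_mul_cancel₀ _ h

theorem ee_cls_Av (hS : US U S) (hv : v ∈ U) (ψ : ι → ℝ) {x : ι} (hx : x ≠ v) :
    Av S v (fun S' => ee S' ψ x) =
      ee S ψ x + pp S x v / sv S v * (ee S ψ v + 2 * (ψ v - ψ x) * jj S ψ v) := by
  have h1 : ∀ y, ∃ c : ℂ, ∀ t, pp (cls S v t) x y * (ψ y - ψ x) ^ 2 =
      (pp S x y * (ψ y - ψ x) ^ 2 - (if y = v then pp S x v * (ψ v - ψ x) ^ 2 else 0) +
        pp S x v / sv S v * (pp S v y * (ψ y - ψ v) ^ 2 + 2 * (ψ v - ψ x) * (pp S v y * (ψ y - ψ v))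
          + (ψ v - ψ x) ^ 2 * (if y = v then 0 else pp S v y))) + 2 * (xi S v t * c).re := by
    intro y
    by_cases hy : y = v
    · exact ⟨0, fun t => by simp [hy, pp, cls]⟩
    refine ⟨(conj (S x y) * S x v * S v y + S v v * ((pp S x v * pp S v y / sv S v : ℝ) : ℂ)) *
      (((ψ y - ψ x) ^ 2 : ℝ) : ℂ), fun t => ?_⟩
    rw [pp_cls hS hv hx hy, if_neg hy, if_neg hy, ← mul_assoc (xi S v t), re_mul_ofReal]
    ring
  choose c hc using h1
  have h2 : ∀ t, ee (cls S v t) ψ x = (ee S ψ x + pp S x v / sv S v *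
      (ee S ψ v + 2 * (ψ v - ψ x) * jj S ψ v)) + 2 * (xi S v t * ∑ y, c y).re := fun t => by
    have h3 := step1_cancel hS hx
    rw [ee]
    simp only [hc, Finset.sum_add_distrib, Finset.sum_sub_distrib, ← Finset.mul_sum, ← re_sum,
      step1_sv, Finset.sum_ite_eq', Finset.mem_univ, if_true]
    rw [ee, ee, jj]
    linear_combination (ψ v - ψ x) ^ 2 * h3
  simp only [Av, h2]
  exact step0_int hS v _ _

/-- Expand; the `ξ conj ξ` term has coefficient
`S w v conj (S x v) Σ_{z≠v} P v z (ψ z - ψ w) = S w v conj (S x v) (j + s (ψ v - ψ w))`; replace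
`ξ conj ξ` by `(1 + ρ ξ + conj ρ conj ξ)/s`. -/
theorem Th_cls (hS : US U S) (hv : v ∈ U) (ψ : ι → ℝ) {w x : ι} (hw : w ≠ v) (hx : x ≠ v) :
    ∃ a b : ℂ, ∀ t, Th (cls S v t) ψ w x =
      Th S ψ w x + S w v * conj (S x v) * ((jj S ψ v / sv S v : ℝ) : ℂ) +
        xi S v t * a + conj (xi S v t) * b := by
  have h1 : ∀ z, ∃ a b : ℂ, ∀ t, cls S v t w z * conj (cls S v t x z) * ((ψ z - ψ w : ℝ) : ℂ) =
      S w z * conj (S x z) * ((ψ z - ψ w : ℝ) : ℂ) -
        (if z = v then S w v * conj (S x v) * ((ψ v - ψ w : ℝ) : ℂ) else 0) +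
        xi S v t * a + conj (xi S v t) * b + xi S v t * conj (xi S v t) * (S w v * conj (S x v)) *
          ((pp S v z * (ψ z - ψ v) + (ψ v - ψ w) * (if z = v then 0 else pp S v z) : ℝ) : ℂ) := by
    intro z
    by_cases hz : z = v
    · exact ⟨0, 0, fun t => by simp [hz, cls]⟩
    refine ⟨S w v * S v z * conj (S x z) * ((ψ z - ψ w : ℝ) : ℂ),
      S w z * conj (S x v) * conj (S v z) * ((ψ z - ψ w : ℝ) : ℂ), fun t => ?_⟩
    have h2 : ((pp S v z : ℝ) : ℂ) = S v z * conj (S v z) := by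
      rw [pp, ← normSq_eq_norm_sq, mul_conj]
    simp only [cls, hw, hx, hz, or_self, if_false, map_add, map_mul]
    push_cast
    rw [h2]
    ring
  choose a b hab using h1
  have h3 : S w v * ((sv S v : ℝ) : ℂ) / ((sv S v : ℝ) : ℂ) = S w v := by
    rcases eq_or_ne (sv S v) 0 with h | h
    · have h1 := pp_le_sv S hw
      rw [h, ← pp_symm hS] at h1
      have h2 : S w v = 0 := by
        simpa [pp] using le_antisymm h1 (pp_nonneg S w v)
      simp [h2]
    · exact mul_div_cancel_right₀ _ (ofReal_ne_zero.2 h)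
  obtain ⟨K, hK⟩ : ∃ K : ℂ, K = S w v * conj (S x v) *
    ((jj S ψ v + (ψ v - ψ w) * sv S v : ℝ) : ℂ) / ((sv S v : ℝ) : ℂ) := ⟨_, rfl⟩
  refine ⟨∑ z, a z + S v v * K, ∑ z, b z + conj (S v v) * K, fun t => ?_⟩
  have h4 : xi S v t * conj (xi S v t) =
      (1 + S v v * xi S v t + conj (S v v) * conj (xi S v t)) / ((sv S v : ℝ) : ℂ) := by
    rw [sv_eq hS hv]
    exact mom2_conj (norm_le_one hS v v) t
  rw [Th]
  simp only [hab, Finset.sum_add_distrib, Finset.sum_sub_distrib, ← Finset.mul_sum, ← ofReal_sum,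
    step1_sv, Finset.sum_ite_eq', Finset.mem_univ, if_true]
  rw [h4, hK, Th, jj]
  push_cast
  linear_combination conj (S x v) * ((ψ v : ℂ) - ψ w) * h3

end Vale.Agent.P365
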