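import Vale.Agent.P365.W2
import Vale.Agent.P365.YN

namespace Vale.Agent.P365

open MeasureTheory ProbabilityTheory Complex Filter
open scoped ComplexConjugate ENNReal

variable {ι : Type} [Fintype ι] [DecidableEq ι]

variable {U : Finset ι} {S : Mx ι}

theorem w1_key {C N s e Y Y0 : ℝ} (hC : 1024 ≤ C) (hN : C ≤ N) (hs : 0 ≤ s) (hs1 : s ≤ 1)
    (he : 0 ≤ e) (hY0 : 0 ≤ Y0) (hY : Y0 ≤ Y) (h : e ≤ 2 * Y * s / N) :
    Y0 ^ 2 * wN C N + 8 * e ^ 2 / s + C / (N + C) ^ 2 *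
      (-(s * Y0 ^ 2) + 16 * Y0 * e + 64 * e ^ 2 / s) ≤
      Y ^ 2 * wN C N - C / 16 * (Y ^ 2 * s / N ^ 2) := by
  have c0 : 0 < C := by linarith
  have n0 : 0 < N := by linarith
  have h1 : e ^ 2 / s ≤ 4 * Y ^ 2 * (s / N ^ 2) ∧ 16 * Y0 * e ≤ s * Y0 ^ 2 / 2 + 128 * (e ^ 2 / s) := by
    rcases hs.eq_or_lt with rfl | h2
    · have h3 : e = 0 := le_antisymm (by simpa using h) he
      simp [h3]
    constructor
    · rw [div_le_iff₀ h2]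
      refine (pow_le_pow_left₀ he h 2).trans_eq ?_
      field_simp
      ring
    · have h3 : s * Y0 ^ 2 / 2 + 128 * (e ^ 2 / s) - 16 * Y0 * e =
          (s * Y0 - 16 * e) ^ 2 / (2 * s) := by
        field_simp
        ring
      have h4 : 0 ≤ (s * Y0 - 16 * e) ^ 2 / (2 * s) := by positivity
      linarith
  have h2 : 1 / 2 ≤ wN C N := by
    rw [wN, le_div_iff₀ (by linarith)]
    linarith
  have h3 : C / (N + C) ^ 2 ≤ 1 / 1024 := by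
    rw [div_le_iff₀ (by positivity)]
    nlinarith
  have h4 : C * (s / N ^ 2) / 4 ≤ C / (N + C) ^ 2 * s := by
    have h5 : C / (2 * N) ^ 2 ≤ C / (N + C) ^ 2 :=
      div_le_div_of_nonneg_left c0.le (by positivity)
        (pow_le_pow_left₀ (by positivity) (by linarith) 2)
    refine le_trans (le_of_eq ?_) (mul_le_mul_of_nonneg_right h5 hs)
    field_simp
    norm_num
  have h5 : C * (s / N ^ 2) ≤ 1 := by
    rw [← mul_div_assoc, div_le_one (by positivity)]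
    nlinarith
  have h6 : 0 ≤ s / N ^ 2 := by positivity
  have h7 : 0 ≤ e ^ 2 / s := by positivity
  have h8 : 0 ≤ C / (N + C) ^ 2 := by positivity
  have h9 : Y0 ^ 2 ≤ Y ^ 2 := pow_le_pow_left₀ hY0 hY 2
  rw [mul_div_assoc 8, mul_div_assoc 64, mul_div_assoc (Y ^ 2)]
  generalize e ^ 2 / s = E at h1 h7 ⊢
  generalize s / N ^ 2 = σ at h1 h4 h5 h6 ⊢
  generalize C / (N + C) ^ 2 = w' at h3 h4 h8 ⊢
  generalize wN C N = w at h2 ⊢
  have a1 := mul_le_mul_of_nonneg_left h1.2 h8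
  have a2 := mul_le_mul_of_nonneg_right h3 h7
  have a3 := mul_le_mul_of_nonneg_right h4 (sq_nonneg Y0)
  have a4 := mul_le_mul_of_nonneg_left h2 (sub_nonneg.2 h9)
  have a5 := mul_le_mul_of_nonneg_left h5 (sub_nonneg.2 h9)
  have a6 := mul_le_mul_of_nonneg_right hC (mul_nonneg (sq_nonneg Y) h6)
  have a7 := mul_nonneg (sq_nonneg Y) h6
  nlinarith [h1.1]

/-- `greedy` with `e = ee ψ + ee (ind Γ)`, `Y = F ψ + F (ind Γ)`. With `σ = s/N²`: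
`step_gt` gives `-g`; `step_al38` gives `η1 (3 g + 38 Y² σ)`; `E F' ≤ F`; `step_YN` with `A = C1`:
`w ≥ 1/2`, `C1/(4N²) ≤ w' ≤ 1/C1`, `e²/s ≤ 4 Y² σ`, `16 Y0 e ≤ s Y0²/2 + 128 e²/s`, so
`E (Y'² w') - Y² w ≤ -(Y² - Y0²)/2 + 32 Y² σ - C1 σ Y0²/8 + 768 Y² σ/C1 ≤ - C1 σ Y²/16`
(`C1 σ ≤ 1`, `0 ≤ Y0 ≤ Y`), and `608/16 = 38`. -/
theorem step_W1 (hS : US U S) {Γ : Finset ι} (hne : (U ∩ Γ).Nonempty) {ψ : ι → ℝ} (hψ : Half ψ)
    {Λ d θ η1 C1 : ℝ} (hΛ : 8 ≤ Λ) (hd : Λ / 2 ≤ d) (hθ : 0 ≤ θ) (h1 : 0 ≤ η1) (h1' : 3 * η1 ≤ 1)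
    (hC : 1024 ≤ C1) (hN : C1 ≤ NN S Γ) :
    ∃ v ∈ U ∩ Γ, Av S v (W1 Λ d θ η1 C1 Γ ψ) ≤ W1 Λ d θ η1 C1 Γ ψ S := by
  have l0 : 0 < Λ := by linarith
  have c0 : 0 < C1 := by linarith
  obtain ⟨v, hv, he⟩ := greedy hS hne (fun x => ee S ψ x + ee S (ind Γ) x)
    (fun x => add_nonneg (ee_nonneg _ _ _) (ee_nonneg _ _ _))
    (fun x hx => by rw [ee_zero_of_sv S _ hx, ee_zero_of_sv S _ hx, add_zero])
    (Y := FF S ψ + FF S (ind Γ)) (by
      rw [Finset.sum_add_distrib]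
      linarith [sum_ee_le S ψ Γ, sum_ee_le S (ind Γ) Γ])
  refine ⟨v, hv, ?_⟩
  obtain ⟨hU, hΓ⟩ := Finset.mem_inter.1 hv
  have hs := sv_nonneg S v
  have hg : 0 ≤ jj S ψ v ^ 2 / sv S v := by positivity
  have hg' : 0 ≤ jj S (ind Γ) v ^ 2 / sv S v := by positivity
  have a1 := (step_gt hS hU hψ.osc hΛ hd).1
  have a2 := step_al38 hS hU hΓ hψ he
  have a3 := FF_cls_Av hS hU ψ
  obtain ⟨b1, -, b2⟩ := step_YN hS hU hΓ ψ (ind Γ) c0 rfl rfl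
  have a4 := b2.trans (w1_key hC hN hs (sv_le_one hS v)
    (add_nonneg (ee_nonneg _ _ _) (ee_nonneg _ _ _)) b1 (by linarith) he)
  have n1 : Nice fun S' : Mx ι => gt Λ d (FF S' ψ) := Nice.of_continuous (continuous_gt l0 d ψ)
  have n2 : Nice fun S' : Mx ι => al S' Γ ψ := Nice.of_continuous (by fun_prop)
  have n3 : Nice fun S' : Mx ι => FF S' ψ := Nice.of_continuous (by fun_prop)
  have n4 : Nice fun S' : Mx ι => (FF S' ψ + FF S' (ind Γ)) ^ 2 * wN C1 (NN S' Γ) :=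
    Nice.of_continuous (Continuous.mul (by fun_prop) (continuous_wN c0 Γ))
  have n5 := n2.sub (Nice.const (2 * θ))
  have n6 := (n3.add (Nice.const 8)).const_mul θ
  have a5 := mul_le_mul_of_nonneg_left a4 (show 0 ≤ 608 / C1 by positivity)
  have a6 : 608 / C1 * (C1 / 16 * ((FF S ψ + FF S (ind Γ)) ^ 2 * sv S v / NN S Γ ^ 2)) =
      38 * (FF S ψ + FF S (ind Γ)) ^ 2 * sv S v / NN S Γ ^ 2 := by
    field_simp
    ring
  rw [mul_sub, a6] at a5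
  have a7 := mul_nonneg hθ hg
  have a8 := mul_le_mul_of_nonneg_right h1' hg
  unfold W1
  rw [Av_sub hS hU n1 (((n5.sub n6).sub (n4.const_mul _)).const_mul _), Av_const_mul,
    Av_sub hS hU (n5.sub n6) (n4.const_mul _), Av_sub hS hU n5 n6, Av_sub hS hU n2 (Nice.const _),
    Av_const_mul S v θ, Av_const_mul S v (608 / C1), Av_add hS hU n3 (Nice.const _), Av_const, Av_const, a3]
  have a9 := mul_le_mul_of_nonneg_left (show al S Γ ψ - 2 * θ - θ * (FF S ψ + 8) -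
      608 / C1 * ((FF S ψ + FF S (ind Γ)) ^ 2 * wN C1 (NN S Γ)) - 3 * (jj S ψ v ^ 2 / sv S v) ≤
      Av S v (fun S' => al S' Γ ψ) - 2 * θ - θ * (FF S ψ - jj S ψ v ^ 2 / sv S v + 8) -
        608 / C1 * Av S v fun S' => (FF S' ψ + FF S' (ind Γ)) ^ 2 * wN C1 (NN S' Γ) by
    linarith) h1
  rw [mul_sub η1 _ (3 * _)] at a9
  linarith

end Vale.Agent.P365
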