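import Vale.Agent.P365.W2a

namespace Vale.Agent.P365

open MeasureTheory ProbabilityTheory Complex Filter
open scoped ComplexConjugate ENNReal

variable {ι : Type} [Fintype ι] [DecidableEq ι]

variable {U : Finset ι} {S : Mx ι} {v : ι}

theorem w2_small {Λ θ η1 η2 N1 : ℝ} (hΛ : 8 ≤ Λ) (hθ : 0 < θ) (hθ1 : θ ≤ 1)
    (hN1 : 1 ≤ N1) (h1 : 0 ≤ η1) (h2 : 0 ≤ η2) (h2' : 192 * Λ * η2 ≤ 1)
    (h4 : 352 * η1 * (N1 * (N1 ^ 2 + 4 * N1)) ≤ η2 * θ ^ 2) :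
    η2 ≤ 1 / 1536 ∧ η1 ≤ 1 / 100 ∧ 1760 * (η1 * N1) ≤ θ / 1536 := by
  have hη2 : η2 ≤ 1 / 1536 := by nlinarith
  have hP : 5 ≤ N1 ^ 2 + 4 * N1 := by nlinarith
  have hθ2 : θ ^ 2 ≤ θ := by nlinarith
  have e1 : 352 * (η1 * N1) * 5 ≤ 352 * (η1 * N1) * (N1 ^ 2 + 4 * N1) :=
    mul_le_mul_of_nonneg_left hP (by positivity)
  have e2 : η2 * θ ^ 2 ≤ 1 / 1536 * θ := mul_le_mul hη2 hθ2 (by positivity) (by norm_num)
  have e3 : η1 * 1 ≤ η1 * N1 := mul_le_mul_of_nonneg_left hN1 h1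
  refine ⟨hη2, by linarith, by linarith⟩

theorem w2_Y {θ η1 η2 η3 N1 g N a : ℝ} (hθ : 0 < θ) (hN1 : 1 ≤ N1) (h1 : 0 ≤ η1) (h2 : 0 ≤ η2)
    (hη3 : 0 ≤ η3) (h3 : 11 * η1 ≤ 2 * η3 * N1)
    (h4 : 352 * η1 * (N1 * (N1 ^ 2 + 4 * N1)) ≤ η2 * θ ^ 2) (hB : 1760 * (η1 * N1) ≤ θ / 1536)
    (hg : 0 ≤ g) (haN : a ≤ N) (h : θ < a) :
    11 * (η1 * N) ≤ g / 4
      + η2 * (max (a - 3 * g) 0 ^ 2 / (8 * (N ^ 2 + 4 * N))) + η3 * (2 * N * N) := by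
  have hN0 : 0 < N := by linarith
  have p1 : 0 ≤ η2 * (max (a - 3 * g) 0 ^ 2 / (8 * (N ^ 2 + 4 * N))) := by positivity
  have p2 : 0 ≤ η3 * (2 * N * N) := by positivity
  by_cases hn : N1 ≤ N
  · have e1 : 11 * η1 * N ≤ 2 * η3 * N1 * N := mul_le_mul_of_nonneg_right h3 hN0.le
    have e2 : 2 * η3 * N1 * N ≤ 2 * η3 * N * N :=
      mul_le_mul_of_nonneg_right (mul_le_mul_of_nonneg_left hn (by positivity)) hN0.le
    linarith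
  · have hn' : N ≤ N1 := (not_le.mp hn).le
    have e0 : η1 * N ≤ η1 * N1 := mul_le_mul_of_nonneg_left hn' h1
    by_cases hgθ : θ / 6 ≤ g
    · linarith
    · have e1 : θ / 2 ≤ max (a - 3 * g) 0 := le_max_of_le_left (by linarith [not_le.mp hgθ])
      have e2 : (θ / 2) ^ 2 ≤ max (a - 3 * g) 0 ^ 2 := pow_le_pow_left₀ (by positivity) e1 2
      have e3 : N ^ 2 + 4 * N ≤ N1 ^ 2 + 4 * N1 := by
        linarith [pow_le_pow_left₀ hN0.le hn' 2]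
      have e4 : 11 * (η1 * N1) ≤
          η2 * (max (a - 3 * g) 0 ^ 2 / (8 * (N ^ 2 + 4 * N))) := by
        rw [← mul_div_assoc, le_div_iff₀ (by positivity)]
        have e5 : η2 * (θ / 2) ^ 2 ≤ η2 * max (a - 3 * g) 0 ^ 2 :=
          mul_le_mul_of_nonneg_left e2 h2
        have e6 : η1 * N1 * (N ^ 2 + 4 * N) ≤ η1 * N1 * (N1 ^ 2 + 4 * N1) :=
          mul_le_mul_of_nonneg_left e3 (by positivity)
        linarith
      linarith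

theorem w2_real {Λ θ η1 η2 η3 η5 N1 g q N F a : ℝ} (hΛ : 8 ≤ Λ) (hθ : 0 < θ) (hθ1 : θ ≤ 1)
    (hN1 : 1 ≤ N1) (h1 : 0 ≤ η1) (h2 : 0 ≤ η2) (h2' : 192 * Λ * η2 ≤ 1) (h5 : 3 * η2 ≤ η5 * Λ)
    (h3 : 11 * η1 ≤ 2 * η3 * N1) (h4 : 352 * η1 * (N1 * (N1 ^ 2 + 4 * N1)) ≤ η2 * θ ^ 2)
    (hη3 : 0 ≤ η3) (hη5 : 0 ≤ η5)
    (hg : 0 ≤ g) (hq : 0 ≤ q) (hqN : q ≤ N) (haN : a ≤ N) (hF : 0 ≤ F) :
    -(g / 2) - (if F ≤ Λ then q / (48 * Λ) else 0) + η1 * (if θ < a then 3 * g + 11 * N else 0)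
      - η2 * (max (a - 3 * g) 0 ^ 2 / (8 * (N ^ 2 + 4 * N)) - 3 * q - 6 * g)
      - η3 * (2 * N * N) - η5 * (F * N) ≤ 0 := by
  have hN : 0 ≤ N := hq.trans hqN
  obtain ⟨hη2, hη1, hB⟩ := w2_small hΛ hθ hθ1 hN1 h1 h2 h2' h4
  have hQ : 3 * η2 * q ≤ (if F ≤ Λ then q / (48 * Λ) else 0) + η5 * (F * N) := by
    split_ifs with h
    · have e1 : 3 * η2 * q ≤ q / (48 * Λ) := by
        rw [le_div_iff₀ (by positivity)]
        have : 0 ≤ Λ * η2 := by positivity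
        linarith [mul_le_mul_of_nonneg_left (show 144 * (Λ * η2) ≤ 1 by linarith) hq]
      have : 0 ≤ η5 * (F * N) := by positivity
      linarith
    · have e1 : 3 * η2 * q ≤ η5 * Λ * N := mul_le_mul h5 hqN hq (by positivity)
      have e2 : η5 * Λ * N ≤ η5 * F * N :=
        mul_le_mul_of_nonneg_right (mul_le_mul_of_nonneg_left (not_le.mp h).le hη5) hN
      linarith
  have g1 := mul_le_mul_of_nonneg_right hη1 hg
  have g2 := mul_le_mul_of_nonneg_right hη2 hg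
  have hY : η1 * (if θ < a then 3 * g + 11 * N else 0) ≤ 3 * η1 * g + g / 4
      + η2 * (max (a - 3 * g) 0 ^ 2 / (8 * (N ^ 2 + 4 * N))) + η3 * (2 * N * N) := by
    split_ifs with h
    · linarith [w2_Y hθ hN1 h1 h2 hη3 h3 h4 hB hg haN h]
    · rw [mul_zero]
      positivity
  linarith

theorem w2_sum (hS : US U S) (Γ : Finset ι) (f : ι → ℝ) :
    ∑ v ∈ U ∩ Γ, f v / sv S v = ∑ v ∈ Γ, f v / sv S v ∧ ∑ v ∈ U ∩ Γ, sv S v = NN S Γ := by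
  refine ⟨Finset.sum_subset Finset.inter_subset_right fun x hx hx' => ?_,
    Finset.sum_subset Finset.inter_subset_right fun x hx hx' => ?_⟩
  · rw [sv_zero hS (fun h => hx' (Finset.mem_inter.mpr ⟨h, hx⟩)), div_zero]
  · exact sv_zero hS (fun h => hx' (Finset.mem_inter.mpr ⟨h, hx⟩))

theorem w2_max (hS : US U S) (hv : v ∈ U) {Γ : Finset ι} (hΓ : v ∈ Γ) {ψ : ι → ℝ}
    (hψ : Half ψ) (θ : ℝ) :
    max (al S Γ ψ - θ) 0 -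
      (if θ < al S Γ ψ then 3 * (jj S ψ v ^ 2 / sv S v) + 11 * sv S v else 0) ≤
      Av S v (fun S' => max (al S' Γ ψ - θ) 0) := by
  have hn : Nice fun S' : Mx ι => max (al S' Γ ψ - θ) 0 := Nice.of_continuous (by fun_prop)
  have ha : Nice fun S' : Mx ι => al S' Γ ψ := Nice.of_continuous (by fun_prop)
  split_ifs with h
  · have e1 := Av_mono hS hv (ha.sub (Nice.const θ)) hn fun t => le_max_left _ _
    rw [Av_sub hS hv ha (Nice.const θ), Av_const] at e1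
    have e2 := step_al11 hS hv hΓ hψ
    rw [max_eq_left (by linarith)]
    linarith
  · have e1 := Av_mono hS hv (Nice.const 0) hn fun t => le_max_right _ _
    rw [Av_const] at e1
    rw [max_eq_right (by linarith [not_lt.mp h])]
    linarith

theorem w2_split (hS : US U S) (hv : v ∈ U) (Γ : Finset ι) {ψ : ι → ℝ} (hψ : Osc ψ)
    {Λ : ℝ} (hΛ : 0 < Λ) (d θ η1 η2 η3 η5 : ℝ) :
    Av S v (W2 Λ d θ η1 η2 η3 η5 Γ ψ) =
      Av S v (fun S' => gt Λ d (FF S' ψ)) - η1 * Av S v (fun S' => max (al S' Γ ψ - θ) 0)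
        - η2 * Av S v (fun S' => qq S' Γ ψ)
        + η3 * Av S v (fun S' => NN S' Γ ^ 2 + 9 * NN S' Γ)
        + η5 * Av S v (fun S' => FF S' ψ * NN S' Γ + 8 * NN S' Γ) := by
  have n1 : Nice fun S' : Mx ι => gt Λ d (FF S' ψ) := Nice.of_continuous (continuous_gt hΛ d ψ)
  have n2 : Nice fun S' : Mx ι => η1 * max (al S' Γ ψ - θ) 0 := Nice.of_continuous (by fun_prop)
  have n3 : Nice fun S' : Mx ι => η2 * qq S' Γ ψ := (nice_qq Γ hψ).const_mul η2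
  have n4 : Nice fun S' : Mx ι => η3 * (NN S' Γ ^ 2 + 9 * NN S' Γ) :=
    Nice.of_continuous (by fun_prop)
  have n5 : Nice fun S' : Mx ι => η5 * (FF S' ψ * NN S' Γ + 8 * NN S' Γ) :=
    Nice.of_continuous (by fun_prop)
  have e := Av_add hS hv (((n1.sub n2).sub n3).add n4) n5
  rw [Av_add hS hv ((n1.sub n2).sub n3) n4, Av_sub hS hv (n1.sub n2) n3, Av_sub hS hv n1 n2,
    Av_const_mul, Av_const_mul, Av_const_mul, Av_const_mul] at e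
  exact e

/-- Show `Σ_{v ∈ U ∩ Γ} (Av W2 - W2) ≤ 0` (sums of `sv`, `j²/s`, `‖M‖²/s` over `U ∩ Γ` are `N`, `ga`,
`qq`). If `al ≤ θ` the `η1` term does not increase; if `al > θ` it increases in total by at most
`η1 (3 ga + 11 N)` (`max (a' - θ) 0 ≥ a' - θ`, `step_al11`). Total at most
`-ga/2 - [F ≤ Λ] q/(48Λ) + [al > θ] η1 (3 ga + 11 N) - η2 Ec + 3 η2 q + 6 η2 ga - 2 η3 N² - η5 F N`.
`q` terms: `F ≤ Λ` or `q ≤ N`. `3 η1 + 6 η2 ≤ 1/4`. The term `11 η1 N`: if `N ≥ N1` use `η3`;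
if `N < N1` (and `N ≥ al > θ > 0`) either `ga ≥ θ/6` and `ga/4 ≥ 11 η1 N1`, or
`al - 3 ga ≥ θ/2` and `η2 Ec ≥ η2 θ²/(32 (N1² + 4 N1)) ≥ 11 η1 N1`. -/
theorem step_W2 (hS : US U S) {Γ : Finset ι} (hne : (U ∩ Γ).Nonempty) {ψ : ι → ℝ} (hψ : Half ψ)
    {Λ d θ η1 η2 η3 η5 N1 : ℝ} (hΛ : 8 ≤ Λ) (hd : Λ / 2 ≤ d) (hθ : 0 < θ) (hθ1 : θ ≤ 1)
    (hN1 : 1 ≤ N1) (h1 : 0 ≤ η1) (h2 : 0 ≤ η2) (h2' : 192 * Λ * η2 ≤ 1) (h5 : 3 * η2 ≤ η5 * Λ)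
    (h3 : 11 * η1 ≤ 2 * η3 * N1) (h4 : 352 * η1 * (N1 * (N1 ^ 2 + 4 * N1)) ≤ η2 * θ ^ 2) :
    ∃ v ∈ U ∩ Γ, Av S v (W2 Λ d θ η1 η2 η3 η5 Γ ψ) ≤ W2 Λ d θ η1 η2 η3 η5 Γ ψ S := by
  have hΛ0 : 0 < Λ := by linarith
  have hη3 : 0 ≤ η3 := by
    by_contra h
    have : 2 * η3 * N1 < 0 := by nlinarith [not_le.mp h]
    linarith
  have hη5 : 0 ≤ η5 := by
    by_contra h
    have : η5 * Λ < 0 := by nlinarith [not_le.mp h]
    linarith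
  have key : ∀ v ∈ U ∩ Γ, Av S v (W2 Λ d θ η1 η2 η3 η5 Γ ψ) ≤ W2 Λ d θ η1 η2 η3 η5 Γ ψ S +
      (-(jj S ψ v ^ 2 / sv S v / 2)
        - (if FF S ψ ≤ Λ then ‖MM S ψ v‖ ^ 2 / sv S v / (48 * Λ) else 0)
        + η1 * (if θ < al S Γ ψ then 3 * (jj S ψ v ^ 2 / sv S v) + 11 * sv S v else 0)
        - η2 * (Av S v (fun S' => qq S' Γ ψ) - qq S Γ ψ)
        - η3 * (2 * NN S Γ * sv S v) - η5 * (FF S ψ * sv S v)) := by
    intro v hv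
    obtain ⟨hv, hΓ⟩ := Finset.mem_inter.mp hv
    rw [w2_split hS hv Γ hψ.osc hΛ0]
    have a1 : Av S v (fun S' => gt Λ d (FF S' ψ)) ≤ gt Λ d (FF S ψ) - jj S ψ v ^ 2 / sv S v / 2
        - (if FF S ψ ≤ Λ then ‖MM S ψ v‖ ^ 2 / sv S v / (48 * Λ) else 0) := by
      obtain ⟨b1, b2⟩ := step_gt hS hv hψ.osc hΛ hd
      split_ifs with h
      · exact b2 h
      · have : 0 ≤ jj S ψ v ^ 2 / sv S v := div_nonneg (sq_nonneg _) (sv_nonneg S v)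
        linarith
    have a2 := mul_le_mul_of_nonneg_left (w2_max hS hv hΓ hψ θ) h1
    have a4 := mul_le_mul_of_nonneg_left (step_N2 hS hv hΓ) hη3
    have a5 := mul_le_mul_of_nonneg_left (step_FN hS hv hΓ hψ.osc) hη5
    unfold W2
    linarith
  obtain ⟨s1, s0⟩ := w2_sum hS Γ fun v => jj S ψ v ^ 2
  obtain ⟨s2, -⟩ := w2_sum hS Γ fun v => ‖MM S ψ v‖ ^ 2
  replace s1 : ∑ v ∈ U ∩ Γ, jj S ψ v ^ 2 / sv S v = ga S Γ ψ := s1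
  replace s2 : ∑ v ∈ U ∩ Γ, ‖MM S ψ v‖ ^ 2 / sv S v = qq S Γ ψ := s2
  have t1 : ∑ v ∈ U ∩ Γ, (if FF S ψ ≤ Λ then ‖MM S ψ v‖ ^ 2 / sv S v / (48 * Λ) else 0) =
      if FF S ψ ≤ Λ then qq S Γ ψ / (48 * Λ) else 0 := by
    split_ifs
    · rw [← Finset.sum_div, s2]
    · simp
  have t2 : ∑ v ∈ U ∩ Γ,
      (if θ < al S Γ ψ then 3 * (jj S ψ v ^ 2 / sv S v) + 11 * sv S v else 0) =
      if θ < al S Γ ψ then 3 * ga S Γ ψ + 11 * NN S Γ else 0 := by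
    split_ifs
    · rw [Finset.sum_add_distrib, ← Finset.mul_sum, ← Finset.mul_sum, s1, s0]
    · simp
  refine Finset.exists_le_of_sum_le hne ((Finset.sum_le_sum key).trans ?_)
  rw [Finset.sum_add_distrib, add_le_iff_nonpos_right]
  rw [Finset.sum_sub_distrib, Finset.sum_sub_distrib, Finset.sum_sub_distrib,
    Finset.sum_add_distrib, Finset.sum_sub_distrib, Finset.sum_neg_distrib, ← Finset.sum_div,
    ← Finset.mul_sum, ← Finset.mul_sum, ← Finset.mul_sum, ← Finset.mul_sum,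
    ← Finset.mul_sum, ← Finset.mul_sum, s0, s1, t1, t2]
  have r := w2_real hΛ hθ hθ1 hN1 h1 h2 h2' h5 h3 h4 hη3 hη5 (ga_nonneg S Γ ψ)
    (qq_nonneg S Γ ψ)
    (qq_le_NN hS Γ hψ.osc) (al_le_NN hS Γ hψ.osc) (FF_nonneg S ψ)
  have r2 := mul_le_mul_of_nonneg_left (step_q hS Γ hψ.osc) h2
  linarith

end Vale.Agent.P365
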