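import Vale.Agent.P365.Alpha
import Vale.Agent.P365.Qs2

namespace Vale.Agent.P365

open MeasureTheory ProbabilityTheory Complex Filter
open scoped ComplexConjugate ENNReal

variable {ι : Type} [Fintype ι] [DecidableEq ι]

variable {U : Finset ι} {S : Mx ι} {v : ι}

theorem w2a_bound (hS : US U S) (hv : v ∈ U) {Φ : Mx ι → ℝ} (hΦ : Nice Φ) (a b c k : ℝ)
    (y n : ℂ) (h : ∀ t, Φ (cls S v t) ≤ a + b * (2 * (xi S v t * y).re) +
      c * (2 * (xi S v t * n).re) + k * ((2 * (xi S v t * y).re) * (2 * (xi S v t * n).re))) :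
    Av S v Φ ≤ a + k * (2 * (y * conj n).re / sv S v) := by
  have i1 : Integrable (fun t => a + b * (2 * (xi S v t * y).re)) cau :=
    xi_integrable hS v (fun z => a + b * (2 * (z * y).re)) (by fun_prop)
  have i2 : Integrable (fun t => b * (2 * (xi S v t * y).re)) cau :=
    xi_integrable hS v (fun z => b * (2 * (z * y).re)) (by fun_prop)
  have i3 : Integrable (fun t => c * (2 * (xi S v t * n).re)) cau :=
    xi_integrable hS v (fun z => c * (2 * (z * n).re)) (by fun_prop)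
  have i4 : Integrable (fun t => k * ((2 * (xi S v t * y).re) * (2 * (xi S v t * n).re))) cau :=
    xi_integrable hS v (fun z => k * ((2 * (z * y).re) * (2 * (z * n).re))) (by fun_prop)
  refine (integral_mono (hΦ.integrable_cls hS hv) ((i1.add i3).add i4) h).trans_eq ?_
  have h1 := integral_add (i1.add i3) i4
  have h2 := integral_add i1 i3
  have h3 := integral_add (integrable_const a) i2
  simp only [Pi.add_apply] at h1 ⊢
  rw [h1, h2, h3, integral_const_mul b, integral_const_mul c, integral_const_mul k, xi_re hS,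
    xi_re hS, xi_re_re hS hv]
  simp

theorem w2a_rr {s : ℝ} (hs : 0 ≤ s) {y n : ℂ} (hy : ‖y‖ ≤ 2 * s) (hn : ‖n‖ ≤ 2 * s) :
    |2 * (y * conj n).re / s| ≤ 8 * s := by
  rcases hs.eq_or_lt with rfl | h
  · simp
  have h1 : |(y * conj n).re| ≤ 2 * s * (2 * s) := by
    refine (abs_re_le_norm _).trans ?_
    rw [norm_mul, norm_conj]
    exact mul_le_mul hy hn (norm_nonneg _) (by linarith)
  rw [abs_div, abs_mul, abs_of_pos h, abs_two, div_le_iff₀ h]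
  linarith

theorem w2a_F0 (hS : US U S) (hv : v ∈ U) (ψ : ι → ℝ) :
    0 ≤ FF S ψ - jj S ψ v ^ 2 / sv S v := by
  rw [← FF_cls_Av hS hv]
  exact integral_nonneg fun t => FF_nonneg _ _

theorem w2a_y (hS : US U S) {ψ : ι → ℝ} (hψ : Osc ψ) (v : ι) : ‖yF S ψ v‖ ≤ 2 * sv S v :=
  (norm_yF_le hS ψ v).trans (by linarith [ee_le_sv S hψ v])

theorem w2a_Z (hS : US U S) (hv : v ∈ U) {y : ℂ} (hy : ‖y‖ ≤ 2 * sv S v) (t : ℝ) :
    2 * (xi S v t * y).re ≤ 8 := by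
  have h1 := re_le_norm (xi S v t * y)
  have h2 := mul_le_mul (xi_norm_le hS hv t) hy (norm_nonneg _)
    (div_nonneg zero_le_two (sv_nonneg S v))
  have h3 : 2 / sv S v * (2 * sv S v) ≤ 4 := by
    rcases eq_or_ne (sv S v) 0 with h | h
    · simp [h]
    · exact le_of_eq (by field_simp; norm_num)
  rw [norm_mul] at h1
  linarith

theorem w2a_gt {Λ d x z k : ℝ} (hΛ : 0 < Λ) (hx : 0 ≤ x) (hz : 0 ≤ x + z)
    (hk : k * ((x + Λ) ^ 2 * (x + z + Λ)) ≤ d ^ 2) :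
    gt Λ d (x + z) ≤ gt Λ d x + (1 + d ^ 2 / (x + Λ) ^ 2) * z + 0 * z + -k * (z * z) := by
  have h1 : 0 < x + Λ := by linarith
  have h2 : 0 < x + z + Λ := by linarith
  have h3 : gt Λ d (x + z) = gt Λ d x + (1 + d ^ 2 / (x + Λ) ^ 2) * z -
      d ^ 2 / ((x + Λ) ^ 2 * (x + z + Λ)) * (z * z) := by
    unfold gt
    field_simp
    ring
  have h4 := mul_le_mul_of_nonneg_right ((le_div_iff₀ (by positivity)).2 hk) (mul_self_nonneg z)
  linarith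

/-- `F' = F0 + Z`, `F0 = F - g ≥ 0` (`F0 = E F'`), `|Z| ≤ 8`, `E Z = 0`, `E Z² = 2‖y‖²/s`. Exact:
`gt (x+z) = gt x + (1 + d²/(x+Λ)²) z - d² z²/((x+Λ)² (x+z+Λ))`, and `gt F0 ≤ gt F - g`.
For `F ≤ Λ`: `F0 + Λ ≤ 2Λ`, `F' + Λ ≤ 3Λ`, `d² ≥ Λ²/4`, `‖y‖²/s ≥ ‖M‖²/(2s) - g` (as `g ≤ e ≤ s`). -/
theorem step_gt (hS : US U S) (hv : v ∈ U) {ψ : ι → ℝ} (hψ : Osc ψ) {Λ d : ℝ} (hΛ : 8 ≤ Λ)
    (hd : Λ / 2 ≤ d) :
    Av S v (fun S' => gt Λ d (FF S' ψ)) ≤ gt Λ d (FF S ψ) - jj S ψ v ^ 2 / sv S v ∧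
      (FF S ψ ≤ Λ → Av S v (fun S' => gt Λ d (FF S' ψ)) ≤
        gt Λ d (FF S ψ) - jj S ψ v ^ 2 / sv S v / 2 - ‖MM S ψ v‖ ^ 2 / sv S v / (48 * Λ)) := by
  have h0 : 0 < Λ := by linarith
  have hF := w2a_F0 hS hv ψ
  have hs := sv_nonneg S v
  have hg : 0 ≤ jj S ψ v ^ 2 / sv S v := by positivity
  have hy := w2a_y hS hψ v
  have h1 : gt Λ d (FF S ψ - jj S ψ v ^ 2 / sv S v) ≤ gt Λ d (FF S ψ) - jj S ψ v ^ 2 / sv S v := by
    have h2 : d ^ 2 / (FF S ψ + Λ) ≤ d ^ 2 / (FF S ψ - jj S ψ v ^ 2 / sv S v + Λ) :=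
      div_le_div_of_nonneg_left (sq_nonneg d) (by linarith) (by linarith)
    unfold gt
    linarith
  have key : ∀ k : ℝ, (∀ t, k * ((FF S ψ - jj S ψ v ^ 2 / sv S v + Λ) ^ 2 *
      (FF S ψ - jj S ψ v ^ 2 / sv S v + 2 * (xi S v t * yF S ψ v).re + Λ)) ≤ d ^ 2) →
      Av S v (fun S' => gt Λ d (FF S' ψ)) ≤ gt Λ d (FF S ψ - jj S ψ v ^ 2 / sv S v) +
        -k * (2 * (yF S ψ v * conj (yF S ψ v)).re / sv S v) := fun k hk =>
    w2a_bound hS hv (Nice.of_continuous (continuous_gt h0 d ψ)) _ _ 0 _ _ _ fun t => by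
      have h2 := FF_nonneg (cls S v t) ψ
      rw [FF_cls hS hv] at h2 ⊢
      exact w2a_gt h0 hF h2 (hk t)
  refine ⟨?_, fun hΛF => ?_⟩
  · have h2 := key 0 fun t => by rw [zero_mul]; positivity
    linarith
  have h2 := key (1 / (48 * Λ)) fun t => by
    have h3 := w2a_Z hS hv hy t
    have h4 := FF_nonneg (cls S v t) ψ
    rw [FF_cls hS hv] at h4
    have h5 := mul_le_mul (pow_le_pow_left₀ (by linarith)
      (show FF S ψ - jj S ψ v ^ 2 / sv S v + Λ ≤ 2 * Λ by linarith) 2)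
      (show FF S ψ - jj S ψ v ^ 2 / sv S v + 2 * (xi S v t * yF S ψ v).re + Λ ≤ 3 * Λ by linarith)
      (by linarith) (by positivity)
    refine (mul_le_mul_of_nonneg_left h5 (by positivity)).trans ?_
    refine le_trans (le_of_eq ?_) (pow_le_pow_left₀ (by positivity) hd 2)
    field_simp
    norm_num
  have h3 : jj S ψ v ^ 2 / sv S v ≤ sv S v := (jj_sq_div_le S ψ v).trans (ee_le_sv S hψ v)
  have h4 : ‖MM S ψ v‖ ≤ ‖yF S ψ v‖ + jj S ψ v ^ 2 / sv S v := by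
    have h5 : MM S ψ v = yF S ψ v + S v v * ((jj S ψ v ^ 2 / sv S v : ℝ) : ℂ) := by
      rw [yF, sub_add_cancel]
    rw [h5]
    refine (norm_add_le _ _).trans (add_le_add le_rfl ?_)
    rw [norm_mul, norm_real, Real.norm_of_nonneg hg]
    exact mul_le_of_le_one_left hg (norm_le_one hS v v)
  have h5 : ‖MM S ψ v‖ ^ 2 / sv S v ≤
      2 * ‖yF S ψ v‖ ^ 2 / sv S v + 2 * (jj S ψ v ^ 2 / sv S v) := by
    generalize jj S ψ v ^ 2 / sv S v = g at hg h3 h4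
    rcases hs.eq_or_lt with h6 | h6
    · rw [← h6, div_zero, div_zero]
      linarith
    · rw [div_add' _ _ _ h6.ne']
      refine div_le_div_of_nonneg_right ?_ hs
      have h7 := pow_le_pow_left₀ (norm_nonneg _) h4 2
      nlinarith [sq_nonneg (‖yF S ψ v‖ - g), mul_le_mul_of_nonneg_left h3 hg]
  rw [mul_conj, normSq_eq_norm_sq, ofReal_re] at h2
  have h6 := div_le_div_of_nonneg_right h5 (show 0 ≤ 48 * Λ by positivity)
  have h7 : 2 * (jj S ψ v ^ 2 / sv S v) / (48 * Λ) ≤ jj S ψ v ^ 2 / sv S v / 2 := by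
    rw [div_le_div_iff₀ (by positivity) two_pos]
    nlinarith
  rw [add_div] at h6
  rw [neg_mul, one_div_mul_eq_div] at h2
  linarith

/-- `E N'² = N0² + 2‖n‖²/s ≤ (N - s)² + 8 s`, `s² ≤ s`. -/
theorem step_N2 (hS : US U S) (hv : v ∈ U) {Γ : Finset ι} (hΓ : v ∈ Γ) :
    Av S v (fun S' => NN S' Γ ^ 2 + 9 * NN S' Γ) ≤
      NN S Γ ^ 2 + 9 * NN S Γ - 2 * NN S Γ * sv S v := by
  obtain ⟨N0, n, h0, h1, h2, h3⟩ := NN_cls hS hv hΓ
  have h4 := w2a_bound hS hv (Φ := fun S' => NN S' Γ ^ 2 + 9 * NN S' Γ)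
    (Nice.of_continuous (by fun_prop)) (N0 ^ 2 + 9 * N0) (-2 * N0 - 9) 0 1 n n fun t => by
      rw [h3]
      exact le_of_eq (by ring)
  have h5 := (abs_le.1 (w2a_rr (sv_nonneg S v) h2 h2)).2
  have h6 := pow_le_pow_left₀ h0 h1 2
  nlinarith [sv_nonneg S v, sv_le_one hS v]

/-- `E F' N' ≤ F0 N0 + 2 ‖y‖ ‖n‖/s ≤ F (N - s) + 8 s`. -/
theorem step_FN (hS : US U S) (hv : v ∈ U) {Γ : Finset ι} (hΓ : v ∈ Γ) {ψ : ι → ℝ} (hψ : Osc ψ) :
    Av S v (fun S' => FF S' ψ * NN S' Γ + 8 * NN S' Γ) ≤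
      FF S ψ * NN S Γ + 8 * NN S Γ - FF S ψ * sv S v := by
  obtain ⟨N0, n, h0, h1, h2, h3⟩ := NN_cls hS hv hΓ
  have h4 := w2a_bound hS hv (Φ := fun S' => FF S' ψ * NN S' Γ + 8 * NN S' Γ)
    (Nice.of_continuous (by fun_prop)) ((FF S ψ - jj S ψ v ^ 2 / sv S v) * N0 + 8 * N0) N0
    (-(FF S ψ - jj S ψ v ^ 2 / sv S v) - 8) (-1) (yF S ψ v) n fun t => by
      rw [h3, FF_cls hS hv]
      exact le_of_eq (by ring)
  have h5 := (abs_le.1 (w2a_rr (sv_nonneg S v) (w2a_y hS hψ v) h2)).1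
  have h6 : 0 ≤ jj S ψ v ^ 2 / sv S v := div_nonneg (sq_nonneg _) (sv_nonneg S v)
  have h7 := mul_le_mul (sub_le_self (FF S ψ) h6) h1 h0 (FF_nonneg S ψ)
  linarith

end Vale.Agent.P365
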